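import Mathlib

/-!
# Chains of nontrivial `p`-subgroups and the toggle involution
-/

namespace P179H166

open Subgroup

open scoped Classical Pointwise

variable {G : Type*} [Group G]

/-- `s` is a chain of nontrivial `p`-subgroups of `G` (the empty chain is allowed). -/
def IsCh (p : ℕ) (s : Finset (Subgroup G)) : Prop :=
  (∀ Q ∈ s, IsPGroup p Q ∧ Q ≠ ⊥) ∧ IsChain (· ≤ ·) (s : Set (Subgroup G))

/-- The stabiliser `G_s` of the chain `s`: the elements normalising every member. -/
def chStab (s : Finset (Subgroup G)) : Subgroup G := ⨅ Q ∈ s, normalizer (Q : Set G)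

/-- The subgroup which is toggled. -/
noncomputable def topOf (U : Subgroup G) (s : Finset (Subgroup G)) : Subgroup G :=
  (s.filter fun Q => ¬ U ≤ Q).sup id ⊔ U

/-- Toggle the chain `s` by `U`. -/
noncomputable def tog (U : Subgroup G) (s : Finset (Subgroup G)) : Finset (Subgroup G) :=
  symmDiff s {topOf U s}

theorem isCh_empty (p : ℕ) : IsCh p (∅ : Finset (Subgroup G)) := by
  simp [IsCh]

theorem mem_chStab {s : Finset (Subgroup G)} {g : G} :
    g ∈ chStab s ↔ ∀ Q ∈ s, g ∈ normalizer (Q : Set G) := by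
  simp [chStab, Subgroup.mem_iInf]

theorem le_chStab {s : Finset (Subgroup G)} {H : Subgroup G} :
    H ≤ chStab s ↔ ∀ Q ∈ s, H ≤ normalizer (Q : Set G) := by
  simp [chStab, le_iInf_iff]

theorem chStab_empty : chStab (∅ : Finset (Subgroup G)) = ⊤ := by
  simp [chStab]

theorem le_topOf (U : Subgroup G) (s : Finset (Subgroup G)) : U ≤ topOf U s := le_sup_right

theorem mem_tog {U Q : Subgroup G} {s : Finset (Subgroup G)} :
    Q ∈ tog U s ↔ (Q ∈ s ∧ Q ≠ topOf U s) ∨ (Q = topOf U s ∧ Q ∉ s) := by
  rw [tog, Finset.mem_symmDiff]; simp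

theorem filter_tog (U : Subgroup G) (s : Finset (Subgroup G)) :
    ((tog U s).filter fun Q => ¬ U ≤ Q) = s.filter fun Q => ¬ U ≤ Q := by
  ext Q
  simp only [Finset.mem_filter, mem_tog]
  constructor
  · rintro ⟨⟨h, -⟩ | ⟨h, -⟩, h'⟩
    · exact ⟨h, h'⟩
    · exact absurd (h ▸ le_topOf U s) h'
  · rintro ⟨h, h'⟩
    refine ⟨Or.inl ⟨h, ?_⟩, h'⟩
    rintro rfl
    exact h' (le_topOf U s)

theorem topOf_tog (U : Subgroup G) (s : Finset (Subgroup G)) : topOf U (tog U s) = topOf U s := by
  rw [topOf, filter_tog]; rfl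

theorem tog_tog (U : Subgroup G) (s : Finset (Subgroup G)) : tog U (tog U s) = s := by
  conv_lhs => rw [tog, topOf_tog]
  rw [tog, symmDiff_assoc, symmDiff_self]
  exact symmDiff_bot s

theorem tog_ne (U : Subgroup G) (s : Finset (Subgroup G)) : tog U s ≠ s := by
  intro h
  have := congrArg (symmDiff s) h
  rw [tog, ← symmDiff_assoc, symmDiff_self, bot_symmDiff] at this
  simp at this

theorem sign_tog (U : Subgroup G) (s : Finset (Subgroup G)) :
    (-1 : ℤ) ^ (tog U s).card = - (-1) ^ s.card := by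
  by_cases h : topOf U s ∈ s
  · have h1 : tog U s = s.erase (topOf U s) := by
      ext Q
      rw [mem_tog, Finset.mem_erase]
      constructor
      · rintro (⟨a, b⟩ | ⟨a, b⟩)
        · exact ⟨b, a⟩
        · exact absurd h (a ▸ b)
      · rintro ⟨a, b⟩
        exact Or.inl ⟨b, a⟩
    rw [h1, Finset.card_erase_of_mem h]
    obtain ⟨k, hk⟩ : ∃ k, s.card = k + 1 :=
      ⟨s.card - 1, by have := Finset.card_pos.mpr ⟨_, h⟩; omega⟩
    rw [hk]; simp [pow_succ]
  · have h1 : tog U s = insert (topOf U s) s := by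
      ext Q
      rw [mem_tog, Finset.mem_insert]
      constructor
      · rintro (⟨a, b⟩ | ⟨a, b⟩)
        · exact Or.inr a
        · exact Or.inl a
      · rintro (a | b)
        · exact Or.inr ⟨a, a ▸ h⟩
        · refine Or.inl ⟨b, ?_⟩
          rintro rfl
          exact h b
    rw [h1, Finset.card_insert_of_notMem h, pow_succ]
    ring

/-- In a chain, `topOf U s` is comparable with every member. -/
theorem comparable_topOf {s : Finset (Subgroup G)}
    (hs : IsChain (· ≤ ·) (s : Set (Subgroup G))) (U : Subgroup G) {Q : Subgroup G} (hQ : Q ∈ s) :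
    Q ≤ topOf U s ∨ topOf U s ≤ Q := by
  by_cases hU : U ≤ Q
  · right
    refine sup_le (Finset.sup_le ?_) hU
    intro R hR
    rw [Finset.mem_filter] at hR
    rcases hs.total (Finset.mem_coe.mpr hR.1) (Finset.mem_coe.mpr hQ) with h | h
    · exact h
    · exact absurd (hU.trans h) hR.2
  · left
    refine le_trans ?_ le_sup_left
    exact Finset.le_sup (f := id) (Finset.mem_filter.mpr ⟨hQ, hU⟩)

/-- The supremum in the definition of `topOf` is a member of the chain or trivial. -/
theorem sup_filter_mem {s : Finset (Subgroup G)}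
    (hs : IsChain (· ≤ ·) (s : Set (Subgroup G))) (pr : Subgroup G → Prop) [DecidablePred pr] :
    (s.filter pr).sup id = ⊥ ∨ (s.filter pr).sup id ∈ s := by
  induction s using Finset.induction_on with
  | empty => left; simp
  | insert a s ha ih =>
    have hs' : IsChain (· ≤ ·) (s : Set (Subgroup G)) :=
      hs.mono (by simp)
    rcases em (pr a) with h | h
    · rw [Finset.filter_insert, if_pos h, Finset.sup_insert]
      right
      rcases ih hs' with h1 | h1
      · rw [h1]; simp
      · have := hs.total (x := a) (y := (s.filter pr).sup id) (by simp) (by simp [h1])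
        rcases this with h2 | h2
        · rw [id, sup_eq_right.mpr h2]
          exact Finset.mem_insert_of_mem h1
        · rw [id, sup_eq_left.mpr h2]
          simp
    · rw [Finset.filter_insert, if_neg h]
      rcases ih hs' with h1 | h1
      · exact Or.inl h1
      · exact Or.inr (Finset.mem_insert_of_mem h1)

theorem isPGroup_topOf {p : ℕ} {s : Finset (Subgroup G)} (hs : IsCh p s) {U : Subgroup G}
    (hU : IsPGroup p U) (hUs : U ≤ chStab s) : IsPGroup p (topOf U s) := by
  rw [topOf]
  rcases sup_filter_mem hs.2 (fun Q => ¬ U ≤ Q) with h | h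
  · rw [h, bot_sup_eq]; exact hU
  · rw [sup_comm]
    exact IsPGroup.to_sup_of_normal_right' hU (hs.1 _ h).1 (le_chStab.mp hUs _ h)

theorem isCh_tog {p : ℕ} {s : Finset (Subgroup G)} (hs : IsCh p s) {U : Subgroup G}
    (hU : IsPGroup p U) (hU1 : U ≠ ⊥) (hUs : U ≤ chStab s) : IsCh p (tog U s) := by
  constructor
  · intro Q hQ
    rcases mem_tog.mp hQ with ⟨h, -⟩ | ⟨h, -⟩
    · exact hs.1 Q h
    · subst h
      refine ⟨isPGroup_topOf hs hU hUs, ?_⟩
      intro h
      exact hU1 (le_bot_iff.mp (h ▸ le_topOf U s))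
  · intro Q hQ R hR hne
    rw [Finset.mem_coe] at hQ hR
    rcases mem_tog.mp hQ with ⟨h, -⟩ | ⟨h, -⟩ <;> rcases mem_tog.mp hR with ⟨h', -⟩ | ⟨h', -⟩
    · exact hs.2 (Finset.mem_coe.mpr h) (Finset.mem_coe.mpr h') hne
    · subst h'; exact comparable_topOf hs.2 U h
    · subst h; exact (comparable_topOf hs.2 U h').symm
    · exact absurd (h.trans h'.symm) hne

theorem le_normalizer_sup {H A B : Subgroup G} (hA : H ≤ normalizer (A : Set G))
    (hB : H ≤ normalizer (B : Set G)) : H ≤ normalizer ((A ⊔ B : Subgroup G) : Set G) := by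
  intro h hh
  have key : ∀ g : G, g ∈ normalizer (A : Set G) → g ∈ normalizer (B : Set G) →
      ∀ x ∈ A ⊔ B, g * x * g⁻¹ ∈ A ⊔ B := by
    intro g hg hg' x hx
    have : (A ⊔ B).map (MulAut.conj g).toMonoidHom ≤ A ⊔ B := by
      rw [Subgroup.map_sup]
      refine sup_le_sup ?_ ?_
      · rintro _ ⟨a, ha, rfl⟩
        simpa using (mem_normalizer_iff.mp hg a).mp ha
      · rintro _ ⟨a, ha, rfl⟩
        simpa using (mem_normalizer_iff.mp hg' a).mp ha
    exact this ⟨x, hx, by simp⟩
  rw [mem_normalizer_iff]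
  intro x
  constructor
  · exact key h (hA hh) (hB hh) x
  · intro hx
    have := key h⁻¹ (inv_mem (hA hh)) (inv_mem (hB hh)) _ hx
    simpa [mul_assoc] using this

theorem le_normalizer_sup_finset {H : Subgroup G} {s : Finset (Subgroup G)}
    (hs : ∀ Q ∈ s, H ≤ normalizer (Q : Set G)) :
    H ≤ normalizer ((s.sup id : Subgroup G) : Set G) := by
  induction s using Finset.induction_on with
  | empty =>
    simp only [Finset.sup_empty]
    intro h _
    rw [mem_normalizer_iff]
    intro x
    simp [mul_eq_one_iff_eq_inv]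
  | insert a s ha ih =>
    rw [Finset.sup_insert]
    exact le_normalizer_sup (hs a (by simp)) (ih fun Q hQ => hs Q (by simp [hQ]))

theorem le_normalizer_topOf {H U : Subgroup G} {s : Finset (Subgroup G)}
    (hU : H ≤ normalizer (U : Set G)) (hs : H ≤ chStab s) :
    H ≤ normalizer ((topOf U s : Subgroup G) : Set G) := by
  refine le_normalizer_sup (le_normalizer_sup_finset ?_) hU
  intro Q hQ
  exact le_chStab.mp hs Q (Finset.mem_filter.mp hQ).1

theorem le_chStab_tog_of {H U : Subgroup G} {s : Finset (Subgroup G)}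
    (hU : H ≤ normalizer (U : Set G)) (hs : H ≤ chStab s) : H ≤ chStab (tog U s) := by
  rw [le_chStab]
  intro Q hQ
  rcases mem_tog.mp hQ with ⟨h, -⟩ | ⟨h, -⟩
  · exact le_chStab.mp hs Q h
  · subst h; exact le_normalizer_topOf hU hs

theorem le_chStab_tog {H U : Subgroup G} {s : Finset (Subgroup G)}
    (hU : H ≤ normalizer (U : Set G)) : H ≤ chStab (tog U s) ↔ H ≤ chStab s := by
  constructor
  · intro h
    have := le_chStab_tog_of hU h
    rwa [tog_tog] at this
  · exact le_chStab_tog_of hU

theorem mem_chStab_tog {g : G} {U : Subgroup G} {s : Finset (Subgroup G)}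
    (hU : g ∈ normalizer (U : Set G)) : g ∈ chStab (tog U s) ↔ g ∈ chStab s := by
  have := le_chStab_tog (H := zpowers g) (U := U) (s := s) (by simpa using hU)
  simpa using this

/-! ### conjugation -/

theorem smul_topOf (φ : MulAut G) (U : Subgroup G) (s : Finset (Subgroup G)) :
    φ • topOf U s = topOf (φ • U) (φ • s) := by
  have key : ∀ t : Finset (Subgroup G), φ • (t.sup id) = (φ • t).sup id := by
    intro t
    induction t using Finset.induction_on with
    | empty => simp
    | insert a t ha ih =>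
      rw [Finset.sup_insert, Finset.smul_finset_insert, Finset.sup_insert, Subgroup.smul_sup, ih]
      rfl
  rw [topOf, topOf, Subgroup.smul_sup, key]
  congr 2
  ext Q
  simp only [Finset.mem_filter, Finset.mem_smul_finset]
  constructor
  · rintro ⟨R, ⟨hR, hU⟩, rfl⟩
    exact ⟨⟨R, hR, rfl⟩, by rwa [Subgroup.pointwise_smul_le_pointwise_smul_iff]⟩
  · rintro ⟨⟨R, hR, rfl⟩, hU⟩
    exact ⟨R, ⟨hR, by rwa [Subgroup.pointwise_smul_le_pointwise_smul_iff] at hU⟩, rfl⟩

theorem smul_tog (φ : MulAut G) (U : Subgroup G) (s : Finset (Subgroup G)) :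
    φ • tog U s = tog (φ • U) (φ • s) := by
  rw [tog, tog, ← smul_topOf, Finset.smul_finset_symmDiff, Finset.smul_finset_singleton]

theorem smul_mem_normalizer_iff (φ : MulAut G) (g : G) (Q : Subgroup G) :
    φ g ∈ normalizer ((φ • Q : Subgroup G) : Set G) ↔ g ∈ normalizer (Q : Set G) := by
  have h1 : ∀ x : G, φ x ∈ φ • Q ↔ x ∈ Q := fun x => by
    rw [← MulAut.smul_def, Subgroup.smul_mem_pointwise_smul_iff]
  rw [mem_normalizer_iff, mem_normalizer_iff]
  constructor
  · intro h x
    have := h (φ x)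
    rw [h1] at this
    rw [this, ← h1]; simp
  · intro h x
    obtain ⟨x, rfl⟩ := φ.surjective x
    rw [h1, h x, ← h1]; simp

theorem smul_mem_chStab_iff (φ : MulAut G) (g : G) (s : Finset (Subgroup G)) :
    φ g ∈ chStab (φ • s) ↔ g ∈ chStab s := by
  rw [mem_chStab, mem_chStab]
  constructor
  · intro h Q hQ
    rw [← smul_mem_normalizer_iff φ]
    exact h _ (Finset.smul_mem_smul_finset hQ)
  · intro h Q hQ
    obtain ⟨R, hR, rfl⟩ := Finset.mem_smul_finset.mp hQ
    rw [smul_mem_normalizer_iff]
    exact h _ hR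

theorem isCh_smul_iff (p : ℕ) (φ : MulAut G) (s : Finset (Subgroup G)) :
    IsCh p (φ • s) ↔ IsCh p s := by
  have key : ∀ (φ : MulAut G) (s : Finset (Subgroup G)), IsCh p s → IsCh p (φ • s) := by
    intro φ s hs
    constructor
    · intro Q hQ
      obtain ⟨R, hR, rfl⟩ := Finset.mem_smul_finset.mp hQ
      refine ⟨?_, ?_⟩
      · exact (hs.1 R hR).1.of_equiv (Subgroup.equivSMul φ R)
      · intro h
        apply (hs.1 R hR).2
        rw [← Subgroup.smul_bot φ] at h
        exact (MulAction.injective φ) h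
    · intro Q hQ R hR _
      rw [Finset.mem_coe] at hQ hR
      obtain ⟨Q', hQ', rfl⟩ := Finset.mem_smul_finset.mp hQ
      obtain ⟨R', hR', rfl⟩ := Finset.mem_smul_finset.mp hR
      simp only [Subgroup.pointwise_smul_le_pointwise_smul_iff]
      exact hs.2.total (Finset.mem_coe.mpr hQ') (Finset.mem_coe.mpr hR')
  refine ⟨fun h => ?_, key φ s⟩
  have := key φ⁻¹ _ h
  rwa [inv_smul_smul] at this

theorem conj_smul_eq_self_of_mem {g : G} {s : Finset (Subgroup G)} (hg : g ∈ chStab s) :
    MulAut.conj g • s = s := by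
  have key : ∀ Q ∈ s, MulAut.conj g • Q = Q := by
    intro Q hQ
    have := mem_chStab.mp hg Q hQ
    ext x
    rw [Subgroup.mem_pointwise_smul_iff_inv_smul_mem]
    rw [mem_normalizer_iff''] at this
    rw [this x]
    simp [MulAut.smul_def]
  ext Q
  rw [Finset.mem_smul_finset]
  constructor
  · rintro ⟨R, hR, rfl⟩
    rwa [key R hR]
  · intro hQ
    exact ⟨Q, hQ, key Q hQ⟩

/-- An element of a finite group which fixes a chain setwise normalises all of its members. -/
theorem mem_chStab_of_conj_smul_eq [Finite G] {g : G} {s : Finset (Subgroup G)}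
    (hs : IsChain (· ≤ ·) (s : Set (Subgroup G))) (hg : MulAut.conj g • s = s) :
    g ∈ chStab s := by
  rw [mem_chStab]
  intro Q hQ
  have h1 : MulAut.conj g • Q ∈ s := by
    rw [← hg]; exact Finset.smul_mem_smul_finset hQ
  have hcard : Nat.card (MulAut.conj g • Q : Subgroup G) = Nat.card Q :=
    (Nat.card_congr (Subgroup.equivSMul (MulAut.conj g) Q).toEquiv).symm
  have h2 : MulAut.conj g • Q = Q := by
    rcases hs.total (Finset.mem_coe.mpr h1) (Finset.mem_coe.mpr hQ) with h | h
    · exact Subgroup.eq_of_le_of_card_ge h hcard.ge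
    · exact (Subgroup.eq_of_le_of_card_ge h hcard.le).symm
  rw [mem_normalizer_iff]
  intro x
  have : g * x * g⁻¹ = MulAut.conj g • x := by simp [MulAut.smul_def]
  rw [this]
  conv_rhs => rw [← h2]
  rw [Subgroup.smul_mem_pointwise_smul_iff]

end P179H166
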