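import Vale.Agent.P179.H166.KR
import Vale.Agent.P179.H166.Toggle

/-!
# Divisibility of sums over orbits, and conjugation invariance
-/

namespace P179K

open Subgroup P179H524 P179A

open scoped Classical Pointwise

universe u

/-- If `f` is an invariant function on a finite `G`-set `X` and `p |G_x|_p` divides `f x` for all
`x`, then `p |G|_p` divides `∑ f x`. -/
theorem orb_sum_dvd (p : ℕ) [hp : Fact p.Prime] {G X : Type*} [Group G] [Finite G] [Fintype X]
    [MulAction G X] (f : X → ℤ) (hf : ∀ (g : G) (x : X), f (g • x) = f x)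
    (hd : ∀ x : X, (p : ℤ) ^ ((Nat.card (MulAction.stabilizer G x)).factorization p + 1) ∣ f x) :
    (p : ℤ) ^ ((Nat.card G).factorization p + 1) ∣ ∑ x, f x := by
  have := Fintype.ofFinite G
  have := Fintype.ofFinite (MulAction.orbitRel.Quotient G X)
  have h1 : ∑ x, f x = ∑ ω : MulAction.orbitRel.Quotient G X,
      (Nat.card (MulAction.orbit G ω.out) : ℤ) * f ω.out := by
    rw [← (MulAction.selfEquivSigmaOrbits G X).symm.sum_comp, Fintype.sum_sigma]
    refine Finset.sum_congr rfl fun ω _ => ?_
    have h2 : ∀ x : MulAction.orbit G ω.out,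
        f ((MulAction.selfEquivSigmaOrbits G X).symm ⟨ω, x⟩) = f ω.out := by
      rintro ⟨_, g, rfl⟩
      exact hf g _
    rw [Finset.sum_congr rfl fun x _ => h2 x, Finset.sum_const, nsmul_eq_mul, Finset.card_univ,
      Nat.card_eq_fintype_card]
  rw [h1]
  refine Finset.dvd_sum fun ω _ => ?_
  have h3 : Nat.card (MulAction.orbit G ω.out) * Nat.card (MulAction.stabilizer G ω.out) =
      Nat.card G := by
    have := MulAction.card_orbit_mul_card_stabilizer_eq_card_group G ω.out
    simpa [Nat.card_eq_fintype_card] using this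
  have h4 : Nat.card (MulAction.orbit G ω.out) ≠ 0 := by
    intro h; rw [h, zero_mul] at h3; exact Nat.card_pos.ne h3
  have h5 : (Nat.card G).factorization p + 1 =
      (Nat.card (MulAction.orbit G ω.out)).factorization p +
        ((Nat.card (MulAction.stabilizer G ω.out)).factorization p + 1) := by
    rw [← h3, Nat.factorization_mul h4 Nat.card_pos.ne', Finsupp.add_apply]; ring
  rw [h5, pow_add]
  refine mul_dvd_mul ?_ (hd _)
  exact_mod_cast Nat.ordProj_dvd _ p

section Conj

variable {G : Type*} [Group G]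

/-- the action of `G` on finite sets of subgroups by conjugation -/
noncomputable instance conjFin : MulAction G (Finset (Subgroup G)) :=
  MulAction.compHom (Finset (Subgroup G)) (MulAut.conj : G →* MulAut G)

theorem conjFin_smul (g : G) (s : Finset (Subgroup G)) : g • s = MulAut.conj g • s := rfl

theorem isPChain_smul (p : ℕ) (g : G) (s : Finset (Subgroup G)) :
    IsPChain p (g • s) ↔ IsPChain p s := P179H166.isCh_smul_iff p (MulAut.conj g) s

theorem mem_stab_smul (g x : G) (s : Finset (Subgroup G)) :
    g * x * g⁻¹ ∈ stab (g • s) ↔ x ∈ stab s := by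
  have := P179H166.smul_mem_chStab_iff (MulAut.conj g) x s
  rw [MulAut.conj_apply] at this
  exact this

theorem smul_eq_iff_mem_stab [Finite G] {p : ℕ} {s : Finset (Subgroup G)} (hs : IsPChain p s)
    (g : G) : g • s = s ↔ g ∈ stab s :=
  ⟨fun h => P179H166.mem_chStab_of_conj_smul_eq hs.2 h,
    fun h => P179H166.conj_smul_eq_self_of_mem h⟩

theorem card_smul (g : G) (s : Finset (Subgroup G)) : (g • s).card = s.card :=
  Finset.card_smul_finset (MulAut.conj g) s

/-- the nonempty chains as a `G`-set -/
def neChains (p : ℕ) (G : Type*) [Group G] : SubMulAction G (Finset (Subgroup G)) where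
  carrier := {s | IsPChain p s ∧ s.Nonempty}
  smul_mem' g s hs := ⟨(isPChain_smul p g s).mpr hs.1, by
    rw [← Finset.card_pos, card_smul, Finset.card_pos]; exact hs.2⟩

theorem mem_neChains {p : ℕ} {s : Finset (Subgroup G)} :
    s ∈ neChains p G ↔ IsPChain p s ∧ s.Nonempty := Iff.rfl

theorem stabilizer_neChains [Finite G] {p : ℕ} (s : neChains p G) :
    MulAction.stabilizer G s = stab s.1 := by
  ext g
  rw [MulAction.mem_stabilizer_iff, ← smul_eq_iff_mem_stab s.2.1, Subtype.ext_iff]
  rfl

/-- `stab (g • s)` is isomorphic to `stab s` -/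
def stabEquiv (g : G) (s : Finset (Subgroup G)) : stab s ≃* stab (g • s) where
  toFun x := ⟨g * x * g⁻¹, (mem_stab_smul g _ s).mpr x.2⟩
  invFun x := ⟨g⁻¹ * x * g, by
    rw [← mem_stab_smul g]
    have : g * (g⁻¹ * x * g) * g⁻¹ = (x : G) := by group
    rw [this]; exact x.2⟩
  left_inv x := by apply Subtype.ext; simp [mul_assoc]
  right_inv x := by apply Subtype.ext; simp [mul_assoc]
  map_mul' x y := by apply Subtype.ext; simp [mul_assoc]

/-- `W` is invariant under conjugation. -/
theorem W_conj [Finite G] (p : ℕ) (g x y : G) : W p (g * x * g⁻¹) (g * y * g⁻¹) = W p x y := by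
  unfold W
  symm
  refine Finset.sum_bij (fun s _ => g • s) ?_ ?_ ?_ ?_
  · intro s hs
    rw [Finset.mem_filter, mem_chains] at hs ⊢
    exact ⟨(isPChain_smul p g s).mpr hs.1, (mem_stab_smul g x s).mpr hs.2.1,
      (mem_stab_smul g y s).mpr hs.2.2⟩
  · intro s _ t _ h
    exact MulAction.injective g h
  · intro s hs
    refine ⟨g⁻¹ • s, ?_, by simp⟩
    rw [Finset.mem_filter, mem_chains] at hs ⊢
    refine ⟨(isPChain_smul p g⁻¹ s).mpr hs.1, ?_, ?_⟩
    · rw [← mem_stab_smul g, smul_inv_smul]; exact hs.2.1
    · rw [← mem_stab_smul g, smul_inv_smul]; exact hs.2.2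
  · intro s _
    rw [card_smul]

end Conj

/-- the sum over all chains splits into the empty chain and the nonempty ones -/
theorem sum_chains_eq {G : Type*} [Group G] [Finite G] (p : ℕ) [Fintype (neChains p G)]
    (f : Finset (Subgroup G) → ℤ) :
    ∑ s ∈ chains p G, f s = f ∅ + ∑ s : neChains p G, f s.1 := by
  have h1 : chains p G = insert ∅ ((Finset.univ : Finset (neChains p G)).map
      ⟨Subtype.val, Subtype.val_injective⟩) := by
    ext s
    rw [mem_chains, Finset.mem_insert, Finset.mem_map]
    constructor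
    · intro hs
      rcases s.eq_empty_or_nonempty with h | h
      · exact Or.inl h
      · exact Or.inr ⟨⟨s, hs, h⟩, Finset.mem_univ _, rfl⟩
    · rintro (rfl | ⟨t, -, rfl⟩)
      · exact isPChain_empty p
      · exact t.2.1
  rw [h1, Finset.sum_insert, Finset.sum_map]
  · rfl
  · rw [Finset.mem_map]
    rintro ⟨t, -, h⟩
    have := t.2.2
    have h2 : (t : Finset (Subgroup G)) = ∅ := h
    rw [h2] at this
    exact Finset.not_nonempty_empty this

/-- number of simple modules is invariant under isomorphism -/
theorem numSimple_congr (p : ℕ) [Fact p.Prime] (k : Type u) [Field k] [IsAlgClosed k] [CharP k p]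
    {G G' : Type} [Group G] [Group G'] [Finite G] [Finite G'] (e : G ≃* G') :
    numSimple k G = numSimple k G' := by
  have h1 := card_mul_numSimple p k G
  have h2 := card_mul_numSimple p k G'
  have h3 : Nat.card G = Nat.card G' := Nat.card_congr e.toEquiv
  have h4 : Nat.card {xy : G × G // Commute xy.1 xy.2 ∧ ¬ p ∣ orderOf xy.1} =
      Nat.card {xy : G' × G' // Commute xy.1 xy.2 ∧ ¬ p ∣ orderOf xy.1} := by
    refine Nat.card_congr ((Equiv.prodCongr e.toEquiv e.toEquiv).subtypeEquiv fun xy => ?_)
    constructor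
    · rintro ⟨h, h'⟩
      refine ⟨?_, ?_⟩
      · have := h.map e
        exact this
      · have : orderOf (e xy.1) = orderOf xy.1 := MulEquiv.orderOf_eq e xy.1
        change ¬ p ∣ orderOf (e xy.1)
        rwa [this]
    · rintro ⟨h, h'⟩
      refine ⟨?_, ?_⟩
      · have h5 : Commute (e xy.1) (e xy.2) := h
        have := h5.map e.symm
        simpa using this
      · have : orderOf (e xy.1) = orderOf xy.1 := MulEquiv.orderOf_eq e xy.1
        change ¬ p ∣ orderOf (e xy.1) at h'
        rwa [this] at h'
  rw [h4, ← h2, ← h3] at h1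
  exact Nat.eq_of_mul_eq_mul_left Nat.card_pos h1

/-- the number of weights is invariant under isomorphism -/
theorem numWeights_congr (p : ℕ) [Fact p.Prime] {G G' : Type} [Group G] [Group G'] [Finite G]
    [Finite G'] (e : G ≃* G') : numWeights p G = numWeights p G' := by
  have h1 := card_mul_numWeights p G
  have h2 := card_mul_numWeights p G'
  have h3 : Nat.card G = Nat.card G' := Nat.card_congr e.toEquiv
  have := Fintype.ofFinite {Q : Subgroup G // IsPGroup p Q}
  have := Fintype.ofFinite {Q : Subgroup G' // IsPGroup p Q}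
  rw [finsum_eq_sum_of_fintype] at h1 h2
  have h4 : ∑ Q : {Q : Subgroup G // IsPGroup p Q},
      Nat.card (normalizer (Q.1 : Set G)) * numDZ p (NQ Q.1) =
      ∑ Q : {Q : Subgroup G' // IsPGroup p Q},
      Nat.card (normalizer (Q.1 : Set G')) * numDZ p (NQ Q.1) := by
    refine Finset.sum_bij (fun Q _ => ⟨Q.1.map e.toMonoidHom, Q.2.map _⟩) ?_ ?_ ?_ ?_
    · intro Q _; exact Finset.mem_univ _
    · intro Q _ Q' _ h
      exact Subtype.ext (map_injective e.injective (congrArg Subtype.val h))
    · intro Q _
      refine ⟨⟨Q.1.map e.symm.toMonoidHom, Q.2.map _⟩, Finset.mem_univ _, ?_⟩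
      apply Subtype.ext
      change (Q.1.map e.symm.toMonoidHom).map e.toMonoidHom = Q.1
      rw [map_map]
      have : e.toMonoidHom.comp e.symm.toMonoidHom = MonoidHom.id G' := by
        ext x; simp
      rw [this, map_id]
    · intro Q _
      rw [Nat.card_congr (normalizerEquiv e Q.1).toEquiv, numDZ_congr p (nqEquiv e Q.1)]
  rw [h4, ← h2, ← h3] at h1
  exact Nat.eq_of_mul_eq_mul_left Nat.card_pos h1

end P179K
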