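import Vale.Agent.P179.H166.KRW
import Vale.Agent.P179.H166.Orb

/-!
# (C8) the induction
-/

namespace P179C

open Subgroup P179H524 P179A P179K

open scoped Classical Pointwise

universe u

/-- orbit sums as plain sums -/
theorem orbSum {G X R : Type*} [Group G] [Finite G] [Fintype X] [MulAction G X] [CommRing R]
    [Fintype (MulAction.orbitRel.Quotient G X)]
    (F : X → R) (hF : ∀ (g : G) (x : X), F (g • x) = F x) :
    ∑ x, (Nat.card (MulAction.stabilizer G x) : R) * F x =
      (Nat.card G : R) * ∑ ω : MulAction.orbitRel.Quotient G X, F ω.out := by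
  have := Fintype.ofFinite G
  rw [← (MulAction.selfEquivSigmaOrbits G X).symm.sum_comp, Fintype.sum_sigma, Finset.mul_sum]
  refine Finset.sum_congr rfl fun ω _ => ?_
  have h2 : ∀ x : MulAction.orbit G ω.out,
      (Nat.card (MulAction.stabilizer G ((MulAction.selfEquivSigmaOrbits G X).symm ⟨ω, x⟩)) : R) *
        F ((MulAction.selfEquivSigmaOrbits G X).symm ⟨ω, x⟩) =
      (Nat.card (MulAction.stabilizer G ω.out) : R) * F ω.out := by
    rintro ⟨_, g, rfl⟩
    have h4 : Nat.card (MulAction.stabilizer G (g • ω.out)) =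
        Nat.card (MulAction.stabilizer G ω.out) :=
      Nat.card_congr (MulAction.stabilizerEquivStabilizerOfOrbitRel
        (show MulAction.orbitRel G X (g • ω.out) ω.out from ⟨g, rfl⟩)).toEquiv
    change (Nat.card (MulAction.stabilizer G (g • ω.out)) : R) * F (g • ω.out) = _
    rw [h4, hF]
  rw [Finset.sum_congr rfl fun x _ => h2 x, Finset.sum_const, nsmul_eq_mul, Finset.card_univ,
    ← mul_assoc]
  congr 1
  have h5 := MulAction.card_orbit_mul_card_stabilizer_eq_card_group G ω.out
  rw [Nat.card_eq_fintype_card, Nat.card_eq_fintype_card, ← h5]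
  push_cast
  rfl

theorem valuation_sum_lt (O : ValuationSubring ℂ) {ι : Type*} (s : Finset ι) (f : ι → ℂ)
    (h : ∀ i ∈ s, O.valuation (f i) < 1) : O.valuation (∑ i ∈ s, f i) < 1 :=
  O.valuation.map_sum_lt one_ne_zero h

theorem orb_sum_val (O : ValuationSubring ℂ) {G X : Type*} [Group G] [Finite G] [Fintype X]
    [MulAction G X] (F : X → ℂ) (hF : ∀ (g : G) (x : X), F (g • x) = F x)
    (hd : ∀ x : X, O.valuation (F x / Nat.card (MulAction.stabilizer G x)) < 1) :
    O.valuation ((∑ x, F x) / Nat.card G) < 1 := by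
  have := Fintype.ofFinite (MulAction.orbitRel.Quotient G X)
  have hG : (Nat.card G : ℂ) ≠ 0 := by exact_mod_cast Nat.card_pos.ne'
  have hs : ∀ x : X, (Nat.card (MulAction.stabilizer G x) : ℂ) ≠ 0 := fun x => by
    exact_mod_cast Nat.card_pos.ne'
  have h1 := orbSum (G := G) (X := X) (R := ℂ)
    (fun x => F x / Nat.card (MulAction.stabilizer G x)) (fun g x => by
      rw [hF, Nat.card_congr (MulAction.stabilizerEquivStabilizerOfOrbitRel
        (show MulAction.orbitRel G X (g • x) x from ⟨g, rfl⟩)).toEquiv])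
  have h2 : ∑ x, (Nat.card (MulAction.stabilizer G x) : ℂ) *
      (F x / Nat.card (MulAction.stabilizer G x)) = ∑ x, F x :=
    Finset.sum_congr rfl fun x _ => mul_div_cancel₀ _ (hs x)
  rw [h2] at h1
  rw [h1, mul_div_cancel_left₀ _ hG]
  exact valuation_sum_lt O _ _ fun ω _ => hd ω.out

section Cong

variable {p : ℕ} (O : ValuationSubring ℂ)

theorem valuation_int_le (m : ℤ) : O.valuation (m : ℂ) ≤ 1 :=
  (O.valuation_le_one_iff _).mpr (intCast_mem O m)

theorem valuation_p_lt [hp : Fact p.Prime] [CharP (IsLocalRing.ResidueField O) p] :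
    O.valuation (p : ℂ) < 1 := by
  have h1 : (IsLocalRing.residue O) ((p : ℕ) : O) = 0 := by
    rw [map_natCast]
    exact CharP.cast_eq_zero _ p
  rw [IsLocalRing.residue_eq_zero_iff] at h1
  have h2 := (O.valuation_lt_one_iff _).mp h1
  simpa using h2

theorem valuation_of_dvd [Fact p.Prime] [CharP (IsLocalRing.ResidueField O) p] {n : ℕ}
    (hn : n ≠ 0) {a : ℤ} (h : ((n * p : ℕ) : ℤ) ∣ a) : O.valuation ((a : ℂ) / n) < 1 := by
  obtain ⟨b, rfl⟩ := h
  have hn' : (n : ℂ) ≠ 0 := by exact_mod_cast hn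
  have h1 : (((((n * p : ℕ) : ℤ) * b : ℤ) : ℂ) / n) = (p : ℂ) * (b : ℂ) := by
    push_cast
    field_simp
  rw [h1, map_mul]
  exact mul_lt_one_of_nonneg_of_lt_one_left zero_le (valuation_p_lt O) (valuation_int_le O b)

theorem Cong.trans' {n : ℕ} {a b c : ℂ} (h1 : Cong O n a b) (h2 : Cong O n b c) :
    Cong O n a c := by
  unfold Cong at *
  have : (a - c) / n = (a - b) / n + (b - c) / n := by ring
  rw [this]
  exact O.valuation.map_add_lt h1 h2

theorem Cong.symm' {n : ℕ} {a b : ℂ} (h1 : Cong O n a b) : Cong O n b a := by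
  unfold Cong at *
  have : (b - a) / n = -((a - b) / n) := by ring
  rw [this, Valuation.map_neg]
  exact h1

end Cong

section Equiv

variable {p : ℕ}

theorem pr_equiv {K K' : Type*} [Group K] [Group K'] (e : K' ≃* K) (y : K') :
    pr p (e y) = e (pr p y) := by
  unfold pr
  rw [MulEquiv.orderOf_eq, map_pow]

theorem nTr_comp {K K' : Type*} [Group K] [Group K'] (e : K' ≃* K) (z : K → ℤ) :
    nTr (fun x => z (e x)) = nTr z := by
  unfold nTr
  rw [← finsum_comp_equiv (Equiv.prodCongr e.toEquiv e.toEquiv)]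
  refine finsum_congr fun t => ?_
  simp

theorem nL_comp {K K' : Type*} [Group K] [Group K'] (e : K' ≃* K) (z : K → ℤ) :
    nL p (fun x => z (e x)) = nL p z := by
  unfold nL
  rw [← finsum_comp_equiv (Equiv.prodCongr e.toEquiv e.toEquiv)]
  refine finsum_congr fun t => ?_
  simp [pr_equiv]

theorem dz_resNQ_comp {K K' : Type*} [Group K] [Group K'] (e : K' ≃* K) (z : K → ℤ)
    (Q : Subgroup K') : dz p (resNQ Q (fun x => z (e x))) =
      dz p (resNQ (Q.map e.toMonoidHom) z) := by
  unfold resNQ
  exact dz_push _ _ (normalizerEquiv e Q) (nqEquiv e Q) (fun a => rfl)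
    (res (normalizer ((Q.map e.toMonoidHom : Subgroup K) : Set K)) z)

/-- an isomorphism permutes the `p`-subgroups -/
def pSubEquiv {K K' : Type*} [Group K] [Group K'] (p : ℕ) (e : K' ≃* K) :
    {Q : Subgroup K' // IsPGroup p Q} ≃ {Q : Subgroup K // IsPGroup p Q} where
  toFun Q := ⟨Q.1.map e.toMonoidHom, Q.2.map _⟩
  invFun Q := ⟨Q.1.map e.symm.toMonoidHom, Q.2.map _⟩
  left_inv Q := by
    apply Subtype.ext
    change (Q.1.map e.toMonoidHom).map e.symm.toMonoidHom = Q.1
    rw [map_map]
    have : e.symm.toMonoidHom.comp e.toMonoidHom = MonoidHom.id K' := by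
      ext x; simp
    rw [this, map_id]
  right_inv Q := by
    apply Subtype.ext
    change (Q.1.map e.symm.toMonoidHom).map e.toMonoidHom = Q.1
    rw [map_map]
    have : e.toMonoidHom.comp e.symm.toMonoidHom = MonoidHom.id K := by
      ext x; simp
    rw [this, map_id]

theorem nW_comp {K K' : Type*} [Group K] [Group K'] (e : K' ≃* K) (z : K → ℤ) :
    nW p (fun x => z (e x)) = nW p z := by
  unfold nW
  rw [← finsum_comp_equiv (pSubEquiv p e)]
  refine finsum_congr fun Q => ?_
  rw [dz_resNQ_comp, Nat.card_congr (normalizerEquiv e Q.1).toEquiv]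
  rfl

end Equiv

section Basic

variable {p : ℕ} {G : Type*} [Group G]

theorem isCF_res {R : Type*} (H : Subgroup G) {z : G → R} (hz : IsCF z) : IsCF (res H z) :=
  fun g x => hz g x

theorem isCF_push {K : Type*} [Group K] (π : G →* K) (hπ : Function.Surjective π) {z : G → ℤ}
    (hz : IsCF z) : IsCF (push π z) := by
  intro c x
  obtain ⟨g, rfl⟩ := hπ c
  unfold push
  let E : {h : G // π h = x} ≃ {h : G // π h = π g * x * (π g)⁻¹} :=
    { toFun := fun h => ⟨g * h.1 * g⁻¹, by simp [h.2]⟩
      invFun := fun h => ⟨g⁻¹ * h.1 * g, by simp [h.2, mul_assoc]⟩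
      left_inv := fun h => by apply Subtype.ext; simp [mul_assoc]
      right_inv := fun h => by apply Subtype.ext; simp [mul_assoc] }
  rw [← finsum_comp_equiv E]
  exact finsum_congr fun h => hz g h.1

theorem zab_res (H : Subgroup G) {z : G → ℤ} (hz : Zab p z) : Zab p (res H z) := by
  intro g hg P hP hPg a ha b hb
  have h1 := hz g.1 hg (P.map H.subtype) (hP.map _) ?_ a ⟨a, ha, rfl⟩ b ⟨b, hb, rfl⟩
  · exact Subtype.ext h1
  · rintro _ ⟨c, hc, rfl⟩
    have h2 := mem_centralizer_singleton_iff.mp (hPg hc)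
    exact mem_centralizer_singleton_iff.mpr (congrArg Subtype.val h2)

theorem res_stab_smul {z : G → ℤ} (hz : IsCF z) (g : G) (s : Finset (Subgroup G)) :
    (fun x : stab s => res (stab (g • s)) z (stabEquiv g s x)) = res (stab s) z := by
  ext x
  exact hz g x

end Basic

/-- the sum over all chains splits into the empty chain and the nonempty ones -/
theorem sum_chains_eq' {G : Type*} [Group G] [Finite G] (p : ℕ) [Fintype (neChains p G)]
    (f : Finset (Subgroup G) → ℂ) :
    ∑ s ∈ chains p G, f s = f ∅ + ∑ s : neChains p G, f s.1 := by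
  have h1 : chains p G = insert ∅ ((Finset.univ : Finset (neChains p G)).map
      ⟨Subtype.val, Subtype.val_injective⟩) := by
    ext s
    rw [mem_chains, Finset.mem_insert, Finset.mem_map]
    constructor
    · intro hs
      rcases s.eq_empty_or_nonempty with h | h
      · exact Or.inl h
      · exact Or.inr ⟨⟨s, hs, h⟩, Finset.mem_univ _, rfl⟩
    · rintro (rfl | ⟨t, -, rfl⟩)
      · exact isPChain_empty p
      · exact t.2.1
  rw [h1, Finset.sum_insert, Finset.sum_map]
  · rfl
  · rw [Finset.mem_map]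
    rintro ⟨t, -, h⟩
    have := t.2.2
    have h2 : (t : Finset (Subgroup G)) = ∅ := h
    rw [h2] at this
    exact Finset.not_nonempty_empty this

/-- if `O_p(G) = 1`, stabilisers of nonempty chains are proper -/
theorem card_stab_lt (p : ℕ) {G : Type*} [Group G] [Finite G] (hO : OpTrivial p G)
    {s : Finset (Subgroup G)} (hs : IsPChain p s) (hne : s.Nonempty) :
    Nat.card (stab s) < Nat.card G := by
  refine lt_of_le_of_ne (Subgroup.card_le_card_group _) ?_
  intro h4
  have h5 : stab s = ⊤ := Subgroup.eq_top_of_card_eq _ h4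
  refine not_opTrivial_stab hs hne ?_
  intro R hR hRp
  have h6 : (R.map (stab s).subtype).Normal := by
    refine ⟨fun m hm g => ?_⟩
    obtain ⟨m', hm', rfl⟩ := mem_map.mp hm
    have hg : g ∈ stab s := h5 ▸ mem_top g
    exact mem_map.mpr ⟨⟨g, hg⟩ * m' * ⟨g, hg⟩⁻¹, hR.conj_mem _ hm' _, rfl⟩
  have h7 := hO _ h6 (hRp.map _)
  rwa [map_eq_bot_iff_of_injective _ (stab s).subtype_injective] at h7

/-- (C4) as a hypothesis -/
def Step1 (p : ℕ) (O : ValuationSubring ℂ) : Prop :=
  ∀ (G : Type u) [Group G] [Finite G] (z : G → ℤ), IsCF z → Zab p z →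
    Cong O (Nat.card G) ((∑ s ∈ chains p G, (-1) ^ s.card * nTr (res (stab s) z) : ℤ) : ℂ)
      (Nat.card G * dz p z)

/-- (C5) as a hypothesis -/
def StepL (p : ℕ) : Prop :=
  ∀ (G : Type u) [Group G] [Finite G] (z : G → ℤ), IsCF z →
    ((Nat.card G * p : ℕ) : ℤ) ∣
      ∑ s ∈ chains p G, (-1) ^ s.card * (nTr (res (stab s) z) - nL p (res (stab s) z))

/-- (C7) as a hypothesis -/
def StepQ (p : ℕ) : Prop :=
  ∀ (G : Type u) [Group G] [Finite G] (R : Subgroup G) [R.Normal], IsPGroup p R →
    ∀ (z : G → ℤ), IsCF z →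
      nL p z = Nat.card R * nL p (push (QuotientGroup.mk' R) z) ∧
      nW p z = Nat.card R * nW p (push (QuotientGroup.mk' R) z) ∧
      (Zab p z → Zab p (push (QuotientGroup.mk' R) z))

/-- (C8) from (C4), (C5), (C7). -/
theorem main_fun_of (p : ℕ) [hp : Fact p.Prime] (O : ValuationSubring ℂ)
    [CharP (IsLocalRing.ResidueField O) p] (h1 : Step1.{u} p O) (hL : StepL.{u} p)
    (hQ : StepQ.{u} p) : ∀ (n : ℕ) (G : Type u) [Group G] [Finite G], Nat.card G = n →
    ∀ (z : G → ℤ), IsCF z → Zab p z → Cong O (Nat.card G) (nL p z) (nW p z) := by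
  intro n
  induction n using Nat.strong_induction_on with
  | _ n ih =>
  intro G _ _ hn z hz hab
  have := Fintype.ofFinite G
  have hG0 : (Nat.card G : ℂ) ≠ 0 := by exact_mod_cast Nat.card_pos.ne'
  by_cases hO : OpTrivial p G
  · have := Fintype.ofFinite (neChains p G)
    have hA := h1 G z hz hab
    have hB := hL G z hz
    have hC := KR_W p z hz
    -- the alternating sum of `nL - nW`
    have hD : O.valuation ((∑ s ∈ chains p G, (-1 : ℂ) ^ s.card *
        ((nL p (res (stab s) z) : ℂ) - nW p (res (stab s) z))) / Nat.card G) < 1 := by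
      have h2 : (∑ s ∈ chains p G, (-1 : ℂ) ^ s.card *
          ((nL p (res (stab s) z) : ℂ) - nW p (res (stab s) z))) / Nat.card G =
          ((((∑ s ∈ chains p G, (-1) ^ s.card * nTr (res (stab s) z) : ℤ) : ℂ) -
            (Nat.card G * dz p z)) / Nat.card G) -
          ((∑ s ∈ chains p G, (-1) ^ s.card *
            (nTr (res (stab s) z) - nL p (res (stab s) z)) : ℤ) : ℂ) / Nat.card G := by
        rw [← hC, ← sub_div]
        congr 1
        push_cast
        simp only [← Finset.sum_sub_distrib]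
        exact Finset.sum_congr rfl fun s _ => by ring
      rw [h2]
      exact O.valuation.map_sub_lt hA (valuation_of_dvd O Nat.card_pos.ne' hB)
    rw [sum_chains_eq'] at hD
    have hF : O.valuation ((∑ s : neChains p G, (-1 : ℂ) ^ s.1.card *
        ((nL p (res (stab s.1) z) : ℂ) - nW p (res (stab s.1) z))) / Nat.card G) < 1 := by
      refine orb_sum_val O (fun s : neChains p G => (-1 : ℂ) ^ s.1.card *
        ((nL p (res (stab s.1) z) : ℂ) - nW p (res (stab s.1) z))) ?_ ?_
      · intro g s
        have key : ∀ t : Finset (Subgroup G), (-1 : ℂ) ^ (g • t).card *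
            ((nL p (res (stab (g • t)) z) : ℂ) - nW p (res (stab (g • t)) z)) =
            (-1 : ℂ) ^ t.card * ((nL p (res (stab t) z) : ℂ) - nW p (res (stab t) z)) := by
          intro t
          rw [card_smul, ← nL_comp (stabEquiv g t), ← nW_comp (stabEquiv g t),
            res_stab_smul hz g t]
        exact key s.1
      · intro s
        rw [stabilizer_neChains, mul_div_assoc, map_mul, map_pow]
        have h3 : O.valuation (-1 : ℂ) = 1 := by rw [Valuation.map_neg, map_one]
        rw [h3, one_pow, one_mul]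
        exact ih (Nat.card (stab s.1)) (hn ▸ card_stab_lt p hO s.2.1 s.2.2) (stab s.1) rfl
          (res (stab s.1) z) (isCF_res _ hz) (zab_res _ hab)
    rw [add_div] at hD
    have hG := O.valuation.map_sub_lt hD hF
    rw [add_sub_cancel_right] at hG
    have e : stab (∅ : Finset (Subgroup G)) ≃* G := by
      rw [stab_empty]; exact topEquiv
    have e' : ∃ e : G ≃* stab (∅ : Finset (Subgroup G)), ∀ x, (e x : G) = x := by
      rw [stab_empty]; exact ⟨topEquiv.symm, fun _ => rfl⟩
    obtain ⟨e, he⟩ := e'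
    have h4 : (fun x => res (stab (∅ : Finset (Subgroup G))) z (e x)) = z := by
      ext x
      exact congrArg z (he x)
    rw [Finset.card_empty, pow_zero, one_mul, ← nL_comp e, ← nW_comp e, h4] at hG
    exact hG
  · simp only [OpTrivial, not_forall] at hO
    obtain ⟨R, hR, hRp, hR1⟩ := hO
    obtain ⟨hq1, hq2, hq3⟩ := hQ G R hRp z hz
    have h2 : Nat.card G = Nat.card (G ⧸ R) * Nat.card R :=
      card_eq_card_quotient_mul_card_subgroup R
    have h3 : 1 < Nat.card R := by
      rw [Subgroup.one_lt_card_iff_ne_bot]; exact hR1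
    have h4 : 0 < Nat.card (G ⧸ R) := Nat.card_pos
    have h5 := ih (Nat.card (G ⧸ R)) (by rw [← hn, h2]; nlinarith) (G ⧸ R) rfl
      (push (QuotientGroup.mk' R) z) (isCF_push _ (QuotientGroup.mk'_surjective R) hz) (hq3 hab)
    unfold Cong at h5 ⊢
    rw [hq1, hq2, h2]
    have h6 : (Nat.card R : ℂ) ≠ 0 := by exact_mod_cast Nat.card_pos.ne'
    have h7 : (Nat.card (G ⧸ R) : ℂ) ≠ 0 := by exact_mod_cast h4.ne'
    convert h5 using 2
    push_cast
    field_simp

end P179C
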