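import Vale.Agent.P179.H166.BrauerHom
import Vale.Agent.P179.H524.SimpleIn

/-!
# (C9a) blocks and central characters
-/

namespace P179C

open Subgroup P179H524

open scoped Classical

universe u v

section Comm

variable {k Z : Type*} [Field k] [CommRing Z] [Algebra k Z]

/-- primitive idempotents of a commutative ring -/
def Prim (B : Z) : Prop := B * B = B ∧ B ≠ 0 ∧ ∀ e : Z, e * e = e → e * B = e → e = 0 ∨ e = B

theorem apply_idem (l : Z →ₐ[k] k) {e : Z} (he : e * e = e) : l e = 0 ∨ l e = 1 := by
  have h : l e * l e = l e := by rw [← map_mul, he]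
  rcases eq_or_ne (l e) 0 with h0 | h0
  · exact Or.inl h0
  · exact Or.inr (mul_left_cancel₀ h0 (by rw [h, mul_one]))

/-- separating idempotents in an Artinian commutative algebra -/
theorem exists_idem_sep [IsArtinianRing Z] (l l' : Z →ₐ[k] k) (h : l ≠ l') :
    ∃ e : Z, e * e = e ∧ l e = 1 ∧ l' e = 0 := by
  obtain ⟨z, hz⟩ : ∃ z, l z ≠ l' z := by
    by_contra hc
    push Not at hc
    exact h (AlgHom.ext hc)
  let w : Z := z - algebraMap k Z (l' z)
  have hw' : l' w = 0 := by
    simp only [w, map_sub, AlgHom.commutes]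
    simp
  have hw : l w ≠ 0 := by
    simp only [w, map_sub, AlgHom.commutes]
    simpa using sub_ne_zero.mpr hz
  obtain ⟨n, y, hy⟩ := IsArtinian.exists_pow_succ_smul_dvd (M := Z) w (1 : Z)
  simp only [smul_eq_mul, mul_one] at hy
  -- `w ^ (n + 1) * y = w ^ n`
  have h1 : ∀ j : ℕ, w ^ (n + 1) = w ^ (n + 1 + j) * y ^ j := by
    intro j
    induction j with
    | zero => simp
    | succ j ih =>
      have h2 : w ^ (n + 1 + (j + 1)) * y ^ (j + 1) = w ^ (j + 1) * (w ^ (n + 1) * y) * y ^ j := by
        ring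
      rw [h2, hy, ih]
      ring
  have h2 := h1 (n + 1)
  refine ⟨w ^ (n + 1) * y ^ (n + 1), ?_, ?_, ?_⟩
  · have h3 : w ^ (n + 1) * y ^ (n + 1) * (w ^ (n + 1) * y ^ (n + 1)) =
        (w ^ (n + 1 + (n + 1)) * y ^ (n + 1)) * y ^ (n + 1) := by ring
    rw [h3, ← h2]
  · have h3 := congrArg l h2
    have h4 : w ^ (n + 1 + (n + 1)) * y ^ (n + 1) = w ^ (n + 1) * (w ^ (n + 1) * y ^ (n + 1)) := by
      ring
    rw [h4, map_mul, map_pow] at h3
    have h5 : (l w) ^ (n + 1) ≠ 0 := pow_ne_zero _ hw
    exact (mul_left_cancel₀ h5 (by rw [mul_one]; exact h3)).symm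
  · rw [map_mul, map_pow, hw', zero_pow (Nat.succ_ne_zero n), zero_mul]

theorem eq_of_prim [IsArtinianRing Z] {B : Z} (hB : Prim B) (l l' : Z →ₐ[k] k) (hl : l B = 1)
    (hl' : l' B = 1) : l = l' := by
  by_contra h
  obtain ⟨e, he, he1, he2⟩ := exists_idem_sep l l' h
  have h1 : e * B * (e * B) = e * B := by
    have : e * B * (e * B) = (e * e) * (B * B) := by ring
    rw [this, he, hB.1]
  have h2 : e * B * B = e * B := by rw [mul_assoc, hB.1]
  rcases hB.2.2 (e * B) h1 h2 with h3 | h3
  · have := congrArg l h3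
    rw [map_mul, he1, hl, map_zero, mul_one] at this
    exact one_ne_zero this
  · have := congrArg l' h3
    rw [map_mul, he2, hl', zero_mul] at this
    exact zero_ne_one this

theorem exists_prim [IsArtinianRing Z] (l : Z →ₐ[k] k) : ∃ B : Z, Prim B ∧ l B = 1 := by
  have hwf := (inferInstance : WellFoundedLT (Submodule Z Z)).wf
  let S : Set (Submodule Z Z) := {I | ∃ e : Z, e * e = e ∧ l e = 1 ∧ I = Ideal.span {e}}
  have hS : S.Nonempty := ⟨_, 1, mul_one 1, map_one l, rfl⟩
  obtain ⟨I, ⟨e, he, hle, rfl⟩, hmin⟩ := hwf.has_min S hS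
  have key : ∀ f : Z, f * f = f → f * e = f → l f = 1 → f = e := by
    intro f hf hfe hlf
    by_contra hne
    refine hmin (Ideal.span {f}) ⟨f, hf, hlf, rfl⟩ ?_
    have h1 : Ideal.span {f} ≤ Ideal.span {e} := by
      rw [Ideal.span_singleton_le_span_singleton]
      exact ⟨f, by rw [mul_comm, hfe]⟩
    refine lt_of_le_of_ne h1 ?_
    intro h2
    have h3 : e ∈ Ideal.span {f} := by
      rw [h2]; exact Ideal.mem_span_singleton_self e
    rw [Ideal.mem_span_singleton] at h3
    obtain ⟨x, hx⟩ := h3
    apply hne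
    have : f * e = e := by
      conv_lhs => rw [hx, ← mul_assoc, hf]
      exact hx.symm
    rw [← hfe, this]
  refine ⟨e, ⟨he, ?_, ?_⟩, hle⟩
  · rintro rfl
    rw [map_zero] at hle
    exact zero_ne_one hle
  · intro f hf hfe
    rcases apply_idem l hf with h | h
    · left
      have h1 : (e - f) * (e - f) = e - f := by
        have : (e - f) * (e - f) = e * e - f * e - f * e + f * f := by ring
        rw [this, he, hfe, hf]; ring
      have h2 : (e - f) * e = e - f := by rw [sub_mul, he, hfe]
      have h3 : l (e - f) = 1 := by rw [map_sub, hle, h, sub_zero]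
      have h4 := key _ h1 h2 h3
      have : f = e - (e - f) := by ring
      rw [this, h4, sub_self]
    · right
      exact key f hf hfe h

end Comm

section Center

variable {k : Type u} [Field k] {G : Type} [Group G]

theorem isBlock_iff_prim (B : Subalgebra.center k (MonoidAlgebra k G)) :
    IsBlock (B : MonoidAlgebra k G) ↔ Prim B := by
  unfold IsBlock Prim
  constructor
  · rintro ⟨_, h2, h3, h4⟩
    refine ⟨Subtype.ext h2, fun h => h3 (congrArg Subtype.val h), fun e he1 he2 => ?_⟩
    rcases h4 e e.2 (congrArg Subtype.val he1) (congrArg Subtype.val he2) with h | h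
    · exact Or.inl (Subtype.ext h)
    · exact Or.inr (Subtype.ext h)
  · rintro ⟨h2, h3, h4⟩
    refine ⟨B.2, congrArg Subtype.val h2, fun h => h3 (Subtype.ext h), fun e he he1 he2 => ?_⟩
    rcases h4 ⟨e, he⟩ (Subtype.ext he1) (Subtype.ext he2) with h | h
    · exact Or.inl (congrArg Subtype.val h)
    · exact Or.inr (congrArg Subtype.val h)

/-- Schur's lemma -/
theorem schur [IsAlgClosed k] (a : IrrRep k G) (f : Module.End k (Fin a.1.1 → k))
    (hf : ∀ g, f * a.1.2 g = a.1.2 g * f) : ∃ c : k, f = algebraMap k _ c := by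
  have := a.2
  let F : Representation.IntertwiningMap a.1.2 a.1.2 :=
    { f with isIntertwining' := fun g => hf g }
  obtain ⟨c, hc⟩ :=
    (Representation.IsIrreducible.algebraMap_intertwiningMap_bijective_of_isAlgClosed
      (ρ := a.1.2)).2 F
  refine ⟨c, ?_⟩
  have h := congrArg Representation.IntertwiningMap.toLinearMap hc
  refine LinearMap.ext fun v => ?_
  have h2 := congrArg (fun g : (Fin a.1.1 → k) →ₗ[k] (Fin a.1.1 → k) => g v) h
  exact h2.symm

theorem nontrivial_irrRep (a : IrrRep k G) : Nontrivial (Fin a.1.1 → k) := by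
  by_contra h
  rw [not_nontrivial_iff_subsingleton] at h
  obtain ⟨W, W', hW⟩ := a.2.toNontrivial.exists_pair_ne
  apply hW
  ext v
  have hv : v = 0 := Subsingleton.elim _ _
  rw [hv]
  exact ⟨fun _ => W'.toSubmodule.zero_mem, fun _ => W.toSubmodule.zero_mem⟩

theorem exists_chi [IsAlgClosed k] (a : IrrRep k G) :
    ∃ l : Subalgebra.center k (MonoidAlgebra k G) →ₐ[k] k,
      ∀ z : Subalgebra.center k (MonoidAlgebra k G),
        a.1.2.asAlgebraHom (z : MonoidAlgebra k G) = l z • 1 := by
  have := nontrivial_irrRep a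
  have hinj : Function.Injective (algebraMap k (Module.End k (Fin a.1.1 → k))) :=
    FaithfulSMul.algebraMap_injective _ _
  have h1 : ∀ z : Subalgebra.center k (MonoidAlgebra k G), ∃ c : k,
      a.1.2.asAlgebraHom (z : MonoidAlgebra k G) = algebraMap k _ c := by
    intro z
    refine schur a _ fun g => ?_
    rw [← Representation.asAlgebraHom_single_one, ← map_mul, ← map_mul]
    congr 1
    exact (Subalgebra.mem_center_iff.mp z.2 _).symm
  choose c hc using h1
  refine ⟨
    { toFun := c
      map_one' := ?_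
      map_mul' := ?_
      map_zero' := ?_
      map_add' := ?_
      commutes' := ?_ }, ?_⟩
  · apply hinj
    rw [← hc, map_one]
    exact map_one _
  · intro x y
    apply hinj
    rw [← hc, map_mul, ← hc, ← hc, ← map_mul]
    rfl
  · apply hinj
    rw [← hc, map_zero]
    exact map_zero _
  · intro x y
    apply hinj
    rw [← hc, map_add, ← hc, ← hc, ← map_add]
    rfl
  · intro r
    apply hinj
    rw [← hc]
    exact AlgHom.commutes _ r
  · intro z
    rw [hc z, Algebra.algebraMap_eq_smul_one]
    rfl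

variable [Finite G]

instance finite_center : Module.Finite k (Subalgebra.center k (MonoidAlgebra k G)) := by
  have : Module.Finite k (MonoidAlgebra k G) :=
    Module.Finite.equiv (MonoidAlgebra.coeffLinearEquiv k).symm
  infer_instance

instance artinian_center : IsArtinianRing (Subalgebra.center k (MonoidAlgebra k G)) :=
  IsArtinianRing.of_finite k _

/-- every block contains a simple module -/
theorem exists_inBlock [IsAlgClosed k] (B : MonoidAlgebra k G) (hB : IsBlock B) :
    ∃ a : IrrRep k G, InBlock a B := by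
  obtain ⟨r, d, hd, f, hf, hker⟩ := exists_wedderburn k G
  obtain ⟨l, hl⟩ := C2.exists_scalar f hf B hB.1
  have h1 : ∃ i, l i ≠ 0 := by
    by_contra hc
    push Not at hc
    have h2 : f B = 0 := by
      funext i
      rw [hl, hc, map_zero]
      rfl
    have h3 := hker B h2
    have h4 : IsNilpotent B := isNilpotent_of_mem_jacobson B h3
    obtain ⟨n, hn⟩ := h4
    have h5 : ∀ m : ℕ, B ^ (m + 1) = B := by
      intro m
      induction m with
      | zero => simp
      | succ m ih => rw [pow_succ, ih, hB.2.1]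
    have h6 : B = 0 := by
      rw [← h5 n, pow_succ, hn, zero_mul]
    exact hB.2.2.1 h6
  obtain ⟨i, hi⟩ := h1
  have h2 := (C2.scalar_idem f B hB.2.1 l hl i).resolve_left hi
  exact ⟨_, (C2.inBlock_iff f hf B l hl i).mpr h2⟩

/-- the central character of a block is the scalar on any simple module in it -/
theorem centralChar_eq [IsAlgClosed k] (B : MonoidAlgebra k G) (hB : IsBlock B) (a : IrrRep k G)
    (ha : InBlock a B) (l : Subalgebra.center k (MonoidAlgebra k G) →ₐ[k] k)
    (hl : ∀ z : Subalgebra.center k (MonoidAlgebra k G),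
      a.1.2.asAlgebraHom (z : MonoidAlgebra k G) = l z • 1)
    (z : Subalgebra.center k (MonoidAlgebra k G)) : centralChar B (z : MonoidAlgebra k G) = l z := by
  have hprim := (isBlock_iff_prim ⟨B, hB.1⟩).mp hB
  have hscal : ∀ (b : IrrRep k G) (c c' : k),
      (c • 1 : Module.End k (Fin b.1.1 → k)) = c' • 1 → c = c' := by
    intro b c c' h
    have := nontrivial_irrRep b
    have hinj : Function.Injective (algebraMap k (Module.End k (Fin b.1.1 → k))) :=
      FaithfulSMul.algebraMap_injective _ _
    apply hinj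
    rw [Algebra.algebraMap_eq_smul_one, Algebra.algebraMap_eq_smul_one, h]
  have hB1 : ∀ (b : IrrRep k G) (l' : Subalgebra.center k (MonoidAlgebra k G) →ₐ[k] k),
      (∀ z : Subalgebra.center k (MonoidAlgebra k G),
        b.1.2.asAlgebraHom (z : MonoidAlgebra k G) = l' z • 1) → InBlock b B →
      l' ⟨B, hB.1⟩ = 1 := by
    intro b l' hl' hb
    apply hscal b
    rw [← hl', one_smul]
    exact hb
  have hex : ∃ c : k, ∀ b : IrrRep k G, InBlock b B →
      b.1.2.asAlgebraHom (z : MonoidAlgebra k G) = c • 1 := by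
    refine ⟨l z, fun b hb => ?_⟩
    obtain ⟨l', hl'⟩ := exists_chi b
    have h1 : l' = l := eq_of_prim hprim l' l (hB1 b l' hl' hb) (hB1 a l hl ha)
    rw [hl', h1]
  unfold centralChar
  rw [dif_pos hex]
  have h2 := hex.choose_spec a ha
  rw [hl] at h2
  exact (hscal a _ _ h2).symm

theorem blockHomStmt [IsAlgClosed k] : BlockHomStmt k G := by
  intro B hB
  obtain ⟨a, ha⟩ := exists_inBlock B hB
  obtain ⟨l, hl⟩ := exists_chi a
  exact ⟨l, fun z => (centralChar_eq B hB a ha l hl z).symm⟩

theorem centralChar_self [IsAlgClosed k] (B : MonoidAlgebra k G) (hB : IsBlock B) :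
    centralChar B B = 1 := by
  obtain ⟨a, ha⟩ := exists_inBlock B hB
  obtain ⟨l, hl⟩ := exists_chi a
  have h1 := centralChar_eq B hB a ha l hl ⟨B, hB.1⟩
  have h2 : l ⟨B, hB.1⟩ = 1 := by
    have := nontrivial_irrRep a
    have hinj : Function.Injective (algebraMap k (Module.End k (Fin a.1.1 → k))) :=
      FaithfulSMul.algebraMap_injective _ _
    apply hinj
    rw [Algebra.algebraMap_eq_smul_one, ← hl, map_one]
    exact ha
  rw [← h2]
  exact h1

theorem homBlockStmt [IsAlgClosed k] : HomBlockStmt k G := by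
  intro l
  obtain ⟨B, hB, hlB⟩ := exists_prim l
  have hblock := (isBlock_iff_prim B).mpr hB
  refine ⟨B, hblock, ?_⟩
  obtain ⟨l', hl'⟩ := blockHomStmt (B : MonoidAlgebra k G) hblock
  have h1 : l' B = 1 := by
    rw [hl']
    exact centralChar_self _ hblock
  have h2 : l = l' := eq_of_prim hB l l' hlB h1
  rw [h2]
  exact hl'

theorem charBlockStmt [IsAlgClosed k] : CharBlockStmt k G := by
  intro B B' hB hB'
  by_cases h : B = B'
  · rw [if_pos h, ← h]
    exact centralChar_self B hB
  · rw [if_neg h]
    obtain ⟨l, hl⟩ := blockHomStmt B hB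
    have h1 := hl ⟨B', hB'.1⟩
    change _ = centralChar B B' at h1
    rw [← h1]
    rcases apply_idem l (e := ⟨B', hB'.1⟩) (Subtype.ext hB'.2.1) with h2 | h2
    · exact h2
    · exfalso
      have hcomm : B * B' = B' * B := (Subalgebra.mem_center_iff.mp hB.1 B').symm
      have h3 : l (⟨B, hB.1⟩ * ⟨B', hB'.1⟩) = 1 := by
        rw [map_mul, h2, mul_one, hl]
        exact centralChar_self B hB
      have h4 : B * B' ≠ 0 := by
        intro h5
        have : (⟨B, hB.1⟩ * ⟨B', hB'.1⟩ : Subalgebra.center k (MonoidAlgebra k G)) = 0 :=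
          Subtype.ext h5
        rw [this, map_zero] at h3
        exact zero_ne_one h3
      have hmem : B * B' ∈ Subalgebra.center k (MonoidAlgebra k G) := mul_mem hB.1 hB'.1
      have hidem : B * B' * (B * B') = B * B' := by
        rw [mul_assoc, ← mul_assoc B' B B', ← hcomm, mul_assoc B B' B', hB'.2.1, ← mul_assoc,
          hB.2.1]
      have e1 : B * B' * B = B * B' := by
        rw [hcomm, mul_assoc, hB.2.1]
      have e2 : B * B' * B' = B * B' := by
        rw [mul_assoc, hB'.2.1]
      have h5 := (hB.2.2.2 _ hmem hidem e1).resolve_left h4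
      have h6 := (hB'.2.2.2 _ hmem hidem e2).resolve_left h4
      exact h (h5.symm.trans h6)

end Center

end P179C
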