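import Vale.Agent.P179.H166.MainFun
import Vale.Agent.P179.H143.CStat

/-!
# (C9d) counting the weights in a block
-/

namespace P179C

open Subgroup P179H524 P179A P179K

open scoped Classical Pointwise

universe u

section Integral

/-- Schur's lemma: an endomorphism commuting with an irreducible representation is a scalar. -/
theorem exists_scalar {K : Type*} [Group K] {n : ℕ} (ρ : Representation ℂ K (Fin n → ℂ))
    (hρ : ρ.IsIrreducible) (f : Module.End ℂ (Fin n → ℂ)) (hf : ∀ g, f * ρ g = ρ g * f) :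
    ∃ c : ℂ, f = algebraMap ℂ _ c := by
  let F : Representation.IntertwiningMap ρ ρ :=
    { f with isIntertwining' := fun g => hf g }
  obtain ⟨c, hc⟩ :=
    (Representation.IsIrreducible.algebraMap_intertwiningMap_bijective_of_isAlgClosed
      (ρ := ρ)).2 F
  refine ⟨c, ?_⟩
  have h := congrArg Representation.IntertwiningMap.toLinearMap hc
  refine LinearMap.ext fun v => ?_
  have h2 := congrArg (fun g : (Fin n → ℂ) →ₗ[ℂ] (Fin n → ℂ) => g v) h
  exact h2.symm

theorem isIntegral_om {K : Type*} [Group K] [Finite K] {χ : K → ℂ} (hχ : IsIrrChar χ)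
    {z : K → ℤ} (hz : IsCF z) : IsIntegral ℤ (om χ z) := by
  have := Fintype.ofFinite K
  obtain ⟨n, ρ, hρ, rfl⟩ := hχ
  have hn : Nontrivial (Fin n → ℂ) := by
    by_contra h
    rw [not_nontrivial_iff_subsingleton] at h
    obtain ⟨W, W', hW⟩ := hρ.toNontrivial.exists_pair_ne
    apply hW
    ext v
    have hv : v = 0 := Subsingleton.elim _ _
    rw [hv]
    exact ⟨fun _ => W'.toSubmodule.zero_mem, fun _ => W.toSubmodule.zero_mem⟩
  have hn0 : (n : ℂ) ≠ 0 := by
    have : n ≠ 0 := by
      rintro rfl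
      exact absurd hn (not_nontrivial_iff_subsingleton.mpr inferInstance)
    exact_mod_cast this
  let Z : MonoidAlgebra ℤ K := ∑ g : K, MonoidAlgebra.single g (z g)
  have hZ : IsIntegral ℤ Z := by
    have : Module.Finite ℤ (MonoidAlgebra ℤ K) :=
      Module.Finite.of_basis (MonoidAlgebra.basis K ℤ)
    exact IsIntegral.of_finite ℤ _
  let ψ : MonoidAlgebra ℤ K →ₐ[ℤ] Module.End ℂ (Fin n → ℂ) :=
    MonoidAlgebra.lift ℤ _ K (ρ : K →* Module.End ℂ (Fin n → ℂ))
  have hψ : ψ Z = ∑ g : K, (z g : ℂ) • ρ g := by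
    simp only [Z, map_sum]
    refine Finset.sum_congr rfl fun g _ => ?_
    simp only [ψ, MonoidAlgebra.lift_single]
    exact (Int.cast_smul_eq_zsmul ℂ (z g) (ρ g)).symm
  obtain ⟨c, hc⟩ := exists_scalar ρ hρ (ψ Z) (fun h => by
    rw [hψ, Finset.sum_mul, Finset.mul_sum]
    refine Finset.sum_bij (fun g _ => h⁻¹ * g * h) (fun _ _ => Finset.mem_univ _) ?_ ?_ ?_
    · intro a _ b _ hab
      simpa using hab
    · intro b _
      exact ⟨h * b * h⁻¹, Finset.mem_univ _, by group⟩
    · intro g _
      have h1 : z (h⁻¹ * g * h) = z g := by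
        have := hz h⁻¹ g
        rwa [inv_inv] at this
      rw [h1, smul_mul_assoc, mul_smul_comm, ← map_mul, ← map_mul]
      congr 2
      group)
  have h1 : IsIntegral ℤ c := by
    have h2 : IsIntegral ℤ (ψ Z) := hZ.map ψ
    rw [hc] at h2
    exact (isIntegral_algebraMap_iff (FaithfulSMul.algebraMap_injective ℂ
      (Module.End ℂ (Fin n → ℂ)))).mp h2
  have h3 : om ρ.character z = c := by
    unfold om
    have h4 := congrArg (LinearMap.trace ℂ (Fin n → ℂ)) (hψ.symm.trans hc)
    rw [map_sum] at h4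
    have h5 : (LinearMap.trace ℂ (Fin n → ℂ)) (algebraMap ℂ (Module.End ℂ (Fin n → ℂ)) c) =
        c * n := by
      rw [Algebra.algebraMap_eq_smul_one, map_smul, LinearMap.trace_one]
      simp
    rw [h5] at h4
    have h6 : ρ.character 1 = n := by
      rw [Representation.char_one]
      simp
    rw [h6, finsum_eq_sum_of_fintype, div_eq_iff hn0, ← h4]
    refine Finset.sum_congr rfl fun g _ => ?_
    rw [map_smul]
    rfl
  rw [h3]
  exact h1

end Integral

section Weights

variable {p : ℕ} {G : Type*} [Group G]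

/-- the value of the central character attached to a weight -/
noncomputable def wOm (w : P179H524.Weight p G) (z : G → ℤ) : ℂ := om w.φ (resNQ w.Q z)

theorem resNQ_map (g : G) (Q : Subgroup G) {z : G → ℤ} (hz : IsCF z) (b : NQ Q) :
    resNQ Q z b =
      resNQ (Q.map (MulAut.conj g).toMonoidHom) z (nqEquiv (MulAut.conj g) Q b) := by
  unfold resNQ
  rw [← push_comp (QuotientGroup.mk' (Q.subgroupOf (normalizer (Q : Set G)))) _
    (normalizerEquiv (MulAut.conj g) Q) (nqEquiv (MulAut.conj g) Q) (fun a => rfl)]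
  congr 1
  ext x
  exact (hz g x).symm

theorem wOm_conj {a b : P179H524.Weight p G} (h : a.Conj b) {z : G → ℤ} (hz : IsCF z) :
    wOm a z = wOm b z := by
  obtain ⟨g, hg⟩ := (Weight.conj_iff a b).mp h
  rw [← Weight.pr_conj] at hg
  have h2 := Weight.pr_injective hg
  rw [← h2]
  unfold wOm
  have h3 : resNQ (Weight.conj g a).Q z =
      fun x => resNQ a.Q z ((nqEquiv (MulAut.conj g) a.Q).symm x) := by
    ext x
    rw [resNQ_map g a.Q hz]
    congr 1
    exact ((nqEquiv (MulAut.conj g) a.Q).apply_symm_apply x).symm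
  rw [h3]
  exact (om_comp (nqEquiv (MulAut.conj g) a.Q).symm a.φ (resNQ a.Q z)).symm

theorem conj_equivalence (p : ℕ) (G : Type*) [Group G] :
    Equivalence (P179H524.Weight.Conj (p := p) (G := G)) where
  refl w := (Weight.conj_iff _ _).mpr ⟨1, one_smul _ _⟩
  symm {a b} h := by
    obtain ⟨g, hg⟩ := (Weight.conj_iff _ _).mp h
    exact (Weight.conj_iff _ _).mpr ⟨g⁻¹, by rw [← hg, inv_smul_smul]⟩
  trans {a b c} h1 h2 := by
    obtain ⟨g, hg⟩ := (Weight.conj_iff _ _).mp h1
    obtain ⟨h, hh⟩ := (Weight.conj_iff _ _).mp h2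
    exact (Weight.conj_iff _ _).mpr ⟨h * g, by rw [mul_smul, hg, hh]⟩

instance finite_weight (p : ℕ) (G : Type*) [Group G] [Finite G] :
    Finite (P179H524.Weight p G) := by
  have e1 : P179H524.Weight p G ≃ Σ Q : {Q : Subgroup G // IsPGroup p Q},
      {φ : NQ Q.1 → ℂ // IsDefectZeroChar p φ} :=
    { toFun := fun w => ⟨⟨w.Q, w.isPGroup⟩, ⟨w.φ, w.defectZero⟩⟩
      invFun := fun x => ⟨x.1.1, x.1.2, x.2.1, x.2.2⟩
      left_inv := fun _ => rfl
      right_inv := fun _ => rfl }
  exact Finite.of_equiv _ e1.symm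

/-- `nW` as a sum over all weights -/
theorem nW_eq_sum [Finite G] [Fintype (P179H524.Weight p G)] (z : G → ℤ) :
    nW p z = ∑ w : P179H524.Weight p G,
      (Nat.card (normalizer (w.Q : Set G)) : ℂ) * wOm w z := by
  have := Fintype.ofFinite {Q : Subgroup G // IsPGroup p Q}
  have := fun Q : Subgroup G => Fintype.ofFinite {φ : NQ Q → ℂ // IsDefectZeroChar p φ}
  let e1 : P179H524.Weight p G ≃ Σ Q : {Q : Subgroup G // IsPGroup p Q},
      {φ : NQ Q.1 → ℂ // IsDefectZeroChar p φ} :=
    { toFun := fun w => ⟨⟨w.Q, w.isPGroup⟩, ⟨w.φ, w.defectZero⟩⟩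
      invFun := fun x => ⟨x.1.1, x.1.2, x.2.1, x.2.2⟩
      left_inv := fun _ => rfl
      right_inv := fun _ => rfl }
  rw [← e1.symm.sum_comp, Fintype.sum_sigma]
  unfold nW dz
  rw [finsum_eq_sum_of_fintype]
  refine Finset.sum_congr rfl fun Q _ => ?_
  rw [finsum_eq_sum_of_fintype, Finset.mul_sum]
  rfl

/-- `nW` as a sum over the classes of weights -/
theorem nW_eq [Finite G] {z : G → ℤ} (hz : IsCF z) :
    nW p z = Nat.card G * ∑ᶠ q : Quot (P179H524.Weight.Conj (p := p) (G := G)),
      wOm (Quot.out q) z := by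
  have := Fintype.ofFinite (P179H524.Weight p G)
  have hfin2 : Finite (wSet p G) := Finite.of_equiv _ (weightEquiv p G)
  have := Fintype.ofFinite (wSet p G)
  have := Fintype.ofFinite (MulAction.orbitRel.Quotient G (wSet p G))
  have := Fintype.ofFinite (Quot (P179H524.Weight.Conj (p := p) (G := G)))
  have hconj : ∀ a b : P179H524.Weight p G, a.Conj b ↔
      (weightEquiv p G a) ∈ MulAction.orbit G (weightEquiv p G b) := by
    intro a b
    rw [Weight.conj_iff, MulAction.mem_orbit_iff]
    constructor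
    · rintro ⟨g, hg⟩
      refine ⟨g⁻¹, ?_⟩
      apply Subtype.ext
      change g⁻¹ • b.pr = a.pr
      rw [← hg, inv_smul_smul]
    · rintro ⟨g, hg⟩
      refine ⟨g⁻¹, ?_⟩
      have : g • b.pr = a.pr := congrArg Subtype.val hg
      rw [← this, inv_smul_smul]
  have h1 := orbSum (G := G) (X := wSet p G) (R := ℂ)
    (fun x => wOm ((weightEquiv p G).symm x) z) (fun g x => by
      refine wOm_conj ?_ hz
      rw [hconj]
      simp only [Equiv.apply_symm_apply]
      exact ⟨g, rfl⟩)
  rw [nW_eq_sum]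
  have h2 : ∀ w : P179H524.Weight p G, Nat.card (normalizer (w.Q : Set G)) =
      Nat.card (MulAction.stabilizer G (weightEquiv p G w)) := by
    intro w
    refine Nat.card_congr (Equiv.subtypeEquivRight fun g => ?_)
    rw [MulAction.mem_stabilizer_iff, ← smul_pr_eq_iff, Subtype.ext_iff]
    rfl
  have h3 : ∑ w : P179H524.Weight p G, (Nat.card (normalizer (w.Q : Set G)) : ℂ) * wOm w z =
      ∑ x : wSet p G, (Nat.card (MulAction.stabilizer G x) : ℂ) *
        wOm ((weightEquiv p G).symm x) z := by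
    rw [← (weightEquiv p G).sum_comp]
    refine Finset.sum_congr rfl fun w _ => ?_
    rw [h2, Equiv.symm_apply_apply]
  rw [h3, h1, finsum_eq_sum_of_fintype]
  congr 1
  let E : Quot (P179H524.Weight.Conj (p := p) (G := G)) ≃
      MulAction.orbitRel.Quotient G (wSet p G) :=
    Quot.congr (weightEquiv p G) hconj
  rw [← E.sum_comp]
  refine Finset.sum_congr rfl fun q _ => ?_
  refine wOm_conj ?_ hz
  rw [hconj]
  simp only [Equiv.apply_symm_apply]
  have h4 : E q = Quot.mk _ (weightEquiv p G q.out) := by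
    conv_lhs => rw [← Quot.out_eq q]
    rfl
  rw [h4]
  have h5 := Quotient.exact (s := MulAction.orbitRel G (wSet p G))
    (Quotient.out_eq (s := MulAction.orbitRel G (wSet p G))
      (Quot.mk _ (weightEquiv p G q.out)))
  exact h5

theorem isCF_resNQ {Q : Subgroup G} {z : G → ℤ} (hz : IsCF z) : IsCF (resNQ Q z) :=
  isCF_push _ (QuotientGroup.mk'_surjective _) (isCF_res _ hz)

theorem isCF_ind (C : ConjClasses G) : IsCF (ind C) := by
  intro g x
  unfold ind
  have : ConjClasses.mk (g * x * g⁻¹) = ConjClasses.mk x := by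
    rw [ConjClasses.mk_eq_mk_iff_isConj]
    exact (isConj_iff.mpr ⟨g, rfl⟩).symm
  simp only [this]

theorem isIntegral_wOm [Finite G] (w : P179H524.Weight p G) {z : G → ℤ} (hz : IsCF z) :
    wOm w z ∈ integralClosure ℤ ℂ :=
  isIntegral_om w.defectZero.1 (isCF_resNQ hz)

theorem isIntegral_nW' [Finite G] {z : G → ℤ} (hz : IsCF z) :
    nW p z / Nat.card G ∈ integralClosure ℤ ℂ := by
  have hG : (Nat.card G : ℂ) ≠ 0 := by exact_mod_cast Nat.card_pos.ne'
  have := Fintype.ofFinite (Quot (P179H524.Weight.Conj (p := p) (G := G)))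
  rw [nW_eq hz, mul_div_cancel_left₀ _ hG, finsum_eq_sum_of_fintype]
  exact sum_mem fun q _ => isIntegral_wOm _ hz

end Weights

section RedC

variable {k : Type*} [Field k] (red : integralClosure ℤ ℂ →+* k)

theorem redC_of_mem {x : ℂ} (hx : x ∈ integralClosure ℤ ℂ) : redC red x = red ⟨x, hx⟩ := by
  unfold redC
  rw [dif_pos hx]

theorem redC_sum {ι : Type*} (s : Finset ι) (f : ι → ℂ) (h : ∀ i ∈ s, f i ∈ integralClosure ℤ ℂ) :
    redC red (∑ i ∈ s, f i) = ∑ i ∈ s, redC red (f i) := by
  induction s using Finset.induction_on with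
  | empty =>
    simp only [Finset.sum_empty]
    rw [redC_of_mem red (zero_mem _)]
    exact map_zero red
  | insert a s ha ih =>
    rw [Finset.sum_insert ha, Finset.sum_insert ha,
      ← ih fun i hi => h i (Finset.mem_insert_of_mem hi)]
    have h1 := h a (Finset.mem_insert_self _ _)
    have h2 : ∑ i ∈ s, f i ∈ integralClosure ℤ ℂ :=
      sum_mem fun i hi => h i (Finset.mem_insert_of_mem hi)
    rw [redC_of_mem red h1, redC_of_mem red h2, redC_of_mem red (add_mem h1 h2), ← map_add]
    rfl

end RedC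

/-- the number of classes of elements satisfying an invariant predicate -/
theorem card_quot_subtype {X : Type*} [Finite X] (r : X → X → Prop) (hr : Equivalence r)
    (P : X → Prop) (hP : ∀ a b, r a b → (P a ↔ P b)) [Fintype (Quot r)] :
    Nat.card (Quot fun a b : {x : X // P x} => r a.1 b.1) =
      ((Finset.univ : Finset (Quot r)).filter fun q => P q.out).card := by
  have hout : ∀ x : X, r (Quot.mk r x).out x := fun x => by
    have := Quot.eqvGen_exact (Quot.out_eq (Quot.mk r x))
    rwa [hr.eqvGen_iff] at this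
  rw [← Fintype.card_subtype, ← Nat.card_eq_fintype_card]
  refine Nat.card_congr ?_
  exact
    { toFun := Quot.lift (fun x => ⟨Quot.mk r x.1, (hP _ _ (hout x.1)).mpr x.2⟩)
        (fun a b hab => Subtype.ext (Quot.sound hab))
      invFun := fun q => Quot.mk _ ⟨q.1.out, q.2⟩
      left_inv := by
        rintro ⟨x⟩
        exact Quot.sound (hout x.1)
      right_inv := by
        rintro ⟨q, hq⟩
        apply Subtype.ext
        exact Quot.out_eq q }

section Main

variable (p : ℕ) [Fact p.Prime] {k : Type u} [Field k] [IsAlgClosed k] [CharP k p]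
  (red : integralClosure ℤ ℂ →+* k) {G : Type*} [Group G] [Finite G]

/-- (C9b) as a hypothesis -/
def WBStmt (B : MonoidAlgebra k G) : Prop :=
  ∀ w : P179H524.Weight p G, (if WeightInBlock red w B then 1 else 0 : k) =
      ∑ᶠ C : ConjClasses G, B.coeff C.out * redC red (om w.φ (resNQ w.Q (ind C)))

omit [Fact p.Prime] [IsAlgClosed k] [CharP k p] in
/-- (C9d) from (C9b) -/
theorem numWeightsIn_eq_of (B : MonoidAlgebra k G) (h : WBStmt p red B) :
    (numWeightsIn p red B : k) =
      ∑ᶠ C : ConjClasses G, B.coeff C.out * redC red (nW p (ind C) / Nat.card G) := by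
  have := Fintype.ofFinite (Quot (P179H524.Weight.Conj (p := p) (G := G)))
  have := Fintype.ofFinite (ConjClasses G)
  have hG : (Nat.card G : ℂ) ≠ 0 := by exact_mod_cast Nat.card_pos.ne'
  have hinv : ∀ a b : P179H524.Weight p G, a.Conj b →
      (WeightInBlock red a B ↔ WeightInBlock red b B) := by
    intro a b hab
    have h1 := h a
    have h2 := h b
    have h3 : ∀ C : ConjClasses G, om a.φ (resNQ a.Q (ind C)) = om b.φ (resNQ b.Q (ind C)) :=
      fun C => wOm_conj hab (isCF_ind C)
    simp only [h3] at h1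
    have h4 := h1.trans h2.symm
    constructor
    · intro ha
      by_contra hb
      rw [if_pos ha, if_neg hb] at h4
      exact one_ne_zero h4
    · intro hb
      by_contra ha
      rw [if_neg ha, if_pos hb] at h4
      exact zero_ne_one h4
  have h1 : (numWeightsIn p red B : k) =
      ∑ q : Quot (P179H524.Weight.Conj (p := p) (G := G)),
        (if WeightInBlock red q.out B then 1 else 0 : k) := by
    unfold numWeightsIn
    rw [card_quot_subtype (P179H524.Weight.Conj (p := p) (G := G)) (conj_equivalence p G)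
      (fun w => WeightInBlock red w B) hinv, Finset.sum_boole]
  rw [h1, finsum_eq_sum_of_fintype]
  have h2 : ∀ q : Quot (P179H524.Weight.Conj (p := p) (G := G)),
      (if WeightInBlock red q.out B then 1 else 0 : k) =
      ∑ C : ConjClasses G, B.coeff C.out * redC red (wOm q.out (ind C)) := by
    intro q
    rw [h q.out, finsum_eq_sum_of_fintype]
    rfl
  rw [Finset.sum_congr rfl fun q _ => h2 q, Finset.sum_comm]
  refine Finset.sum_congr rfl fun C _ => ?_
  rw [← Finset.mul_sum]
  congr 1
  rw [nW_eq (isCF_ind C), mul_div_cancel_left₀ _ hG, finsum_eq_sum_of_fintype,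
    redC_sum red _ _ fun q _ => isIntegral_wOm _ (isCF_ind C)]

omit [Fact p.Prime] in
theorem isIntegral_nW (C : ConjClasses G) : nW p (ind C) / Nat.card G ∈ integralClosure ℤ ℂ :=
  isIntegral_nW' (isCF_ind C)

end Main

end P179C
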