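import Vale.Agent.P179.H166.Assemble
import Vale.Agent.P179.H166.Blocks
import Vale.Agent.P179.H143.TwoMT
import Vale.Agent.P179.H905.KRL
import Vale.Agent.P179.H524.Sec3

/-!
# Theorem C
-/

namespace P179C

open Subgroup P179H524

universe u

theorem stepL (p : ℕ) [hp : Fact p.Prime] : StepL.{0} p := fun _ _ _ z hz =>
  KR_L_of p (fun _ y hy => nTr_modEq p y hy) z hz

/-- (C8) -/
theorem main_fun (p : ℕ) [hp : Fact p.Prime] (O : ValuationSubring ℂ)
    [hO : CharP (IsLocalRing.ResidueField O) p] {G : Type} [Group G] [Finite G] (z : G → ℤ)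
    (hz : IsCF z) (hab : Zab p z) : Cong O (Nat.card G) (nL p z) (nW p z) :=
  main_fun' p O (stepL p) (fun _ _ _ z hz hz' => sec_cong p O z hz hz')
    (fun _ _ _ z hz hz' => dz_sing p O z hz hz') z hz hab

/-- **Theorem C.** The blockwise Alperin weight conjecture modulo `p` for blocks with abelian
defect groups. -/
theorem theoremC (p : ℕ) [hp : Fact p.Prime] {k : Type u} [Field k] [IsAlgClosed k] [CharP k p]
    (red : integralClosure ℤ ℂ →+* k) {G : Type} [Group G] [Finite G]
    (B : MonoidAlgebra k G) (hB : IsBlock B) (D : Subgroup G)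
    (hD : IsDefectGroup B D) (hab : ∀ a ∈ D, ∀ b ∈ D, a * b = b * a) :
    numSimpleIn B ≡ numWeightsIn p red B [MOD p] :=
  theoremC_of p red (stepL p) (fun O _ _ _ _ z hz hz' => sec_cong p O z hz hz')
    (fun O _ _ _ _ z hz hz' => dz_sing p O z hz hz') (fun _ _ _ => blockHomStmt)
    (fun _ _ _ => homBlockStmt) (fun _ _ _ => charBlockStmt) B hB D hD hab

end P179C
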