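import Vale.Agent.P179.H166.Z8

/-!
# The Knörr–Robinson sum of a block
-/

namespace P179B

open Subgroup P179H524

/-- A nonempty normal `p`-chain of `G`: a nonempty finite set of nontrivial `p`-subgroups of `G`,
any two of which are comparable and normalise each other. -/
def IsNormalChain (p : ℕ) {G : Type*} [Group G] (s : Finset (Subgroup G)) : Prop :=
  s.Nonempty ∧ (∀ Q ∈ s, IsPGroup p Q ∧ Q ≠ ⊥) ∧
    ∀ Q ∈ s, ∀ R ∈ s, (Q ≤ R ∨ R ≤ Q) ∧ R ≤ normalizer (Q : Set G)

/-- The nonempty normal `p`-chains of `G`. -/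
abbrev NChain (p : ℕ) (G : Type*) [Group G] := {s : Finset (Subgroup G) // IsNormalChain p s}

/-- Two normal chains are conjugate in `G`. -/
def NChain.Conj {p : ℕ} {G : Type*} [Group G] (s t : NChain p G) : Prop :=
  ∃ g : G, ∀ Q : Subgroup G, Q ∈ s.1 ↔ Q.map (MulAut.conj g).toMonoidHom ∈ t.1

/-- The stabiliser `G_s` of a chain `s`: the elements normalising all its members. -/
def chainStab {G : Type*} [Group G] (s : Finset (Subgroup G)) : Subgroup G :=
  ⨅ Q ∈ s, normalizer (Q : Set G)

/-- The number of isomorphism classes of simple `kH`-modules which lie in blocks `b` of the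
subgroup `H` with `b^G = B`. -/
noncomputable def numSimpleOver {k : Type*} [Field k] {G : Type} [Group G] (H : Subgroup G)
    (B : MonoidAlgebra k G) : ℕ :=
  Nat.card (Quot fun a a' : {a : IrrRep k H // ∃ b : MonoidAlgebra k H, IsBlock b ∧ InBlock a b ∧
    InducesTo b B} => IrrRep.Iso a.1 a'.1)

/-- The Knörr–Robinson sum `l(B) + ∑_s (-1)^|s| l(B_s)`: `s` runs over representatives of the
`G`-classes of nonempty normal `p`-chains, and `l(B_s)` is the number of the simple
`kG_s`-modules in blocks `b` with `b^G = B`. -/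
noncomputable def krSum (p : ℕ) {k : Type*} [Field k] {G : Type} [Group G]
    (B : MonoidAlgebra k G) : ℤ :=
  numSimpleIn B + ∑ᶠ c : Quot (NChain.Conj (p := p) (G := G)),
    (-1) ^ c.out.1.card * (numSimpleOver (chainStab c.out.1) B : ℤ)

/-- The Knörr–Robinson congruence for the `p`-blocks with nontrivial defect groups of the finite
groups in `𝒞`. -/
def KRMod (p : ℕ) (k : Type*) [Field k] (𝒞 : ∀ (G : Type) [Group G], Prop) : Prop :=
  ∀ (G : Type) [Group G] [Finite G], 𝒞 G → ∀ B : MonoidAlgebra k G, IsBlock B →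
    ∀ D : Subgroup G, IsDefectGroup B D → D ≠ ⊥ → (p : ℤ) ∣ krSum p B

/-- The Knörr–Robinson congruence for the `p`-blocks whose defect groups are not good, of the
finite groups in `𝒞` without nontrivial normal `p`-subgroups. -/
def KRModExc (p : ℕ) (k : Type*) [Field k] (𝒞 : ∀ (G : Type) [Group G], Prop) : Prop :=
  ∀ (G : Type) [Group G] [Finite G], 𝒞 G → (∀ R : Subgroup G, R.Normal → IsPGroup p R → R = ⊥) →
    ∀ B : MonoidAlgebra k G, IsBlock B → ∀ D : Subgroup G, IsDefectGroup B D →
      ¬ GoodSection p D → (p : ℤ) ∣ krSum p B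

end P179B
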