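import Vale.Agent.P179.H166.PPClass

/-!
# Sufficient conditions for the hypothesis of Theorem C++
-/

namespace P179C

open Subgroup

theorem noTw_two_of {D : Type} [Group D]
    (h : ∀ (H : Subgroup D) (K : Type) [Group K] (f : H →* K), Function.Surjective f →
      ∀ k c d : K, orderOf k = 8 → c * k * c⁻¹ = k ^ 3 → d * k * d⁻¹ = k ^ 5 → False) :
    NoTw 2 D := by
  intro H K _ f hf k hk
  rw [if_pos rfl] at hk
  by_contra hcon
  push Not at hcon
  obtain ⟨c, hc⟩ := isConj_iff.mp (hcon 3 (by decide))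
  obtain ⟨d, hd⟩ := isConj_iff.mp (hcon 5 (by decide))
  exact h H K f hf k c d hk hc hd

theorem noTw_three_of {D : Type} [Group D]
    (h : ∀ (H : Subgroup D) (K : Type) [Group K] (f : H →* K), Function.Surjective f →
      ∀ k c : K, orderOf k = 9 → c * k * c⁻¹ = k ^ 4 → False) :
    NoTw 3 D := by
  intro H K _ f hf k hk
  rw [if_neg (by decide)] at hk
  by_contra hcon
  push Not at hcon
  obtain ⟨c, hc⟩ := isConj_iff.mp (hcon 4 (by decide))
  exact h H K f hf k c hk hc

/-- The explicit form of the hypothesis, `p = 2`. -/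
theorem noTw_two_of_quot {D : Type} [Group D]
    (h : ∀ (H : Subgroup D) (N : Subgroup H) [N.Normal] (x : H ⧸ N), orderOf x = 8 →
      ∃ e, Odd e ∧ ¬ IsConj x (x ^ e)) : NoTw 2 D := by
  intro H K _ f hf k hk
  rw [if_pos rfl] at hk
  let φ := QuotientGroup.quotientKerEquivOfSurjective f hf
  obtain ⟨x, rfl⟩ := φ.surjective k
  rw [MulEquiv.orderOf_eq] at hk
  obtain ⟨e, he, hx⟩ := h H f.ker x hk
  refine ⟨e, ?_, fun hc => hx ?_⟩
  · obtain ⟨m, rfl⟩ := he
    change (2 * m + 1) % 2 = 1 % 2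
    omega
  · rw [← map_pow] at hc
    have := (MonoidHom.map_isConj φ.symm.toMonoidHom hc)
    simpa using this

/-- The explicit form of the hypothesis, `p = 3`. -/
theorem noTw_three_of_quot {D : Type} [Group D]
    (h : ∀ (H : Subgroup D) (N : Subgroup H) [N.Normal] (x : H ⧸ N), orderOf x = 9 →
      ¬ IsConj x (x ^ 4)) : NoTw 3 D := by
  intro H K _ f hf k hk
  rw [if_neg (by decide)] at hk
  let φ := QuotientGroup.quotientKerEquivOfSurjective f hf
  obtain ⟨x, rfl⟩ := φ.surjective k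
  rw [MulEquiv.orderOf_eq] at hk
  refine ⟨4, by decide, fun hc => h H f.ker x hk ?_⟩
  rw [← map_pow] at hc
  have := (MonoidHom.map_isConj φ.symm.toMonoidHom hc)
  simpa using this

section core

variable {K : Type*} [Group K]

theorem pow_ne_one_of_order {k : K} {n m : ℕ} (hk : orderOf k = n) (hm : ¬ n ∣ m) : k ^ m ≠ 1 := by
  intro h
  exact hm (hk ▸ orderOf_dvd_of_pow_eq_one h)

theorem core_two (A : Subgroup K) (hab : ∀ a ∈ A, ∀ b ∈ A, a * b = b * a)
    (hidx : ∀ x y, x ∉ A → y ∉ A → x * y⁻¹ ∈ A) (k c d : K) (hk : orderOf k = 8)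
    (hc : c * k * c⁻¹ = k ^ 3) (hd : d * k * d⁻¹ = k ^ 5) : False := by
  have h2 : k ^ 2 ≠ 1 := pow_ne_one_of_order hk (by decide)
  have h4 : k ^ 4 ≠ 1 := pow_ne_one_of_order hk (by decide)
  by_cases hkA : k ∈ A
  · have hcA : c ∉ A := by
      intro h
      rw [hab c h k hkA, mul_inv_cancel_right] at hc
      apply h2
      have : k ^ 2 * k = 1 * k := by rw [← pow_succ, one_mul]; exact hc.symm
      exact mul_right_cancel this
    have hdA : d ∉ A := by
      intro h
      rw [hab d h k hkA, mul_inv_cancel_right] at hd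
      apply h4
      have : k ^ 4 * k = 1 * k := by rw [← pow_succ, one_mul]; exact hd.symm
      exact mul_right_cancel this
    have ha := hidx c d hcA hdA
    have e1 : c * k * c⁻¹ = (c * d⁻¹) * (d * k * d⁻¹) * (c * d⁻¹)⁻¹ := by group
    rw [e1, hd, hab _ ha _ (pow_mem hkA 5), mul_inv_cancel_right] at hc
    apply h2
    have : k ^ 2 * k ^ 3 = 1 * k ^ 3 := by rw [← pow_add, one_mul]; exact hc
    exact mul_right_cancel this
  · have hk' : k⁻¹ ∉ A := fun h => hkA (by simpa using inv_mem h)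
    have hk2 : k ^ 2 ∈ A := by
      have := hidx k k⁻¹ hkA hk'
      rw [inv_inv] at this
      rw [pow_two]; exact this
    have key : c * k ^ 2 * c⁻¹ = k ^ 2 := by
      by_cases hcA : c ∈ A
      · rw [hab c hcA _ hk2, mul_inv_cancel_right]
      · have ha := hidx c k hcA hkA
        have e1 : c * k ^ 2 * c⁻¹ = (c * k⁻¹) * k ^ 2 * (c * k⁻¹)⁻¹ := by group
        rw [e1, hab _ ha _ hk2, mul_inv_cancel_right]
    have h6 : c * k ^ 2 * c⁻¹ = k ^ 6 := by
      rw [← conj_pow, hc, ← pow_mul]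
    rw [key] at h6
    apply h4
    have : k ^ 4 * k ^ 2 = 1 * k ^ 2 := by rw [← pow_add, one_mul]; exact h6.symm
    exact mul_right_cancel this

theorem core_exp4 (A : Subgroup K) (hab : ∀ a ∈ A, ∀ b ∈ A, a * b = b * a)
    (hexp : ∀ x, x ∉ A → x ^ 4 = 1) (k d : K) (hk : orderOf k = 8)
    (hd : d * k * d⁻¹ = k ^ 5) : False := by
  have h4 : k ^ 4 ≠ 1 := pow_ne_one_of_order hk (by decide)
  have h8 : k ^ 8 = 1 := hk ▸ pow_orderOf_eq_one k
  by_cases hkA : k ∈ A
  · have hdA : d ∉ A := by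
      intro h
      rw [hab d h k hkA, mul_inv_cancel_right] at hd
      apply h4
      have : k ^ 4 * k = 1 * k := by rw [← pow_succ, one_mul]; exact hd.symm
      exact mul_right_cancel this
    have hkd : k * d ∉ A := by
      intro h
      apply hdA
      have := mul_mem (inv_mem hkA) h
      rwa [inv_mul_cancel_left] at this
    have h1 := hexp d hdA
    have h2 := hexp _ hkd
    have e0 : d * k = k ^ 5 * d := by rw [← hd]; group
    have e1 : ∀ n : ℕ, d * k ^ n = k ^ (5 * n) * d := by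
      intro n
      have : d * k ^ n * d⁻¹ = k ^ (5 * n) := by rw [← conj_pow, hd, ← pow_mul]
      rw [← this]; group
    have e2 : (k * d) ^ 4 = k ^ (1 + 5 + 25 + 125) * d ^ 4 := by
      have a1 : (k * d) ^ 4 = k * (d * k) * (d * k) * (d * k) * d := by
        simp only [pow_succ, pow_zero]; group
      rw [a1, e0]
      have a2 : k * (k ^ 5 * d) * (k ^ 5 * d) * (k ^ 5 * d) * d =
          k * k ^ 5 * (d * k ^ 5) * (d * k ^ 5) * d * d := by group
      rw [a2, e1]
      have a3 : k * k ^ 5 * (k ^ (5 * 5) * d) * (k ^ (5 * 5) * d) * d * d =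
          k * k ^ 5 * k ^ (5 * 5) * (d * k ^ (5 * 5)) * d * d * d := by group
      have a4 : d ^ 4 = d * d * d * d := by simp only [pow_succ, pow_zero, one_mul]
      rw [a3, e1, a4]
      group
    rw [e2, h1, mul_one] at h2
    exact pow_ne_one_of_order hk (by decide) h2
  · exact h4 (hexp k hkA)

theorem core_exp3 (A : Subgroup K) (hab : ∀ a ∈ A, ∀ b ∈ A, a * b = b * a)
    (hexp : ∀ x, x ∉ A → x ^ 3 = 1) (k d : K) (hk : orderOf k = 9)
    (hd : d * k * d⁻¹ = k ^ 4) : False := by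
  have h3 : k ^ 3 ≠ 1 := pow_ne_one_of_order hk (by decide)
  by_cases hkA : k ∈ A
  · have hdA : d ∉ A := by
      intro h
      rw [hab d h k hkA, mul_inv_cancel_right] at hd
      apply h3
      have : k ^ 3 * k = 1 * k := by rw [← pow_succ, one_mul]; exact hd.symm
      exact mul_right_cancel this
    have hkd : k * d ∉ A := by
      intro h
      apply hdA
      have := mul_mem (inv_mem hkA) h
      rwa [inv_mul_cancel_left] at this
    have h1 := hexp d hdA
    have h2 := hexp _ hkd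
    have e1 : ∀ n : ℕ, d * k ^ n = k ^ (4 * n) * d := by
      intro n
      have : d * k ^ n * d⁻¹ = k ^ (4 * n) := by rw [← conj_pow, hd, ← pow_mul]
      rw [← this]; group
    have e0 : d * k = k ^ 4 * d := by rw [← hd]; group
    have e2 : (k * d) ^ 3 = k ^ (1 + 4 + 16) * d ^ 3 := by
      have a1 : (k * d) ^ 3 = k * (d * k) * (d * k) * d := by
        simp only [pow_succ, pow_zero]; group
      rw [a1, e0]
      have a2 : k * (k ^ 4 * d) * (k ^ 4 * d) * d = k * k ^ 4 * (d * k ^ 4) * d * d := by group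
      have a4 : d ^ 3 = d * d * d := by simp only [pow_succ, pow_zero, one_mul]
      rw [a2, e1, a4]
      group
    rw [e2, h1, mul_one] at h2
    exact pow_ne_one_of_order hk (by decide) h2
  · exact h3 (hexp k hkA)

end core

section crit

variable {D : Type} [Group D]

/-- an abelian subgroup of index `2` -/
theorem noTw_of_index_two (A : Subgroup D) (hA : A.index = 2)
    (hab : ∀ a ∈ A, ∀ b ∈ A, a * b = b * a) : NoTw 2 D := by
  refine noTw_two_of fun H K _ f hf k c d hk hc hd => ?_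
  refine core_two ((A.subgroupOf H).map f) ?_ ?_ k c d hk hc hd
  · rintro _ ⟨a, ha, rfl⟩ _ ⟨b, hb, rfl⟩
    rw [← map_mul, ← map_mul]
    congr 1
    exact Subtype.ext (hab _ ha _ hb)
  · intro x y hx hy
    obtain ⟨x, rfl⟩ := hf x
    obtain ⟨y, rfl⟩ := hf y
    rw [← map_inv, ← map_mul]
    refine ⟨_, ?_, rfl⟩
    have hx' : (x : D) ∉ A := fun h => hx ⟨x, h, rfl⟩
    have hy' : (y : D) ∉ A := fun h => hy ⟨y, h, rfl⟩
    change ((x : D) * (y : D)⁻¹) ∈ A
    rw [mul_mem_iff_of_index_two hA]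
    exact ⟨fun h => absurd h hx', fun h => absurd (by simpa using inv_mem h) hy'⟩

/-- exponent `4` outside an abelian subgroup -/
theorem noTw_of_exp4 (A : Subgroup D) (hab : ∀ a ∈ A, ∀ b ∈ A, a * b = b * a)
    (hexp : ∀ x, x ∉ A → x ^ 4 = 1) : NoTw 2 D := by
  refine noTw_two_of fun H K _ f hf k c d hk hc hd => ?_
  refine core_exp4 ((A.subgroupOf H).map f) ?_ ?_ k d hk hd
  · rintro _ ⟨a, ha, rfl⟩ _ ⟨b, hb, rfl⟩
    rw [← map_mul, ← map_mul]
    congr 1
    exact Subtype.ext (hab _ ha _ hb)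
  · intro x hx
    obtain ⟨x, rfl⟩ := hf x
    have hx' : (x : D) ∉ A := fun h => hx ⟨x, h, rfl⟩
    have h1 : x ^ 4 = 1 := Subtype.ext (hexp x hx')
    rw [← map_pow, h1, map_one]

/-- exponent `3` outside an abelian subgroup -/
theorem noTw_of_exp3 (A : Subgroup D) (hab : ∀ a ∈ A, ∀ b ∈ A, a * b = b * a)
    (hexp : ∀ x, x ∉ A → x ^ 3 = 1) : NoTw 3 D := by
  refine noTw_three_of fun H K _ f hf k d hk hd => ?_
  refine core_exp3 ((A.subgroupOf H).map f) ?_ ?_ k d hk hd
  · rintro _ ⟨a, ha, rfl⟩ _ ⟨b, hb, rfl⟩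
    rw [← map_mul, ← map_mul]
    congr 1
    exact Subtype.ext (hab _ ha _ hb)
  · intro x hx
    obtain ⟨x, rfl⟩ := hf x
    have hx' : (x : D) ∉ A := fun h => hx ⟨x, h, rfl⟩
    have h1 : x ^ 3 = 1 := Subtype.ext (hexp x hx')
    rw [← map_pow, h1, map_one]

/-- nilpotency class at most `2` -/
theorem noTw_of_class_two (h : commutator D ≤ center D) : NoTw 2 D := by
  refine noTw_two_of fun H K _ f hf k c d hk hc hd => ?_
  have h4 : k ^ 4 ≠ 1 := pow_ne_one_of_order hk (by decide)
  obtain ⟨k, rfl⟩ := hf k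
  obtain ⟨c, rfl⟩ := hf c
  have h1 : f (c * k * c⁻¹ * k⁻¹) = f k ^ 2 := by
    rw [map_mul, map_mul, map_mul, map_inv, map_inv, hc]
    rw [pow_succ, mul_inv_cancel_right]
  have h2 : ((c * k * c⁻¹ * k⁻¹ : H) : D) ∈ center D := by
    apply h
    have := commutator_mem_commutator (mem_top (c : D)) (mem_top (k : D))
    exact this
  have h3 : c * (c * k * c⁻¹ * k⁻¹) = (c * k * c⁻¹ * k⁻¹) * c :=
    Subtype.ext ((Subgroup.mem_center_iff.mp h2) c)
  have h5 := congrArg f h3
  rw [map_mul, map_mul _ _ c, h1] at h5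
  have h6 : f c * f k ^ 2 * (f c)⁻¹ = f k ^ 6 := by
    rw [← conj_pow, hc, ← pow_mul]
  rw [h5, mul_inv_cancel_right] at h6
  apply h4
  have : f k ^ 4 * f k ^ 2 = 1 * f k ^ 2 := by rw [← pow_add, one_mul]; exact h6.symm
  exact mul_right_cancel this

/-- commutator subgroup of exponent `2` -/
theorem noTw_of_comm_exp (h : ∀ x ∈ commutator D, x ^ 2 = 1) : NoTw 2 D := by
  refine noTw_two_of fun H K _ f hf k c d hk hc hd => ?_
  have h4 : k ^ 4 ≠ 1 := pow_ne_one_of_order hk (by decide)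
  obtain ⟨k, rfl⟩ := hf k
  obtain ⟨c, rfl⟩ := hf c
  have h1 : f (c * k * c⁻¹ * k⁻¹) = f k ^ 2 := by
    rw [map_mul, map_mul, map_mul, map_inv, map_inv, hc]
    rw [pow_succ, mul_inv_cancel_right]
  have h2 : (c * k * c⁻¹ * k⁻¹ : H) ^ 2 = 1 := by
    apply Subtype.ext
    refine h _ ?_
    exact commutator_mem_commutator (mem_top (c : D)) (mem_top (k : D))
  apply h4
  have h3 := congrArg f h2
  rwa [map_pow, h1, ← pow_mul, map_one] at h3

/-- order at most `16` -/
theorem noTw_of_card [Finite D] (h : Nat.card D ≤ 16) : NoTw 2 D := by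
  refine noTw_two_of fun H K _ f hf k c d hk hc hd => ?_
  have hK : Finite K := Finite.of_surjective f hf
  have h1 : Nat.card K ≤ 16 :=
    (Nat.card_le_card_of_surjective f hf).trans ((card_le_card_group H).trans h)
  refine core_two (zpowers k) ?_ ?_ k c d hk hc hd
  · rintro _ ⟨a, rfl⟩ _ ⟨b, rfl⟩
    exact (Commute.refl k).zpow_zpow a b
  · intro x y hx hy
    have h2 : Nat.card (zpowers k) * (zpowers k).index = Nat.card K := card_mul_index _
    rw [Nat.card_zpowers, hk] at h2
    have h3 : (zpowers k).index ≤ 2 := by omega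
    have h4 : (zpowers k).index ≠ 1 := by
      intro h
      rw [index_eq_one] at h
      exact hx (h ▸ mem_top x)
    have h5 : (zpowers k).index ≠ 0 := index_ne_zero_of_finite
    have h6 : (zpowers k).index = 2 := by omega
    rw [mul_mem_iff_of_index_two h6]
    exact ⟨fun h => absurd h hx, fun h => absurd (by simpa using inv_mem h) hy⟩

end crit

end P179C
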