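import Vale.Agent.P179.H143.CBridge
import Vale.Agent.P179.H166.PPCrit

/-!
# The final form of Theorem C++
-/

namespace P179C

open Subgroup P179H524 P179A MonoidAlgebra

universe u

theorem numSimpleIn_pos {k : Type u} [Field k] [IsAlgClosed k] {G : Type} [Group G] [Finite G]
    (B : MonoidAlgebra k G) (hB : IsBlock B) : 0 < numSimpleIn B := by
  obtain ⟨r, d, hd, f, hf, hker⟩ := exists_wedderburn k G
  obtain ⟨l, hl⟩ := C2.exists_scalar f hf B hB.1
  rw [C2.numSimpleIn_eq_card f hf hker B l hl]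
  obtain ⟨a, ha⟩ := exists_inBlock B hB
  have hne : ∃ i, l i = 1 := by
    have := a.2
    obtain ⟨i, hi⟩ := exists_iso_compRep f hf hker a.1.2
    have hi' : IrrRep.Iso (compIrr f hf i) a := hi
    exact ⟨i, (C2.inBlock_iff f hf B l hl i).1
      (C2.inBlock_of_iso (iso_equivalence.symm hi') B ha)⟩
  obtain ⟨i, hi⟩ := hne
  have : Nonempty {i : Fin r // l i = 1} := ⟨⟨i, hi⟩⟩
  exact Nat.card_pos

end P179C

namespace P179B

open Subgroup P179H524

universe u

/-- No section `H/N` of `D` contains an element of order `8` conjugate in `H/N` to all its odd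
powers. -/
def NoRational8 (D : Type) [Group D] : Prop :=
  ∀ (H : Subgroup D) (N : Subgroup H) [N.Normal] (x : H ⧸ N), orderOf x = 8 →
    ∃ e, Odd e ∧ ¬ IsConj x (x ^ e)

/-- No section `H/N` of `D` contains an element `x` of order `9` conjugate in `H/N` to `x^4`. -/
def NoTwisted9 (D : Type) [Group D] : Prop :=
  ∀ (H : Subgroup D) (N : Subgroup H) [N.Normal] (x : H ⧸ N), orderOf x = 9 → ¬ IsConj x (x ^ 4)

/-- `D` has an abelian subgroup of index `2`. -/
def AbelianIndexTwo (D : Type) [Group D] : Prop :=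
  ∃ A : Subgroup D, A.index = 2 ∧ ∀ a ∈ A, ∀ b ∈ A, a * b = b * a

/-- `D` has an abelian subgroup outside which `x^n = 1`. -/
def ExpOutsideAbelian (n : ℕ) (D : Type) [Group D] : Prop :=
  ∃ A : Subgroup D, (∀ x, x ∉ A → x ^ n = 1) ∧ ∀ a ∈ A, ∀ b ∈ A, a * b = b * a

/-- The explicit families of `2`-groups. -/
def Family2 (D : Type) [Group D] : Prop :=
  AbelianIndexTwo D ∨ ExpOutsideAbelian 4 D ∨ commutator D ≤ center D ∨
    (∀ x ∈ commutator D, x ^ 2 = 1) ∨ Nat.card D ≤ 16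

/-- The defect groups of the theorem. -/
def AllowedDefect (p : ℕ) (D : Type) [Group D] : Prop :=
  (∀ a b : D, a * b = b * a) ∨ (p = 2 ∧ (NoRational8 D ∨ Family2 D)) ∨
    (p = 3 ∧ (NoTwisted9 D ∨ ExpOutsideAbelian 3 D))

theorem noTw_of {p : ℕ} (D : Type) [Group D] [Finite D]
    (h : (p = 2 ∧ (NoRational8 D ∨ Family2 D)) ∨ (p = 3 ∧ (NoTwisted9 D ∨ ExpOutsideAbelian 3 D))) :
    (p = 2 ∨ p = 3) ∧ P179C.NoTw p D := by
  rcases h with ⟨rfl, h | ⟨A, h1, h2⟩ | ⟨A, h1, h2⟩ | h | h | h⟩ | ⟨rfl, h | ⟨A, h1, h2⟩⟩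
  · exact ⟨Or.inl rfl, P179C.noTw_two_of_quot h⟩
  · exact ⟨Or.inl rfl, P179C.noTw_of_index_two A h1 h2⟩
  · exact ⟨Or.inl rfl, P179C.noTw_of_exp4 A h2 h1⟩
  · exact ⟨Or.inl rfl, P179C.noTw_of_class_two h⟩
  · exact ⟨Or.inl rfl, P179C.noTw_of_comm_exp h⟩
  · exact ⟨Or.inl rfl, P179C.noTw_of_card h⟩
  · exact ⟨Or.inr rfl, P179C.noTw_three_of_quot h⟩
  · exact ⟨Or.inr rfl, P179C.noTw_of_exp3 A h2 h1⟩

/-- **Theorem C++.** -/
theorem theoremCpp (p : ℕ) [hp : Fact p.Prime] {k : Type u} [Field k] [IsAlgClosed k] [CharP k p]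
    (red : integralClosure ℤ ℂ →+* k) {G : Type} [Group G] [Finite G]
    (B : MonoidAlgebra k G) (hB : IsBlock B) (D : Subgroup G)
    (hD : IsDefectGroup B D)
    (h : AllowedDefect p D) :
    numSimpleIn B ≡ numWeightsIn p red B [MOD p] ∧
      (numWeightsIn p red B ≤ p → numWeightsIn p red B ≤ numSimpleIn B) ∧
      (numSimpleIn B < p → numSimpleIn B ≤ numWeightsIn p red B) := by
  have h1 : numSimpleIn B ≡ numWeightsIn p red B [MOD p] := by
    rw [numSimpleIn_eq, numWeightsIn_eq]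
    refine P179C.theoremCpp p red B hB D hD (h.imp (fun h a ha b hb => ?_) (noTw_of D))
    exact congrArg Subtype.val (h ⟨a, ha⟩ ⟨b, hb⟩)
  have h2 : 0 < numSimpleIn B := by
    rw [numSimpleIn_eq]
    exact P179C.numSimpleIn_pos B hB
  refine ⟨h1, fun h3 => ?_, fun h3 => ?_⟩
  · by_contra hlt
    push Not at hlt
    have h4 := (Nat.modEq_iff_dvd' hlt.le).mp h1
    have h5 := Nat.le_of_dvd (Nat.sub_pos_of_lt hlt) h4
    omega
  · by_contra hlt
    push Not at hlt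
    have h4 := (Nat.modEq_iff_dvd' hlt.le).mp h1.symm
    have h5 := Nat.le_of_dvd (Nat.sub_pos_of_lt hlt) h4
    omega

end P179B
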