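import Vale.Agent.P179.H166.Y5
import Vale.Agent.P179.H166.PPFinal
import Vale.Agent.P179.H526.KDef

/-!
# The final form: congruences modulo `p`, and modulo `9` for `p = 3`
-/

namespace P179B

open Subgroup P179H524

universe u

/-- `K` has an abelian subgroup of index at most `3`. -/
def AbelianIndexThree (K : Type) [Group K] : Prop :=
  ∃ A : Subgroup K, A.index ≤ 3 ∧ ∀ a ∈ A, ∀ b ∈ A, a * b = b * a

/-- Every section `K = H/N` of `D` has an abelian subgroup of index at most `3` or no element `x`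
of order `9` with `x ^ 3` central in `K` and `x` conjugate in `K` to `x ^ 4`. -/
def Sections3 (D : Type) [Group D] : Prop :=
  ∀ (H : Subgroup D) (N : Subgroup H) [N.Normal],
    AbelianIndexThree (H ⧸ N) ∨
      ∀ x : H ⧸ N, orderOf x = 9 → x ^ 3 ∈ center (H ⧸ N) → ¬ IsConj x (x ^ 4)

/-- Explicit families of `3`-groups. -/
def Family3 (D : Type) [Group D] : Prop :=
  AbelianIndexThree D ∨ ExpOutsideAbelian 3 D ∨ NoTwisted9 D ∨ Nat.card D ≤ 81

/-- The defect groups of the theorem. -/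
def AllowedDefectGroup (p : ℕ) (D : Type) [Group D] : Prop :=
  (∀ a b : D, a * b = b * a) ∨ (p = 2 ∧ (NoRational8 D ∨ Family2 D)) ∨
    (p = 3 ∧ (Sections3 D ∨ Family3 D))

/-- `l` and `w` agree modulo `m`, and what follows for small values. -/
def AgreeMod (m l w : ℕ) : Prop := l ≡ w [MOD m] ∧ (w ≤ m → w ≤ l) ∧ (l < m → l ≤ w)

theorem agreeMod_of {m l w : ℕ} (h1 : l ≡ w [MOD m]) (h2 : 0 < l) : AgreeMod m l w := by
  refine ⟨h1, fun h3 => ?_, fun h3 => ?_⟩
  · by_contra hlt
    push Not at hlt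
    have h4 := (Nat.modEq_iff_dvd' hlt.le).mp h1
    have h5 := Nat.le_of_dvd (Nat.sub_pos_of_lt hlt) h4
    omega
  · by_contra hlt
    push Not at hlt
    have h4 := (Nat.modEq_iff_dvd' hlt.le).mp h1.symm
    have h5 := Nat.le_of_dvd (Nat.sub_pos_of_lt hlt) h4
    omega

theorem mix3_of_sections {D : Type} [Group D] (h : Sections3 D) : P179C.Mix3 D := by
  intro H K _ f hf
  let φ := QuotientGroup.quotientKerEquivOfSurjective f hf
  rcases h H f.ker with ⟨A, hi, hA⟩ | h
  · left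
    refine ⟨A.map φ.toMonoidHom, ?_, ?_⟩
    · rintro _ ⟨a, ha, rfl⟩ _ ⟨b, hb, rfl⟩
      rw [← map_mul, ← map_mul, hA a ha b hb]
    · have h1 : (A.map φ.toMonoidHom).index = A.index := index_map_equiv A φ
      rw [h1]
      exact hi
  · right
    intro k c hk hk3 hc
    obtain ⟨x, rfl⟩ := φ.surjective k
    rw [MulEquiv.orderOf_eq] at hk
    refine h x hk ?_ ?_
    · rw [Subgroup.mem_center_iff] at hk3 ⊢
      intro y
      apply φ.injective
      rw [map_mul, map_mul, map_pow]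
      exact hk3 (φ y)
    · have h1 : IsConj (φ x) (φ x ^ 4) := isConj_iff.2 ⟨c, hc⟩
      rw [← map_pow] at h1
      have := (MonoidHom.map_isConj φ.symm.toMonoidHom h1)
      simpa using this

theorem mixClass_of {p : ℕ} {G : Type} [Group G] [Finite G] {D : Subgroup G} (hDp : IsPGroup p D)
    (h : AllowedDefectGroup p D) : P179C.MixClass p G D := by
  rcases h with h | ⟨rfl, h⟩ | ⟨rfl, h | ⟨A, hi, hA⟩ | h | h | h⟩
  · exact Or.inl (Or.inl fun a ha b hb => congrArg Subtype.val (h ⟨a, ha⟩ ⟨b, hb⟩))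
  · exact Or.inl (Or.inr (noTw_of D (Or.inl ⟨rfl, h⟩)))
  · exact Or.inr ⟨rfl, mix3_of_sections h⟩
  · exact Or.inr ⟨rfl, P179C.mix3_of_index A hA hi⟩
  · exact Or.inl (Or.inr (noTw_of D (Or.inr ⟨rfl, Or.inr h⟩)))
  · exact Or.inl (Or.inr (noTw_of D (Or.inr ⟨rfl, Or.inl h⟩)))
  · exact Or.inr ⟨rfl, P179C.mix3_of_card hDp h⟩

/-- **Theorem C, final form.** -/
theorem theoremFinal (p : ℕ) [hp : Fact p.Prime] {k : Type u} [Field k] [IsAlgClosed k] [CharP k p]
    (red : integralClosure ℤ ℂ →+* k) {G : Type} [Group G] [Finite G]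
    (B : MonoidAlgebra k G) (hB : IsBlock B) (D : Subgroup G)
    (hD : IsDefectGroup B D) :
    (AllowedDefectGroup p D → AgreeMod p (numSimpleIn B) (numWeightsIn p red B)) ∧
      (p = 3 → (∀ a b : D, a * b = b * a) →
        AgreeMod 9 (numSimpleIn B) (numWeightsIn p red B)) := by
  have := Fintype.ofFinite G
  obtain ⟨hDp, -⟩ := P179Y.exists_BP_of_block (p := p) B hB D hD
  have h2 : 0 < numSimpleIn B := by
    rw [numSimpleIn_eq]
    exact P179C.numSimpleIn_pos B hB
  constructor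
  · intro h
    refine agreeMod_of ?_ h2
    rw [numSimpleIn_eq, numWeightsIn_eq]
    exact P179C.theoremMix p red B hB D hD (mixClass_of hDp h)
  · rintro rfl hab
    refine agreeMod_of ?_ h2
    rw [numSimpleIn_eq, numWeightsIn_eq]
    exact P179C.theoremC9 red B hB D hD
      fun a ha b hb => congrArg Subtype.val (hab ⟨a, ha⟩ ⟨b, hb⟩)

end P179B
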