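import Vale.Agent.P179.H166.Z9
import Vale.Agent.P179.H166.Y6
import Vale.Agent.P179.H143.RDefs

/-!
# The unit trick, 8: reduction to exceptional defect groups
-/

namespace P179B

open Subgroup P179H524

universe u

/-- The criterion with characters. `p = 2`: there is a homomorphism `χ` from `K` to the integers
modulo `2` with value `1` at each `k` with `k ^ 4 = v` conjugate to all its odd powers, and with
value `0` at each `k` with `k ^ 2 = v`; `p = 3`: there is a homomorphism `χ` from `K` to the
integers modulo `3` with value `1` at each `k` with `k ^ 3 = v` conjugate to `k ^ 4`. -/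
def CharCrit (p : ℕ) (K : Type) [Group K] (v : K) : Prop :=
  (p = 2 ∧ ∃ χ : K →* Multiplicative (ZMod 2),
    (∀ k, k ^ 4 = v → (∀ e, Odd e → IsConj k (k ^ e)) → χ k = Multiplicative.ofAdd 1) ∧
      ∀ k, k ^ 2 = v → χ k = Multiplicative.ofAdd 0) ∨
  (p = 3 ∧ ∃ χ : K →* Multiplicative (ZMod 3),
    ∀ k, k ^ 3 = v → IsConj k (k ^ 4) → χ k = Multiplicative.ofAdd 1)

/-- Some element of the centre of `K` is not in the commutator subgroup, or has order `p` and
satisfies the criterion with characters. -/
def GoodCentre (p : ℕ) (K : Type) [Group K] : Prop :=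
  ∃ v ∈ center K, v ∉ commutator K ∨ (orderOf v = p ∧ CharCrit p K v)

/-- `K` is trivial, or `GoodCentre p K`, or `p = 3` and `K` has an abelian subgroup of index at
most `3`. -/
def GoodSection (p : ℕ) (K : Type) [Group K] : Prop :=
  Subsingleton K ∨ GoodCentre p K ∨ (p = 3 ∧ AbelianIndexThree K)

/-- The blockwise Alperin weight conjecture modulo `p` for the `p`-blocks whose defect groups are
not good, of the finite groups in `𝒞` without nontrivial normal `p`-subgroups. -/
def WeightConjModExc (p : ℕ) {k : Type*} [Field k] (red : integralClosure ℤ ℂ →+* k)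
    (𝒞 : ∀ (G : Type) [Group G], Prop) : Prop :=
  ∀ (G : Type) [Group G] [Finite G], 𝒞 G → (∀ R : Subgroup G, R.Normal → IsPGroup p R → R = ⊥) →
    ∀ B : MonoidAlgebra k G, IsBlock B → ∀ D : Subgroup G, IsDefectGroup B D →
      ¬ GoodSection p D → numSimpleIn B ≡ numWeightsIn p red B [MOD p]

theorem twCrit_of {p : ℕ} {K : Type} [Group K] {v : K} (hv : orderOf v = p)
    (h : CharCrit p K v) : (p = 2 ∨ p = 3) ∧ P179V.TwCrit p K v := by
  rcases h with ⟨rfl, χ, h0, h1⟩ | ⟨rfl, χ, h0⟩
  · refine ⟨Or.inl rfl, χ, ?_, fun _ => h1⟩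
    intro k hk he
    exact h0 k hk fun e he1 => he e (Nat.odd_iff.1 he1)
  · refine ⟨Or.inr rfl, χ, ?_, fun h => absurd h (by norm_num)⟩
    intro k hk he
    exact h0 k hk (he 4 rfl)

theorem newAt_of_goodCentre {G : Type} [Group G] [Finite G] [Fintype G] {p : ℕ}
    [hp : Fact p.Prime] {R : Subgroup G} (h : GoodCentre p R) : P179C.NewAt p R := by
  obtain ⟨v, hvZ, hv | ⟨hvo, hv⟩⟩ := h
  · exact P179C.newAt_of_center fun h => hv (h hvZ)
  · obtain ⟨h1, h2⟩ := twCrit_of hvo hv
    exact P179C.newAt_of_twCrit h1 hvZ hvo h2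

theorem oldAt_of_abelianIndexThree {G : Type} [Group G] [Finite G] [Fintype G] {R : Subgroup G}
    (h : AbelianIndexThree R) : P179C.OldAt 3 R := by
  obtain ⟨A, hi, hA⟩ := h
  have h3 : P179C.AbThree G R := by
    refine ⟨A.map R.subtype, ?_, ?_⟩
    · rintro _ ⟨a, ha, rfl⟩ _ ⟨b, hb, rfl⟩
      rw [← map_mul, ← map_mul, hA a ha b hb]
    · have h1 : (A.map R.subtype).relIndex R = A.index := by
        unfold relIndex
        congr 1
        exact comap_map_eq_self_of_injective R.subtype_injective A
      rw [h1]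
      exact hi
  intro g q hq hq' h0 h0' P hP hg hgP ⟨c, hc⟩
  exact P179C.AbThree.dvd g q hq hq' h0 h0' P hP hg hgP (h3.of_conj c hc)

theorem crit_of_goodSection {G : Type} [Group G] [Finite G] [Fintype G] {p : ℕ}
    [hp : Fact p.Prime] {R : Subgroup G} (h : GoodSection p R) :
    P179C.OldAt p R ∨ P179C.NewAt p R := by
  rcases h with h1 | h1 | ⟨rfl, h1⟩
  · left
    have hbot : R = ⊥ := (Subgroup.eq_bot_iff_forall R).2 fun x hx =>
      congrArg Subtype.val (Subsingleton.elim (⟨x, hx⟩ : R) 1)
    rw [hbot]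
    exact P179C.oldAt_bot
  · right
    exact newAt_of_goodCentre h1
  · left
    exact oldAt_of_abelianIndexThree h1

/-- **Reduction to blocks with defect groups which are not good.** -/
theorem weightConjMod_of_exc {p : ℕ} [hp : Fact p.Prime] {k : Type u} [Field k] [IsAlgClosed k]
    [CharP k p] {red : integralClosure ℤ ℂ →+* k} {𝒞 : ∀ (G : Type) [Group G], Prop}
    (h𝒞 : SectionClosed p 𝒞) (h : WeightConjModExc p red 𝒞) : WeightConjMod p red 𝒞 := by
  intro G _ _ hG B hB
  have hU : P179C.UnitClass p red (fun G _ _ => 𝒞 G) := by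
    refine ⟨?_, ?_, ?_, ?_⟩
    · intro G _ _ H _ hG
      exact h𝒞.1 G H hG
    · intro G _ _ R _ _ hR hG
      exact h𝒞.2 G R hR hG
    · intro G _ _ _ _ _ hG _
      exact hG
    · intro G _ _ _ R hO hR hG
      by_cases hgood : GoodSection p R
      · rcases crit_of_goodSection hgood with h1 | h1
        · exact Or.inl h1
        · exact Or.inr (Or.inl h1)
      · right; right
        intro B hB hD
        have h1 := h G hG hO B hB R hD hgood
        rwa [numSimpleIn_eq, numWeightsIn_eq] at h1
  obtain ⟨D, hD⟩ := P179R.exists_defectGroup B hB.1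
  have := P179C.theoremU hU hB hD hG
  rw [numSimpleIn_eq, numWeightsIn_eq]
  exact this

end P179B
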