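import Vale.Agent.P179.H166.KN2
import Vale.Agent.P179.H166.KNDefs
import Vale.Agent.P179.H166.Z8

/-!
# The Knörr–Robinson sum modulo `p`: the functional
-/

namespace P179N

open Subgroup Finset P179H524 P179A P179K P179R P179Y P179C MonoidAlgebra

open P179B (IsNormalChain NChain chainStab)

open scoped Classical Pointwise

universe u

section Crit

variable {p : ℕ} [hp : Fact p.Prime] {G : Type} [Group G] [Finite G] [Fintype G]

/-- the criterion `OldAt` implies `NewAt` -/
theorem newAt_of_oldAt {R : Subgroup G} (hR : IsPGroup p R) (hR1 : R ≠ ⊥) (h : OldAt p R) :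
    NewAt p R := by
  have hnt : Nontrivial R := (Subgroup.nontrivial_iff_ne_bot R).2 hR1
  have hc := hR.center_nontrivial
  have hcp : IsPGroup p (center R) := hR.to_subgroup _
  obtain ⟨n, hn, hcard⟩ := hcp.nontrivial_iff_card.1 hc
  obtain ⟨v, hv⟩ := exists_prime_orderOf_dvd_card' (G := center R) p
    (by rw [hcard]; exact dvd_pow_self p hn.ne')
  have hv' : orderOf ((v : R) : G) = p := by
    rw [Subgroup.orderOf_coe, Subgroup.orderOf_coe, hv]
  have hv1 : ((v : R) : G) ≠ 1 := by
    intro h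
    rw [h, orderOf_one] at hv'
    exact hp.out.one_lt.ne hv'
  refine ⟨(v : R), (v : R).2, hv1, ?_, ?_⟩
  · intro a ha
    exact congrArg Subtype.val (mem_center_iff.1 v.2 ⟨a, ha⟩)
  · intro g q hq hq' hg P hPR hP hPg hvP
    refine h g q hq hq' (by rw [hg]; exact hv1) (by rw [hg, ← hv']; exact pow_orderOf_eq_one _) P
      hP hPg (by rw [hg]; exact hvP) ⟨1, fun x hx => by simpa using hPR hx⟩

variable {k : Type u} [Field k] [IsAlgClosed k] [CharP k p]

/-- the divisibility on the support of a multiple of `B` with nonzero central character -/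
theorem exists_mul_dvd {B : MonoidAlgebra k G} (hB : IsBlock B) {D : Subgroup G}
    (hD : IsDefectGroup B D) (hnew : NewAt p D) :
    ∃ c ∈ Subalgebra.center k (MonoidAlgebra k G), centralChar B c ≠ 0 ∧
      ∀ C : ConjClasses G, (B * c).coeff C.out ≠ 0 →
        ((Nat.card G * p : ℕ) : ℤ) ∣ FF p (ind C) := by
  obtain ⟨v, hv, hv1, hvc, hnew⟩ := hnew
  obtain ⟨x, l, hl, hlz, hBx, hlx, hSyl, hxreg⟩ := exists_elt_of_block (p := p) hB hD
  have hb : IsCF (fun g => B.coeff g) := (P179C.mem_center_iff _).1 hB.1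
  have hbb : conv (fun g => B.coeff g) (fun g => B.coeff g) = fun g => B.coeff g := by
    funext g
    rw [← coeff_mul_eq_conv, hB.2.1]
  have hc := mkF_mem (isCF_cls (k := k) (x * v))
  obtain ⟨n', hn', hln⟩ := BP.cls_mul hl hSyl hxreg hv hvc
  refine ⟨_, hc, ?_, fun C hC => ?_⟩
  · rw [← hlz _ (isCF_cls _), hln]
    refine mul_ne_zero ?_ hlx
    rwa [Ne, CharP.cast_eq_zero_iff k p]
  · have hy : ∀ y, ind C y ≠ 0 → conv (fun g => B.coeff g) (cls k (x * v)) y ≠ 0 := by
      intro y hy
      have h1 := out_of_ind (mul_mem hB.1 hc) hC hy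
      rw [coeff_mul_eq_conv] at h1
      simpa only [coeff_mkF] using h1
    exact FF_dvd_local (p := p) (ind C) (isCF_ind C) fun y hy' =>
      NewAt.dvd hSyl hxreg hv hvc hnew hb hbb (hy y hy')

end Crit

section Chains

variable {p : ℕ} {G : Type*} [Group G]

theorem isNormalChain_iff (s : Finset (Subgroup G)) :
    IsNormalChain p s ↔ (IsPChain p s ∧ Nml s) ∧ s.Nonempty := by
  constructor
  · rintro ⟨h1, h2, h3⟩
    refine ⟨⟨⟨h2, ?_⟩, fun Q hQ R hR => (h3 Q hQ R hR).2⟩, h1⟩
    intro Q hQ R hR _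
    exact (h3 Q hQ R hR).1
  · rintro ⟨⟨h1, h2⟩, h3⟩
    exact ⟨h3, h1.1, fun Q hQ R hR => ⟨h1.2.total (Finset.mem_coe.2 hQ) (Finset.mem_coe.2 hR),
      h2 Q hQ R hR⟩⟩

theorem nml_smul (g : G) {s : Finset (Subgroup G)} (hs : Nml s) : Nml (g • s) := by
  intro Q hQ R hR
  obtain ⟨Q', hQ', rfl⟩ := Finset.mem_smul_finset.1 hQ
  obtain ⟨R', hR', rfl⟩ := Finset.mem_smul_finset.1 hR
  intro x hx
  obtain ⟨y, hy, rfl⟩ := hx
  exact (P179H166.smul_mem_normalizer_iff (MulAut.conj g) y Q').2 (hs Q' hQ' R' hR' hy)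

theorem isNormalChain_smul (g : G) {s : Finset (Subgroup G)} (hs : IsNormalChain p s) :
    IsNormalChain p (g • s) := by
  rw [isNormalChain_iff] at hs ⊢
  refine ⟨⟨(isPChain_smul p g s).2 hs.1.1, nml_smul g hs.1.2⟩, ?_⟩
  rw [← Finset.card_pos, card_smul, Finset.card_pos]
  exact hs.2

/-- the nonempty normal chains as a `G`-set -/
def nCh (p : ℕ) (G : Type*) [Group G] : SubMulAction G (Finset (Subgroup G)) where
  carrier := {s | IsNormalChain p s}
  smul_mem' g _ hs := isNormalChain_smul g hs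

noncomputable instance actN : MulAction G (NChain p G) := inferInstanceAs (MulAction G (nCh p G))

theorem val_smul (g : G) (s : NChain p G) : (g • s).1 = g • s.1 := rfl

theorem stabilizer_nCh [Finite G] (s : NChain p G) : MulAction.stabilizer G s = stab s.1 := by
  ext g
  rw [MulAction.mem_stabilizer_iff,
    ← smul_eq_iff_mem_stab ((isNormalChain_iff s.1).1 s.2).1.1, Subtype.ext_iff]
  rfl

theorem conj_iff (s t : NChain p G) : NChain.Conj s t ↔ ∃ g : G, g • s = t := by
  refine exists_congr fun g => ?_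
  rw [Subtype.ext_iff, val_smul]
  have key : ∀ Q : Subgroup G, Q.map (MulAut.conj g).toMonoidHom = MulAut.conj g • Q :=
    fun Q => rfl
  constructor
  · intro h
    ext R
    constructor
    · intro hR
      obtain ⟨Q, hQ, rfl⟩ := Finset.mem_smul_finset.1 hR
      exact (h Q).1 hQ
    · intro hR
      have h1 := (h ((MulAut.conj g)⁻¹ • R))
      rw [key, smul_inv_smul] at h1
      have h2 := h1.2 hR
      exact Finset.mem_smul_finset.2 ⟨_, h2, smul_inv_smul _ _⟩
  · intro h Q
    rw [← h, key]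
    constructor
    · intro hQ
      exact Finset.mem_smul_finset.2 ⟨Q, hQ, rfl⟩
    · intro hQ
      obtain ⟨Q', hQ', h2⟩ := Finset.mem_smul_finset.1 hQ
      have h3 : Q' = Q := MulAction.injective (MulAut.conj g) h2
      rwa [← h3]

end Chains

/-- sums over the classes -/
theorem sum_quot {G X R : Type*} [Group G] [Finite G] [Fintype X] [MulAction G X] [CommRing R]
    (r : X → X → Prop) [Fintype (Quot r)] (hr : ∀ x y, r x y ↔ ∃ g : G, g • x = y)
    (F : X → R) (hF : ∀ (g : G) (x : X), F (g • x) = F x) :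
    ∑ x, (Nat.card (MulAction.stabilizer G x) : R) * F x =
      (Nat.card G : R) * ∑ c : Quot r, F c.out := by
  have := Fintype.ofFinite (MulAction.orbitRel.Quotient G X)
  rw [orbSum F hF]
  congr 1
  have hr' : ∀ x y : X, r x y ↔ (MulAction.orbitRel G X) x y := by
    intro x y
    rw [hr, MulAction.orbitRel_apply]
    constructor
    · rintro ⟨g, rfl⟩
      exact ⟨g⁻¹, inv_smul_smul g x⟩
    · rintro ⟨g, rfl⟩
      exact ⟨g⁻¹, inv_smul_smul g y⟩
  let e : Quot r ≃ MulAction.orbitRel.Quotient G X :=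
    Quot.congr (Equiv.refl X) (fun x y => hr' x y)
  rw [← e.sum_comp]
  refine Finset.sum_congr rfl fun c _ => ?_
  have h1 : (MulAction.orbitRel G X) (e c).out c.out := by
    have h2 : (Quot.mk _ c.out : Quot r) = c := Quot.out_eq c
    have h3 : e c = (Quotient.mk'' c.out : MulAction.orbitRel.Quotient G X) := by
      conv_lhs => rw [← h2]
      rfl
    exact Quotient.exact' ((Quotient.out_eq' (e c)).trans h3)
  obtain ⟨g, hg⟩ := (hr c.out (e c).out).1 ((hr' _ _).2 (Setoid.symm' _ h1))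
  rw [← hg, hF]

end P179N
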