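import Vale.Agent.P179.H166.Z13
import Vale.Agent.P179.H166.KN3

/-!
# The unit trick, 14: only the defect group and its sections with nontrivial kernels matter
-/

namespace P179C

open Subgroup Finset P179H524 P179A P179K P179R P179Y MonoidAlgebra

open scoped Classical

universe u

/-- The sections of `D` with nontrivial kernels have the property `S`. -/
def SecNT (S : ∀ (K : Type) [Group K], Prop) (D : Type) [Group D] : Prop :=
  ∀ (A : Subgroup D) (K : Type) [Group K] (f : A →* K), Function.Surjective f → f.ker ≠ ⊥ → S K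

/-- a section of `P` by a nontrivial normal subgroup has all its sections in `S`, if `P` embeds
in `D` -/
theorem SecNT.secAll {S : ∀ (K : Type) [Group K], Prop} {D P P' : Type} [Group D] [Group P]
    [Group P'] (h : SecNT S D) (φ : P →* D) (hφ : Function.Injective φ) (f : P →* P')
    (hf : Function.Surjective f) (hk : f.ker ≠ ⊥) : SecAll S P' := by
  intro H K _ g hg
  -- the preimage of `H`
  let A : Subgroup P := H.comap f
  let r : A →* H := (f.comp A.subtype).codRestrict H fun x => x.2
  have hr : Function.Surjective r := by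
    rintro ⟨y, hy⟩
    obtain ⟨x, rfl⟩ := hf y
    exact ⟨⟨x, hy⟩, rfl⟩
  let e : A ≃* A.map φ := A.equivMapOfInjective φ hφ
  refine h (A.map φ) K ((g.comp r).comp e.symm.toMonoidHom)
    ((hg.comp hr).comp e.symm.surjective) ?_
  intro hbot
  apply hk
  rw [eq_bot_iff]
  intro x hx
  rw [MonoidHom.mem_ker] at hx
  have hxA : x ∈ A := by
    change f x ∈ H
    rw [hx]
    exact one_mem H
  have h1 : e ⟨x, hxA⟩ ∈ ((g.comp r).comp e.symm.toMonoidHom).ker := by
    rw [MonoidHom.mem_ker]
    change g (r (e.symm (e ⟨x, hxA⟩))) = 1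
    rw [MulEquiv.symm_apply_apply]
    have h2 : r ⟨x, hxA⟩ = 1 := Subtype.ext hx
    rw [h2, map_one]
  rw [hbot, mem_bot, MulEquiv.map_eq_one_iff] at h1
  exact mem_bot.2 (congrArg Subtype.val h1)

section

variable {p : ℕ} [hp : Fact p.Prime] {k : Type u} [Field k] [IsAlgClosed k] [CharP k p]
  {red : integralClosure ℤ ℂ →+* k} {S : ∀ (K : Type) [Group K], Prop}

/-- the congruence for a group with a nontrivial normal `p`-subgroup -/
theorem cong_of_normal (h𝒢 : UnitClass p red (fun _ _ P => SecAll S P)) (O : ValuationSubring ℂ)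
    [CharP (IsLocalRing.ResidueField O) p]
    (hred : ∀ (a : ℂ) (ha : a ∈ integralClosure ℤ ℂ), O.valuation a < 1 ↔ red ⟨a, ha⟩ = 0)
    {D : Type} [Group D] (hD : SecNT S D) {H : Type} [Group H] [Finite H] (R : Subgroup H)
    [R.Normal] (hR : IsPGroup p R) (hR1 : R ≠ ⊥) {z : H → ℤ} (hz : IsCF z)
    (hemb : ∀ g, z g ≠ 0 → ∀ P : Subgroup H, IsPGroup p P → P ≤ centralizer {g} →
      ∃ φ : P →* D, Function.Injective φ) :
    Cong O (Nat.card H) (nL p z) (nW p z) := by
  have := Fintype.ofFinite H
  have hZG : ZG p (fun _ _ P => SecAll S P) (push (QuotientGroup.mk' R) z) := by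
    intro c hc P' hP' hPc
    set π : H →* H ⧸ R := QuotientGroup.mk' R with hπ
    have hπs : Function.Surjective π := QuotientGroup.mk'_surjective R
    have hker : π.ker = R := QuotientGroup.ker_mk' R
    set P : Subgroup H := P'.comap π with hPdef
    have hP : IsPGroup p P := hP'.comap_of_ker_isPGroup π (by rw [hker]; exact hR)
    let act : MulAction P {h : H // π h = c} :=
      { smul := fun g h => ⟨g.1 * h.1 * g.1⁻¹, by
          have h1 : π g.1 ∈ centralizer {c} := hPc g.2
          rw [mem_centralizer_singleton_iff] at h1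
          rw [map_mul, map_mul, map_inv, h.2, h1, mul_inv_cancel_right]⟩
        one_smul := fun h => Subtype.ext (by
          change (1 : H) * h.1 * 1⁻¹ = h.1
          simp)
        mul_smul := fun g g' h => Subtype.ext (by
          change (g.1 * g'.1) * h.1 * (g.1 * g'.1)⁻¹ = g.1 * (g'.1 * h.1 * g'.1⁻¹) * g.1⁻¹
          group) }
    rw [push, finsum_eq_sum_of_fintype] at hc
    obtain ⟨h, hh, hzh⟩ := Q7.sum_fixed p hP (fun h : {h : H // π h = c} => z h.1)
      (fun g x => hz g.1 x.1) hc
    have hPh : P ≤ centralizer {h.1} := by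
      intro g hg
      rw [mem_centralizer_singleton_iff]
      have h1 := congrArg Subtype.val (hh ⟨g, hg⟩)
      have h2 : g * h.1 * g⁻¹ = h.1 := h1
      exact mul_inv_eq_iff_eq_mul.1 h2
    obtain ⟨φ, hφ⟩ := hemb h.1 (fun h0 => hzh (by rw [h0]; exact dvd_zero _)) P hP hPh
    let r : P →* P' := (π.comp P.subtype).codRestrict P' fun x => x.2
    have hr : Function.Surjective r := by
      rintro ⟨y, hy⟩
      obtain ⟨x, rfl⟩ := hπs y
      exact ⟨⟨x, hy⟩, rfl⟩
    refine hD.secAll φ hφ r hr ?_
    intro hbot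
    apply hR1
    rw [eq_bot_iff]
    intro x hx
    have hx1 : π x = 1 := by
      rw [← MonoidHom.mem_ker, hker]
      exact hx
    have hxP : x ∈ P := by
      change π x ∈ P'
      rw [hx1]
      exact one_mem P'
    have h3 : (⟨x, hxP⟩ : P) ∈ r.ker := by
      rw [MonoidHom.mem_ker]
      exact Subtype.ext hx1
    rw [hbot, mem_bot] at h3
    exact mem_bot.2 (congrArg Subtype.val h3)
  have hq1 := nL_quot p R hR z hz
  have hq2 := nW_quot p R hR z hz
  have h5 := unit_main h𝒢 O hred (Nat.card (H ⧸ R)) (H ⧸ R) rfl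
    (push (QuotientGroup.mk' R) z) (isCF_push _ (QuotientGroup.mk'_surjective R) hz) hZG
  have h2 : Nat.card H = Nat.card (H ⧸ R) * Nat.card R :=
    card_eq_card_quotient_mul_card_subgroup R
  have h4 : 0 < Nat.card (H ⧸ R) := Nat.card_pos
  have h4' : 0 < Nat.card R := Nat.card_pos
  unfold Cong at h5 ⊢
  rw [hq1, hq2, h2]
  have h6 : (Nat.card R : ℂ) ≠ 0 := by exact_mod_cast h4'.ne'
  have h7 : (Nat.card (H ⧸ R) : ℂ) ≠ 0 := by exact_mod_cast h4.ne'
  convert h5 using 2
  push_cast
  field_simp

/-- **The main theorem, for the sections with nontrivial kernels.** -/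
theorem theoremU2 (h𝒢 : UnitClass p red (fun _ _ P => SecAll S P)) {G : Type} [Group G]
    [Finite G] {B : MonoidAlgebra k G} (hB : IsBlock B) {D : Subgroup G}
    (hD : IsDefectGroup B D)
    (hkey : ∀ [Fintype G], OpTrivial p G → OldAt p D ∨ NewAt p D) (hS : SecNT S D) :
    numSimpleIn B ≡ numWeightsIn p red B [MOD p] := by
  have := Fintype.ofFinite G
  obtain ⟨O, hO, hred⟩ := exists_O p red
  obtain ⟨x, l, hl, hlz, hBx, hlx, hSyl, hxreg⟩ := exists_elt_of_block (p := p) hB hD
  have hDp : IsPGroup p D := hSyl.pgp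
  have hb : IsCF (fun g => B.coeff g) := (P179C.mem_center_iff _).1 hB.1
  have hbb : conv (fun g => B.coeff g) (fun g => B.coeff g) = fun g => B.coeff g := by
    funext g
    rw [← coeff_mul_eq_conv, hB.2.1]
  -- the supports of the multiples of `B`
  have hsupp : ∀ c : MonoidAlgebra k G, c ∈ Subalgebra.center k (MonoidAlgebra k G) →
      ∀ y, (B * c).coeff y ≠ 0 → ∀ P : Subgroup G, IsPGroup p P → P ≤ centralizer {y} →
        ∃ t : G, ∀ a ∈ P, t⁻¹ * a * t ∈ D := by
    intro c hc y hy
    have h1 := SuppIn.conv p (suppIn_of_isDefectGroup (p := p) hD) hb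
      ((P179C.mem_center_iff _).1 hc)
    rw [coeff_mul_eq_conv] at hy
    exact h1 y hy
  have hembG : ∀ c : MonoidAlgebra k G, c ∈ Subalgebra.center k (MonoidAlgebra k G) →
      ∀ C : ConjClasses G, (B * c).coeff C.out ≠ 0 → ∀ g, ind C g ≠ 0 →
        ∀ P : Subgroup G, IsPGroup p P → P ≤ centralizer {g} →
          ∃ φ : P →* D, Function.Injective φ := by
    intro c hc C hC g hg P hP hPg
    obtain ⟨t, ht⟩ := hsupp c hc g (out_of_ind (mul_mem hB.1 hc) hC hg) P hP hPg
    refine ⟨((MulAut.conj t⁻¹).toMonoidHom.comp P.subtype).codRestrict D (fun x => ?_), ?_⟩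
    · have := ht x x.2
      simpa using this
    · intro x y hxy
      have h1 := congrArg Subtype.val hxy
      have h2 : MulAut.conj t⁻¹ (x : G) = MulAut.conj t⁻¹ (y : G) := h1
      exact Subtype.ext ((MulAut.conj t⁻¹).injective h2)
  by_cases hO' : OpTrivial p G
  · -- the induction hypothesis
    have hih : ∀ c : MonoidAlgebra k G, c ∈ Subalgebra.center k (MonoidAlgebra k G) →
        ∀ C : ConjClasses G, (B * c).coeff C.out ≠ 0 →
        ∀ s : Finset (Subgroup G), IsPChain p s → s.Nonempty →
          Cong O (Nat.card (stab s)) (nL p (res (stab s) (ind C)))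
            (nW p (res (stab s) (ind C))) := by
      intro c hc C hC s hs hne
      obtain ⟨Q, hQ, hmin⟩ := P179K.exists_least hs hne
      have hQs : Q ≤ stab s := le_stab.2 fun T hT => P179K.le_normalizer_of_le (hmin T hT)
      have hn : (Q.subgroupOf (stab s)).Normal := by
        refine ⟨fun n hn g => ?_⟩
        rw [mem_subgroupOf] at hn ⊢
        exact (mem_normalizer_iff.mp (mem_stab.mp g.2 Q hQ) _).mp hn
      have hQp : IsPGroup p (Q.subgroupOf (stab s)) :=
        (hs.1 Q hQ).1.of_equiv (subgroupOfEquivOfLe hQs).symm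
      have hQ1 : Q.subgroupOf (stab s) ≠ ⊥ := by
        intro h3
        rw [subgroupOf_eq_bot, disjoint_iff, inf_eq_left.mpr hQs] at h3
        exact (hs.1 Q hQ).2 h3
      refine cong_of_normal h𝒢 O hred hS (Q.subgroupOf (stab s)) hQp hQ1
        (isCF_res _ (isCF_ind C)) ?_
      intro g hg P hP hPg
      obtain ⟨φ, hφ⟩ := hembG c hc C hC g.1 hg (P.map (stab s).subtype) (hP.map _) (by
        rintro _ ⟨a, ha, rfl⟩
        have h2 := mem_centralizer_singleton_iff.mp (hPg ha)
        exact mem_centralizer_singleton_iff.mpr (congrArg Subtype.val h2))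
      let e := P.equivMapOfInjective (stab s).subtype (stab s).subtype_injective
      exact ⟨φ.comp e.toMonoidHom, hφ.comp e.injective⟩
    rcases hkey hO' with hOld | ⟨v, hv, hv1, hvc, hnew⟩
    · refine block_modEq_of_supp p red O hred hB hB.1 (by
        rw [centralChar_self B hB]; exact one_ne_zero) fun C hC => ?_
      refine cong_of_FF O (ind C) (isCF_ind C) (hih B hB.1 C hC) ?_
      rw [hB.2.1] at hC
      refine step1_local O (ind C) (isCF_ind C) ?_ ?_
      · intro g hg hpg
        exact out_of_ind hB.1 hC hg (osima_g p B hB.1 hB.2.1 g hpg)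
      · rintro g hg hgp ⟨e, he⟩
        refine hOld.dvd g hg hgp fun P hP hPg => ?_
        have h1 := out_of_ind hB.1 hC he
        rw [← hB.2.1] at h1
        refine hsupp B hB.1 _ h1 P hP ?_
        intro a ha
        have h5 := mem_centralizer_singleton_iff.mp (hPg ha)
        rw [mem_centralizer_singleton_iff]
        exact Commute.pow_right (Commute.pow_right h5 _) _
    · have hc := mkF_mem (isCF_cls (k := k) (x * v))
      obtain ⟨n', hn', hln⟩ := BP.cls_mul hl hSyl hxreg hv hvc
      refine block_modEq_of_supp p red O hred hB hc (by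
        rw [← hlz _ (isCF_cls _), hln]
        refine mul_ne_zero ?_ hlx
        rwa [Ne, CharP.cast_eq_zero_iff k p]) fun C hC => ?_
      refine cong_of_FF O (ind C) (isCF_ind C) (hih _ hc C hC) ?_
      have hy : ∀ y, ind C y ≠ 0 → conv (fun g => B.coeff g) (cls k (x * v)) y ≠ 0 := by
        intro y hy
        have h1 := out_of_ind (mul_mem hB.1 hc) hC hy
        rw [coeff_mul_eq_conv] at h1
        simpa only [coeff_mkF] using h1
      have hFF := FF_dvd_local (p := p) (ind C) (isCF_ind C) fun y hy' =>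
        NewAt.dvd hSyl hxreg hv hvc hnew hb hbb (hy y hy')
      have hvp : ∃ n : ℕ, v ^ p ^ n = 1 := by
        obtain ⟨a, ha⟩ := hDp ⟨v, hv⟩
        exact ⟨a, congrArg Subtype.val ha⟩
      have hxv : Commute x v := (mem_centralizer_singleton_iff.1 (hSyl.le hv)).symm
      have hdz := dz_sing p O (ind C) (isCF_ind C) (fun y hy' => by
        by_contra hyreg
        have hbot : IsPGroup p (⊥ : Subgroup G) := IsPGroup.of_bot
        obtain ⟨s, hs1, -⟩ := supp_mul_cls (p := p) hb hbb hxreg hvp hxv
          (SylCent.mul_central hSyl hv hvc hxreg) (hy y hy') ⊥ hbot bot_le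
        rw [pr_of_regular hyreg, mul_inv_cancel, mul_one, inv_mul_cancel] at hs1
        exact hv1 hs1.symm)
      have hG0 : (Nat.card G : ℂ) ≠ 0 := by exact_mod_cast Nat.card_pos.ne'
      have h8 := valuation_of_dvd O Nat.card_pos.ne' hFF
      unfold Cong at hdz ⊢
      rw [Nat.cast_one, div_one, sub_zero] at hdz
      rw [sub_div, mul_div_cancel_left₀ _ hG0]
      exact O.valuation.map_sub_lt h8 hdz
  · simp only [OpTrivial, not_forall] at hO'
    obtain ⟨R, hR, hRp, hR1⟩ := hO'
    refine block_modEq_of_supp p red O hred hB hB.1 (by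
      rw [centralChar_self B hB]; exact one_ne_zero) fun C hC => ?_
    exact cong_of_normal h𝒢 O hred hS R hRp hR1 (isCF_ind C) (hembG B hB.1 C hC)

end

end P179C
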