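import Vale.Agent.P179.H166.Z14

/-!
# Blocks with good defect groups whose sections with nontrivial kernels are good
-/

namespace P179B

open Subgroup P179H524

universe u

/-- `D` is good, and so are all its sections `H / N` with `N ≠ 1`. -/
def QuotientsGood (p : ℕ) (D : Type) [Group D] : Prop :=
  GoodSection p D ∧ ∀ (H : Subgroup D) (N : Subgroup H) [N.Normal], N ≠ ⊥ → GoodSection p (H ⧸ N)

theorem SectionsGood.quotientsGood {p : ℕ} {D : Type} [Group D] (h : SectionsGood p D) :
    QuotientsGood p D :=
  ⟨(secAll_of h).self, fun H N _ _ => h H N⟩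

theorem secNT_of {p : ℕ} {D : Type} [Group D] (h : QuotientsGood p D) :
    P179C.SecNT (GoodSection p) D := by
  intro H K _ f hf hk
  exact (h.2 H f.ker hk).of_equiv (QuotientGroup.quotientKerEquivOfSurjective f hf)

/-- The congruence modulo `p` for good defect groups whose sections with nontrivial kernels are
good. -/
theorem theoremGood2 (p : ℕ) [hp : Fact p.Prime] {k : Type u} [Field k] [IsAlgClosed k] [CharP k p]
    (red : integralClosure ℤ ℂ →+* k) {G : Type} [Group G] [Finite G]
    (B : MonoidAlgebra k G) (hB : IsBlock B) (D : Subgroup G) (hD : IsDefectGroup B D)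
    (h : QuotientsGood p D) : numSimpleIn B ≡ numWeightsIn p red B [MOD p] := by
  have hU : P179C.UnitClass p red (fun _ _ P => P179C.SecAll (GoodSection p) P) := by
    refine P179C.unitClass_of red (GoodSection p) ?_
    intro G _ _ _ R hO hR hS
    rcases crit_of_goodSection hS.self with h1 | h1
    · exact Or.inl h1
    · exact Or.inr (Or.inl h1)
  rw [numSimpleIn_eq, numWeightsIn_eq]
  exact P179C.theoremU2 hU hB hD (fun _ => crit_of_goodSection h.1) (secNT_of h)

/-- The centre is cyclic of order more than `p`, and has index `p ^ 2`. -/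
def CentralFamily (p : ℕ) (D : Type) [Group D] : Prop :=
  IsCyclic (center D) ∧ p < Nat.card (center D) ∧ (center D).index = p ^ 2

/-- a group with all `H / N`, `N ≠ 1`, abelian, and with centre not in the commutator subgroup -/
theorem quotientsGood_of {p : ℕ} {D : Type} [Group D] (h1 : ¬ center D ≤ commutator D)
    (h2 : ∀ (H : Subgroup D) (N : Subgroup H) [N.Normal], N ≠ ⊥ → ∀ a b : H ⧸ N, a * b = b * a) :
    QuotientsGood p D := by
  constructor
  · obtain ⟨v, hv, hv'⟩ := SetLike.not_le_iff_exists.1 h1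
    exact Or.inr (Or.inl ⟨v, hv, Or.inl hv'⟩)
  · intro H N _ hN
    have hc := h2 H N hN
    by_cases hs : Subsingleton (H ⧸ N)
    · exact Or.inl hs
    · rw [not_subsingleton_iff_nontrivial] at hs
      obtain ⟨v, hv⟩ := exists_ne (1 : H ⧸ N)
      refine Or.inr (Or.inl ⟨v, mem_center_iff.2 fun a => hc a v, Or.inl fun h3 => hv ?_⟩)
      have h4 : commutator (H ⧸ N) = ⊥ := by
        rw [commutator_def, commutator_eq_bot_iff_le_centralizer]
        intro a _
        rw [mem_centralizer_iff]
        intro b _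
        exact hc b a
      rw [h4] at h3
      exact mem_bot.1 h3

/-- an element of order `p` in the centre -/
theorem exists_center_orderOf {p : ℕ} [hp : Fact p.Prime] {K : Type} [Group K] [Finite K]
    (hK : IsPGroup p K) [Nontrivial K] : ∃ v ∈ center K, orderOf v = p := by
  have hc := hK.center_nontrivial
  have hcp : IsPGroup p (center K) := hK.to_subgroup _
  obtain ⟨n, hn, hcard⟩ := hcp.nontrivial_iff_card.1 hc
  obtain ⟨v, hv⟩ := exists_prime_orderOf_dvd_card' (G := center K) p
    (by rw [hcard]; exact dvd_pow_self p hn.ne')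
  exact ⟨v, v.2, by rw [Subgroup.orderOf_coe, hv]⟩

/-- the `2`-groups of order at most `16` are good -/
theorem goodSection_two {K : Type} [Group K] [Finite K] (hK : IsPGroup 2 K)
    (h : Nat.card K ≤ 16) : GoodSection 2 K := by
  have hp : Fact (Nat.Prime 2) := ⟨Nat.prime_two⟩
  by_cases hs : Subsingleton K
  · exact Or.inl hs
  · rw [not_subsingleton_iff_nontrivial] at hs
    obtain ⟨v, hv, hvo⟩ := exists_center_orderOf hK
    refine Or.inr (Or.inl ⟨v, hv, Or.inr ⟨hvo, Or.inl ⟨rfl, 1, ?_, ?_⟩⟩⟩)
    · intro k hk he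
      exfalso
      have h8 : orderOf k = 8 := by
        have h1 : k ^ 2 ^ 2 ≠ 1 := by
          rw [show (2 : ℕ) ^ 2 = 4 by norm_num, hk]
          intro h2
          rw [h2, orderOf_one] at hvo
          exact absurd hvo (by norm_num)
        have h2 : k ^ 2 ^ (2 + 1) = 1 := by
          rw [show (2 : ℕ) ^ (2 + 1) = 4 * 2 by norm_num, pow_mul, hk, ← hvo]
          exact pow_orderOf_eq_one v
        have h3 := orderOf_eq_prime_pow h1 h2
        rw [h3]
        norm_num
      obtain ⟨e, he1, he2⟩ := P179C.noTw_of_card h ⊤ K (topEquiv : (⊤ : Subgroup K) ≃* K).toMonoidHom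
        (topEquiv : (⊤ : Subgroup K) ≃* K).surjective k (by rw [if_pos rfl, h8])
      exact he2 (he e (Nat.odd_iff.2 he1))
    · intro k _
      rfl

/-- the `3`-groups of order at most `81` are good -/
theorem goodSection_three {K : Type} [Group K] [Finite K] (hK : IsPGroup 3 K)
    (h : Nat.card K ≤ 81) : GoodSection 3 K := by
  obtain ⟨A, hA, hi⟩ := P179C.exists_abelian_index hK h
  exact Or.inr (Or.inr ⟨rfl, A, hi, hA⟩)

/-- `D` is good, and of order at most `32` if `p = 2`, at most `243` if `p = 3`. -/
def SmallGood (p : ℕ) (D : Type) [Group D] : Prop :=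
  GoodSection p D ∧ ((p = 2 ∧ Nat.card D ≤ 32) ∨ (p = 3 ∧ Nat.card D ≤ 243))

theorem SmallGood.quotientsGood {p : ℕ} {D : Type} [Group D] [Finite D] (hD : IsPGroup p D)
    (h : SmallGood p D) : QuotientsGood p D := by
  refine ⟨h.1, fun H N _ hN => ?_⟩
  have h1 : Nat.card H = Nat.card (H ⧸ N) * Nat.card N := card_eq_card_quotient_mul_card_subgroup N
  have h2 : Nat.card H ≤ Nat.card D := card_le_card_group H
  have hHp : IsPGroup p H := hD.to_subgroup H
  have hNp : IsPGroup p N := hHp.to_subgroup N
  have hQp : IsPGroup p (H ⧸ N) := hHp.to_quotient N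
  have hpN : ∀ [Fact p.Prime], p ≤ Nat.card N := by
    intro _
    have hnt : Nontrivial N := (Subgroup.nontrivial_iff_ne_bot N).2 hN
    obtain ⟨n, hn, hcard⟩ := hNp.nontrivial_iff_card.1 hnt
    exact Nat.le_of_dvd Nat.card_pos (by rw [hcard]; exact dvd_pow_self p hn.ne')
  rcases h.2 with ⟨rfl, h3⟩ | ⟨rfl, h3⟩
  · have hp : Fact (Nat.Prime 2) := ⟨Nat.prime_two⟩
    have h4 := hpN
    refine goodSection_two hQp ?_
    nlinarith
  · have hp : Fact (Nat.Prime 3) := ⟨Nat.prime_three⟩
    have h4 := hpN
    refine goodSection_three hQp ?_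
    nlinarith

end P179B
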