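import Vale.Agent.P179.H166.Z15
import Vale.Agent.P179.H905.K1

/-!
# `3`-abelian defect groups
-/

namespace P179B

open Subgroup P179H524

open scoped commutatorElement IsMulCommutative

universe u

/-- `(x y) ^ 3 = x ^ 3 y ^ 3` for all `x, y`. -/
def ThreeAbelian (D : Type) [Group D] : Prop :=
  ∀ x y : D, (x * y) ^ 3 = x ^ 3 * y ^ 3

/-- an element of an abelian group which is not a `p`-th power has image `1` under some
homomorphism to `ℤ / p` -/
theorem exists_hom_eq_one {p : ℕ} [hp : Fact p.Prime] {A : Type*} [CommGroup A] {v : A}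
    (hv : ∀ u : A, u ^ p ≠ v) : ∃ χ : A →* Multiplicative (ZMod p),
      χ v = Multiplicative.ofAdd 1 := by
  let C : Subgroup A := (powMonoidHom p : A →* A).range
  have h1 : ∀ x : Additive (A ⧸ C), p • x = 0 := by
    intro x
    obtain ⟨y, hy⟩ := QuotientGroup.mk_surjective (Additive.toMul x)
    have h2 : (QuotientGroup.mk (y ^ p) : A ⧸ C) = 1 :=
      (QuotientGroup.eq_one_iff _).2 ⟨y, rfl⟩
    apply Additive.toMul.injective
    rw [toMul_nsmul, ← hy, ← QuotientGroup.mk_pow, h2]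
    rfl
  have hw : (Additive.ofMul (QuotientGroup.mk v : A ⧸ C)) ≠ 0 := by
    intro h
    have h2 : (QuotientGroup.mk v : A ⧸ C) = 1 := Additive.ofMul.injective h
    obtain ⟨u, hu⟩ := (QuotientGroup.eq_one_iff _).1 h2
    exact hv u hu
  obtain ⟨g, hg⟩ := P179I.exists_hom_Q h1 hw
  let c : ZMod p := (g (Additive.ofMul (QuotientGroup.mk v : A ⧸ C)))⁻¹
  refine ⟨{ toFun := fun a =>
              Multiplicative.ofAdd (c * g (Additive.ofMul (QuotientGroup.mk a : A ⧸ C)))
            map_one' := ?_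
            map_mul' := fun a b => ?_ }, ?_⟩
  · rw [QuotientGroup.mk_one, ofMul_one, map_zero, mul_zero, ofAdd_zero]
  · rw [QuotientGroup.mk_mul, ofMul_mul, map_add, mul_add, ofAdd_add]
  · change Multiplicative.ofAdd (c * g (Additive.ofMul (QuotientGroup.mk v : A ⧸ C))) = _
    rw [inv_mul_cancel₀ hg]

section

variable {K : Type} [Group K]

/-- cubes commute with squares -/
theorem ThreeAbelian.comm_sq (h : ThreeAbelian K) (x y : K) : x ^ 2 * y ^ 3 = y ^ 3 * x ^ 2 := by
  have h1 : (x * y) ^ 3 = x * (y * x) ^ 3 * x⁻¹ := by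
    simp only [pow_succ, pow_zero, one_mul]
    group
  rw [h, h] at h1
  have h2 : x * (x ^ 2 * y ^ 3) = x * (y ^ 3 * x ^ 2) := by
    calc x * (x ^ 2 * y ^ 3) = x ^ 3 * y ^ 3 := by rw [← mul_assoc, ← pow_succ']
      _ = x * (y ^ 3 * x ^ 3) * x⁻¹ := h1
      _ = x * (y ^ 3 * x ^ 2) := by rw [pow_succ x 2]; group
  exact mul_left_cancel h2

theorem ThreeAbelian.comm [Finite K] (hK : IsPGroup 3 K) (h : ThreeAbelian K) (x y : K) :
    x * y ^ 3 = y ^ 3 * x := by
  have h3 : Fact (Nat.Prime 3) := ⟨Nat.prime_three⟩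
  obtain ⟨n, hn⟩ := (IsPGroup.iff_orderOf.1 hK) x
  have hodd : Odd (orderOf x) := by
    rw [hn]
    exact Odd.pow (by decide)
  obtain ⟨m, hm⟩ := hodd
  have h4 : x = (x ^ 2) ^ (m + 1) := by
    rw [← pow_mul, show 2 * (m + 1) = orderOf x + 1 by omega, pow_succ, pow_orderOf_eq_one, one_mul]
  have h5 : Commute (x ^ 2) (y ^ 3) := h.comm_sq x y
  have h6 : Commute ((x ^ 2) ^ (m + 1)) (y ^ 3) := h5.pow_left _
  rw [← h4] at h6
  exact h6

/-- `3`-abelian `3`-groups are good -/
theorem ThreeAbelian.goodSection [Finite K] (hK : IsPGroup 3 K) (h : ThreeAbelian K) :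
    GoodSection 3 K := by
  have h3 : Fact (Nat.Prime 3) := ⟨Nat.prime_three⟩
  by_cases hs : Subsingleton K
  · exact Or.inl hs
  rw [not_subsingleton_iff_nontrivial] at hs
  obtain ⟨v, hv, hvo⟩ := exists_center_orderOf hK
  have hv1 : v ≠ 1 := by
    rintro rfl
    rw [orderOf_one] at hvo
    exact absurd hvo (by norm_num)
  let S : Subgroup K :=
    { carrier := {c | c ^ 3 = 1}
      mul_mem' := fun {a b} ha hb => by
        change (a * b) ^ 3 = 1
        rw [h, show a ^ 3 = 1 from ha, show b ^ 3 = 1 from hb, one_mul]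
      one_mem' := one_pow 3
      inv_mem' := fun {a} ha => by
        change (a⁻¹) ^ 3 = 1
        rw [inv_pow, show a ^ 3 = 1 from ha, inv_one] }
  have hS : commutator K ≤ S := by
    rw [commutator_def, commutator_le]
    intro x _ y _
    change ⁅x, y⁆ ^ 3 = 1
    rw [commutatorElement_def, h, h, h, inv_pow, inv_pow, h.comm hK (x ^ 3) y]
    group
  by_cases hz : ∃ z ∈ center K, z ^ 3 = v
  · obtain ⟨z, hz, hzv⟩ := hz
    refine Or.inr (Or.inl ⟨z, hz, Or.inl fun hc => hv1 ?_⟩)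
    rw [← hzv]
    exact hS hc
  · push Not at hz
    obtain ⟨χ, hχ⟩ := exists_hom_eq_one (p := 3) (A := center K) (v := ⟨v, hv⟩) (by
      intro u hu
      have h5 : ((u : K)) ^ 3 = v := congrArg Subtype.val hu
      exact hz u u.2 h5)
    let f : K →* center K :=
      { toFun := fun x => ⟨x ^ 3, mem_center_iff.2 fun g => h.comm hK g x⟩
        map_one' := Subtype.ext (one_pow 3)
        map_mul' := fun x y => Subtype.ext (h x y) }
    refine Or.inr (Or.inl ⟨v, hv, Or.inr ⟨hvo, Or.inr ⟨rfl, χ.comp f, fun k hk _ => ?_⟩⟩⟩)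
    rw [MonoidHom.comp_apply, ← hχ]
    exact congrArg χ (Subtype.ext hk)

/-- the sections of a `3`-abelian `3`-group are good -/
theorem ThreeAbelian.sectionsGood {D : Type} [Group D] [Finite D] (hD : IsPGroup 3 D)
    (h : ThreeAbelian D) : SectionsGood 3 D := by
  intro H N _
  refine ThreeAbelian.goodSection ((hD.to_subgroup H).to_quotient N) ?_
  intro x y
  obtain ⟨a, rfl⟩ := QuotientGroup.mk_surjective x
  obtain ⟨b, rfl⟩ := QuotientGroup.mk_surjective y
  have h1 : (a * b) ^ 3 = a ^ 3 * b ^ 3 := Subtype.ext (h a b)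
  rw [← QuotientGroup.mk_mul, ← QuotientGroup.mk_pow, h1, QuotientGroup.mk_mul,
    QuotientGroup.mk_pow, QuotientGroup.mk_pow]

end

end P179B
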