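import Vale.Agent.P179.H166.BrauerHom
import Vale.Agent.P179.H143.Words
import Vale.Agent.P179.H524.Sec3

/-!
# Central idempotents are supported on `p`-regular elements
-/

namespace P179C

open Subgroup P179H524

open scoped Classical

/-- the centre acts trivially: truncation of a central idempotent to the centraliser of a
`p`-element is idempotent -/
theorem trunc_idem (p : ℕ) [hp : Fact p.Prime] {k : Type*} [Field k] [CharP k p] {G : Type*}
    [Group G] [Finite G] (e : MonoidAlgebra k G)
    (he : e ∈ Subalgebra.center k (MonoidAlgebra k G)) (hee : e * e = e) (u : G)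
    (hu : ∃ n : ℕ, u ^ p ^ n = 1) :
    trunc (centralizer ({u} : Set G)) e * trunc (centralizer ({u} : Set G)) e =
      trunc (centralizer ({u} : Set G)) e := by
  have := Fintype.ofFinite G
  set C := centralizer ({u} : Set G) with hC
  have := Fintype.ofFinite C
  have hcf : IsCF (fun h => e.coeff h) := (mem_center_iff e).mp he
  apply MonoidAlgebra.ext
  ext c
  rw [coeff_mul_eq_conv, coeff_trunc]
  have h1 : e.coeff (c : G) = ∑ h : G, e.coeff h * e.coeff (h⁻¹ * c) := by
    conv_lhs => rw [← hee]
    exact coeff_mul_eq_conv e e c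
  rw [h1]
  unfold conv
  simp only [coeff_trunc]
  have h2 : ∑ h : G, (if h ∈ C then 0 else e.coeff h * e.coeff (h⁻¹ * c)) = 0 := by
    have hQ : IsPGroup p (zpowers u) := by
      obtain ⟨n, hn⟩ := hu
      have h3 : orderOf u ∣ p ^ n := orderOf_dvd_of_pow_eq_one hn
      obtain ⟨m, -, hm⟩ := (Nat.dvd_prime_pow hp.out).mp h3
      rw [IsPGroup.iff_card]
      exact ⟨m, by rw [Nat.card_zpowers, hm]⟩
    let φ : zpowers u →* Equiv.Perm G :=
      { toFun := fun q => (MulAut.conj (q : G)).toEquiv
        map_one' := by ext; simp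
        map_mul' := fun a b => by ext; simp [mul_assoc] }
    have hφ : ∀ (q : zpowers u) (x : G), φ q x = (q : G) * x * (q : G)⁻¹ := fun _ _ => rfl
    have hcu : (c : G) * u = u * c := mem_centralizer_singleton_iff.mp c.2
    have hcq : ∀ q : zpowers u, (q : G) * c = c * q := by
      rintro ⟨q, hq⟩
      obtain ⟨n, rfl⟩ := mem_zpowers_iff.mp hq
      have : Commute u (c : G) := hcu.symm
      exact this.zpow_left n
    refine sum_eq_zero_of_perm p hQ φ _ ?_ ?_
    · intro q x
      rw [hφ]
      have huC : (q : G) ∈ C := by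
        obtain ⟨q, hq⟩ := q
        obtain ⟨n, rfl⟩ := mem_zpowers_iff.mp hq
        exact mem_centralizer_singleton_iff.mpr ((Commute.refl u).zpow_left n)
      have hmem : (q : G) * x * (q : G)⁻¹ ∈ C ↔ x ∈ C := by
        constructor
        · intro hx
          have := mul_mem (mul_mem (inv_mem huC) hx) huC
          simpa [mul_assoc] using this
        · intro hx
          exact mul_mem (mul_mem huC hx) (inv_mem huC)
      simp only [hmem]
      have h3 : ((q : G) * x * (q : G)⁻¹)⁻¹ * c = (q : G) * (x⁻¹ * c) * (q : G)⁻¹ := by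
        have h4 : (q : G)⁻¹ * c = c * (q : G)⁻¹ := by
          rw [inv_mul_eq_iff_eq_mul, ← mul_assoc, hcq q, mul_inv_cancel_right]
        calc ((q : G) * x * (q : G)⁻¹)⁻¹ * c = (q : G) * x⁻¹ * ((q : G)⁻¹ * c) := by group
          _ = (q : G) * (x⁻¹ * c) * (q : G)⁻¹ := by rw [h4]; group
      rw [h3]
      have h4 := hcf q x
      have h5 := hcf q (x⁻¹ * c)
      simp only at h4 h5
      rw [h4, h5]
    · intro x hx
      have h3 : x ∈ C := by
        have h4 := hx ⟨u, mem_zpowers u⟩
        rw [hφ] at h4
        have h5 : u * x * u⁻¹ = x := h4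
        exact mem_centralizer_singleton_iff.mpr (mul_inv_eq_iff_eq_mul.mp h5).symm
      rw [if_pos h3]
  have h3 : ∑ h : G, e.coeff h * e.coeff (h⁻¹ * c) =
      ∑ h : G, (if h ∈ C then e.coeff h * e.coeff (h⁻¹ * c) else 0) +
      ∑ h : G, (if h ∈ C then 0 else e.coeff h * e.coeff (h⁻¹ * c)) := by
    rw [← Finset.sum_add_distrib]
    refine Finset.sum_congr rfl fun h _ => ?_
    split_ifs <;> simp
  rw [h3, h2, add_zero, ← Finset.sum_filter, Finset.sum_subtype (p := fun h => h ∈ C)]
  · rfl
  · intro x; simp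

/-- **Osima's theorem**: central idempotents are supported on `p`-regular elements. -/
theorem osima_g (p : ℕ) [hp : Fact p.Prime] {k : Type*} [Field k] [CharP k p] {G : Type*}
    [Group G] [Finite G] (e : MonoidAlgebra k G)
    (he : e ∈ Subalgebra.center k (MonoidAlgebra k G)) (hee : e * e = e) (g : G)
    (hg : p ∣ orderOf g) : e.coeff g = 0 := by
  have := Fintype.ofFinite G
  obtain ⟨m, hm1, hm⟩ := C3.exists_pow_eq_pr p G
  set s := pr p g with hs
  have hsreg : ¬ p ∣ orderOf s := Q7.pr_regular p g (orderOf_pos g).ne'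
  have hss : s ^ p ^ m = s := by
    rw [hm, Q7.pr_of_regular p s (orderOf_pos s).ne' hsreg]
  have hgs : Commute g s := by
    rw [hs, ← hm]; exact (Commute.refl g).pow_right _
  set u := g * s⁻¹ with hu
  have hus : u * s = g := inv_mul_cancel_right g s
  have hup : u ^ p ^ m = 1 := by
    rw [hu, (hgs.inv_right).mul_pow, inv_pow, hss, hm, mul_inv_cancel]
  have hu1 : u ≠ 1 := by
    intro h
    rw [h, one_mul] at hus
    rw [← hus] at hg
    exact hsreg hg
  set C := centralizer ({u} : Set G) with hC
  have := Fintype.ofFinite C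
  have huC : u ∈ C := mem_centralizer_singleton_iff.mpr rfl
  have hsC : s ∈ C := by
    refine mem_centralizer_singleton_iff.mpr ?_
    have : Commute s u := by
      rw [hu]
      exact (hgs.symm).mul_right ((Commute.refl s).inv_right)
    exact this
  set f := trunc C e with hf
  have hff : f * f = f := trunc_idem p e he hee u ⟨m, hup⟩
  have hcf : IsCF (fun h => e.coeff h) := (mem_center_iff e).mp he
  have hfc : f ∈ Subalgebra.center k (MonoidAlgebra k C) := by
    rw [mem_center_iff]
    intro x y
    simp only [hf, coeff_trunc]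
    exact hcf (x : G) (y : G)
  let t : MonoidAlgebra k C := MonoidAlgebra.single (⟨s, hsC⟩ : C)⁻¹ 1
  have hft : Commute f t := ((Subalgebra.mem_center_iff.mp hfc) t).symm
  have hfpow : ∀ n : ℕ, f ^ (n + 1) = f := by
    intro n
    induction n with
    | zero => rw [zero_add, pow_one]
    | succ n ih => rw [pow_succ, ih, hff]
  have hb : (f * t) ^ p ^ m = f * t := by
    rw [hft.mul_pow]
    obtain ⟨n, hn⟩ : ∃ n, p ^ m = n + 1 :=
      ⟨p ^ m - 1, by have := Nat.pos_of_ne_zero (pow_ne_zero m hp.out.ne_zero); omega⟩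
    have h1 : f ^ p ^ m = f := by rw [hn]; exact hfpow n
    have h2 : t ^ p ^ m = t := by
      simp only [t]
      rw [MonoidAlgebra.single_pow, one_pow]
      congr 1
      apply Subtype.ext
      change ((s : G)⁻¹) ^ p ^ m = s⁻¹
      rw [inv_pow, hss]
    rw [h1, h2]
  let φ : C → k := fun h => if h = ⟨u, huC⟩ then 1 else 0
  have hφ : ∀ x y : C, φ (x * y * x⁻¹) = φ y := by
    intro x y
    simp only [φ]
    have : x * y * x⁻¹ = ⟨u, huC⟩ ↔ y = ⟨u, huC⟩ := by
      have hx : x * ⟨u, huC⟩ = ⟨u, huC⟩ * x :=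
        Subtype.ext (mem_centralizer_singleton_iff.mp x.2)
      constructor
      · intro h
        have h1 : y = x⁻¹ * (x * y * x⁻¹) * x := by group
        rw [h1, h, mul_assoc, ← hx, inv_mul_cancel_left]
      · rintro rfl
        rw [hx, mul_inv_cancel_right]
    simp only [this]
  have key := lin_pow p m φ hφ (f * t)
  rw [hb] at key
  have h1 : lin φ (f * t) = e.coeff g := by
    unfold lin
    rw [Finset.sum_eq_single ⟨u, huC⟩]
    · simp only [φ, if_true, mul_one, t]
      rw [MonoidAlgebra.coeff_mul_single_apply, inv_inv, mul_one, hf, coeff_trunc]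
      congr 1
    · intro h _ hne
      simp only [φ]
      rw [if_neg hne, mul_zero]
    · intro h; exact absurd (Finset.mem_univ _) h
  rw [h1] at key
  rw [key]
  refine Finset.sum_eq_zero fun h _ => ?_
  have h2 : φ (h ^ p ^ m) = 0 := by
    simp only [φ]
    rw [if_neg]
    intro h3
    have h4 : (h : G) ^ p ^ m = u := congrArg Subtype.val h3
    rw [hm] at h4
    have h5 : ¬ p ∣ orderOf u := by
      rw [← h4]; exact Q7.pr_regular p _ (orderOf_pos _).ne'
    have h6 : orderOf u ∣ p ^ m := orderOf_dvd_of_pow_eq_one hup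
    obtain ⟨j, -, hj⟩ := (Nat.dvd_prime_pow hp.out).mp h6
    rcases Nat.eq_zero_or_pos j with h7 | h7
    · rw [h7, pow_zero, orderOf_eq_one_iff] at hj
      exact hu1 hj
    · apply h5
      rw [hj]
      exact dvd_pow_self p h7.ne'
  rw [h2, mul_zero]

end P179C
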