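import Vale.Agent.P179.H524.Sec3
import Vale.Agent.P179.H905.Step1D

/-!
# Class functions which factor through the `p`-th power map
-/

namespace P179C.C3

open Finset P179H524 Vale.Agent.P179.H525 IsLocalRing

section matrices

variable {K : Type*} [Group K] [Fintype K]
variable {ι : Type*} [Fintype ι] {d : ι → ℕ} (φ : MonoidAlgebra ℂ K ≃ₐ[ℂ] MatAlg d)

/-- Class functions which factor through `g ↦ g^p` vanish at the characters of positive defect. -/
theorem residue_pow (hd : ∀ i, NeZero (d i)) (p : ℕ) [hp : Fact p.Prime]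
    (O : ValuationSubring ℂ) [CharP (ResidueField O) p] (i : ι) (z : K → ℤ) (hz : IsCF z)
    (hi : p ∣ Fintype.card K / d i) (ω : ℂ)
    (hω : ∑ g, (z (g ^ p) : ℂ) • rho φ g i = ω • (1 : Matrix (Fin (d i)) (Fin (d i)) ℂ)) :
    O.valuation ω < 1 := by
  obtain ⟨y, hy1, hy2⟩ := exists_y φ hd O i
  have h1 := hy2 (fun g => z (g ^ p)) ω hω
  have hmem : ω ∈ O := by
    rw [h1]
    exact SetLike.coe_mem _
  have h2 : (⟨ω, hmem⟩ : O) = lin (fun g => ((z (g⁻¹ ^ p) : ℤ) : O)) y := Subtype.ext h1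
  let x : MonoidAlgebra (ResidueField O) K := MonoidAlgebra.mapRingHom K (residue O) y
  have hx : ∀ g, x.coeff g = residue O (y.coeff g) := fun g =>
    MonoidAlgebra.coeff_mapRingHom _ _ _
  have h3 : residue O ⟨ω, hmem⟩ = lin (fun g => ((z (g⁻¹ ^ p) : ℤ) : ResidueField O)) x := by
    rw [h2, lin, lin, map_sum]
    apply Finset.sum_congr rfl
    intro g _
    rw [hx, map_mul, map_intCast]
  have hxx : x * x = ((Fintype.card K / d i : ℕ) : ResidueField O) • x := by
    have h4 := congrArg (MonoidAlgebra.mapRingHom K (residue O)) hy1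
    rw [map_mul] at h4
    change x * x = _ at h4
    rw [h4]
    apply MonoidAlgebra.ext
    ext g
    rw [MonoidAlgebra.coeff_mapRingHom, MonoidAlgebra.coeff_smul_apply,
      MonoidAlgebra.coeff_smul_apply, hx, smul_eq_mul, smul_eq_mul, map_mul, map_natCast]
  have h0 : x ^ p = 0 := by
    obtain ⟨m, hm⟩ : ∃ m, p = m + 2 := ⟨p - 2, by have := hp.out.two_le; omega⟩
    have h5 : x ^ (m + 2) = 0 := by
      rw [show m + 2 = (m + 1) + 1 from rfl, pow_of_sq x _ hxx,
        (CharP.cast_eq_zero_iff (ResidueField O) p _).mpr hi, zero_pow (by omega), zero_smul]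
    rwa [← hm] at h5
  have h5 := lin_pow p 1 (fun g => ((z g⁻¹ : ℤ) : ResidueField O)) (by
    intro g h
    have h6 : (g * h * g⁻¹)⁻¹ = g * h⁻¹ * g⁻¹ := by group
    simp only [h6, hz g h⁻¹]) x
  rw [pow_one, h0] at h5
  have h7 : (residue O ⟨ω, hmem⟩) ^ p = 0 := by
    rw [h3, lin, sum_pow_char]
    have h8 : lin (fun g => ((z g⁻¹ : ℤ) : ResidueField O)) (0 : MonoidAlgebra (ResidueField O) K)
        = 0 := by
      rw [lin]
      simp
    rw [h8] at h5
    rw [h5]
    apply Finset.sum_congr rfl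
    intro g _
    rw [mul_pow, inv_pow]
    congr 1
    have := map_intCast (frobenius (ResidueField O) p) (z (g ^ p)⁻¹)
    rwa [frobenius_def] at this
  have h8 := pow_eq_zero_iff (hp.out.ne_zero) |>.mp h7
  rw [residue_eq_zero_iff] at h8
  exact (O.valuation_lt_one_iff _).mp h8

end matrices

end P179C.C3

namespace P179C

open P179H524 P179A Finset Subgroup

universe u

theorem isCF_powp {K : Type*} [Group K] {z : K → ℤ} (hz : IsCF z) (n : ℕ) :
    IsCF (fun g => z (g ^ n)) := by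
  intro g x
  change z ((g * x * g⁻¹) ^ n) = z (x ^ n)
  rw [conj_pow, hz]

/-- Truncated sections. -/
theorem pow_cong (p : ℕ) [Fact p.Prime] (O : ValuationSubring ℂ)
    [CharP (IsLocalRing.ResidueField O) p] {K : Type u} [Group K] [Finite K]
    (z : K → ℤ) (hz : IsCF z) :
    Cong O (Nat.card K) (nTr (fun g => z (g ^ p))) (Nat.card K * dz p (fun g => z (g ^ p))) := by
  classical
  have := Fintype.ofFinite K
  have hz' : IsCF (fun g => z (g ^ p)) := isCF_powp hz p
  obtain ⟨r, d, hd, ⟨φ⟩⟩ := C3.exists_wedderburn_complex' K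
  obtain ⟨ω, hω⟩ := C3.exists_omega φ hd (fun g => z (g ^ p)) hz'
  have hK : (Nat.card K : ℂ) ≠ 0 := by exact_mod_cast Nat.card_pos.ne'
  rw [Cong, C3.nTr_eq φ hd _ ω hω, C3.dz_eq φ hd p _ ω hω, ← Nat.card_eq_fintype_card (α := K),
    ← mul_sub, mul_div_cancel_left₀ _ hK]
  have h1 : ∑ i, ω i - ∑ i with ¬ p ∣ Nat.card K / d i, ω i =
      ∑ i with p ∣ Nat.card K / d i, ω i := by
    rw [← Finset.sum_filter_add_sum_filter_not Finset.univ (fun i => p ∣ Nat.card K / d i),
      add_sub_cancel_right]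
  rw [h1]
  apply valuation_sum_lt
  intro i hi
  rw [Finset.mem_filter, Nat.card_eq_fintype_card] at hi
  exact C3.residue_pow φ hd p O i z hz hi.2 (ω i) (hω i)

theorem dvd_of_valuation (p : ℕ) [hp : Fact p.Prime] (O : ValuationSubring ℂ)
    [CharP (IsLocalRing.ResidueField O) p] (t : ℤ) (h : O.valuation (t : ℂ) < 1) : (p : ℤ) ∣ t := by
  have h1 : ((t : O) : ℂ) = (t : ℂ) := by simp
  rw [← h1] at h
  have h2 := (O.valuation_lt_one_iff (t : O)).mpr h
  rw [← IsLocalRing.residue_eq_zero_iff, map_intCast] at h2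
  exact (CharP.intCast_eq_zero_iff _ p t).mp h2

/-- In a group with a nontrivial normal `p`-subgroup. -/
theorem pow_normal (p : ℕ) [hp : Fact p.Prime] {K : Type} [Group K] [Finite K]
    (hK : ¬ OpTrivial p K) (z : K → ℤ) (hz : IsCF z) :
    ((Nat.card K * p : ℕ) : ℤ) ∣ nTr (fun g => z (g ^ p)) := by
  obtain ⟨O, hO⟩ := P179H524.exists_valuationSubring hp.out
  have h1 := pow_cong p O z hz
  rw [dz_eq_zero p hK, mul_zero] at h1
  obtain ⟨t, ht⟩ := card_dvd_nTr (fun g => z (g ^ p)) (isCF_powp hz p)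
  unfold Cong at h1
  rw [ht, sub_zero] at h1
  have hKC : (Nat.card K : ℂ) ≠ 0 := by exact_mod_cast Nat.card_pos.ne'
  have h2 : ((((Nat.card K : ℤ) * t : ℤ) : ℂ) / (Nat.card K : ℂ)) = (t : ℂ) := by
    push_cast
    rw [mul_div_cancel_left₀ _ hKC]
  rw [h2] at h1
  obtain ⟨s, hs⟩ := dvd_of_valuation p O t h1
  rw [ht, hs]
  exact ⟨s, by push_cast; ring⟩

end P179C
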