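import Vale.Agent.P179.H166.Plus
import Vale.Agent.P179.H166.PPSec
import Vale.Agent.P179.H166.Osima

/-!
# Theorem C with truncated sections: only elements whose `p`-part has order `p` matter
-/

namespace P179C

open Subgroup P179H524 P179A P179K

open scoped Classical Pointwise

/-- The class function is supported on `p`-regular elements. -/
def RegSupp (p : ℕ) {G : Type*} [Group G] (z : G → ℤ) : Prop := ∀ g, z g ≠ 0 → ¬ p ∣ orderOf g

/-- The properties of a class of `p`-subgroups for which the proof of Theorem C works. -/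
structure GoodClass2 (p : ℕ) (𝒢 : ∀ (G : Type) [Group G], Subgroup G → Prop) : Prop where
  /-- subgroups -/
  res : ∀ (G : Type) [Group G] [Finite G] (H : Subgroup G) (P : Subgroup H),
    𝒢 G (P.map H.subtype) → 𝒢 H P
  /-- quotients -/
  quot : ∀ (G : Type) [Group G] [Finite G] (R : Subgroup G) [R.Normal] (P : Subgroup (G ⧸ R)),
    𝒢 G (P.comap (QuotientGroup.mk' R)) → 𝒢 (G ⧸ R) P
  /-- the main lemma -/
  dvd : ∀ (G : Type) [Group G] [Finite G] [Fintype G] (g : G) (q : ℕ),
    (∀ x : G, ∃ n : ℕ, (x ^ q) ^ (p ^ n) = 1) → (∀ x : G, (∃ n, x ^ p ^ n = 1) → x ^ q = x) →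
    g ^ q ≠ 1 → (g ^ q) ^ p = 1 →
    ∀ P : Subgroup G, IsPGroup p P → (∀ a ∈ P, a * g = g * a) → g ^ q ∈ P → 𝒢 G P →
      ((Nat.card P * p : ℕ) : ℤ) ∣ SS p g

section

variable {p : ℕ} {𝒢 : ∀ (G : Type) [Group G], Subgroup G → Prop}

theorem zg_res2 (h𝒢 : GoodClass2 p 𝒢) {G : Type} [Group G] [Finite G] (H : Subgroup G) {z : G → ℤ}
    (hz : ZG p 𝒢 z) : ZG p 𝒢 (res H z) := by
  intro g hg P hP hPg
  refine h𝒢.res G H P (hz g.1 hg (P.map H.subtype) (hP.map _) ?_)
  rintro _ ⟨c, hc, rfl⟩
  have h2 := mem_centralizer_singleton_iff.mp (hPg hc)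
  exact mem_centralizer_singleton_iff.mpr (congrArg Subtype.val h2)

theorem regSupp_res {G : Type} [Group G] (H : Subgroup G) {z : G → ℤ} (hz : RegSupp p z) :
    RegSupp p (res H z) := by
  intro g hg
  have := hz g.1 hg
  rwa [Subgroup.orderOf_coe] at this

theorem regSupp_push {G K : Type} [Group G] [Finite G] [Group K] (π : G →* K) {z : G → ℤ}
    (hz : RegSupp p z) : RegSupp p (push π z) := by
  intro c hc
  unfold push at hc
  obtain ⟨h, hh⟩ : ∃ h : {h : G // π h = c}, z h.1 ≠ 0 := by
    by_contra hcon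
    push Not at hcon
    exact hc (finsum_eq_zero_of_forall_eq_zero hcon)
  have h1 := hz h.1 hh
  intro h2
  apply h1
  rw [← h.2] at h2
  exact h2.trans (orderOf_map_dvd π h.1)

end

section

variable {p : ℕ} [hp : Fact p.Prime] {𝒢 : ∀ (G : Type) [Group G], Subgroup G → Prop}

theorem zg_quot2 (h𝒢 : GoodClass2 p 𝒢) {G : Type} [Group G] [Finite G] (R : Subgroup G)
    [R.Normal] (hR : IsPGroup p R) (z : G → ℤ) (hz : IsCF z) (hab : ZG p 𝒢 z) :
    ZG p 𝒢 (push (QuotientGroup.mk' R) z) := by
  have := Fintype.ofFinite G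
  intro c hc P' hP' hPc
  set π : G →* G ⧸ R := QuotientGroup.mk' R with hπ
  have hπs : Function.Surjective π := QuotientGroup.mk'_surjective R
  have hker : π.ker = R := QuotientGroup.ker_mk' R
  set P : Subgroup G := P'.comap π with hPdef
  have hP : IsPGroup p P := hP'.comap_of_ker_isPGroup π (by rw [hker]; exact hR)
  let act : MulAction P {h : G // π h = c} :=
    { smul := fun g h => ⟨g.1 * h.1 * g.1⁻¹, by
        have h1 : π g.1 ∈ centralizer {c} := hPc g.2
        rw [mem_centralizer_singleton_iff] at h1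
        rw [map_mul, map_mul, map_inv, h.2, h1, mul_inv_cancel_right]⟩
      one_smul := fun h => Subtype.ext (by
        change (1 : G) * h.1 * 1⁻¹ = h.1
        simp)
      mul_smul := fun g g' h => Subtype.ext (by
        change (g.1 * g'.1) * h.1 * (g.1 * g'.1)⁻¹ = g.1 * (g'.1 * h.1 * g'.1⁻¹) * g.1⁻¹
        group) }
  rw [push, finsum_eq_sum_of_fintype] at hc
  obtain ⟨h, hh, hzh⟩ := Q7.sum_fixed p hP (fun h : {h : G // π h = c} => z h.1)
    (fun g x => hz g.1 x.1) hc
  have hPh : P ≤ centralizer {h.1} := by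
    intro g hg
    rw [mem_centralizer_singleton_iff]
    have h1 := congrArg Subtype.val (hh ⟨g, hg⟩)
    have h2 : g * h.1 * g⁻¹ = h.1 := h1
    exact mul_inv_eq_iff_eq_mul.1 h2
  exact h𝒢.quot G R P' (hab h.1 hzh P hP hPh)

theorem SS_dvd_good2 (h𝒢 : GoodClass2 p 𝒢) {G : Type} [Group G] [Finite G] [Fintype G] (g : G)
    (hg : p ∣ orderOf g) (hgp : ¬ p ∣ orderOf (g ^ p))
    (hab : ∀ P : Subgroup G, IsPGroup p P → P ≤ centralizer {g} → 𝒢 G P) :
    (p : ℤ) ^ ((Nat.card (centralizer ({g} : Set G))).factorization p + 1) ∣ SS p g := by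
  obtain ⟨q, hq, hq'⟩ := exists_exponent p G
  obtain ⟨P, hP, hgP, hPC, hcard⟩ := exists_sylow_centralizer' (p := p) g q (hq g)
  have h0 : g ^ q ≠ 1 := by
    intro h1
    set x := g ^ (orderOf g / p) with hx
    have hx1 : x ^ p = 1 := by
      rw [hx, ← pow_mul, Nat.div_mul_cancel hg, pow_orderOf_eq_one]
    have hx2 : x ^ q = x := hq' x ⟨1, by rw [pow_one]; exact hx1⟩
    have hx3 : x ^ q = 1 := by
      rw [hx, ← pow_mul, mul_comm, pow_mul, h1, one_pow]
    have hx4 : x = 1 := by rw [← hx2, hx3]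
    have h5 : orderOf g ∣ orderOf g / p := by
      rw [orderOf_dvd_iff_pow_eq_one]; exact hx4
    have h6 : 0 < orderOf g := orderOf_pos g
    have h7 : 0 < orderOf g / p := Nat.div_pos (Nat.le_of_dvd h6 hg) hp.out.pos
    have h8 := Nat.le_of_dvd h7 h5
    have h9 : orderOf g / p < orderOf g := Nat.div_lt_self h6 hp.out.one_lt
    omega
  have h00 : (g ^ q) ^ p = 1 := by
    obtain ⟨n, hn⟩ := hq (g ^ p)
    rw [← pow_mul, mul_comm, pow_mul]
    rw [← orderOf_eq_one_iff]
    have h1 : orderOf ((g ^ p) ^ q) ∣ p ^ n := orderOf_dvd_of_pow_eq_one hn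
    have h2 : orderOf ((g ^ p) ^ q) ∣ orderOf (g ^ p) := orderOf_pow_dvd q
    obtain ⟨j, -, hj⟩ := (Nat.dvd_prime_pow hp.out).mp h1
    rcases Nat.eq_zero_or_pos j with h7 | h7
    · rw [hj, h7, pow_zero]
    · exact absurd ((dvd_pow_self p h7.ne').trans (hj ▸ h2)) hgp
  have h1 := h𝒢.dvd G g q hq hq' h0 h00 P hP
    (fun a ha => mem_centralizer_singleton_iff.mp (hPC ha)) hgP (hab P hP hPC)
  rw [hcard] at h1
  rw [pow_succ]
  exact_mod_cast h1

theorem FF_sing_good2 (h𝒢 : GoodClass2 p 𝒢) {G : Type} [Group G] [Finite G] (z : G → ℤ) (hz : IsCF z) (hab : ZG p 𝒢 z) (hs : ∀ g, z g ≠ 0 → p ∣ orderOf g ∧ ¬ p ∣ orderOf (g ^ p)) :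
    ((Nat.card G * p : ℕ) : ℤ) ∣ FF p z := by
  have := Fintype.ofFinite G
  rw [FF_eq_SS]
  refine dvd_orbits (Γ := ConjAct G) (fun g => z g * SS p g) ?_ _ ?_
  · intro g x
    obtain ⟨g, rfl⟩ := ConjAct.toConjAct.surjective g
    rw [ConjAct.toConjAct_smul]
    change z (g * x * g⁻¹) * SS p (g * x * g⁻¹) = z x * SS p x
    rw [hz, SS_conj]
  · intro g
    by_cases h0 : z g = 0
    · simp [h0]
    have h1 := card_dvd_SS (p := p) g
    by_cases h2 : (p : ℤ) ∣ z g
    · obtain ⟨c, hc⟩ := h2
      obtain ⟨d, hd⟩ := h1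
      refine ⟨c * d, ?_⟩
      rw [hc]
      push_cast
      calc (Nat.card (MulAction.orbit (ConjAct G) g) : ℤ) * (p * c * SS p g)
          = p * c * ((Nat.card (MulAction.orbit (ConjAct G) g) : ℤ) * SS p g) := by ring
        _ = _ := by rw [hd]; ring
    · have h3 := SS_dvd_good2 h𝒢 g (hs g h0).1 (hs g h0).2 (hab g h2)
      set o := Nat.card (MulAction.orbit (ConjAct G) g) with ho
      have h4 : o * Nat.card (centralizer ({g} : Set G)) = Nat.card G := card_orbit_conj g
      have ho0 : o ≠ 0 := by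
        intro h; rw [h, zero_mul] at h4; exact Nat.card_pos.ne h4
      have h5 : (Nat.card G).factorization p = o.factorization p +
          (Nat.card (centralizer ({g} : Set G))).factorization p := by
        rw [← h4, Nat.factorization_mul ho0 Nat.card_pos.ne', Finsupp.add_apply]
      have h6 : (p : ℤ) ^ ((Nat.card G).factorization p + 1) ∣ (o : ℤ) * SS p g := by
        rw [h5, add_assoc, pow_add]
        refine mul_dvd_mul ?_ h3
        exact_mod_cast Nat.ordProj_dvd _ p
      -- combine with the divisibility by `|G|`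
      set m := ordCompl[p] (Nat.card G) with hm
      have h7 : Nat.card G = p ^ (Nat.card G).factorization p * m :=
        (Nat.ordProj_mul_ordCompl_eq_self _ p).symm
      have h8 : (m : ℤ) ∣ (o : ℤ) * SS p g := by
        refine dvd_trans ?_ h1
        exact_mod_cast (Dvd.intro_left _ h7.symm)
      have hcop : IsCoprime ((p : ℤ) ^ ((Nat.card G).factorization p + 1)) (m : ℤ) := by
        have : Nat.Coprime (p ^ ((Nat.card G).factorization p + 1)) m :=
          Nat.Coprime.pow_left _ ((Nat.Prime.coprime_iff_not_dvd hp.out).mpr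
            (Nat.not_dvd_ordCompl hp.out Nat.card_pos.ne'))
        have := Nat.isCoprime_iff_coprime.mpr this
        push_cast at this
        exact this
      have h9 := hcop.mul_dvd h6 h8
      have h10 : ((Nat.card G * p : ℕ) : ℤ) = (p : ℤ) ^ ((Nat.card G).factorization p + 1) * m := by
        conv_lhs => rw [h7]
        push_cast
        ring
      rw [h10]
      have h11 : (o : ℤ) * (z g * SS p g) = z g * (o * SS p g) := by ring
      rw [h11]
      exact h9.mul_left _

/-- An inverse of `p` modulo the `p'`-part of the order. -/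
theorem exists_root (p : ℕ) [hp : Fact p.Prime] (G : Type*) [Group G] [Finite G] :
    ∃ e : ℕ, ∀ g : G, ¬ p ∣ orderOf g → g ^ (p * e) = g := by
  set N := ordCompl[p] (Nat.card G) with hN
  have hN0 : 0 < N := Nat.ordCompl_pos p Nat.card_pos.ne'
  have hc : Nat.Coprime p N := Nat.coprime_ordCompl hp.out Nat.card_pos.ne'
  refine ⟨p ^ (Nat.totient N - 1), fun g hg => ?_⟩
  have ht : 0 < Nat.totient N := Nat.totient_pos.mpr hN0
  have h1 : p * p ^ (Nat.totient N - 1) = p ^ Nat.totient N := by
    rw [← pow_succ', Nat.sub_add_cancel ht]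
  rw [h1]
  have h2 : p ^ Nat.totient N ≡ 1 [MOD N] := Nat.ModEq.pow_totient hc
  have h3 : orderOf g ∣ N := by
    have h4 : orderOf g ∣ Nat.card G := orderOf_dvd_natCard g
    have h5 : Nat.card G = p ^ (Nat.card G).factorization p * N :=
      (Nat.ordProj_mul_ordCompl_eq_self _ p).symm
    rw [h5] at h4
    exact (Nat.Coprime.pow_right _ ((Nat.Prime.coprime_iff_not_dvd hp.out).mpr hg).symm).dvd_of_dvd_mul_left h4
  conv_rhs => rw [← pow_one g]
  rw [pow_eq_pow_iff_modEq]
  exact h2.of_dvd h3

/-- (C4) Step 1, with truncated sections. -/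
theorem step1_good2 (h𝒢 : GoodClass2 p 𝒢) {G : Type} [Group G] [Finite G] (O : ValuationSubring ℂ)
    [CharP (IsLocalRing.ResidueField O) p]
    (z : G → ℤ) (hz : IsCF z) (hzr : RegSupp p z) (hab : ZG p 𝒢 z) :
    Cong O (Nat.card G) ((∑ s ∈ chains p G, (-1) ^ s.card * nTr (res (stab s) z) : ℤ) : ℂ)
      (Nat.card G * dz p z) := by
  have hG0 : Nat.card G ≠ 0 := Nat.card_pos.ne'
  have hGC : (Nat.card G : ℂ) ≠ 0 := by exact_mod_cast hG0
  obtain ⟨e, he⟩ := exists_root p G
  -- the section function and the difference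
  let z1 : G → ℤ := fun g => if p ∣ orderOf g then 0 else z (g ^ e)
  let y : G → ℤ := fun g => z1 (g ^ p)
  let w : G → ℤ := fun g => y g - z g
  have horder : ∀ g x : G, orderOf (g * x * g⁻¹) = orderOf x := fun g x =>
    MulEquiv.orderOf_eq (MulAut.conj g) x
  have hz1 : IsCF z1 := by
    intro g x
    simp only [z1]
    rw [horder, conj_pow, hz]
  have hy : IsCF y := isCF_powp hz1 p
  have hw : IsCF w := fun g x => by
    change y (g * x * g⁻¹) - z (g * x * g⁻¹) = y x - z x
    rw [hy, hz]
  have hyr : ∀ g, ¬ p ∣ orderOf g → y g = z g := by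
    intro g hg
    change (if p ∣ orderOf (g ^ p) then 0 else z ((g ^ p) ^ e)) = z g
    rw [if_neg, ← pow_mul, he g hg]
    exact fun h => hg (h.trans (orderOf_pow_dvd p))
  have hws : ∀ g, w g ≠ 0 → p ∣ orderOf g ∧ ¬ p ∣ orderOf (g ^ p) := by
    intro g hg
    have h1 : p ∣ orderOf g := by
      by_contra h
      apply hg
      change y g - z g = 0
      rw [hyr g h, sub_self]
    refine ⟨h1, ?_⟩
    intro h2
    apply hg
    have h3 : z g = 0 := by
      by_contra h3
      exact hzr g h3 h1
    change (if p ∣ orderOf (g ^ p) then 0 else z ((g ^ p) ^ e)) - z g = 0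
    rw [if_pos h2, h3, sub_self]
  have hwab : ZG p 𝒢 w := by
    intro g hg P hP hPg
    have h0 : w g ≠ 0 := by
      intro h; rw [h] at hg; exact hg (dvd_zero _)
    obtain ⟨h1, h2⟩ := hws g h0
    have h3 : z g = 0 := by
      by_contra h3
      exact hzr g h3 h1
    have h4 : w g = z ((g ^ p) ^ e) := by
      change (if p ∣ orderOf (g ^ p) then 0 else z ((g ^ p) ^ e)) - z g = _
      rw [if_neg h2, h3, sub_zero]
    rw [h4] at hg
    refine hab _ hg P hP ?_
    intro x hx
    have h5 := mem_centralizer_singleton_iff.mp (hPg hx)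
    rw [mem_centralizer_singleton_iff]
    exact Commute.pow_right (Commute.pow_right h5 _) _
  have h1 : ((Nat.card G * p : ℕ) : ℤ) ∣ FF p y - nTr y :=
    FF_dvd_aux y hy p fun s hs hne =>
      pow_normal p (not_opTrivial_stab hs hne) (res (stab s) z1) (isCF_res _ hz1)
  have h2 := FF_sing_good2 h𝒢 w hw hwab hws
  have h3 := pow_cong p O z1 hz1
  have h4 := dz_sing p O w hw fun g hg => (hws g hg).1
  have hyw : z = fun g => y g - w g := by
    funext g
    change z g = y g - (y g - z g)
    ring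
  have h5 : FF p z = (FF p y - nTr y) - FF p w + nTr y := by
    conv_lhs => rw [hyw]
    rw [FF_sub]; ring
  have h6 : dz p z = dz p y - dz p w := by
    conv_lhs => rw [hyw]
    rw [dz_sub]
  change Cong O (Nat.card G) ((FF p z : ℤ) : ℂ) (Nat.card G * dz p z)
  have h7 : ((Nat.card G * p : ℕ) : ℤ) ∣ (FF p y - nTr y) - FF p w := dvd_sub h1 h2
  have h8 := valuation_of_dvd O hG0 h7
  change Cong O (Nat.card G) (nTr y) (Nat.card G * dz p y) at h3
  unfold Cong at h3 h4 ⊢
  rw [Nat.cast_one, div_one, sub_zero] at h4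
  have h9 : (((FF p z : ℤ) : ℂ) - Nat.card G * dz p z) / Nat.card G =
      ((((FF p y - nTr y) - FF p w : ℤ) : ℂ) / Nat.card G +
        ((nTr y : ℂ) - Nat.card G * dz p y) / Nat.card G) + dz p w := by
    rw [h5, h6]
    push_cast
    field_simp
    ring
  rw [h9]
  exact O.valuation.map_add_lt (O.valuation.map_add_lt h8 h3) h4

end

/-- (C8) from (C4), (C5), (C7). -/
theorem main_fun_good_of2 (p : ℕ) [hp : Fact p.Prime] {𝒢 : ∀ (G : Type) [Group G], Subgroup G → Prop} (h𝒢 : GoodClass2 p 𝒢) (O : ValuationSubring ℂ)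
    [CharP (IsLocalRing.ResidueField O) p] (hL : StepL.{0} p) : ∀ (n : ℕ) (G : Type) [Group G] [Finite G], Nat.card G = n →
    ∀ (z : G → ℤ), IsCF z → RegSupp p z → ZG p 𝒢 z → Cong O (Nat.card G) (nL p z) (nW p z) := by
  intro n
  induction n using Nat.strong_induction_on with
  | _ n ih =>
  intro G _ _ hn z hz hzr hab
  have := Fintype.ofFinite G
  have hG0 : (Nat.card G : ℂ) ≠ 0 := by exact_mod_cast Nat.card_pos.ne'
  by_cases hO : OpTrivial p G
  · have := Fintype.ofFinite (neChains p G)
    have hA := step1_good2 h𝒢 O z hz hzr hab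
    have hB := hL G z hz
    have hC := KR_W p z hz
    -- the alternating sum of `nL - nW`
    have hD : O.valuation ((∑ s ∈ chains p G, (-1 : ℂ) ^ s.card *
        ((nL p (res (stab s) z) : ℂ) - nW p (res (stab s) z))) / Nat.card G) < 1 := by
      have h2 : (∑ s ∈ chains p G, (-1 : ℂ) ^ s.card *
          ((nL p (res (stab s) z) : ℂ) - nW p (res (stab s) z))) / Nat.card G =
          ((((∑ s ∈ chains p G, (-1) ^ s.card * nTr (res (stab s) z) : ℤ) : ℂ) -
            (Nat.card G * dz p z)) / Nat.card G) -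
          ((∑ s ∈ chains p G, (-1) ^ s.card *
            (nTr (res (stab s) z) - nL p (res (stab s) z)) : ℤ) : ℂ) / Nat.card G := by
        rw [← hC, ← sub_div]
        congr 1
        push_cast
        simp only [← Finset.sum_sub_distrib]
        exact Finset.sum_congr rfl fun s _ => by ring
      rw [h2]
      exact O.valuation.map_sub_lt hA (valuation_of_dvd O Nat.card_pos.ne' hB)
    rw [sum_chains_eq'] at hD
    have hF : O.valuation ((∑ s : neChains p G, (-1 : ℂ) ^ s.1.card *
        ((nL p (res (stab s.1) z) : ℂ) - nW p (res (stab s.1) z))) / Nat.card G) < 1 := by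
      refine orb_sum_val O (fun s : neChains p G => (-1 : ℂ) ^ s.1.card *
        ((nL p (res (stab s.1) z) : ℂ) - nW p (res (stab s.1) z))) ?_ ?_
      · intro g s
        have key : ∀ t : Finset (Subgroup G), (-1 : ℂ) ^ (g • t).card *
            ((nL p (res (stab (g • t)) z) : ℂ) - nW p (res (stab (g • t)) z)) =
            (-1 : ℂ) ^ t.card * ((nL p (res (stab t) z) : ℂ) - nW p (res (stab t) z)) := by
          intro t
          rw [card_smul, ← nL_comp (stabEquiv g t), ← nW_comp (stabEquiv g t),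
            res_stab_smul hz g t]
        exact key s.1
      · intro s
        rw [stabilizer_neChains, mul_div_assoc, map_mul, map_pow]
        have h3 : O.valuation (-1 : ℂ) = 1 := by rw [Valuation.map_neg, map_one]
        rw [h3, one_pow, one_mul]
        exact ih (Nat.card (stab s.1)) (hn ▸ card_stab_lt p hO s.2.1 s.2.2) (stab s.1) rfl
          (res (stab s.1) z) (isCF_res _ hz) (regSupp_res _ hzr) (zg_res2 h𝒢 _ hab)
    rw [add_div] at hD
    have hG := O.valuation.map_sub_lt hD hF
    rw [add_sub_cancel_right] at hG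
    have e : stab (∅ : Finset (Subgroup G)) ≃* G := by
      rw [P179K.stab_empty]; exact topEquiv
    have e' : ∃ e : G ≃* stab (∅ : Finset (Subgroup G)), ∀ x, (e x : G) = x := by
      rw [P179K.stab_empty]; exact ⟨topEquiv.symm, fun _ => rfl⟩
    obtain ⟨e, he⟩ := e'
    have h4 : (fun x => res (stab (∅ : Finset (Subgroup G))) z (e x)) = z := by
      ext x
      exact congrArg z (he x)
    rw [Finset.card_empty, pow_zero, one_mul, ← nL_comp e, ← nW_comp e, h4] at hG
    exact hG
  · simp only [OpTrivial, not_forall] at hO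
    obtain ⟨R, hR, hRp, hR1⟩ := hO
    have hq1 := nL_quot p R hRp z hz
    have hq2 := nW_quot p R hRp z hz
    have hq3 := zg_quot2 h𝒢 R hRp z hz
    have h2 : Nat.card G = Nat.card (G ⧸ R) * Nat.card R :=
      card_eq_card_quotient_mul_card_subgroup R
    have h3 : 1 < Nat.card R := by
      rw [Subgroup.one_lt_card_iff_ne_bot]; exact hR1
    have h4 : 0 < Nat.card (G ⧸ R) := Nat.card_pos
    have h5 := ih (Nat.card (G ⧸ R)) (by rw [← hn, h2]; nlinarith) (G ⧸ R) rfl
      (push (QuotientGroup.mk' R) z) (isCF_push _ (QuotientGroup.mk'_surjective R) hz)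
      (regSupp_push _ hzr) (hq3 hab)
    unfold Cong at h5 ⊢
    rw [hq1, hq2, h2]
    have h6 : (Nat.card R : ℂ) ≠ 0 := by exact_mod_cast Nat.card_pos.ne'
    have h7 : (Nat.card (G ⧸ R) : ℂ) ≠ 0 := by exact_mod_cast h4.ne'
    convert h5 using 2
    push_cast
    field_simp

universe u

/-- Theorem C for a class of subgroups. -/
theorem theoremC_good2 (p : ℕ) [hp : Fact p.Prime] {𝒢 : ∀ (G : Type) [Group G], Subgroup G → Prop}
    (h𝒢 : GoodClass2 p 𝒢) {k : Type u} [Field k] [IsAlgClosed k] [CharP k p]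
    (red : integralClosure ℤ ℂ →+* k) {G : Type} [Group G] [Finite G]
    (B : MonoidAlgebra k G) (hB : IsBlock B) (D : Subgroup G)
    (hD : IsDefectGroup B D)
    (hDP : ∀ (P : Subgroup G) (c : G), (∀ x ∈ P, c⁻¹ * x * c ∈ D) → 𝒢 G P) :
    numSimpleIn B ≡ numWeightsIn p red B [MOD p] := by
  have := Fintype.ofFinite (ConjClasses G)
  obtain ⟨O, hO, hred⟩ := exists_O p red
  have hG : (Nat.card G : ℂ) ≠ 0 := by exact_mod_cast Nat.card_pos.ne'
  have hW : (numWeightsIn p red B : k) =
      ∑ᶠ C : ConjClasses G, B.coeff C.out * redC red (nW p (ind C) / Nat.card G) :=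
    numWeightsIn_eq_of p red B fun w =>
      weightInBlock_iff_of red w blockHomStmt homBlockStmt homBlockStmt charBlockStmt B hB
  have hS := numSimpleIn_eq p B hB.1 hB.2.1
  have key : (numSimpleIn B : k) = (numWeightsIn p red B : k) := by
    rw [hS, hW, finsum_eq_sum_of_fintype, finsum_eq_sum_of_fintype]
    refine Finset.sum_congr rfl fun C _ => ?_
    by_cases hC : B.coeff C.out = 0
    · rw [hC, zero_mul, zero_mul]
    · congr 1
      have hz : ZG p 𝒢 (ind C) := by
        intro g hg P hP hPg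
        have hgC : ConjClasses.mk g = C := by
          by_contra hne
          refine hg ?_
          unfold ind
          rw [if_neg hne]
          exact dvd_zero _
        have hBg : B.coeff g ≠ 0 := by
          have h4 := C2.coeff_out B hB.1 g
          rw [hgC] at h4
          rwa [← h4]
        obtain ⟨c, hc⟩ := zab_of_relTrace p B D hD.1 g hBg P hP hPg
        exact hDP P c hc
      have hreg : RegSupp p (ind C) := by
        intro g hg hpg
        have hgC : ConjClasses.mk g = C := by
          by_contra hne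
          refine hg ?_
          unfold ind
          rw [if_neg hne]
        have h4 := C2.coeff_out B hB.1 g
        rw [hgC] at h4
        rw [osima_g p B hB.1 hB.2.1 g hpg] at h4
        exact hC h4
      have hmain := main_fun_good_of2 p h𝒢 O (stepL p) (Nat.card G) G rfl (ind C) (isCF_ind C)
        hreg hz
      obtain ⟨t, ht⟩ := dvd_nL p (ind C) (isCF_ind C)
      have hint := isIntegral_nW p (G := G) C
      have hGZ : (Nat.card G : ℤ) ≠ 0 := by exact_mod_cast Nat.card_pos.ne'
      rw [ht, Int.mul_ediv_cancel_left _ hGZ]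
      unfold Cong at hmain
      rw [ht] at hmain
      have h5 : (((Nat.card G : ℤ) * t : ℤ) - nW p (ind C)) / (Nat.card G : ℂ) =
          (t : ℂ) - nW p (ind C) / Nat.card G := by
        push_cast
        rw [sub_div, mul_div_cancel_left₀ _ hG]
      rw [h5] at hmain
      have h6 : (t : ℂ) ∈ integralClosure ℤ ℂ := intCast_mem _ t
      have h7 := (hred _ (sub_mem h6 hint)).mp hmain
      have h8 : (⟨(t : ℂ) - nW p (ind C) / Nat.card G, sub_mem h6 hint⟩ : integralClosure ℤ ℂ) =
          ((t : ℤ) : integralClosure ℤ ℂ) - ⟨nW p (ind C) / Nat.card G, hint⟩ := rfl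
      rw [h8, map_sub, map_intCast, sub_eq_zero] at h7
      rw [h7, redC_of_mem red hint]
  exact (CharP.natCast_eq_natCast k p).mp key

end P179C
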