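import Vale.Agent.P179.H166.PPMain5
import Vale.Agent.P179.H166.PPFun

/-!
# The class of defect groups of Theorem C++
-/

namespace P179C

open Subgroup P179H524 P179A P179K

open scoped Classical Pointwise

/-- No section of `Q` contains an element of order `8` (`p = 2`), of order `9` (`p = 3`), which is
conjugate to its `e`-th power for all `e` congruent to `1` modulo `p`. -/
def NoTw (p : ℕ) (Q : Type) [Group Q] : Prop :=
  ∀ (H : Subgroup Q) (K : Type) [Group K] (f : H →* K), Function.Surjective f → ∀ k : K,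
    orderOf k = p * (if p = 2 then 4 else 3) → ∃ e, e ≡ 1 [MOD p] ∧ ¬ IsConj k (k ^ e)

theorem NoTw.of_surj {p : ℕ} {Q Q' : Type} [Group Q] [Group Q'] (h : NoTw p Q) (φ : Q →* Q')
    (hφ : Function.Surjective φ) : NoTw p Q' := by
  intro H K _ f hf k hk
  let r : H.comap φ →* H := (φ.comp (H.comap φ).subtype).codRestrict H fun x => x.2
  have hr : Function.Surjective r := by
    rintro ⟨y, hy⟩
    obtain ⟨x, rfl⟩ := hφ y
    exact ⟨⟨x, hy⟩, rfl⟩
  exact h (H.comap φ) K (f.comp r) (hf.comp hr) k hk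

theorem NoTw.of_inj {p : ℕ} {Q Q' : Type} [Group Q] [Group Q'] (h : NoTw p Q) (φ : Q' →* Q)
    (hφ : Function.Injective φ) : NoTw p Q' := by
  intro H K _ f hf k hk
  let e := H.equivMapOfInjective φ hφ
  exact h (H.map φ) K (f.comp e.symm.toMonoidHom) (hf.comp e.symm.surjective) k hk

/-- The class of subgroups of Theorem C++. -/
def TwClass (p : ℕ) (G : Type) [Group G] (P : Subgroup G) : Prop :=
  (∀ a ∈ P, ∀ b ∈ P, a * b = b * a) ∨ ((p = 2 ∨ p = 3) ∧ NoTw p P)

theorem TwClass.goodClass (p : ℕ) [hp : Fact p.Prime] : GoodClass2 p (TwClass p) := by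
  refine ⟨?_, ?_, ?_⟩
  · intro G _ _ H P h
    rcases h with h | ⟨h2, h⟩
    · exact Or.inl fun a ha b hb => Subtype.ext (h a ⟨a, ha, rfl⟩ b ⟨b, hb, rfl⟩)
    · exact Or.inr ⟨h2, h.of_inj (P.equivMapOfInjective H.subtype H.subtype_injective).toMonoidHom
        (P.equivMapOfInjective H.subtype H.subtype_injective).injective⟩
  · intro G _ _ R _ P h
    have hs : Function.Surjective (QuotientGroup.mk' R) := QuotientGroup.mk'_surjective R
    rcases h with h | ⟨h2, h⟩
    · refine Or.inl fun a ha b hb => ?_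
      obtain ⟨x, rfl⟩ := hs a
      obtain ⟨y, rfl⟩ := hs b
      rw [← map_mul, ← map_mul, h x ha y hb]
    · refine Or.inr ⟨h2, ?_⟩
      let r : P.comap (QuotientGroup.mk' R) →* P :=
        ((QuotientGroup.mk' R).comp (P.comap (QuotientGroup.mk' R)).subtype).codRestrict P
          fun x => x.2
      have hr : Function.Surjective r := by
        rintro ⟨y, hy⟩
        obtain ⟨x, rfl⟩ := hs y
        exact ⟨⟨x, hy⟩, rfl⟩
      exact h.of_surj r hr
  · intro G _ _ _ g q hq hq' h0 h0' P hP hg hgP h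
    rcases h with h | ⟨h2, h⟩
    · have h1 := main_lemma p g q hq P hP h hg hgP
      refine dvd_trans ?_ h1
      have h2 : p ∣ orderOf (g ^ q) := by
        rw [orderOf_eq_prime h0' h0]
      exact_mod_cast Nat.mul_dvd_mul_left _ h2
    · have key : ∀ Q : ℕ, Q = (if p = 2 then 4 else 3) → ∀ n : ℕ, Q = p ^ n →
          ∀ k ∈ P, k ^ Q = g ^ q → ∃ e, e ≡ 1 [MOD p] ∧ ∀ c ∈ P, c * k * c⁻¹ ≠ k ^ e := by
        intro Q hQ n hn k hk hkQ
        have ho : orderOf (⟨k, hk⟩ : P) = p * (if p = 2 then 4 else 3) := by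
          rw [← hQ, hn, ← pow_succ', orderOf_mk]
          refine orderOf_eq_prime_pow (by rw [← hn, hkQ]; exact h0) ?_
          rw [pow_succ, pow_mul, ← hn, hkQ, h0']
        have hsj : Function.Surjective ((topEquiv : (⊤ : Subgroup P) ≃* P).toMonoidHom) :=
          (topEquiv : (⊤ : Subgroup P) ≃* P).surjective
        obtain ⟨e, he, hec⟩ := h ⊤ P (topEquiv : (⊤ : Subgroup P) ≃* P).toMonoidHom hsj ⟨k, hk⟩ ho
        refine ⟨e, he, fun c hc hck => hec ?_⟩
        rw [isConj_iff]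
        exact ⟨⟨c, hc⟩, Subtype.ext hck⟩
      refine main_pp p g q P hP hg hgP h0 h0' hq' ?_
      rcases h2 with h2 | h3
      · exact Or.inl ⟨h2, key 4 (by rw [if_pos h2]) 2 (by rw [h2]; norm_num)⟩
      · exact Or.inr ⟨h3, key 3 (by rw [h3]; norm_num) 1 (by rw [h3]; norm_num)⟩

/-- Subgroups of conjugates. -/
theorem TwClass.of_conj {p : ℕ} {G : Type} [Group G] {D P : Subgroup G} (hD : TwClass p G D)
    (c : G) (hc : ∀ x ∈ P, c⁻¹ * x * c ∈ D) : TwClass p G P := by
  rcases hD with h | ⟨h2, h⟩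
  · refine Or.inl fun a ha b hb => ?_
    have h := h _ (hc a ha) _ (hc b hb)
    have h1 : c * ((c⁻¹ * a * c) * (c⁻¹ * b * c)) * c⁻¹
        = c * ((c⁻¹ * b * c) * (c⁻¹ * a * c)) * c⁻¹ := by rw [h]
    have e1 : c * ((c⁻¹ * a * c) * (c⁻¹ * b * c)) * c⁻¹ = a * b := by group
    have e2 : c * ((c⁻¹ * b * c) * (c⁻¹ * a * c)) * c⁻¹ = b * a := by group
    rwa [e1, e2] at h1
  · refine Or.inr ⟨h2, ?_⟩
    let φ : P →* D :=
      { toFun := fun x => ⟨c⁻¹ * x * c, hc x x.2⟩
        map_one' := Subtype.ext (by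
          change c⁻¹ * (1 : G) * c = 1
          group)
        map_mul' := fun x y => Subtype.ext (by
          change c⁻¹ * ((x : G) * y) * c = (c⁻¹ * x * c) * (c⁻¹ * y * c)
          group) }
    refine h.of_inj φ ?_
    intro x y hxy
    have h1 : c⁻¹ * (x : G) * c = c⁻¹ * (y : G) * c := congrArg Subtype.val hxy
    exact Subtype.ext (mul_left_cancel (mul_right_cancel h1))

universe u

/-- **Theorem C++.** -/
theorem theoremCpp (p : ℕ) [hp : Fact p.Prime] {k : Type u} [Field k] [IsAlgClosed k] [CharP k p]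
    (red : integralClosure ℤ ℂ →+* k) {G : Type} [Group G] [Finite G]
    (B : MonoidAlgebra k G) (hB : IsBlock B) (D : Subgroup G)
    (hD : IsDefectGroup B D)
    (h : (∀ a ∈ D, ∀ b ∈ D, a * b = b * a) ∨ ((p = 2 ∨ p = 3) ∧ NoTw p D)) :
    numSimpleIn B ≡ numWeightsIn p red B [MOD p] :=
  theoremC_good2 p (TwClass.goodClass p) red B hB D hD fun _ c hc => TwClass.of_conj h c hc

end P179C
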