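import Vale.Agent.P179.H166.Central

/-!
# (C9b) the Brauer homomorphism and weights in a block
-/

namespace P179C

open Subgroup P179H524

open scoped Classical

universe u

/-- the sum of an invariant function vanishing on the fixed points of a `p`-group is zero in
characteristic `p` -/
theorem sum_eq_zero_of_perm (p : ℕ) [hp : Fact p.Prime] {R P X : Type*} [CommRing R] [CharP R p]
    [Group P] [Finite P] [Fintype X] (hP : IsPGroup p P) (φ : P →* Equiv.Perm X) (F : X → R)
    (hF : ∀ g x, F (φ g x) = F x) (h0 : ∀ x, (∀ g, φ g x = x) → F x = 0) :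
    ∑ x, F x = 0 := by
  let _ : MulAction P X := MulAction.compHom X φ
  have hsmul : ∀ (g : P) (x : X), g • x = φ g x := fun g x => rfl
  have := Fintype.ofFinite (MulAction.orbitRel.Quotient P X)
  rw [← (MulAction.selfEquivSigmaOrbits P X).symm.sum_comp, Fintype.sum_sigma]
  refine Finset.sum_eq_zero fun ω _ => ?_
  have h2 : ∀ x : MulAction.orbit P ω.out,
      F ((MulAction.selfEquivSigmaOrbits P X).symm ⟨ω, x⟩) = F ω.out := by
    rintro ⟨_, g, rfl⟩
    exact hF g _
  rw [Finset.sum_congr rfl fun x _ => h2 x, Finset.sum_const, nsmul_eq_mul, Finset.card_univ]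
  obtain ⟨n, hn⟩ := hP.card_orbit (α := X) ω.out
  rcases Nat.eq_zero_or_pos n with h | h
  · rw [h, pow_zero, Nat.card_eq_one_iff_unique] at hn
    have h3 : ∀ g : P, φ g ω.out = ω.out := by
      intro g
      have := hn.1
      have h4 := Subsingleton.elim (⟨g • ω.out, g, rfl⟩ : MulAction.orbit P ω.out)
        ⟨ω.out, MulAction.mem_orbit_self _⟩
      exact congrArg Subtype.val h4
    rw [h0 _ h3, mul_zero]
  · have h3 : ((Fintype.card (MulAction.orbit P ω.out) : ℕ) : R) = 0 := by
      rw [← Nat.card_eq_fintype_card, hn, Nat.cast_pow, CharP.cast_eq_zero, zero_pow h.ne']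
    rw [h3, zero_mul]

section Push

variable {R : Type*} [CommRing R] {H K : Type*} [Group H] [Group K] [Fintype H]

/-- sum over the fibres -/
noncomputable def pushR (π : H →* K) (a : H → R) : K → R :=
  fun c => ∑ h : H, if π h = c then a h else 0

theorem pushR_int (π : H →* K) (a : H → ℤ) (c : K) :
    pushR π (fun h => (a h : R)) c = ((push π a c : ℤ) : R) := by
  unfold pushR push
  rw [finsum_eq_sum_of_fintype, ← Finset.sum_filter]
  rw [Finset.sum_subtype (p := fun h => π h = c) (Finset.univ.filter fun h => π h = c)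
    (fun h => by simp)]
  push_cast
  rfl

variable {k : Type*} [Field k] (red : integralClosure ℤ ℂ →+* k)

theorem om_push [Fintype K] (π : H →* K) (χ : K → ℂ) (a : H → ℤ) :
    om χ (push π a) = om (fun h => χ (π h)) a := by
  unfold om
  simp only [map_one]
  congr 1
  simp only [finsum_eq_sum_of_fintype]
  have h1 : ∀ c : K, ((push π a c : ℤ) : ℂ) = pushR π (fun h => (a h : ℂ)) c := fun c =>
    (pushR_int (R := ℂ) π a c).symm
  simp only [h1]
  unfold pushR
  simp only [Finset.sum_mul]
  rw [Finset.sum_comm]
  refine Finset.sum_congr rfl fun h _ => ?_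
  rw [Finset.sum_eq_single (π h)]
  · rw [if_pos rfl]
  · intro c _ hc
    rw [if_neg (fun h' => hc h'.symm), zero_mul]
  · intro h'; exact absurd (Finset.mem_univ _) h'

theorem lam_sum {ι : Type*} (χ : H → ℂ) (s : Finset ι) (f : ι → H → k) :
    lam red χ (∑ i ∈ s, f i) = ∑ i ∈ s, lam red χ (f i) := by
  induction s using Finset.induction_on with
  | empty => simp [lam]
  | insert i s hi ih => rw [Finset.sum_insert hi, Finset.sum_insert hi, lam_add, ih]

/-- inflation -/
theorem lam_push [Fintype K] (π : H →* K) (hπ : Function.Surjective π) {χ : K → ℂ}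
    (hχ : IsIrrChar χ) {a : H → k} (ha : IsCF a) :
    lam red χ (pushR π a) = lam red (fun h => χ (π h)) a := by
  have := Fintype.ofFinite (ConjClasses H)
  have h1 : a = ∑ D : ConjClasses H, a D.out • (fun x => ((ind D x : ℤ) : k)) := by
    ext x
    rw [cf_eq_sum ha x]
    simp only [Finset.sum_apply, Pi.smul_apply, smul_eq_mul]
  have h2 : pushR π a = ∑ D : ConjClasses H, a D.out • (fun c => ((push π (ind D) c : ℤ) : k)) := by
    ext c
    simp only [Finset.sum_apply, Pi.smul_apply, smul_eq_mul, ← pushR_int]
    unfold pushR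
    simp only [Finset.mul_sum]
    rw [Finset.sum_comm]
    refine Finset.sum_congr rfl fun h _ => ?_
    split_ifs with hh
    · exact cf_eq_sum ha h
    · simp
  rw [h2, lam_sum]
  conv_rhs => rw [h1, lam_sum]
  refine Finset.sum_congr rfl fun D _ => ?_
  rw [lam_smul, lam_smul, lam_int red hχ (isCF_push π hπ (isCF_ind D)),
    lam_int red (hχ.comp π hπ) (isCF_ind D), om_push]

end Push

section Brauer

variable {p : ℕ} [hp : Fact p.Prime] {k : Type*} [Field k] [CharP k p]
  {G : Type*} [Group G] [Fintype G]

/-- conjugation on pairs -/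
def conjPair (Q : Subgroup G) : Q →* Equiv.Perm (G × G) where
  toFun q := Equiv.prodCongr (MulAut.conj (q : G)).toEquiv (MulAut.conj (q : G)).toEquiv
  map_one' := by ext <;> simp
  map_mul' a b := by ext <;> simp [mul_assoc]

omit [Fintype G] in
theorem isCF_restrict {R : Type*} (N : Subgroup G) {a : G → R} (ha : IsCF a) :
    IsCF (fun n : N => a n) := fun g x => ha g x

/-- the key property of the Brauer homomorphism -/
theorem pushR_conv (Q : Subgroup G) (hQ : IsPGroup p Q) {a b : G → k} (ha : IsCF a)
    (hb : IsCF b) :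
    pushR (QuotientGroup.mk' (Q.subgroupOf (normalizer (Q : Set G))))
      (fun n : normalizer (Q : Set G) => conv a b n) =
    pushR (QuotientGroup.mk' (Q.subgroupOf (normalizer (Q : Set G))))
      (conv (fun n : normalizer (Q : Set G) => a n) (fun n : normalizer (Q : Set G) => b n)) := by
  set N := normalizer (Q : Set G) with hN
  set π := QuotientGroup.mk' (Q.subgroupOf N) with hπ
  ext c
  let F : G × G → k := fun t => if h : t.1 ∈ N then
    (if π ⟨t.1, h⟩ = c ∧ t.2 ∉ N then a t.2 * b (t.2⁻¹ * t.1) else 0) else 0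
  have hF : ∑ t, F t = 0 := by
    refine sum_eq_zero_of_perm p hQ (conjPair Q) F ?_ ?_
    · rintro q ⟨n, h⟩
      have hqN : (q : G) ∈ N := le_normalizer q.2
      have h1 : conjPair Q q (n, h) = ((q : G) * n * (q : G)⁻¹, (q : G) * h * (q : G)⁻¹) := rfl
      have hmem : ∀ x : G, (q : G) * x * (q : G)⁻¹ ∈ N ↔ x ∈ N := by
        intro x
        constructor
        · intro hx
          have := mul_mem (mul_mem (inv_mem hqN) hx) hqN
          simpa [mul_assoc] using this
        · intro hx
          exact mul_mem (mul_mem hqN hx) (inv_mem hqN)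
      rw [h1]
      simp only [F]
      by_cases hn : n ∈ N
      · rw [dif_pos hn, dif_pos ((hmem n).mpr hn)]
        have h2 : π ⟨(q : G) * n * (q : G)⁻¹, (hmem n).mpr hn⟩ = π ⟨n, hn⟩ := by
          have h3 : (⟨(q : G) * n * (q : G)⁻¹, (hmem n).mpr hn⟩ : N) =
              ⟨q, hqN⟩ * ⟨n, hn⟩ * ⟨q, hqN⟩⁻¹ := rfl
          have h4 : π ⟨q, hqN⟩ = 1 := by
            rw [hπ, QuotientGroup.mk'_apply, QuotientGroup.eq_one_iff, mem_subgroupOf]
            exact q.2
          rw [h3, map_mul, map_mul, map_inv, h4, one_mul, inv_one, mul_one]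
        rw [h2, ha, hmem h]
        have h5 : ((q : G) * h * (q : G)⁻¹)⁻¹ * ((q : G) * n * (q : G)⁻¹) =
            (q : G) * (h⁻¹ * n) * (q : G)⁻¹ := by group
        rw [h5, hb]
      · rw [dif_neg hn, dif_neg (fun h' => hn ((hmem n).mp h'))]
    · rintro ⟨n, h⟩ hfix
      simp only [F]
      have hh : h ∈ N := by
        rw [hN, mem_normalizer_iff]
        have hcomm : ∀ q ∈ Q, q * h = h * q := by
          intro q hq
          have h1 := congrArg Prod.snd (hfix ⟨q, hq⟩)
          have h2 : q * h * q⁻¹ = h := h1
          exact mul_inv_eq_iff_eq_mul.mp h2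
        intro x
        constructor
        · intro hx
          rw [← hcomm x hx, mul_inv_cancel_right]
          exact hx
        · intro hx
          have h2 := hcomm _ hx
          have h3 : h * x = h * (h * x * h⁻¹) := by
            rw [← h2, mul_assoc, inv_mul_cancel, mul_one]
          rw [mul_left_cancel h3]
          exact hx
      split_ifs with h1 h2
      · exact absurd hh h2.2
      · rfl
      · rfl
  have hsum : ∑ t, F t = pushR π (fun n : N => conv a b n) c -
      pushR π (conv (fun n : N => a n) (fun n : N => b n)) c := by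
    rw [Fintype.sum_prod_type]
    unfold pushR conv
    rw [← Finset.sum_sub_distrib]
    have h1 : ∀ f : G → k, (∀ g, g ∉ N → f g = 0) → ∑ g, f g = ∑ n : N, f n := by
      intro f hf
      have h2 : ∑ g ∈ Finset.univ.filter (fun g => g ∈ N), f g = ∑ n : N, f n :=
        Finset.sum_subtype _ (fun g => by simp) f
      rw [Finset.sum_filter_of_ne (fun g _ hg => by
        by_contra hgN
        exact hg (hf g hgN))] at h2
      exact h2
    rw [h1]
    · refine Finset.sum_congr rfl fun n _ => ?_
      have h2 : ∀ h : G, F (n, h) =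
          if π n = c then (a h * b (h⁻¹ * n) - if h ∈ N then a h * b (h⁻¹ * n) else 0) else 0 := by
        intro h
        simp only [F]
        rw [dif_pos n.2]
        by_cases h3 : π n = c <;> by_cases h4 : h ∈ N <;> simp [h3, h4]
      rw [Finset.sum_congr rfl fun h _ => h2 h]
      split_ifs with h3
      · rw [Finset.sum_sub_distrib, h1 (fun h => if h ∈ N then a h * b (h⁻¹ * n) else 0)]
        · congr 1
          refine Finset.sum_congr rfl fun h _ => ?_
          rw [if_pos h.2]
          rfl
        · intro g hg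
          rw [if_neg hg]
      · simp
    · intro g hg
      refine Finset.sum_eq_zero fun h _ => ?_
      simp only [F]
      rw [dif_neg hg]
  rw [hF] at hsum
  exact (sub_eq_zero.mp hsum.symm)

end Brauer

section Coeff

variable {k : Type*} [Field k] {G : Type*} [Group G]

theorem coeff_finsum_single {ι : Type*} [Fintype ι] (H : Type*) [Group H] (f : ι → H) (c : ι → k)
    (x : H) : (∑ᶠ i, MonoidAlgebra.single (f i) (c i) : MonoidAlgebra k H).coeff x =
      ∑ i, if f i = x then c i else 0 := by
  rw [finsum_eq_sum_of_fintype, MonoidAlgebra.coeff_sum, Finsupp.finsetSum_apply]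
  refine Finset.sum_congr rfl fun i _ => ?_
  rw [MonoidAlgebra.coeff_single, Finsupp.single_apply]

theorem coeff_trunc [Finite G] (H : Subgroup G) (z : MonoidAlgebra k G) (h : H) :
    (trunc H z).coeff h = z.coeff h := by
  have := Fintype.ofFinite H
  unfold trunc
  rw [coeff_finsum_single, Finset.sum_eq_single h]
  · rw [if_pos rfl]
  · intro x _ hx
    rw [if_neg hx]
  · intro h'; exact absurd (Finset.mem_univ _) h'

theorem coeff_classSum [Finite G] (g x : G) :
    (classSum k g).coeff x = ((ind (ConjClasses.mk g) x : ℤ) : k) := by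
  have := Fintype.ofFinite {x : G // IsConj g x}
  unfold classSum
  rw [coeff_finsum_single]
  unfold ind
  by_cases h : IsConj g x
  · have h' : ConjClasses.mk x = ConjClasses.mk g := ConjClasses.mk_eq_mk_iff_isConj.mpr h.symm
    rw [if_pos h', Finset.sum_eq_single ⟨x, h⟩]
    · simp
    · intro y _ hy
      rw [if_neg (fun hyx => hy (Subtype.ext hyx))]
    · intro h'; exact absurd (Finset.mem_univ _) h'
  · have h' : ¬ ConjClasses.mk x = ConjClasses.mk g := fun h' =>
      h (ConjClasses.mk_eq_mk_iff_isConj.mp h').symm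
    rw [if_neg h', Int.cast_zero]
    refine Finset.sum_eq_zero fun y _ => ?_
    rw [if_neg (fun hyx => h (by rw [← hyx]; exact y.2))]

theorem classSum_mem_center [Finite G] (g : G) :
    classSum k g ∈ Subalgebra.center k (MonoidAlgebra k G) := by
  rw [mem_center_iff]
  intro c x
  simp only [coeff_classSum]
  rw [isCF_ind (ConjClasses.mk g) c x]

theorem eq_sum_classSum [Finite G] [Fintype (ConjClasses G)] (z : MonoidAlgebra k G)
    (hz : z ∈ Subalgebra.center k (MonoidAlgebra k G)) :
    z = ∑ C : ConjClasses G, z.coeff C.out • classSum k C.out := by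
  have := Fintype.ofFinite G
  ext x
  rw [MonoidAlgebra.coeff_sum, Finsupp.finsetSum_apply]
  have h1 : z.coeff x = ∑ C : ConjClasses G, z.coeff C.out * ((ind C x : ℤ) : k) :=
    cf_eq_sum ((mem_center_iff z).mp hz) x
  rw [h1]
  refine Finset.sum_congr rfl fun C _ => ?_
  rw [MonoidAlgebra.coeff_smul, Finsupp.smul_apply, smul_eq_mul, coeff_classSum]
  have : ConjClasses.mk C.out = C := Quot.out_eq C
  rw [this]

end Coeff

section Hom

variable {k : Type*} [Field k] (red : integralClosure ℤ ℂ →+* k)

/-- the reduction of the central character of `χ` as an algebra homomorphism -/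
noncomputable def lamHom {H : Type*} [Group H] [Fintype H] (χ : H → ℂ) (hχ : IsIrrChar χ) :
    Subalgebra.center k (MonoidAlgebra k H) →ₐ[k] k :=
  AlgHom.ofLinearMap
    { toFun := fun z => lam red χ (fun h => z.1.coeff h)
      map_add' := fun a b => lam_add red χ _ _
      map_smul' := fun c a => lam_smul red χ c _ }
    (by
      change lam red χ (fun h => (1 : MonoidAlgebra k H).coeff h) = 1
      rw [← lam_one red hχ]
      congr 1
      ext h
      rw [MonoidAlgebra.one_def, MonoidAlgebra.coeff_single, Finsupp.single_apply]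
      simp only [eq_comm])
    (fun a b => by
      change lam red χ (fun h => (a.1 * b.1).coeff h) = _
      have h1 : (fun h => (a.1 * b.1).coeff h) =
          conv (fun h => a.1.coeff h) (fun h => b.1.coeff h) := by
        ext h; exact coeff_mul_eq_conv _ _ h
      rw [h1, lam_conv red hχ ((mem_center_iff _).mp a.2) ((mem_center_iff _).mp b.2)]
      rfl)

theorem lamHom_apply {H : Type*} [Group H] [Fintype H] (χ : H → ℂ) (hχ : IsIrrChar χ)
    (z : Subalgebra.center k (MonoidAlgebra k H)) :
    lamHom red χ hχ z = lam red χ (fun h => z.1.coeff h) := rfl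

variable {p : ℕ} [hp : Fact p.Prime] [CharP k p] {G : Type*} [Group G] [Fintype G]

omit hp [Fintype G] in
theorem isIrrChar_infl (w : P179H524.Weight p G) : IsIrrChar (Weight.infl w) :=
  w.defectZero.1.comp (QuotientGroup.mk' (w.Q.subgroupOf (normalizer (w.Q : Set G))))
    (QuotientGroup.mk'_surjective _)

theorem mu_conv (w : P179H524.Weight p G) [iF : Fintype (normalizer (w.Q : Set G))] {a b : G → k}
    (ha : IsCF a) (hb : IsCF b) :
    lam red (Weight.infl w) (fun n => conv a b n) =
      lam red (Weight.infl w) (fun n => a n) * lam red (Weight.infl w) (fun n => b n) := by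
  have := Fintype.ofFinite (NQ w.Q)
  rw [← lam_conv red (isIrrChar_infl w) (isCF_restrict _ ha) (isCF_restrict _ hb)]
  have h1 := lam_push red (QuotientGroup.mk' (w.Q.subgroupOf (normalizer (w.Q : Set G))))
    (QuotientGroup.mk'_surjective _) w.defectZero.1 (isCF_restrict (normalizer (w.Q : Set G))
      (isCF_conv ha hb))
  have h2 := lam_push red (QuotientGroup.mk' (w.Q.subgroupOf (normalizer (w.Q : Set G))))
    (QuotientGroup.mk'_surjective _) w.defectZero.1
    (isCF_conv (isCF_restrict (normalizer (w.Q : Set G)) ha)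
      (isCF_restrict (normalizer (w.Q : Set G)) hb))
  change lam red (fun h => w.φ (QuotientGroup.mk' _ h)) _ =
    lam red (fun h => w.φ (QuotientGroup.mk' _ h)) _
  rw [← h1, ← h2]
  congr 1
  have h3 : ∀ j : Fintype (normalizer (w.Q : Set G)), j = iF →
      @pushR k _ _ _ _ _ j (QuotientGroup.mk' (w.Q.subgroupOf (normalizer (w.Q : Set G))))
        (fun n : normalizer (w.Q : Set G) => conv a b n) =
      @pushR k _ _ _ _ _ j (QuotientGroup.mk' (w.Q.subgroupOf (normalizer (w.Q : Set G))))
        (@conv k _ _ _ j (fun n : normalizer (w.Q : Set G) => a n)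
          (fun n : normalizer (w.Q : Set G) => b n)) →
      @pushR k _ _ _ _ _ iF (QuotientGroup.mk' (w.Q.subgroupOf (normalizer (w.Q : Set G))))
        (fun n : normalizer (w.Q : Set G) => conv a b n) =
      @pushR k _ _ _ _ _ iF (QuotientGroup.mk' (w.Q.subgroupOf (normalizer (w.Q : Set G))))
        (@conv k _ _ _ iF (fun n : normalizer (w.Q : Set G) => a n)
          (fun n : normalizer (w.Q : Set G) => b n)) := by
    intro j hj h
    subst hj
    exact h
  exact h3 ((normalizer (w.Q : Set G)).instFintypeSubtypeMemOfDecidablePred)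
    (Subsingleton.elim _ _) (pushR_conv w.Q w.isPGroup ha hb)

/-- the central character of `G` attached to a weight -/
noncomputable def muHom (w : P179H524.Weight p G) [Fintype (normalizer (w.Q : Set G))] :
    Subalgebra.center k (MonoidAlgebra k G) →ₐ[k] k :=
  AlgHom.ofLinearMap
    { toFun := fun z => lam red (Weight.infl w) (fun n => z.1.coeff n)
      map_add' := fun a b => lam_add red _ _ _
      map_smul' := fun c a => lam_smul red _ c _ }
    (by
      change lam red (Weight.infl w) (fun n => (1 : MonoidAlgebra k G).coeff n) = 1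
      rw [← lam_one red (isIrrChar_infl w)]
      congr 1
      ext h
      rw [MonoidAlgebra.one_def, MonoidAlgebra.coeff_single, Finsupp.single_apply]
      have : (1 : G) = (h : G) ↔ h = 1 := by
        rw [eq_comm, OneMemClass.coe_eq_one]
      simp only [this]
      by_cases hh : h = 1 <;> simp [hh])
    (fun a b => by
      change lam red (Weight.infl w) (fun n => (a.1 * b.1).coeff n) = _
      have h1 : (fun n : normalizer (w.Q : Set G) => (a.1 * b.1).coeff n) =
          fun n : normalizer (w.Q : Set G) =>
            conv (fun h => a.1.coeff h) (fun h => b.1.coeff h) (n : G) := by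
        ext n; exact coeff_mul_eq_conv _ _ _
      rw [h1, mu_conv red w ((mem_center_iff _).mp a.2) ((mem_center_iff _).mp b.2)]
      rfl)

theorem muHom_apply (w : P179H524.Weight p G) [Fintype (normalizer (w.Q : Set G))]
    (z : Subalgebra.center k (MonoidAlgebra k G)) :
    muHom red w z = lam red (Weight.infl w) (fun n => z.1.coeff n) := rfl

end Hom

section Main

variable {k : Type*} [Field k] (red : integralClosure ℤ ℂ →+* k)

/-- central characters of blocks are algebra homomorphisms -/
def BlockHomStmt (k H : Type*) [Field k] [Group H] : Prop :=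
  ∀ B : MonoidAlgebra k H, IsBlock B →
    ∃ l : Subalgebra.center k (MonoidAlgebra k H) →ₐ[k] k, ∀ z, l z = centralChar B z

/-- algebra homomorphisms of the centre are central characters of blocks -/
def HomBlockStmt (k H : Type*) [Field k] [Group H] : Prop :=
  ∀ l : Subalgebra.center k (MonoidAlgebra k H) →ₐ[k] k,
    ∃ B : MonoidAlgebra k H, IsBlock B ∧ ∀ z, l z = centralChar B z

/-- central characters at blocks -/
def CharBlockStmt (k H : Type*) [Field k] [Group H] : Prop :=
  ∀ B B' : MonoidAlgebra k H, IsBlock B → IsBlock B' →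
    centralChar B B' = if B = B' then 1 else 0

theorem om_ind {H : Type*} [Group H] [Finite H] {χ : H → ℂ} (hχ : IsIrrChar χ) (h : H) :
    om χ (ind (ConjClasses.mk h)) = Nat.card {x : H // IsConj h x} * χ h / χ 1 := by
  have := Fintype.ofFinite H
  unfold om
  congr 1
  rw [finsum_eq_sum_of_fintype]
  have h1 : ∀ g : H, ((ind (ConjClasses.mk h) g : ℤ) : ℂ) * χ g = if IsConj h g then χ h else 0 := by
    intro g
    unfold ind
    by_cases hg : IsConj h g
    · have h' : ConjClasses.mk g = ConjClasses.mk h := ConjClasses.mk_eq_mk_iff_isConj.mpr hg.symm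
      obtain ⟨c, hc⟩ := isConj_iff.mp hg
      rw [if_pos h', if_pos hg, Int.cast_one, one_mul, ← hc, hχ.conj]
    · have h' : ¬ ConjClasses.mk g = ConjClasses.mk h := fun h' =>
        hg (ConjClasses.mk_eq_mk_iff_isConj.mp h').symm
      rw [if_neg h', if_neg hg, Int.cast_zero, zero_mul]
  rw [Finset.sum_congr rfl fun g _ => h1 g, ← Finset.sum_filter, Finset.sum_const, nsmul_eq_mul,
    Nat.card_eq_fintype_card, Fintype.card_subtype]

theorem lam_classSum {H : Type*} [Group H] [Fintype H] {χ : H → ℂ} (hχ : IsIrrChar χ) (h : H) :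
    lam red χ (fun x => (classSum k h).coeff x) =
      redC red (Nat.card {x : H // IsConj h x} * χ h / χ 1) := by
  have h1 : (fun x => (classSum k h).coeff x) = fun x => ((ind (ConjClasses.mk h) x : ℤ) : k) := by
    ext x; exact coeff_classSum h x
  rw [h1, lam_int red hχ (isCF_ind _), om_ind hχ]

/-- two linear functionals on the centre which agree on class sums are equal -/
theorem eq_of_classSum {H : Type*} [Group H] [Finite H]
    (l l' : Subalgebra.center k (MonoidAlgebra k H) →ₐ[k] k)
    (h : ∀ g : H, l ⟨classSum k g, classSum_mem_center g⟩ =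
      l' ⟨classSum k g, classSum_mem_center g⟩) : l = l' := by
  have := Fintype.ofFinite (ConjClasses H)
  ext z
  have h1 : z = ∑ C : ConjClasses H,
      z.1.coeff C.out • (⟨classSum k C.out, classSum_mem_center _⟩ :
        Subalgebra.center k (MonoidAlgebra k H)) := by
    apply Subtype.ext
    rw [AddSubmonoidClass.coe_finsetSum]
    exact eq_sum_classSum z.1 z.2
  rw [h1, map_sum, map_sum]
  refine Finset.sum_congr rfl fun C _ => ?_
  rw [map_smul, map_smul, h]

variable {p : ℕ} [hp : Fact p.Prime] [CharP k p] {G : Type*} [Group G] [Finite G]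

theorem weightInBlock_iff_mu (w : P179H524.Weight p G) [Fintype G]
    [Fintype (normalizer (w.Q : Set G))]
    (h1 : BlockHomStmt k (normalizer (w.Q : Set G)))
    (h2 : HomBlockStmt k (normalizer (w.Q : Set G))) (B : MonoidAlgebra k G) :
    WeightInBlock red w B ↔ ∀ z, muHom red w z = centralChar B z := by
  have htr : ∀ z ∈ Subalgebra.center k (MonoidAlgebra k G),
      trunc (normalizer (w.Q : Set G)) z ∈
        Subalgebra.center k (MonoidAlgebra k (normalizer (w.Q : Set G))) := by
    intro z hz
    rw [mem_center_iff] at hz ⊢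
    intro g x
    simp only [coeff_trunc]
    exact hz g x
  have hmu : ∀ z : Subalgebra.center k (MonoidAlgebra k G),
      lamHom red (Weight.infl w) (isIrrChar_infl w) ⟨_, htr z.1 z.2⟩ = muHom red w z := by
    intro z
    rw [lamHom_apply, muHom_apply]
    congr 1
    ext n
    exact coeff_trunc _ _ _
  constructor
  · rintro ⟨b, hb, hc, hi⟩ z
    obtain ⟨l, hl⟩ := h1 b hb
    have h3 : l = lamHom red (Weight.infl w) (isIrrChar_infl w) := by
      refine eq_of_classSum _ _ fun g => ?_
      rw [hl, lamHom_apply]
      change centralChar b (classSum k g) = _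
      rw [hc g, lam_classSum red (isIrrChar_infl w)]
    rw [← hmu, ← h3, hl]
    exact hi z.1 z.2
  · intro h
    obtain ⟨b, hb, hl⟩ := h2 (lamHom red (Weight.infl w) (isIrrChar_infl w))
    refine ⟨b, hb, fun g => ?_, fun z hz => ?_⟩
    · have h3 := hl ⟨classSum k g, classSum_mem_center g⟩
      rw [lamHom_apply] at h3
      change _ = centralChar b (classSum k g) at h3
      rw [← h3]
      exact lam_classSum red (isIrrChar_infl w) g
    · have h3 := hl ⟨_, htr z hz⟩
      change _ = centralChar b (trunc (normalizer (w.Q : Set G)) z) at h3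
      rw [← h3, hmu ⟨z, hz⟩]
      exact h ⟨z, hz⟩

/-- (C9b) from (C9a) -/
theorem weightInBlock_iff_of (w : P179H524.Weight p G)
    (h1 : BlockHomStmt k (normalizer (w.Q : Set G)))
    (h2 : HomBlockStmt k (normalizer (w.Q : Set G)))
    (h3 : HomBlockStmt k G) (h4 : CharBlockStmt k G)
    (B : MonoidAlgebra k G) (hB : IsBlock B) :
    (if WeightInBlock red w B then 1 else 0 : k) =
      ∑ᶠ C : ConjClasses G, B.coeff C.out * redC red (om w.φ (resNQ w.Q (ind C))) := by
  have := Fintype.ofFinite G
  have := Fintype.ofFinite (normalizer (w.Q : Set G))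
  have := Fintype.ofFinite (NQ w.Q)
  have := Fintype.ofFinite (ConjClasses G)
  have hmu : muHom red w ⟨B, hB.1⟩ =
      ∑ᶠ C : ConjClasses G, B.coeff C.out * redC red (om w.φ (resNQ w.Q (ind C))) := by
    rw [muHom_apply, finsum_eq_sum_of_fintype]
    have h5 : (fun n : normalizer (w.Q : Set G) => B.coeff (n : G)) =
        ∑ C : ConjClasses G, B.coeff C.out •
          (fun n : normalizer (w.Q : Set G) => ((res (normalizer (w.Q : Set G)) (ind C) n : ℤ) : k)) := by
      ext n
      have h6 : B.coeff (n : G) = ∑ C : ConjClasses G, B.coeff C.out * ((ind C n : ℤ) : k) :=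
        cf_eq_sum ((mem_center_iff B).mp hB.1) (n : G)
      rw [h6]
      simp only [Finset.sum_apply, Pi.smul_apply, smul_eq_mul]
      rfl
    change lam red (Weight.infl w) (fun n : normalizer (w.Q : Set G) => B.coeff (n : G)) = _
    rw [h5, lam_sum]
    refine Finset.sum_congr rfl fun C _ => ?_
    rw [lam_smul, lam_int red (isIrrChar_infl w) (isCF_res _ (isCF_ind C))]
    congr 2
    exact (om_push (QuotientGroup.mk' (w.Q.subgroupOf (normalizer (w.Q : Set G)))) w.φ
      (res (normalizer (w.Q : Set G)) (ind C))).symm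
  rw [← hmu]
  obtain ⟨B', hB', hl⟩ := h3 (muHom red w)
  have h5 : muHom red w ⟨B, hB.1⟩ = if B' = B then 1 else 0 := by
    rw [hl]
    exact h4 B' B hB' hB
  by_cases hBB : B' = B
  · rw [h5, if_pos hBB, if_pos]
    rw [weightInBlock_iff_mu red w h1 h2]
    intro z
    rw [hl, hBB]
  · rw [h5, if_neg hBB, if_neg]
    intro hw
    rw [weightInBlock_iff_mu red w h1 h2] at hw
    have h6 := hw ⟨B, hB.1⟩
    rw [h5, if_neg hBB] at h6
    have h7 := h4 B B hB hB
    rw [if_pos rfl] at h7
    exact zero_ne_one (h6.trans h7)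

end Main

end P179C
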