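import Vale.Agent.P179.H166.MainFun

/-!
# (C9f), (C9h): the reduction map from the algebraic integers to `k`
-/

namespace P179C

universe u

/-- (C9f) the valuation ring attached to a reduction map -/
theorem exists_O (p : ℕ) [hp : Fact p.Prime] {k : Type u} [Field k] [CharP k p]
    (red : integralClosure ℤ ℂ →+* k) :
    ∃ O : ValuationSubring ℂ, CharP (IsLocalRing.ResidueField O) p ∧
      ∀ (a : ℂ) (ha : a ∈ integralClosure ℤ ℂ), O.valuation a < 1 ↔ red ⟨a, ha⟩ = 0 := by
  have hprime : (RingHom.ker red).IsPrime := RingHom.ker_isPrime red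
  have hmax : (RingHom.ker red).IsMaximal := by
    refine Ideal.isMaximal_of_isIntegral_of_isMaximal_comap (R := ℤ) _ ?_
    have h1 : Ideal.comap (algebraMap ℤ (integralClosure ℤ ℂ)) (RingHom.ker red) =
        Ideal.span {(p : ℤ)} := by
      ext n
      rw [Ideal.mem_comap, RingHom.mem_ker, Ideal.mem_span_singleton, eq_intCast, map_intCast]
      exact CharP.intCast_eq_zero_iff k p n
    rw [h1]
    exact (PrincipalIdealRing.isMaximal_of_irreducible
      (Nat.prime_iff_prime_int.mp hp.out).irreducible)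
  obtain ⟨O, hO1, hO2⟩ := Ideal.image_subset_nonunits_valuationSubring
    (A := (integralClosure ℤ ℂ).toSubring) (RingHom.ker red) hmax.ne_top
  have key : ∀ (a : ℂ) (ha : a ∈ integralClosure ℤ ℂ), red ⟨a, ha⟩ = 0 → O.valuation a < 1 := by
    intro a ha h
    exact (ValuationSubring.mem_nonunits_iff O).mp (hO2 ⟨⟨a, ha⟩, h, rfl⟩)
  refine ⟨O, ?_, ?_⟩
  · rw [CharP.charP_iff_prime_eq_zero hp.out]
    have h1 : O.valuation ((p : ℕ) : ℂ) < 1 := by
      have h2 : ((p : ℕ) : ℂ) ∈ integralClosure ℤ ℂ := natCast_mem _ p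
      refine key _ h2 ?_
      have h3 : (⟨((p : ℕ) : ℂ), h2⟩ : integralClosure ℤ ℂ) = ((p : ℕ) : integralClosure ℤ ℂ) := rfl
      rw [h3, map_natCast]
      exact CharP.cast_eq_zero k p
    have h4 : ((p : ℕ) : O) ∈ IsLocalRing.maximalIdeal O := by
      rw [O.valuation_lt_one_iff]
      exact h1
    rw [← map_natCast (IsLocalRing.residue O), IsLocalRing.residue_eq_zero_iff]
    exact h4
  · intro a ha
    refine ⟨fun h => ?_, key a ha⟩
    by_contra hne
    obtain ⟨b, hb⟩ := hmax.exists_inv (x := ⟨a, ha⟩) hne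
    obtain ⟨i, hi, hbi⟩ := hb
    have hi' : O.valuation (i : ℂ) < 1 := key i i.2 hi
    have hb' : O.valuation (b : ℂ) ≤ 1 := (O.valuation_le_one_iff _).mpr (hO1 b.2)
    have h1 : (1 : ℂ) = (b : ℂ) * a + i := (congrArg Subtype.val hbi).symm
    have h2 : O.valuation (1 : ℂ) < 1 := by
      rw [h1]
      refine O.valuation.map_add_lt ?_ hi'
      rw [map_mul]
      exact mul_lt_one_of_nonneg_of_lt_one_right hb' zero_le h
    rw [map_one] at h2
    exact lt_irrefl _ h2

theorem exists_hom_of_field (p : ℕ) [hp : Fact p.Prime] (F : Type*) [Field F] [CharP F p]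
    (hF : Algebra.IsIntegral ℤ F) (k : Type u) [Field k] [IsAlgClosed k] [CharP k p] :
    Nonempty (F →+* k) := by
  let _ : Algebra (ZMod p) F := ZMod.algebra _ p
  let _ : Algebra (ZMod p) k := ZMod.algebra _ p
  have h2 : IsScalarTower ℤ (ZMod p) F := by
    refine IsScalarTower.of_algebraMap_eq' ?_
    exact RingHom.ext_int _ _
  have h3 : Algebra.IsIntegral (ZMod p) F := ⟨fun x => (hF.isIntegral x).tower_top⟩
  have h4 : Algebra.IsAlgebraic (ZMod p) F := h3.isAlgebraic
  let f : F →ₐ[ZMod p] k := IsAlgClosed.lift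
  exact ⟨f.toRingHom⟩

/-- (C9h) reduction maps exist -/
theorem exists_red (p : ℕ) [hp : Fact p.Prime] (k : Type u) [Field k] [IsAlgClosed k]
    [CharP k p] : Nonempty (integralClosure ℤ ℂ →+* k) := by
  have hne : Ideal.span {((p : ℕ) : integralClosure ℤ ℂ)} ≠ ⊤ := by
    rw [Ne, Ideal.span_singleton_eq_top]
    intro h
    obtain ⟨u, hu⟩ := isUnit_iff_exists_inv.mp h
    have h1 : (p : ℂ) * (u : ℂ) = 1 := congrArg Subtype.val hu
    have hp0 : (p : ℂ) ≠ 0 := by exact_mod_cast hp.out.ne_zero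
    have h2 : (u : ℂ) = algebraMap ℚ ℂ ((p : ℚ)⁻¹) := by
      rw [map_inv₀, map_natCast]
      exact eq_inv_of_mul_eq_one_right h1
    have h3 : IsIntegral ℤ ((p : ℚ)⁻¹) := by
      have := u.2
      rw [h2] at this
      exact (isIntegral_algebraMap_iff (algebraMap ℚ ℂ).injective).mp this
    obtain ⟨m, hm⟩ := IsIntegrallyClosed.isIntegral_iff.mp h3
    have h4 : (p : ℤ) * m = 1 := by
      have h5 : (m : ℚ) = (p : ℚ)⁻¹ := hm
      have h6 : (p : ℚ) * m = 1 := by
        rw [h5]; exact mul_inv_cancel₀ (by exact_mod_cast hp.out.ne_zero)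
      exact_mod_cast h6
    have h7 : IsUnit (p : ℤ) := IsUnit.of_mul_eq_one _ h4
    exact (Nat.prime_iff_prime_int.mp hp.out).not_isUnit h7
  obtain ⟨M, hM, hMp⟩ := Ideal.exists_le_maximal _ hne
  let _ : Field (integralClosure ℤ ℂ ⧸ M) := Ideal.Quotient.field M
  have hchar : CharP (integralClosure ℤ ℂ ⧸ M) p := by
    rw [CharP.charP_iff_prime_eq_zero hp.out, ← map_natCast (Ideal.Quotient.mk M),
      Ideal.Quotient.eq_zero_iff_mem]
    exact hMp (Ideal.mem_span_singleton_self _)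
  have h1 : Algebra.IsIntegral ℤ (integralClosure ℤ ℂ ⧸ M) := by
    refine ⟨fun x => ?_⟩
    obtain ⟨y, rfl⟩ := Ideal.Quotient.mk_surjective x
    exact (Algebra.IsIntegral.isIntegral (R := ℤ) y).map (Ideal.Quotient.mkₐ ℤ M)
  obtain ⟨f⟩ := exists_hom_of_field p (integralClosure ℤ ℂ ⧸ M) h1 k
  exact ⟨f.comp (Ideal.Quotient.mk M)⟩

end P179C
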