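import Vale.Agent.P179.H166.BrauerHom
import Vale.Agent.P179.H166.Red
import Vale.Agent.P179.H905.Step1E
import Vale.Agent.P179.H905.Zab
import Vale.Agent.P179.H524.SimpleIn

/-!
# (C9g) Theorem C from its parts
-/

namespace P179C

open Subgroup P179H524

open scoped Classical

universe u

/-- (C3a) -/
def SecStmt (p : ℕ) (O : ValuationSubring ℂ) : Prop :=
  ∀ (K : Type) [Group K] [Finite K] (z : K → ℤ), IsCF z →
    (∀ u v : K, u * v = v * u → (∃ n : ℕ, v ^ p ^ n = 1) → z (u * v) = z u) →
    Cong O (Nat.card K) (nTr z) (Nat.card K * dz p z)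

/-- (C3b) -/
def SingStmt (p : ℕ) (O : ValuationSubring ℂ) : Prop :=
  ∀ (K : Type) [Group K] [Finite K] (z : K → ℤ), IsCF z →
    (∀ g : K, z g ≠ 0 → p ∣ orderOf g) → Cong O 1 (dz p z) 0

/-- (C8) -/
theorem main_fun' (p : ℕ) [hp : Fact p.Prime] (O : ValuationSubring ℂ)
    [CharP (IsLocalRing.ResidueField O) p] (hL : StepL.{0} p) (hsec : SecStmt p O)
    (hsing : SingStmt p O) {G : Type} [Group G] [Finite G] (z : G → ℤ) (hz : IsCF z)
    (hab : Zab p z) : Cong O (Nat.card G) (nL p z) (nW p z) :=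
  main_fun_of p O (fun G _ _ z hz hab => step1_of O (hsec G) (hsing G) z hz hab) hL
    (fun _ _ _ R _ hR z hz => ⟨nL_quot p R hR z hz, nW_quot p R hR z hz, Zab_quot p R hR z hz⟩)
    (Nat.card G) G rfl z hz hab

/-- (C9g) -/
theorem theoremC_of (p : ℕ) [hp : Fact p.Prime] {k : Type u} [Field k] [IsAlgClosed k] [CharP k p]
    (red : integralClosure ℤ ℂ →+* k) (hL : StepL.{0} p)
    (hsec : ∀ O : ValuationSubring ℂ, CharP (IsLocalRing.ResidueField O) p → SecStmt p O)
    (hsing : ∀ O : ValuationSubring ℂ, CharP (IsLocalRing.ResidueField O) p → SingStmt p O)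
    (h1 : ∀ (H : Type) [Group H] [Finite H], BlockHomStmt k H)
    (h2 : ∀ (H : Type) [Group H] [Finite H], HomBlockStmt k H)
    (h3 : ∀ (H : Type) [Group H] [Finite H], CharBlockStmt k H)
    {G : Type} [Group G] [Finite G]
    (B : MonoidAlgebra k G) (hB : IsBlock B) (D : Subgroup G)
    (hD : IsDefectGroup B D) (hab : ∀ a ∈ D, ∀ b ∈ D, a * b = b * a) :
    numSimpleIn B ≡ numWeightsIn p red B [MOD p] := by
  have := Fintype.ofFinite (ConjClasses G)
  obtain ⟨O, hO, hred⟩ := exists_O p red
  have hG : (Nat.card G : ℂ) ≠ 0 := by exact_mod_cast Nat.card_pos.ne'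
  have hW : (numWeightsIn p red B : k) =
      ∑ᶠ C : ConjClasses G, B.coeff C.out * redC red (nW p (ind C) / Nat.card G) :=
    numWeightsIn_eq_of p red B fun w =>
      weightInBlock_iff_of red w (h1 _) (h2 _) (h2 G) (h3 G) B hB
  have hS := numSimpleIn_eq p B hB.1 hB.2.1
  have key : (numSimpleIn B : k) = (numWeightsIn p red B : k) := by
    rw [hS, hW, finsum_eq_sum_of_fintype, finsum_eq_sum_of_fintype]
    refine Finset.sum_congr rfl fun C _ => ?_
    by_cases hC : B.coeff C.out = 0
    · rw [hC, zero_mul, zero_mul]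
    · congr 1
      have hz : Zab p (ind C) := by
        intro g hg P hP hPg
        have hgC : ConjClasses.mk g = C := by
          by_contra hne
          refine hg ?_
          unfold ind
          rw [if_neg hne]
          exact dvd_zero _
        have hBg : B.coeff g ≠ 0 := by
          have h4 := C2.coeff_out B hB.1 g
          rw [hgC] at h4
          rwa [← h4]
        exact zab_of_defect p B D hD hab g hBg P hP hPg
      have hmain := main_fun' p O hL (hsec O hO) (hsing O hO) (ind C) (isCF_ind C) hz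
      obtain ⟨t, ht⟩ := dvd_nL p (ind C) (isCF_ind C)
      have hint := isIntegral_nW p (G := G) C
      have hGZ : (Nat.card G : ℤ) ≠ 0 := by exact_mod_cast Nat.card_pos.ne'
      rw [ht, Int.mul_ediv_cancel_left _ hGZ]
      unfold Cong at hmain
      rw [ht] at hmain
      have h5 : (((Nat.card G : ℤ) * t : ℤ) - nW p (ind C)) / (Nat.card G : ℂ) =
          (t : ℂ) - nW p (ind C) / Nat.card G := by
        push_cast
        rw [sub_div, mul_div_cancel_left₀ _ hG]
      rw [h5] at hmain
      have h6 : (t : ℂ) ∈ integralClosure ℤ ℂ := intCast_mem _ t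
      have h7 := (hred _ (sub_mem h6 hint)).mp hmain
      have h8 : (⟨(t : ℂ) - nW p (ind C) / Nat.card G, sub_mem h6 hint⟩ : integralClosure ℤ ℂ) =
          ((t : ℤ) : integralClosure ℤ ℂ) - ⟨nW p (ind C) / Nat.card G, hint⟩ := rfl
      rw [h8, map_sub, map_intCast, sub_eq_zero] at h7
      rw [h7, redC_of_mem red hint]
  exact (CharP.natCast_eq_natCast k p).mp key

end P179C
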