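import Vale.Agent.P179.H166.NumW

/-!
# Central characters modulo `p`, and the Brauer homomorphism
-/

namespace P179C

open Subgroup P179H524

open scoped Classical

universe u

section Conv

variable {R : Type*} [CommRing R] {H : Type*} [Group H] [Fintype H]

/-- convolution -/
noncomputable def conv (a b : H → R) : H → R := fun g => ∑ h, a h * b (h⁻¹ * g)

theorem coeff_mul_eq_conv (x y : MonoidAlgebra R H) (g : H) :
    (x * y).coeff g = conv (fun h => x.coeff h) (fun h => y.coeff h) g := by
  rw [MonoidAlgebra.coeff_mul_apply_left, Finsupp.sum_fintype _ _ (fun _ => zero_mul _)]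
  rfl

omit [Fintype H] in
theorem mem_center_iff (z : MonoidAlgebra R H) :
    z ∈ Subalgebra.center R (MonoidAlgebra R H) ↔ IsCF (fun h => z.coeff h) := by
  rw [Subalgebra.mem_center_iff]
  constructor
  · intro h g x
    have h1 := congrArg (fun y : MonoidAlgebra R H => y.coeff (g * x)) (h (MonoidAlgebra.single g 1))
    simp only [MonoidAlgebra.coeff_single_mul_apply, MonoidAlgebra.coeff_mul_single_apply,
      inv_mul_cancel_left, one_mul, mul_one] at h1
    exact h1.symm
  · intro h b
    induction b using MonoidAlgebra.induction_linear with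
    | zero => simp
    | add f g hf hg => rw [add_mul, mul_add, hf, hg]
    | single g r =>
      ext x
      simp only [MonoidAlgebra.coeff_single_mul_apply, MonoidAlgebra.coeff_mul_single_apply]
      have h1 := h g (g⁻¹ * x)
      simp only at h1
      rw [← h1, mul_inv_cancel_left, mul_comm]

theorem isCF_conv {a b : H → R} (ha : IsCF a) (hb : IsCF b) : IsCF (conv a b) := by
  intro g x
  unfold conv
  rw [← (MulAut.conj g).toEquiv.sum_comp]
  refine Finset.sum_congr rfl fun h _ => ?_
  have h1 : (MulAut.conj g).toEquiv h = g * h * g⁻¹ := rfl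
  rw [h1, ha]
  have h2 : (g * h * g⁻¹)⁻¹ * (g * x * g⁻¹) = g * (h⁻¹ * x) * g⁻¹ := by group
  rw [h2, hb]

omit [Fintype H] in
/-- a class function is the combination of class indicators -/
theorem cf_eq_sum [Fintype (ConjClasses H)] {a : H → R} (ha : IsCF a) (x : H) :
    a x = ∑ D : ConjClasses H, a D.out * (ind D x : R) := by
  rw [Finset.sum_eq_single (ConjClasses.mk x)]
  · have h1 : ConjClasses.mk (ConjClasses.mk x).out = ConjClasses.mk x := Quot.out_eq _
    rw [ConjClasses.mk_eq_mk_iff_isConj] at h1
    obtain ⟨c, hc⟩ := isConj_iff.mp h1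
    have h2 := ha c (ConjClasses.mk x).out
    rw [hc] at h2
    rw [h2]
    simp [ind]
  · intro D _ hD
    have : ind D x = 0 := by
      unfold ind
      rw [if_neg (fun h => hD h.symm)]
    rw [this]; simp
  · intro h; exact absurd (Finset.mem_univ _) h

theorem conv_eq_sum [Fintype (ConjClasses H)] {a b : H → R} (ha : IsCF a) (hb : IsCF b) (x : H) :
    conv a b x = ∑ D : ConjClasses H, ∑ E : ConjClasses H,
      a D.out * b E.out * ((conv (ind D) (ind E) x : ℤ) : R) := by
  unfold conv
  have h1 : ∀ h : H, a h * b (h⁻¹ * x) = ∑ D : ConjClasses H, ∑ E : ConjClasses H,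
      a D.out * b E.out * ((ind D h : R) * (ind E (h⁻¹ * x) : R)) := by
    intro h
    rw [cf_eq_sum ha h, cf_eq_sum hb (h⁻¹ * x), Finset.sum_mul_sum]
    refine Finset.sum_congr rfl fun D _ => Finset.sum_congr rfl fun E _ => ?_
    ring
  rw [Finset.sum_congr rfl fun h _ => h1 h, Finset.sum_comm]
  refine Finset.sum_congr rfl fun D _ => ?_
  rw [Finset.sum_comm]
  refine Finset.sum_congr rfl fun E _ => ?_
  rw [← Finset.mul_sum]
  congr 1
  push_cast
  rfl

end Conv

section OmMul

variable {H : Type*} [Group H] [Fintype H]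

omit [Fintype H] in
theorem nontrivial_of_irr {n : ℕ} {ρ : Representation ℂ H (Fin n → ℂ)} (hρ : ρ.IsIrreducible) :
    (n : ℂ) ≠ 0 := by
  have hn : Nontrivial (Fin n → ℂ) := by
    by_contra h
    rw [not_nontrivial_iff_subsingleton] at h
    obtain ⟨W, W', hW⟩ := hρ.toNontrivial.exists_pair_ne
    apply hW
    ext v
    have hv : v = 0 := Subsingleton.elim _ _
    rw [hv]
    exact ⟨fun _ => W'.toSubmodule.zero_mem, fun _ => W.toSubmodule.zero_mem⟩
  have : n ≠ 0 := by
    rintro rfl
    exact absurd hn (not_nontrivial_iff_subsingleton.mpr inferInstance)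
  exact_mod_cast this

/-- a class sum acts on an irreducible representation by the central character -/
theorem sum_smul_eq {n : ℕ} {ρ : Representation ℂ H (Fin n → ℂ)} (hρ : ρ.IsIrreducible)
    {z : H → ℤ} (hz : IsCF z) :
    ∑ g : H, (z g : ℂ) • ρ g = algebraMap ℂ _ (om ρ.character z) := by
  have hn0 := nontrivial_of_irr hρ
  obtain ⟨c, hc⟩ := exists_scalar ρ hρ (∑ g : H, (z g : ℂ) • ρ g) (fun h => by
    rw [Finset.sum_mul, Finset.mul_sum]
    refine Finset.sum_bij (fun g _ => h⁻¹ * g * h) (fun _ _ => Finset.mem_univ _) ?_ ?_ ?_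
    · intro a _ b _ hab
      simpa using hab
    · intro b _
      exact ⟨h * b * h⁻¹, Finset.mem_univ _, by group⟩
    · intro g _
      have h1 : z (h⁻¹ * g * h) = z g := by
        have := hz h⁻¹ g
        rwa [inv_inv] at this
      rw [h1, smul_mul_assoc, mul_smul_comm, ← map_mul, ← map_mul]
      congr 2
      group)
  have h3 : om ρ.character z = c := by
    unfold om
    have h4 := congrArg (LinearMap.trace ℂ (Fin n → ℂ)) hc
    rw [map_sum] at h4
    have h5 : (LinearMap.trace ℂ (Fin n → ℂ)) (algebraMap ℂ (Module.End ℂ (Fin n → ℂ)) c) =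
        c * n := by
      rw [Algebra.algebraMap_eq_smul_one, map_smul, LinearMap.trace_one]
      simp
    rw [h5] at h4
    have h6 : ρ.character 1 = n := by
      rw [Representation.char_one]
      simp
    rw [h6, finsum_eq_sum_of_fintype, div_eq_iff hn0, ← h4]
    refine Finset.sum_congr rfl fun g _ => ?_
    rw [map_smul]
    rfl
  rw [hc, h3]

/-- central characters are multiplicative -/
theorem om_conv {χ : H → ℂ} (hχ : IsIrrChar χ) {a b : H → ℤ} (ha : IsCF a) (hb : IsCF b) :
    om χ (conv a b) = om χ a * om χ b := by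
  obtain ⟨n, ρ, hρ, rfl⟩ := hχ
  have hn0 := nontrivial_of_irr hρ
  have hn : Nontrivial (Fin n → ℂ) := by
    have : NeZero n := ⟨by exact_mod_cast hn0⟩
    infer_instance
  apply FaithfulSMul.algebraMap_injective ℂ (Module.End ℂ (Fin n → ℂ))
  rw [map_mul, ← sum_smul_eq hρ (isCF_conv ha hb), ← sum_smul_eq hρ ha, ← sum_smul_eq hρ hb,
    Finset.sum_mul_sum]
  unfold conv
  simp only [Int.cast_sum, Finset.sum_smul]
  rw [Finset.sum_comm]
  refine Finset.sum_congr rfl fun h _ => ?_
  rw [← Equiv.sum_comp (Equiv.mulLeft h)]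
  refine Finset.sum_congr rfl fun g _ => ?_
  simp only [Equiv.coe_mulLeft, inv_mul_cancel_left, Int.cast_mul, map_mul]
  rw [smul_mul_smul_comm]

theorem om_one {χ : H → ℂ} (hχ : IsIrrChar χ) : om χ (fun h => if h = 1 then 1 else 0) = 1 := by
  obtain ⟨n, ρ, hρ, rfl⟩ := hχ
  have hn0 := nontrivial_of_irr hρ
  unfold om
  rw [finsum_eq_sum_of_fintype, Finset.sum_eq_single (1 : H)]
  · beta_reduce
    rw [if_pos rfl, Int.cast_one, one_mul]
    refine div_self ?_
    rw [Representation.char_one]
    simpa using hn0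
  · intro h _ hh
    beta_reduce
    rw [if_neg hh]; simp
  · intro h; exact absurd (Finset.mem_univ _) h

end OmMul

section Lam

variable {k : Type*} [Field k] (red : integralClosure ℤ ℂ →+* k) {H : Type*} [Group H] [Fintype H]

/-- the reduction of the central character of `χ`, on functions -/
noncomputable def lam (χ : H → ℂ) (a : H → k) : k :=
  ∑ᶠ D : ConjClasses H, a D.out * redC red (om χ (ind D))

theorem lam_add (χ : H → ℂ) (a b : H → k) : lam red χ (a + b) = lam red χ a + lam red χ b := by
  have := Fintype.ofFinite (ConjClasses H)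
  unfold lam
  simp only [finsum_eq_sum_of_fintype, ← Finset.sum_add_distrib]
  refine Finset.sum_congr rfl fun D _ => ?_
  rw [Pi.add_apply, add_mul]

theorem lam_smul (χ : H → ℂ) (c : k) (a : H → k) : lam red χ (c • a) = c * lam red χ a := by
  have := Fintype.ofFinite (ConjClasses H)
  unfold lam
  simp only [finsum_eq_sum_of_fintype, Finset.mul_sum]
  refine Finset.sum_congr rfl fun D _ => ?_
  rw [Pi.smul_apply, smul_eq_mul, mul_assoc]

theorem redC_intCast_mul {x : ℂ} (hx : x ∈ integralClosure ℤ ℂ) (m : ℤ) :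
    redC red (m * x) = m * redC red x := by
  have h1 : (m : ℂ) ∈ integralClosure ℤ ℂ := intCast_mem _ m
  rw [redC_of_mem red (mul_mem h1 hx), redC_of_mem red hx, ← map_intCast red m, ← map_mul]
  rfl

/-- `lam` on integral class functions -/
theorem lam_int {χ : H → ℂ} (hχ : IsIrrChar χ) {a : H → ℤ} (ha : IsCF a) :
    lam red χ (fun h => (a h : k)) = redC red (om χ a) := by
  have := Fintype.ofFinite (ConjClasses H)
  have h1 : om χ a = ∑ D : ConjClasses H, (a D.out : ℂ) * om χ (ind D) := by
    unfold om
    simp only [finsum_eq_sum_of_fintype]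
    rw [← Finset.sum_congr rfl fun g _ => congrArg (fun m : ℤ => (m : ℂ) * χ g)
      (cf_eq_sum (R := ℤ) ha g).symm]
    simp only [mul_div_assoc', ← Finset.sum_div]
    congr 1
    simp only [Finset.mul_sum]
    rw [Finset.sum_comm]
    refine Finset.sum_congr rfl fun g _ => ?_
    push_cast
    rw [Finset.sum_mul]
    refine Finset.sum_congr rfl fun D _ => ?_
    ring
  have hint : ∀ D : ConjClasses H, om χ (ind D) ∈ integralClosure ℤ ℂ := fun D =>
    isIntegral_om hχ (isCF_ind D)
  rw [h1, redC_sum]
  · unfold lam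
    rw [finsum_eq_sum_of_fintype]
    refine Finset.sum_congr rfl fun D _ => ?_
    rw [redC_intCast_mul red (hint D)]
  · intro D _
    exact mul_mem (intCast_mem _ _) (hint D)

theorem redC_mul {x y : ℂ} (hx : x ∈ integralClosure ℤ ℂ) (hy : y ∈ integralClosure ℤ ℂ) :
    redC red (x * y) = redC red x * redC red y := by
  rw [redC_of_mem red (mul_mem hx hy), redC_of_mem red hx, redC_of_mem red hy, ← map_mul]
  rfl

/-- `lam` is multiplicative -/
theorem lam_conv {χ : H → ℂ} (hχ : IsIrrChar χ) {a b : H → k} (ha : IsCF a) (hb : IsCF b) :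
    lam red χ (conv a b) = lam red χ a * lam red χ b := by
  have := Fintype.ofFinite (ConjClasses H)
  have h1 : conv a b = ∑ D : ConjClasses H, ∑ E : ConjClasses H,
      (a D.out * b E.out) • (fun x => ((conv (ind D) (ind E) x : ℤ) : k)) := by
    ext x
    rw [conv_eq_sum ha hb]
    simp only [Finset.sum_apply, Pi.smul_apply, smul_eq_mul]
  have hlin : ∀ (s : Finset (ConjClasses H)) (f : ConjClasses H → H → k),
      lam red χ (∑ i ∈ s, f i) = ∑ i ∈ s, lam red χ (f i) := by
    intro s f
    induction s using Finset.induction_on with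
    | empty => simp [lam]
    | insert i s hi ih => rw [Finset.sum_insert hi, Finset.sum_insert hi, lam_add, ih]
  have hint : ∀ D : ConjClasses H, om χ (ind D) ∈ integralClosure ℤ ℂ := fun D =>
    isIntegral_om hχ (isCF_ind D)
  rw [h1, hlin]
  have h2 : lam red χ a * lam red χ b = ∑ D : ConjClasses H, ∑ E : ConjClasses H,
      (a D.out * b E.out) * (redC red (om χ (ind D)) * redC red (om χ (ind E))) := by
    unfold lam
    rw [finsum_eq_sum_of_fintype, finsum_eq_sum_of_fintype, Finset.sum_mul_sum]
    refine Finset.sum_congr rfl fun D _ => Finset.sum_congr rfl fun E _ => ?_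
    ring
  rw [h2]
  refine Finset.sum_congr rfl fun D _ => ?_
  rw [hlin]
  refine Finset.sum_congr rfl fun E _ => ?_
  rw [lam_smul, lam_int red hχ (isCF_conv (isCF_ind D) (isCF_ind E)),
    om_conv hχ (isCF_ind D) (isCF_ind E), redC_mul red (hint D) (hint E)]

theorem lam_one {χ : H → ℂ} (hχ : IsIrrChar χ) :
    lam red χ (fun h => if h = 1 then 1 else 0) = 1 := by
  have h1 : (fun h : H => if h = 1 then (1 : k) else 0) =
      fun h => (((if h = 1 then 1 else 0 : ℤ)) : k) := by
    ext h; split_ifs <;> simp
  have h2 : IsCF (fun h : H => (if h = 1 then 1 else 0 : ℤ)) := by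
    intro g x
    have : g * x * g⁻¹ = 1 ↔ x = 1 := by
      rw [mul_inv_eq_one]
      constructor
      · intro h
        exact mul_left_cancel (a := g) (by rw [h, mul_one])
      · intro h; rw [h, mul_one]
    simp only [this]
  rw [h1, lam_int red hχ h2, om_one hχ, redC_of_mem red (one_mem _)]
  exact map_one red

end Lam

end P179C
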