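import Vale.Agent.P179.H166.ThmA
import Vale.Agent.P179.H525.Step1
import Vale.Agent.P179.H905.MainLem4

/-!
# Theorem A from the Main Lemma
-/

namespace P179K

open Subgroup P179H524 P179A

open scoped Classical

universe u

/-- an exponent `q` with `x ^ q = x_p` for all `x` -/
theorem exists_exponent (p : ℕ) [hp : Fact p.Prime] (G : Type*) [Group G] [Finite G] :
    ∃ q : ℕ, (∀ x : G, ∃ n, (x ^ q) ^ p ^ n = 1) ∧ ∀ x : G, (∃ n, x ^ p ^ n = 1) → x ^ q = x := by
  set v := (Nat.card G).factorization p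
  set m := Nat.card G / p ^ v with hm
  have hcop : Nat.Coprime (p ^ v) m :=
    Nat.Coprime.pow_left _ ((Nat.Prime.coprime_iff_not_dvd hp.out).mpr
      (Nat.not_dvd_ordCompl hp.out Nat.card_pos.ne'))
  have hcard : p ^ v * m = Nat.card G := Nat.ordProj_mul_ordCompl_eq_self (Nat.card G) p
  obtain ⟨q, hq1, hq2⟩ := Nat.chineseRemainder hcop 1 0
  refine ⟨q, ?_, ?_⟩
  · intro x
    refine ⟨v, ?_⟩
    obtain ⟨c, hc⟩ := (Nat.modEq_zero_iff_dvd.mp hq2)
    have h1 : q * p ^ v = Nat.card G * c := by rw [← hcard, hc]; ring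
    rw [← pow_mul, h1, pow_mul, pow_card_eq_one', one_pow]
  · rintro x ⟨n, hn⟩
    have h1 : orderOf x ∣ p ^ n := orderOf_dvd_of_pow_eq_one hn
    obtain ⟨k, -, hk⟩ := (Nat.dvd_prime_pow hp.out).mp h1
    have h2 : orderOf x ∣ p ^ v := by
      have h3 : orderOf x ∣ Nat.card G := orderOf_dvd_natCard x
      rw [hk] at h3 ⊢
      exact pow_dvd_pow p ((hp.out.pow_dvd_iff_le_factorization Nat.card_pos.ne').mp h3)
    have h4 : q ≡ 1 [MOD orderOf x] := hq1.of_dvd h2
    conv_rhs => rw [← pow_one x]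
    exact pow_eq_pow_iff_modEq.mpr h4

theorem step1 (p : ℕ) [Fact p.Prime] : Step1Stmt p := fun K _ _ => card_comm_pElem p K

theorem mainStmt (p : ℕ) [Fact p.Prime] : MainStmt p := by
  intro G _ _ g P hP hc hgP hg
  obtain ⟨q, hq, hq'⟩ := exists_exponent p G
  have hgp : ∃ n, g ^ p ^ n = 1 := by
    obtain ⟨n, hn⟩ := hP ⟨g, hgP⟩
    exact ⟨n, congrArg Subtype.val hn⟩
  have h1 : g ^ q = g := hq' g hgp
  have h := main_lemma p g q hq P hP hc hg (by rw [h1]; exact hgP)
  rw [h1] at h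
  exact h

/-- **Theorem A.** If the Sylow `p`-subgroups of the finite group `G` are abelian then the number
of simple `kG`-modules is congruent modulo `p` to the number of classes of `p`-weights of `G`. -/
theorem thmA (p : ℕ) [Fact p.Prime] (k : Type u) [Field k] [IsAlgClosed k] [CharP k p]
    (G : Type) [Group G] [Finite G] (hG : ∀ P : Sylow p G, ∀ a ∈ P, ∀ b ∈ P, a * b = b * a) :
    numSimple k G ≡ numWeights p G [MOD p] := by
  have hab : ∀ Q : Subgroup G, IsPGroup p Q → ∀ a ∈ Q, ∀ b ∈ Q, a * b = b * a := by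
    intro Q hQ a ha b hb
    obtain ⟨P, hP⟩ := hQ.exists_le_sylow
    exact hG P a (hP ha) b (hP hb)
  have h := thmA_of p (step1 p) (mainStmt p) k (Nat.card G) G rfl hab
  refine (Nat.modEq_iff_dvd.mpr ?_).symm
  exact h

end P179K
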