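import Vale.Agent.P179.H905.N5c
import Vale.Agent.P179.H905.N5d
import Vale.Agent.P179.H905.DZV
import Vale.Agent.P179.H143.Dn

/-!
# (K6) counting characters with proportional restrictions to a normal subgroup
-/

namespace P179Y

open P179H524 P179C P179A Finset P179P

open P179X (pp)

open scoped Classical

section Pair

variable {N : Type*} [Group N] [Fintype N]

/-- the pairing of the restrictions to `C` -/
noncomputable def PC (C : Subgroup N) (f g : N → ℂ) : ℂ := ∑ c : C, f c * g (c : N)⁻¹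

theorem PC_eq (C : Subgroup N) (f g : N → ℂ) :
    PC C f g = ∑ x ∈ univ.filter (fun x : N => x ∈ C), f x * g x⁻¹ := by
  rw [PC]
  exact (Finset.sum_subtype (p := fun x => x ∈ C) (univ.filter fun x : N => x ∈ C)
    (fun x => by simp) (fun x => f x * g x⁻¹)).symm

/-- the norm of the restriction is a positive integer -/
theorem restr_norm (χ : Irr N) (C : Subgroup N) :
    ∃ m : ℕ, 0 < m ∧ PC C χ.1 χ.1 = m * Nat.card C := by
  obtain ⟨n, hn⟩ := restr_decomp χ C
  refine ⟨∑ ψ : Irr C, n ψ * n ψ, ?_, ?_⟩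
  · by_contra h0
    have h1 : ∀ ψ : Irr C, n ψ = 0 := by
      intro ψ
      have h2 : ∑ ψ : Irr C, n ψ * n ψ = 0 := by omega
      rw [Finset.sum_eq_zero_iff] at h2
      have := h2 ψ (mem_univ _)
      exact mul_self_eq_zero.1 this
    have h3 := hn 1
    apply χ.one_ne_zero
    rw [OneMemClass.coe_one] at h3
    rw [h3]
    refine Finset.sum_eq_zero fun ψ _ => ?_
    rw [h1, Nat.cast_zero, zero_mul]
  · have h1 : PC C χ.1 χ.1 = ∑ c : C, ∑ ψ : Irr C, ∑ ψ' : Irr C,
        (n ψ : ℂ) * n ψ' * (ψ.1 c * ψ'.1 c⁻¹) := by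
      rw [PC]
      refine Finset.sum_congr rfl fun c _ => ?_
      have h2 : ((c : N))⁻¹ = ((c⁻¹ : C) : N) := rfl
      rw [h2, hn, hn, Finset.sum_mul_sum]
      refine Finset.sum_congr rfl fun ψ _ => Finset.sum_congr rfl fun ψ' _ => ?_
      ring
    rw [h1, Finset.sum_comm]
    have h3 : ∀ ψ : Irr C, ∑ c : C, ∑ ψ' : Irr C, (n ψ : ℂ) * n ψ' * (ψ.1 c * ψ'.1 c⁻¹) =
        (n ψ : ℂ) * n ψ * Nat.card C := by
      intro ψ
      rw [Finset.sum_comm]
      simp only [← Finset.mul_sum]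
      rw [Finset.sum_eq_single ψ]
      · rw [row_orth, if_pos rfl, Nat.card_eq_fintype_card]
      · intro ψ' _ hne
        rw [row_orth, if_neg hne.symm, mul_zero]
      · intro h; exact absurd (mem_univ _) h
    rw [Finset.sum_congr rfl fun ψ _ => h3 ψ, ← Finset.sum_mul]
    push_cast
    rfl

theorem PC_self_real (χ : Irr N) (C : Subgroup N) :
    PC C χ.1 χ.1 = ((∑ c : C, ‖χ.1 c‖ ^ 2 : ℝ) : ℂ) := by
  rw [PC]
  push_cast
  refine Finset.sum_congr rfl fun c _ => ?_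
  have := mul_inv_eq_normSq χ (c : N)
  push_cast at this
  exact this

/-- the norm of the restriction is at most the index -/
theorem restr_norm_le (χ : Irr N) (C : Subgroup N) {m : ℕ} (hm : PC C χ.1 χ.1 = m * Nat.card C) :
    m ≤ C.index := by
  have h1 : (∑ c : C, ‖χ.1 c‖ ^ 2 : ℝ) = m * Nat.card C := by
    have := (PC_self_real χ C).symm.trans hm
    exact_mod_cast this
  have h2 : (∑ c : C, ‖χ.1 c‖ ^ 2 : ℝ) ≤ ∑ g : N, ‖χ.1 g‖ ^ 2 := by
    rw [← Finset.sum_subtype (p := fun x => x ∈ C) (univ.filter fun x : N => x ∈ C)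
      (fun x => by simp) (fun x => ‖χ.1 x‖ ^ 2)]
    exact Finset.sum_le_sum_of_subset_of_nonneg (Finset.filter_subset _ _)
      (fun _ _ _ => by positivity)
  rw [h1, sum_normSq] at h2
  have h3 : m * Nat.card C ≤ Nat.card N := by
    rw [Nat.card_eq_fintype_card (α := N)]
    exact_mod_cast h2
  rw [← Subgroup.card_mul_index C, mul_comm] at h3
  exact Nat.le_of_mul_le_mul_left h3 Nat.card_pos

/-- the class function `χ(x⁻¹)` cut to `C` -/
noncomputable def cutInv (C : Subgroup N) (f : N → ℂ) : N → ℂ :=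
  fun x => if x ∈ C then f x⁻¹ else 0

theorem conv_cutInv (C : Subgroup N) (χ : Irr N) {z : N → ℂ} (hz : IsCF z)
    (hzC : ∀ x, x ∉ C → z x = 0) (y : N) :
    conv z (cutInv C χ.1) y = omC χ.1 z * cutInv C χ.1 y := by
  unfold conv cutInv
  by_cases hy : y ∈ C
  · rw [if_pos hy, ← sum_mul_irr' χ hz y⁻¹]
    refine Finset.sum_congr rfl fun h _ => ?_
    by_cases hh : h ∈ C
    · rw [if_pos (mul_mem (inv_mem hh) hy)]
      congr 2
      group
    · rw [hzC h hh, zero_mul, zero_mul]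
  · rw [if_neg hy, mul_zero]
    refine Finset.sum_eq_zero fun h _ => ?_
    by_cases hh : h ∈ C
    · rw [if_neg, mul_zero]
      intro h1
      exact hy (by simpa using mul_mem hh h1)
    · rw [hzC h hh, zero_mul]

theorem omC_cutInv (C : Subgroup N) (χ ψ : Irr N) :
    omC ψ.1 (cutInv C χ.1) = PC C ψ.1 χ.1 / ψ.1 1 := by
  unfold omC cutInv
  congr 1
  rw [PC_eq, Finset.sum_filter]
  refine Finset.sum_congr rfl fun x _ => ?_
  split_ifs
  · ring
  · ring

theorem omC_smul' (ψ : N → ℂ) (c : ℂ) (a : N → ℂ) : omC ψ (fun x => c * a x) = c * omC ψ a := by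
  unfold omC
  rw [mul_div_assoc', Finset.mul_sum]
  congr 1
  exact Finset.sum_congr rfl fun x _ => by ring

/-- two irreducible characters of `N` are proportional or orthogonal on a normal subgroup -/
theorem prop_of_ne (C : Subgroup N) (hC : C.Normal) (χ ψ : Irr N) (h : PC C ψ.1 χ.1 ≠ 0) {c : N}
    (hc : c ∈ C) : χ.1 c * ψ.1 1 = ψ.1 c * χ.1 1 := by
  let z : N → ℂ := fun x => if IsConj c x then 1 else 0
  have hz : IsCF z := by
    intro g x
    simp only [z]
    have : IsConj c (g * x * g⁻¹) ↔ IsConj c x := by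
      have h1 : IsConj x (g * x * g⁻¹) := isConj_iff.mpr ⟨g, rfl⟩
      exact ⟨fun h2 => h2.trans h1.symm, fun h2 => h2.trans h1⟩
    simp only [this]
  have hzC : ∀ x, x ∉ C → z x = 0 := by
    intro x hx
    simp only [z]
    rw [if_neg]
    intro h1
    obtain ⟨g, hg⟩ := isConj_iff.1 h1
    exact hx (hg ▸ hC.conj_mem c hc g)
  have h1 : omC ψ.1 (conv z (cutInv C χ.1)) = omC χ.1 z * omC ψ.1 (cutInv C χ.1) := by
    have : conv z (cutInv C χ.1) = fun y => omC χ.1 z * cutInv C χ.1 y :=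
      funext fun y => conv_cutInv C χ hz hzC y
    rw [this, omC_smul']
  rw [omC_conv ψ hz] at h1
  have h2 : omC ψ.1 (cutInv C χ.1) ≠ 0 := by
    rw [omC_cutInv]
    exact div_ne_zero h ψ.one_ne_zero
  have h3 := mul_right_cancel₀ h2 h1
  have hval : ∀ θ : Irr N, omC θ.1 z = (univ.filter fun x => IsConj c x).card * θ.1 c / θ.1 1 := by
    intro θ
    unfold omC
    congr 1
    have : ∀ x, z x * θ.1 x = if IsConj c x then θ.1 c else 0 := by
      intro x
      simp only [z]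
      split_ifs with hx
      · obtain ⟨g, hg⟩ := isConj_iff.1 hx
        rw [one_mul, ← hg, θ.conj]
      · rw [zero_mul]
    rw [Finset.sum_congr rfl fun x _ => this x, ← Finset.sum_filter, Finset.sum_const, nsmul_eq_mul]
  rw [hval, hval] at h3
  have h4 : ((univ.filter fun x => IsConj c x).card : ℂ) ≠ 0 := by
    have : 0 < (univ.filter fun x => IsConj c x).card :=
      Finset.card_pos.2 ⟨c, mem_filter.2 ⟨mem_univ _, IsConj.refl c⟩⟩
    exact_mod_cast this.ne'
  rw [div_eq_div_iff ψ.one_ne_zero χ.one_ne_zero, mul_assoc, mul_assoc] at h3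
  exact (mul_left_cancel₀ h4 h3).symm

/-- the number of characters with proportional restrictions is at most the index -/
theorem card_le_index (C : Subgroup N) (hC : C.Normal) (S : Finset (Irr N))
    (hS : ∀ χ ∈ S, ∀ ψ ∈ S, ∀ c ∈ C, χ.1 c * ψ.1 1 = ψ.1 c * χ.1 1) : S.card ≤ C.index := by
  rcases S.eq_empty_or_nonempty with rfl | ⟨χ₀, hχ₀⟩
  · simp
  obtain ⟨m₀, hm₀, hP₀⟩ := restr_norm χ₀ C
  have hC0 : (Nat.card C : ℂ) ≠ 0 := by exact_mod_cast Nat.card_pos.ne'
  let F : N → ℂ := fun n => if n ∈ C then χ₀.1 n else 0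
  have hF : IsCF F := by
    intro g x
    simp only [F]
    have : g * x * g⁻¹ ∈ C ↔ x ∈ C := by
      constructor
      · intro h
        have := hC.conj_mem _ h g⁻¹
        have e : g⁻¹ * (g * x * g⁻¹) * g⁻¹⁻¹ = x := by group
        rwa [e] at this
      · intro h; exact hC.conj_mem _ h g
    simp only [this, χ₀.conj]
  have hpair : ∀ χ : Irr N, ∑ g : N, F g * χ.1 g⁻¹ = PC C χ₀.1 χ.1 := by
    intro χ
    rw [PC_eq, Finset.sum_filter]
    refine Finset.sum_congr rfl fun x _ => ?_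
    simp only [F]
    split_ifs
    · rfl
    · rw [zero_mul]
  -- the values on `S`
  have hval : ∀ χ ∈ S, (‖PC C χ₀.1 χ.1‖ ^ 2 : ℝ) ≥ m₀ * Nat.card C * Nat.card C := by
    intro χ hχ
    obtain ⟨m, hm, hP⟩ := restr_norm χ C
    have e1 : PC C χ₀.1 χ.1 * χ.1 1 = χ₀.1 1 * (m * Nat.card C) := by
      rw [← hP, PC, PC, Finset.sum_mul, Finset.mul_sum]
      refine Finset.sum_congr rfl fun c _ => ?_
      have := hS χ₀ hχ₀ χ hχ c c.2
      calc χ₀.1 c * χ.1 (c : N)⁻¹ * χ.1 1 = (χ₀.1 c * χ.1 1) * χ.1 (c : N)⁻¹ := by ring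
        _ = χ₀.1 1 * (χ.1 c * χ.1 (c : N)⁻¹) := by rw [this]; ring
    have e2 : PC C χ₀.1 χ.1 * χ₀.1 1 = χ.1 1 * (m₀ * Nat.card C) := by
      rw [← hP₀, PC, PC, Finset.sum_mul, Finset.mul_sum]
      refine Finset.sum_congr rfl fun c _ => ?_
      have := hS χ hχ χ₀ hχ₀ (c : N)⁻¹ (inv_mem c.2)
      calc χ₀.1 c * χ.1 (c : N)⁻¹ * χ₀.1 1 = χ₀.1 c * (χ.1 (c : N)⁻¹ * χ₀.1 1) := by ring
        _ = χ.1 1 * (χ₀.1 c * χ₀.1 (c : N)⁻¹) := by rw [this]; ring
    have e3 : PC C χ₀.1 χ.1 ^ 2 = (m : ℂ) * m₀ * Nat.card C * Nat.card C := by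
      have h1 := χ.one_ne_zero
      have h2 := χ₀.one_ne_zero
      have h3 : PC C χ₀.1 χ.1 ^ 2 * (χ.1 1 * χ₀.1 1) =
          ((m : ℂ) * m₀ * Nat.card C * Nat.card C) * (χ.1 1 * χ₀.1 1) := by
        calc PC C χ₀.1 χ.1 ^ 2 * (χ.1 1 * χ₀.1 1) =
            (PC C χ₀.1 χ.1 * χ.1 1) * (PC C χ₀.1 χ.1 * χ₀.1 1) := by ring
          _ = _ := by rw [e1, e2]; ring
      exact mul_right_cancel₀ (mul_ne_zero h1 h2) h3
    have e4 : (‖PC C χ₀.1 χ.1‖ ^ 2 : ℝ) = (m : ℝ) * m₀ * Nat.card C * Nat.card C := by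
      rw [← norm_pow, e3]
      simp
    rw [e4]
    have h5 : (1 : ℝ) ≤ m := by exact_mod_cast hm
    have h6 : (0 : ℝ) ≤ (m₀ : ℝ) * Nat.card C * Nat.card C := by positivity
    nlinarith
  have hpar := parseval hF
  have h1 : ∑ χ ∈ S, ‖∑ g : N, F g * χ.1 g⁻¹‖ ^ 2 ≤ Fintype.card N * ∑ g : N, ‖F g‖ ^ 2 := by
    rw [← hpar]
    exact Finset.sum_le_sum_of_subset_of_nonneg (Finset.subset_univ _) (fun _ _ _ => by positivity)
  have h2 : ∑ g : N, ‖F g‖ ^ 2 = m₀ * Nat.card C := by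
    have h3 : (∑ c : C, ‖χ₀.1 c‖ ^ 2 : ℝ) = m₀ * Nat.card C := by
      have := (PC_self_real χ₀ C).symm.trans hP₀
      exact_mod_cast this
    rw [← h3, ← Finset.sum_subtype (p := fun x => x ∈ C) (univ.filter fun x : N => x ∈ C)
      (fun x => by simp) (fun x => ‖χ₀.1 x‖ ^ 2), Finset.sum_filter]
    refine Finset.sum_congr rfl fun x _ => ?_
    simp only [F]
    split_ifs
    · rfl
    · simp
  have h3 : (S.card : ℝ) * (m₀ * Nat.card C * Nat.card C) ≤
      Fintype.card N * (m₀ * Nat.card C) := by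
    rw [h2] at h1
    refine le_trans ?_ h1
    rw [← nsmul_eq_mul]
    refine Finset.card_nsmul_le_sum _ _ _ fun χ hχ => ?_
    rw [hpair]
    exact hval χ hχ
  have h4 : (0 : ℝ) < m₀ * Nat.card C := by
    have : 0 < Nat.card C := Nat.card_pos
    positivity
  have h5 : (S.card : ℝ) * Nat.card C ≤ Fintype.card N := by
    have : ((S.card : ℝ) * Nat.card C) * (m₀ * Nat.card C) ≤ Fintype.card N * (m₀ * Nat.card C) := by
      calc ((S.card : ℝ) * Nat.card C) * (m₀ * Nat.card C) =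
          (S.card : ℝ) * (m₀ * Nat.card C * Nat.card C) := by ring
        _ ≤ _ := h3
    exact le_of_mul_le_mul_right this h4
  have h6 : S.card * Nat.card C ≤ Nat.card N := by
    rw [Nat.card_eq_fintype_card (α := N)]
    exact_mod_cast h5
  rw [← Subgroup.card_mul_index C, mul_comm] at h6
  exact Nat.le_of_mul_le_mul_left h6 Nat.card_pos

end Pair

end P179Y
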