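import Vale.Agent.P179.H166.K6a

/-!
# (K6) characters of weights with the same central character modulo `p`
-/

namespace P179Y

open P179H524 P179C P179A Finset P179P

open P179X (pp)

open scoped Classical

section Wt

variable {N : Type*} [Group N] [Fintype N]

/-- the properties of the (inflated) character of a weight -/
structure WtChar (p : ℕ) (D : Subgroup N) (χ : N → ℂ) : Prop where
  ker : ∀ d ∈ D, ∀ n, χ (d * n) = χ n
  van : ∀ n, pp p n ∉ D → χ n = 0
  deg : ∃ d : ℕ, χ 1 = d ∧ d.factorization p + (Nat.card D).factorization p =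
    (Nat.card N).factorization p

variable {p : ℕ} [hp : Fact p.Prime]

/-- reduction to the `p`-regular elements -/
theorem PC_reg {D C : Subgroup N} (hDC : D ≤ C) (hcomm : ∀ d ∈ D, ∀ c ∈ C, d * c = c * d)
    (hD : IsPGroup p D) (χ ψ : Irr N) (hχ : WtChar p D χ.1) (hψ : WtChar p D ψ.1) :
    PC C ψ.1 χ.1 = Nat.card D *
      ∑ x ∈ univ.filter (fun x : N => x ∈ C ∧ ¬ p ∣ orderOf x), ψ.1 x * χ.1 x⁻¹ := by
  rw [PC_eq]
  have hDel : ∀ d ∈ D, ∃ n : ℕ, d ^ p ^ n = 1 := by
    intro d hd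
    obtain ⟨n, hn⟩ := hD ⟨d, hd⟩
    exact ⟨n, congrArg Subtype.val hn⟩
  have hinv : ∀ d ∈ D, ∀ s : N, ψ.1 (d * s) * χ.1 (d * s)⁻¹ = ψ.1 s * χ.1 s⁻¹ := by
    intro d hd s
    rw [hψ.ker d hd, mul_inv_rev, χ.mul_comm, hχ.ker _ (inv_mem hd)]
  have h1 : ∑ x ∈ univ.filter (fun x : N => x ∈ C), ψ.1 x * χ.1 x⁻¹ =
      ∑ x ∈ univ.filter (fun x : N => x ∈ C ∧ pp p x ∈ D), ψ.1 x * χ.1 x⁻¹ := by
    symm
    refine Finset.sum_subset ?_ ?_
    · intro x hx
      rw [mem_filter] at hx ⊢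
      exact ⟨hx.1, hx.2.1⟩
    · intro x hx hx'
      rw [mem_filter] at hx hx'
      have h2 : pp p x ∉ D := fun h => hx' ⟨hx.1, hx.2, h⟩
      rw [hψ.van x h2, zero_mul]
  have h2 : ∑ x ∈ univ.filter (fun x : N => x ∈ C ∧ pp p x ∈ D), ψ.1 x * χ.1 x⁻¹ =
      ∑ t ∈ (univ.filter fun x : N => x ∈ D) ×ˢ
        (univ.filter fun x : N => x ∈ C ∧ ¬ p ∣ orderOf x), ψ.1 t.2 * χ.1 t.2⁻¹ := by
    refine Finset.sum_nbij' (fun x => (pp p x, pr p x)) (fun t => t.1 * t.2) ?_ ?_ ?_ ?_ ?_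
    · intro x hx
      rw [mem_filter] at hx
      rw [mem_product, mem_filter, mem_filter]
      refine ⟨⟨mem_univ _, hx.2.2⟩, mem_univ _, ?_, pr_regular' x⟩
      have h3 := pp_mul_pr (p := p) x
      have h4 : pr p x = (pp p x)⁻¹ * x := eq_inv_mul_of_mul_eq h3
      change pr p x ∈ C
      rw [h4]
      exact mul_mem (inv_mem (hDC hx.2.2)) hx.2.1
    · rintro ⟨d, s⟩ ht
      rw [mem_product, mem_filter, mem_filter] at ht
      rw [mem_filter]
      refine ⟨mem_univ _, mul_mem (hDC ht.1.2) ht.2.2.1, ?_⟩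
      rw [pp_eq (hcomm d ht.1.2 s ht.2.2.1) (hDel d ht.1.2) ht.2.2.2]
      exact ht.1.2
    · intro x _
      exact pp_mul_pr x
    · rintro ⟨d, s⟩ ht
      rw [mem_product, mem_filter, mem_filter] at ht
      have h3 := pp_eq (hcomm d ht.1.2 s ht.2.2.1) (hDel d ht.1.2) ht.2.2.2
      have h4 := pp_mul_pr (p := p) (d * s)
      rw [h3] at h4
      exact Prod.ext h3 (mul_left_cancel h4)
    · intro x hx
      rw [mem_filter] at hx
      conv_lhs => rw [← pp_mul_pr (p := p) x]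
      rw [hinv _ hx.2.2]
  have h3 : (Nat.card D : ℂ) = (univ.filter fun x : N => x ∈ D).card := by
    rw [Nat.card_eq_fintype_card, Fintype.card_subtype]
  rw [h1, h2, Finset.sum_product, h3]
  simp only [Finset.sum_const, nsmul_eq_mul]

variable {k : Type*} [Field k] [CharP k p] (red : AA →+* k)

theorem omA_eq_of_lam (χ ψ : Irr N) (h : ∀ z : N → k, IsCF z → lam red χ.1 z = lam red ψ.1 z)
    (z : N → ℤ) (hz : IsCF z) : red (omA χ z hz) = red (omA ψ z hz) := by
  have h1 := h (fun x => (z x : k)) (fun g x => congrArg Int.cast (hz g x))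
  rw [lam_int red χ.2 hz, lam_int red ψ.2 hz, redC_of_mem red (isIntegral_om χ.2 hz),
    redC_of_mem red (isIntegral_om ψ.2 hz)] at h1
  exact h1

/-- weight characters with the same central character modulo `p` are not orthogonal on `C` -/
theorem PC_ne_zero {D C : Subgroup N} (hDC : D ≤ C) (hC : C.Normal)
    (hcomm : ∀ d ∈ D, ∀ c ∈ C, d * c = c * d)
    (hD : IsPGroup p D) (he : C.index < p) (χ ψ : Irr N) (hχ : WtChar p D χ.1)
    (hψ : WtChar p D ψ.1) (h : ∀ z : N → k, IsCF z → lam red χ.1 z = lam red ψ.1 z) :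
    PC C ψ.1 χ.1 ≠ 0 := by
  intro h0
  let a : N → ℂ := fun x => if x ∈ C ∧ ¬ p ∣ orderOf x then χ.1 x⁻¹ else 0
  have ha : IsCF a := by
    intro g x
    have h1 : g * x * g⁻¹ ∈ C ↔ x ∈ C := by
      constructor
      · intro h
        have := hC.conj_mem _ h g⁻¹
        have e : g⁻¹ * (g * x * g⁻¹) * g⁻¹⁻¹ = x := by group
        rwa [e] at this
      · intro h; exact hC.conj_mem _ h g
    have h2 : (g * x * g⁻¹)⁻¹ = g * x⁻¹ * g⁻¹ := by group
    simp only [a, h1, h2, χ.conj, P179C.orderOf_conj]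
  have hint : ∀ g, a g ∈ integralClosure ℤ ℂ := by
    intro g
    simp only [a]
    split_ifs
    · exact χ.integral _
    · exact zero_mem _
  have hval : ∀ θ : Irr N, omC θ.1 a =
      (∑ x ∈ univ.filter (fun x : N => x ∈ C ∧ ¬ p ∣ orderOf x), θ.1 x * χ.1 x⁻¹) / θ.1 1 := by
    intro θ
    unfold omC
    congr 1
    rw [Finset.sum_filter]
    refine Finset.sum_congr rfl fun x _ => ?_
    simp only [a]
    split_ifs
    · ring
    · ring
  have hDc : (Nat.card D : ℂ) ≠ 0 := by exact_mod_cast Nat.card_pos.ne'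
  have hz : omC ψ.1 a = 0 := by
    rw [hval]
    have := PC_reg hDC hcomm hD χ ψ hχ hψ
    rw [h0] at this
    rcases mul_eq_zero.1 this.symm with h1 | h1
    · exact absurd h1 hDc
    · rw [h1, zero_div]
  obtain ⟨m, hm, hP⟩ := restr_norm χ C
  have hmle := restr_norm_le χ C hP
  have hreg := PC_reg hDC hcomm hD χ χ hχ hχ
  obtain ⟨d, hd, hdp⟩ := hχ.deg
  have hd0 : d ≠ 0 := by
    rintro rfl
    exact χ.one_ne_zero (by rw [hd]; simp)
  have hdC : (d : ℂ) ≠ 0 := by exact_mod_cast hd0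
  have hX : omC χ.1 a * (Nat.card D * d) = m * Nat.card C := by
    rw [hval, hd, ← hP, hreg]
    field_simp
  obtain ⟨b, hb⟩ : ∃ b : ℤ, omC χ.1 a = b := by
    refine int_of_rat_integral (omC_mem χ ha hint) ⟨(m * Nat.card C : ℚ) / (Nat.card D * d), ?_⟩
    push_cast
    rw [← hX, mul_div_cancel_right₀]
    exact mul_ne_zero hDc hdC
  have hbZ : b * ((Nat.card D * d : ℕ) : ℤ) = ((m * Nat.card C : ℕ) : ℤ) := by
    rw [hb] at hX
    exact_mod_cast hX
  have hbn : b.natAbs * (Nat.card D * d) = m * Nat.card C := by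
    have := congrArg Int.natAbs hbZ
    rwa [Int.natAbs_mul, Int.natAbs_natCast, Int.natAbs_natCast] at this
  have hCi : ¬ p ∣ C.index := by
    intro hdv
    have hpos : 0 < C.index := Nat.pos_of_ne_zero Subgroup.index_ne_zero_of_finite
    exact absurd (Nat.le_of_dvd hpos hdv) (not_le.2 he)
  have hCN : (Nat.card C).factorization p = (Nat.card N).factorization p := by
    rw [← Subgroup.card_mul_index C, Nat.factorization_mul Nat.card_pos.ne'
      Subgroup.index_ne_zero_of_finite, Finsupp.add_apply, Nat.factorization_eq_zero_of_not_dvd hCi,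
      add_zero]
  have hmp : m.factorization p = 0 := by
    refine Nat.factorization_eq_zero_of_not_dvd fun hdv => ?_
    exact absurd (Nat.le_of_dvd hm hdv) (not_le.2 (lt_of_le_of_lt hmle he))
  have hb0 : b.natAbs ≠ 0 := by
    intro hb0
    rw [hb0, zero_mul] at hbn
    exact (Nat.mul_pos hm Nat.card_pos).ne hbn
  have hbp : b.natAbs.factorization p = 0 := by
    have h1 : (b.natAbs * (Nat.card D * d)).factorization p =
        (m * Nat.card C).factorization p := by rw [hbn]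
    rw [Nat.factorization_mul hb0 (mul_ne_zero Nat.card_pos.ne' hd0),
      Nat.factorization_mul Nat.card_pos.ne' hd0, Nat.factorization_mul hm.ne' Nat.card_pos.ne',
      Finsupp.add_apply, Finsupp.add_apply, Finsupp.add_apply, hmp, hCN] at h1
    omega
  have hpb : ¬ p ∣ b.natAbs := by
    intro hdv
    have := (hp.out.dvd_iff_one_le_factorization hb0).1 hdv
    omega
  -- contradiction
  have hre := red_omC_eq red χ ψ (fun z hz => omA_eq_of_lam red χ ψ h z hz) ha hint
  have e1 : (⟨omC ψ.1 a, omC_mem ψ ha hint⟩ : AA) = 0 := Subtype.ext hz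
  have e2 : (⟨omC χ.1 a, omC_mem χ ha hint⟩ : AA) = (b : AA) := by
    apply Subtype.ext
    change omC χ.1 a = ((b : AA) : ℂ)
    rw [hb]
    push_cast
    rfl
  rw [e1, e2, map_zero, map_intCast] at hre
  have h3 := (CharP.intCast_eq_zero_iff k p b).1 hre
  exact hpb (Int.natCast_dvd.1 h3)

/-- (K6, counting) -/
theorem card_wt_le {D C : Subgroup N} (hDC : D ≤ C) (hC : C.Normal)
    (hcomm : ∀ d ∈ D, ∀ c ∈ C, d * c = c * d)
    (hD : IsPGroup p D) (he : C.index < p) (S : Finset (Irr N)) (hS : ∀ χ ∈ S, WtChar p D χ.1)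
    (h : ∀ χ ∈ S, ∀ ψ ∈ S, ∀ z : N → k, IsCF z → lam red χ.1 z = lam red ψ.1 z) :
    S.card ≤ C.index := by
  refine card_le_index C hC S fun χ hχ ψ hψ c hc => ?_
  exact prop_of_ne C hC χ ψ (PC_ne_zero red hDC hC hcomm hD he χ ψ (hS χ hχ) (hS ψ hψ)
    (h χ hχ ψ hψ)) hc

end Wt

end P179Y
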