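import Vale.Agent.P179.H166.K6b
import Vale.Agent.P179.H524.FD

/-!
# (K6) inflated characters
-/

namespace P179Y

open P179H524 P179C P179A Finset P179P Subgroup

open P179X (pp)

open scoped Classical

section Infl

variable {p : ℕ} [hp : Fact p.Prime] {k : Type*} [Field k] [CharP k p] (red : AA →+* k)
  {N : Type*} [Group N] [Fintype N]

/-- the central character of an inflated character only depends on the restriction to the
centraliser of the kernel -/
theorem lam_infl_cut (Q : Subgroup N) [Q.Normal] (hQ : IsPGroup p Q) {χ : N ⧸ Q → ℂ}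
    (hχ : IsIrrChar χ) {z : N → k} (hz : IsCF z) (h0 : ∀ x ∈ centralizer (Q : Set N), z x = 0) :
    lam red (fun n => χ (QuotientGroup.mk' Q n)) z = 0 := by
  rw [← lam_push red (QuotientGroup.mk' Q) (QuotientGroup.mk'_surjective Q) hχ hz]
  have h1 : pushR (QuotientGroup.mk' Q) z = 0 := by
    funext c
    unfold pushR
    refine sum_eq_zero_of_perm p hQ (conjPerm Q) _ ?_ ?_
    · intro q x
      rw [conjPerm_apply, hz]
      have : QuotientGroup.mk' Q ((q : N) * x * (q : N)⁻¹) = QuotientGroup.mk' Q x := by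
        have hq : QuotientGroup.mk' Q (q : N) = 1 := by
          rw [QuotientGroup.mk'_apply, QuotientGroup.eq_one_iff]
          exact q.2
        rw [map_mul, map_mul, map_inv, hq]
        group
      rw [this]
    · intro x hx
      rw [h0 x ((mem_cent_iff Q x).2 fun d hd => hx ⟨d, hd⟩), ite_self]
  rw [h1]
  simp [lam]

theorem lam_infl_congr (Q : Subgroup N) [Q.Normal] (hQ : IsPGroup p Q) {χ : N ⧸ Q → ℂ}
    (hχ : IsIrrChar χ) {z z' : N → k} (hz : IsCF z) (hz' : IsCF z')
    (h0 : ∀ x ∈ centralizer (Q : Set N), z x = z' x) :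
    lam red (fun n => χ (QuotientGroup.mk' Q n)) z =
      lam red (fun n => χ (QuotientGroup.mk' Q n)) z' := by
  have h1 : lam red (fun n => χ (QuotientGroup.mk' Q n)) (z + (-1 : k) • z') = 0 := by
    refine lam_infl_cut red Q hQ hχ ?_ ?_
    · intro g x
      simp only [Pi.add_apply, Pi.smul_apply, hz g x, hz' g x]
    · intro x hx
      simp [h0 x hx]
  rw [lam_add, lam_smul] at h1
  linear_combination h1

omit [CharP k p] in
include red in
/-- the inflated character of a weight -/
theorem wtChar_infl [CharP k p] (Q : Subgroup N) [Q.Normal] {χ : N ⧸ Q → ℂ}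
    (hχ : IsDefectZeroChar p χ) : WtChar p Q (fun n => χ (QuotientGroup.mk' Q n)) where
  ker d hd n := by
    have h1 : QuotientGroup.mk' Q d = 1 := by
      rw [QuotientGroup.mk'_apply, QuotientGroup.eq_one_iff]; exact hd
    rw [map_mul, h1, one_mul]
  van n hn := by
    refine dz_vanish p red hχ ?_
    by_contra hreg
    apply hn
    rw [← QuotientGroup.eq_one_iff, ← QuotientGroup.mk'_apply]
    have h1 := (pp_eq_one_iff (p := p) (QuotientGroup.mk' Q n)).2 hreg
    have h2 : pp p (QuotientGroup.mk' Q n) = QuotientGroup.mk' Q (pp p n) := by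
      have h3 : QuotientGroup.mk' Q n = QuotientGroup.mk' Q (pp p n) * QuotientGroup.mk' Q (pr p n) := by
        rw [← map_mul, pp_mul_pr]
      rw [h3]
      refine pp_eq ?_ ?_ ?_
      · rw [← map_mul, ← map_mul, pp_comm]
      · obtain ⟨m, hm⟩ := pp_pow_eq_one (p := p) n
        exact ⟨m, by rw [← map_pow, hm, map_one]⟩
      · intro h
        exact pr_regular' n (h.trans (orderOf_map_dvd _ _))
    rw [← h2, h1]
  deg := by
    obtain ⟨-, d, hd, hdp⟩ := hχ
    refine ⟨d, ?_, ?_⟩
    · rw [map_one, hd]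
    · have h1 : Nat.card N = Nat.card (N ⧸ Q) * Nat.card Q := card_eq_card_quotient_mul_card_subgroup Q
      rw [h1, Nat.factorization_mul Nat.card_pos.ne' Nat.card_pos.ne', Finsupp.add_apply, hdp]

end Infl

section Theta

variable {k : Type*} [Field k] (red : AA →+* k) {N : Type*} [Group N] [Fintype N]

/-- central characters of `N` and of a normal subgroup -/
theorem om_restr (M : Subgroup N) (χ : Irr N) :
    ∃ θ : Irr M, ∀ z : N → ℤ, IsCF z → (∀ x, x ∉ M → z x = 0) →
      om θ.1 (fun m : M => z m) = om χ.1 z := by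
  obtain ⟨n, hn⟩ := restr_decomp χ M
  have hex : ∃ θ : Irr M, n θ ≠ 0 := by
    by_contra hcon
    push Not at hcon
    apply χ.one_ne_zero
    have h3 := hn 1
    rw [OneMemClass.coe_one] at h3
    rw [h3]
    refine Finset.sum_eq_zero fun ψ _ => ?_
    rw [hcon, Nat.cast_zero, zero_mul]
  obtain ⟨θ, hθ⟩ := hex
  refine ⟨θ, fun z hz hzM => ?_⟩
  rw [om_eq_omC, om_eq_omC]
  have hzC : IsCF (fun x : N => (z x : ℂ)) := fun g x => congrArg Int.cast (hz g x)
  have hzMC : IsCF (fun m : M => (z m : ℂ)) := fun g x => congrArg Int.cast (hz g x)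
  -- the eigenvector property on `M`
  have h1 : ∀ y : M, ∑ ψ : Irr M, (n ψ : ℂ) * (omC ψ.1 (fun m : M => (z m : ℂ)) - omC χ.1 (fun x => (z x : ℂ))) * ψ.1 y = 0 := by
    intro y
    have e1 := sum_mul_irr χ hzC (y : N)
    have e2 : ∑ g : N, (z g : ℂ) * χ.1 (g * y) = ∑ m : M, (z m : ℂ) * χ.1 ((m * y : M) : N) := by
      rw [← Finset.sum_subset (Finset.subset_univ (univ.filter fun x : N => x ∈ M))]
      · rw [Finset.sum_subtype (p := fun x => x ∈ M) (univ.filter fun x : N => x ∈ M)
          (fun x => by simp)]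
        rfl
      · intro x _ hx
        rw [hzM x (by simpa using hx), Int.cast_zero, zero_mul]
    rw [e2] at e1
    have e3 : ∑ m : M, (z m : ℂ) * χ.1 ((m * y : M) : N) =
        ∑ ψ : Irr M, (n ψ : ℂ) * (omC ψ.1 (fun m : M => (z m : ℂ)) * ψ.1 y) := by
      have : ∀ m : M, (z m : ℂ) * χ.1 ((m * y : M) : N) =
          ∑ ψ : Irr M, (n ψ : ℂ) * ((z m : ℂ) * ψ.1 (m * y)) := by
        intro m
        rw [hn, Finset.mul_sum]
        exact Finset.sum_congr rfl fun ψ _ => by ring
      rw [Finset.sum_congr rfl fun m _ => this m, Finset.sum_comm]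
      refine Finset.sum_congr rfl fun ψ _ => ?_
      rw [← Finset.mul_sum, sum_mul_irr ψ hzMC]
    rw [e3, hn, Finset.mul_sum] at e1
    have e4 := sub_eq_zero.2 e1
    rw [← Finset.sum_sub_distrib] at e4
    rw [← e4]
    exact Finset.sum_congr rfl fun ψ _ => by ring
  have h2 : ∑ y : M, (∑ ψ : Irr M, (n ψ : ℂ) * (omC ψ.1 (fun m : M => (z m : ℂ)) -
      omC χ.1 (fun x => (z x : ℂ))) * ψ.1 y) * θ.1 y⁻¹ = 0 :=
    Finset.sum_eq_zero fun y _ => by rw [h1, zero_mul]
  simp only [Finset.sum_mul] at h2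
  rw [Finset.sum_comm] at h2
  have h3 : ∀ ψ : Irr M, ∑ y : M, (n ψ : ℂ) * (omC ψ.1 (fun m : M => (z m : ℂ)) -
      omC χ.1 (fun x => (z x : ℂ))) * ψ.1 y * θ.1 y⁻¹ =
      (n ψ : ℂ) * (omC ψ.1 (fun m : M => (z m : ℂ)) - omC χ.1 (fun x => (z x : ℂ))) *
        (if ψ = θ then (Fintype.card M : ℂ) else 0) := by
    intro ψ
    rw [← row_orth ψ θ, Finset.mul_sum]
    exact Finset.sum_congr rfl fun y _ => by ring
  rw [Finset.sum_congr rfl fun ψ _ => h3 ψ, Finset.sum_eq_single θ] at h2
  · rw [if_pos rfl] at h2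
    have h4 : (Fintype.card M : ℂ) ≠ 0 := by exact_mod_cast Fintype.card_ne_zero
    have h5 : (n θ : ℂ) ≠ 0 := by exact_mod_cast hθ
    rcases mul_eq_zero.1 h2 with h6 | h6
    · rcases mul_eq_zero.1 h6 with h7 | h7
      · exact absurd h7 h5
      · exact sub_eq_zero.1 h7
    · exact absurd h6 h4
  · intro ψ _ hne
    rw [if_neg hne, mul_zero]
  · intro h; exact absurd (mem_univ _) h

/-- the reductions of the central characters of `N` and of a normal subgroup -/
theorem lam_restr (M : Subgroup N) (hM : M.Normal) (χ : Irr N) :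
    ∃ θ : Irr M, ∀ z : N → k, IsCF z → (∀ x, x ∉ M → z x = 0) →
      lam red θ.1 (fun m : M => z m) = lam red χ.1 z := by
  obtain ⟨θ, hθ⟩ := om_restr M χ
  have := Fintype.ofFinite (ConjClasses N)
  refine ⟨θ, fun z hz hzM => ?_⟩
  rw [lam_res_eq red M θ hz, lam_eq_sum red χ z]
  refine Finset.sum_congr rfl fun D _ => ?_
  by_cases hD : D.out ∈ M
  · congr 2
    refine hθ (ind D) (isCF_ind D) fun x hx => ?_
    unfold ind
    rw [if_neg]
    intro h1
    apply hx
    have h2 : ConjClasses.mk D.out = ConjClasses.mk x := by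
      rw [h1]; exact Quot.out_eq D
    obtain ⟨g, hg⟩ := isConj_iff.1 (ConjClasses.mk_eq_mk_iff_isConj.1 h2)
    rw [← hg]
    exact hM.conj_mem _ hD g
  · rw [hzM _ hD, zero_mul, zero_mul]

end Theta

end P179Y
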