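import Vale.Agent.P179.H166.K6c
import Vale.Agent.P179.H143.RegBlock
import Vale.Agent.P179.H524.K7

/-!
# (K6) the `p`-subgroup of a weight is a defect group
-/

namespace P179Y

open P179H524 P179C P179A Finset P179P Subgroup

open P179X (pp)

open scoped Classical

section Pow

variable {k : Type*} [Field k] {N : Type*} [Group N] [Fintype N]

theorem invOn_cpw (H : Subgroup N) {t : N → k} (ht : InvOn H t) (n : ℕ) : InvOn H (cpw t n) := by
  induction n with
  | zero => exact invOn_delta H
  | succ n ih => exact ih.conv H ht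

theorem cj_cpw (c : N) (t : N → k) (n : ℕ) : cj c (cpw t n) = cpw (cj c t) n := by
  induction n with
  | zero => exact cj_delta c
  | succ n ih => rw [cpw, cj_conv, ih, cpw]

theorem BP.cpw {p : ℕ} {D : Subgroup N} {l : (N → k) → k} (hl : BP p D l) {t : N → k}
    (ht : InvOn (centralizer (D : Set N)) t) (n : ℕ) : l (cpw t n) = l t ^ n := by
  induction n with
  | zero => rw [pow_zero]; exact hl.one
  | succ n ih => rw [P179C.cpw, hl.mul _ _ (invOn_cpw _ ht n) ht, ih, pow_succ]

theorem conv_delta (t : N → k) : conv (fun g : N => if g = 1 then (1 : k) else 0) t = t := by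
  funext x
  unfold conv
  rw [Finset.sum_eq_single (1 : N)]
  · simp
  · intro h _ hh
    beta_reduce
    rw [if_neg hh, zero_mul]
  · intro h; exact absurd (mem_univ _) h

theorem dsupp_cpw (p : ℕ) [hp : Fact p.Prime] [CharP k p] {D : Subgroup N} {t : N → k}
    (ht' : DSupp p D t) (ht : InvOn (centralizer (D : Set N)) t) (n : ℕ) :
    DSupp p D (cpw t (n + 1)) := by
  induction n with
  | zero =>
    rw [cpw, cpw]
    rwa [conv_delta]
  | succ n ih =>
    rw [cpw]
    exact DSupp.conv p ih (invOn_cpw _ ht _) ht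

theorem cpw_ext (C : Subgroup N) {t : N → k} (ht : ∀ x, x ∉ C → t x = 0) (n : ℕ) :
    ext C (cpw (fun c : C => t c) n) = cpw t n := by
  induction n with
  | zero =>
    refine ext_one C _ ?_ ?_
    · rw [cpw]
      beta_reduce
      rw [if_pos rfl]
    · intro g hg
      rw [cpw]
      beta_reduce
      rw [if_neg hg]
  | succ n ih =>
    rw [cpw, cpw, ← ih]
    have := ext_conv C (cpw (fun c : C => t c) n) (fun c : C => t c)
    rw [ext_restr ht] at this
    exact this

theorem cpw_reg (p : ℕ) [hp : Fact p.Prime] [CharP k p] (C : Subgroup N) {t : N → k}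
    (ht : InvOn C t) {x : N} (hx : p ∣ orderOf x) :
    cpw t (p ^ (Nat.card N).factorization p) x = 0 := by
  rw [← cpw_ext C ht.2]
  by_cases hxC : x ∈ C
  · rw [ext_of_mem C _ hxC]
    refine cpw_sing p (a := fun c : C => t c) ?_ ?_ ?_
    · intro g y
      exact ht.1 g g.2 y
    · exact (Nat.factorization_le_iff_dvd Nat.card_pos.ne' Nat.card_pos.ne').2
        (card_subgroup_dvd_card C) p
    · rwa [← Subgroup.orderOf_coe]
  · exact ext_of_not_mem C _ hxC

end Pow

section Translate

variable {p : ℕ} [hp : Fact p.Prime] {k : Type*} [Field k] [CharP k p]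
  {N : Type*} [Group N] [Fintype N]

omit [Fintype N] in
theorem invOn_single {C : Subgroup N} {v : N} (hv : v ∈ C) (hvc : ∀ c ∈ C, c * v = v * c) :
    InvOn C (fun x : N => if x = v then (1 : k) else 0) := by
  constructor
  · intro c hc x
    have : c * x * c⁻¹ = v ↔ x = v := by
      constructor
      · intro h
        have h1 : x = c⁻¹ * (c * x * c⁻¹) * c := by group
        rw [h1, h, mul_assoc, ← hvc c hc, inv_mul_cancel_left]
      · rintro rfl
        rw [hvc c hc, mul_inv_cancel_right]
    simp only [this]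
  · intro x hx
    beta_reduce
    rw [if_neg]
    rintro rfl
    exact hx hv

theorem conv_single (v : N) (a : N → k) :
    conv (fun x : N => if x = v then (1 : k) else 0) a = fun x => a (v⁻¹ * x) := by
  funext x
  unfold conv
  rw [Finset.sum_eq_single v]
  · simp
  · intro h _ hh
    beta_reduce
    rw [if_neg hh, zero_mul]
  · intro h; exact absurd (mem_univ _) h

/-- translation by an element of `R` -/
theorem BP.translate {R : Subgroup N} {l : (N → k) → k} (hl : BP p R l) (hR : IsPGroup p R)
    (hab : R ≤ centralizer (R : Set N)) {v : N} (hv : v ∈ R) {a : N → k}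
    (ha : InvOn (centralizer (R : Set N)) a) : l (fun x => a (v⁻¹ * x)) = l a := by
  have hpow : ∀ w ∈ R, InvOn (centralizer (R : Set N)) (fun x : N => if x = w then (1 : k) else 0) :=
    fun w hw => invOn_single (hab hw) fun c hc => (mem_centralizer_iff.1 hc w hw).symm
  have h1 : ∀ n : ℕ, l (fun x : N => if x = v ^ n then (1 : k) else 0) =
      l (fun x : N => if x = v then (1 : k) else 0) ^ n := by
    intro n
    induction n with
    | zero =>
      rw [pow_zero, pow_zero]
      exact hl.one
    | succ n ih =>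
      have h2 : conv (fun x : N => if x = v ^ n then (1 : k) else 0)
          (fun x : N => if x = v then (1 : k) else 0) =
          fun x : N => if x = v ^ (n + 1) then (1 : k) else 0 := by
        rw [conv_single]
        funext x
        have : (v ^ n)⁻¹ * x = v ↔ x = v ^ (n + 1) := by
          rw [inv_mul_eq_iff_eq_mul, pow_succ]
        simp only [this]
      rw [← h2, hl.mul _ _ (hpow _ (pow_mem hv n)) (hpow _ hv), ih, pow_succ]
  obtain ⟨m, hm⟩ := hR ⟨v, hv⟩
  have hm' : v ^ p ^ m = 1 := congrArg Subtype.val hm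
  have h3 := h1 (p ^ m)
  rw [hm'] at h3
  have h4 : l (fun x : N => if x = v then (1 : k) else 0) ^ p ^ m = 1 := by
    rw [← h3]
    exact hl.one
  have h5 : l (fun x : N => if x = v then (1 : k) else 0) = 1 := by
    have h6 : (l (fun x : N => if x = v then (1 : k) else 0) - 1) ^ p ^ m = 0 := by
      rw [sub_pow_char_pow, h4, one_pow, sub_self]
    exact sub_eq_zero.1 (pow_eq_zero_iff (pow_pos hp.out.pos m).ne' |>.1 h6)
  rw [← conv_single, hl.mul _ _ (hpow v hv) ha, h5, one_mul]

end Translate

section LemA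

variable {p : ℕ} [hp : Fact p.Prime] {k : Type*} [Field k] [CharP k p] (red : AA →+* k)
  {N : Type*} [Group N] [Fintype N]

theorem lam_eq_zero_of_van (χ : Irr N) {z : N → k} (hz : ∀ x, z x ≠ 0 → χ.1 x = 0) :
    lam red χ.1 z = 0 := by
  have := Fintype.ofFinite (ConjClasses N)
  rw [lam_eq_sum]
  refine Finset.sum_eq_zero fun D _ => ?_
  by_cases h : z D.out = 0
  · rw [h, zero_mul]
  · have h1 := hz _ h
    have h2 : om χ.1 (ind D) = 0 := by
      unfold om
      rw [finsum_eq_sum_of_fintype, Finset.sum_eq_zero, zero_div]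
      intro x _
      unfold ind
      split_ifs with hx
      · have h3 : ConjClasses.mk D.out = ConjClasses.mk x := by rw [hx]; exact Quot.out_eq D
        obtain ⟨g, hg⟩ := isConj_iff.1 (ConjClasses.mk_eq_mk_iff_isConj.1 h3)
        rw [← hg, χ.conj, h1, mul_zero]
      · rw [Int.cast_zero, zero_mul]
    rw [h2, redC_of_mem red (zero_mem _)]
    have : (⟨0, zero_mem _⟩ : integralClosure ℤ ℂ) = 0 := rfl
    rw [this, map_zero, mul_zero]

/-- **(K6, Lemma A)** -/
theorem le_of_wtChar {Q : Subgroup N} (hQ : Q.Normal) (χ : Irr N) (hχ : WtChar p Q χ.1)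
    {R : Subgroup N} {l : (N → k) → k} (hl : BP p R l) (hR : IsPGroup p R)
    (hab : R ≤ centralizer (R : Set N))
    (hT : ¬ p ∣ (centralizer (R : Set N)).relIndex (stabT R l))
    (h : ∀ z : N → k, IsCF z → l z = lam red χ.1 z) : R ≤ Q := by
  intro u hu
  by_contra huQ
  obtain ⟨t, ht, hlt, htD, htF, -⟩ := exists_Y' hl hR hab hT Finset.univ
  set C := centralizer (R : Set N) with hC
  obtain ⟨n, hn⟩ : ∃ n, p ^ (Nat.card N).factorization p = n + 1 :=
    ⟨p ^ (Nat.card N).factorization p - 1, by
      have := pow_pos hp.out.pos ((Nat.card N).factorization p); omega⟩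
  set T : N → k := cpw t (p ^ (Nat.card N).factorization p) with hTdef
  have hTinv : InvOn C T := invOn_cpw _ ht _
  have hTl : l T ≠ 0 := by
    rw [hTdef, hl.cpw ht]
    exact pow_ne_zero _ hlt
  have hTD : DSupp p R T := by
    rw [hTdef, hn]
    exact dsupp_cpw p htD ht n
  have hTreg : ∀ x, T x ≠ 0 → ¬ p ∣ orderOf x := fun x hx hd => hx (cpw_reg p C ht hd)
  have hTF : ∀ c ∈ normalizer (R : Set N), c ∉ stabT R l → l (cj c T) = 0 := by
    intro c hc hcT
    rw [hTdef, cj_cpw, hl.cpw (ht.cj hc), htF c (mem_univ _) hc hcT, zero_pow (by rw [hn]; omega)]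
  -- the translate
  let V : N → k := fun x => T (u⁻¹ * x)
  have huC : ∀ c ∈ C, c * u = u * c := fun c hc => (mem_centralizer_iff.1 hc u hu).symm
  have hVinv : InvOn C V := by
    have := (invOn_single (k := k) (hab hu) huC).conv C hTinv
    rwa [conv_single] at this
  have hVD : DSupp p R V := by
    intro x hx P hP hPx hPC y hy
    refine hTD (u⁻¹ * x) hx P hP ?_ hPC hy
    intro q hq
    rw [mem_centralizer_singleton_iff]
    have h1 := mem_centralizer_singleton_iff.1 (hPx hq)
    have h2 := huC q (hPC hq)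
    have h3 : q * u⁻¹ = u⁻¹ * q := by
      rw [mul_inv_eq_iff_eq_mul, mul_assoc, h2, inv_mul_cancel_left]
    rw [← mul_assoc, h3, mul_assoc, h1, mul_assoc]
  have hVl : ∀ c ∈ normalizer (R : Set N), l (cj c V) = l (cj c T) := by
    intro c hc
    have hcu : c * u * c⁻¹ ∈ R := (mem_normalizer_iff.1 hc u).1 hu
    have h1 : cj c V = fun x => cj c T ((c * u * c⁻¹)⁻¹ * x) := by
      funext x
      simp only [cj, V]
      congr 1
      group
    rw [h1, hl.translate hR hab hcu (hTinv.cj hc)]
  have hz1 : l (trG C V) = C.relIndex (stabT R l) * l T := by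
    have h2 : l (trG C V) = l (∑ c : N ⧸ C,
      (if c.out ∈ normalizer (R : Set N) then cj c.out V else 0)) := by
      refine hl.congr fun x hx => ?_
      rw [hC, trG_cent hR hab hVinv hVD hx, Finset.sum_apply]
      refine Finset.sum_congr rfl fun c _ => ?_
      split_ifs <;> rfl
    rw [h2, hl.sum]
    have h3 : ∀ c : N ⧸ C,
        l (if c.out ∈ normalizer (R : Set N) then cj c.out V else 0) =
        if c.out ∈ stabT R l then l T else 0 := by
      intro c
      by_cases hcT : c.out ∈ stabT R l
      · rw [if_pos hcT.1, if_pos hcT, hVl _ hcT.1, hcT.2 T hTinv]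
      · rw [if_neg hcT]
        by_cases hcN : c.out ∈ normalizer (R : Set N)
        · rw [if_pos hcN, hVl _ hcN]
          exact hTF _ hcN hcT
        · rw [if_neg hcN, hl.zero]
    rw [Finset.sum_congr rfl fun c _ => h3 c, ← Finset.sum_filter, Finset.sum_const, nsmul_eq_mul,
      card_cosets _ _ (cent_le_stabT R l)]
  have hz2 : l (trG C V) ≠ 0 := by
    rw [hz1]
    refine mul_ne_zero ?_ hTl
    rwa [Ne, CharP.cast_eq_zero_iff k p]
  have hcf : IsCF (trG C V) := isCF_trG C hVinv.1
  apply hz2
  rw [h _ hcf]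
  refine lam_eq_zero_of_van red χ fun x hx => ?_
  -- the support
  obtain ⟨c, hc⟩ : ∃ c : N, V (c⁻¹ * x * c) ≠ 0 := by
    by_contra hcon
    push Not at hcon
    apply hx
    unfold trG
    exact Finset.sum_eq_zero fun c _ => hcon _
  have hreg := hTreg _ hc
  have hmem : u⁻¹ * (c⁻¹ * x * c) ∈ C := by
    by_contra hm
    exact hc (hTinv.2 _ hm)
  have hpp : pp p (c⁻¹ * x * c) = u := by
    have h1 : c⁻¹ * x * c = u * (u⁻¹ * (c⁻¹ * x * c)) := by group
    rw [h1]
    refine pp_eq (huC _ hmem).symm ?_ hreg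
    obtain ⟨m, hm⟩ := hR ⟨u, hu⟩
    exact ⟨m, congrArg Subtype.val hm⟩
  refine hχ.van x fun hxQ => huQ ?_
  have h2 := pp_conj (p := p) c⁻¹ x
  rw [inv_inv, hpp] at h2
  rw [h2]
  have := hQ.conj_mem _ hxQ c⁻¹
  rwa [inv_inv] at this

end LemA

end P179Y
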