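import Vale.Agent.P179.H166.K6d
import Vale.Agent.P179.H524.K7
import Vale.Agent.P179.H905.N6a

/-!
# (K6) the `p`-subgroup of a weight of a block with abelian defect group `D` is conjugate to `D`
-/

namespace P179Y

open P179H524 P179C P179A Finset P179P Subgroup

open P179X (pp)

open scoped Classical

section FD

variable {p : ℕ} [hp : Fact p.Prime] {k : Type*} [Field k] [CharP k p] {G : Type*} [Group G]
  [Fintype G]

omit [Fintype G] in
theorem comm_of_le_cent {D : Subgroup G} (hab : D ≤ centralizer (D : Set G)) :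
    ∀ a ∈ D, ∀ b ∈ D, a * b = b * a :=
  fun a ha _ hb => (mem_centralizer_iff.1 (hab hb) a ha)

omit [Fintype G] in
theorem le_cent_of_comm {D : Subgroup G} (h : ∀ a ∈ D, ∀ b ∈ D, a * b = b * a) :
    D ≤ centralizer (D : Set G) := by
  intro x hx
  rw [mem_centralizer_iff]
  intro y hy
  exact h y hy x hx

/-- **(FD)** with the inertial index -/
theorem FD' {D R : Subgroup G} {l l2 : (G → k) → k} (hl : BP p D l) (hD : IsPGroup p D)
    (hab : D ≤ centralizer (D : Set G))
    (hT : ¬ p ∣ (centralizer (D : Set G)).relIndex (stabT D l))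
    (hl2 : BP p R l2) (hR : IsPGroup p R) (hll : ∀ z, IsCF z → l2 z = l z) :
    ∃ g : G, ∀ x, x ∈ R ↔ g⁻¹ * x * g ∈ D := by
  have hDab := comm_of_le_cent hab
  obtain ⟨y, hy, hyD, hly⟩ := exists_Y hl hD hab hT
  have hly2 : l2 y ≠ 0 := by rw [hll y hy]; exact hly
  have hcent : ∀ (Q : Subgroup G) (l' : (G → k) → k) (hl' : BP p Q l') (z : G → k), l' z ≠ 0 →
      ∃ x, z x ≠ 0 ∧ Q ≤ centralizer {x} := by
    intro Q l' hl' z hz
    by_contra hcon
    push Not at hcon
    apply hz
    refine hl'.supp z fun x hx => ?_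
    by_contra hx0
    apply hcon x hx0
    intro r hr
    rw [mem_centralizer_singleton_iff]
    rw [mem_centralizer_iff] at hx
    exact hx r hr
  obtain ⟨x, hx, hRx⟩ := hcent R l2 hl2 y hly2
  obtain ⟨g, hg⟩ := hyD x hx R hR hRx
  have hRab : ∀ a ∈ R, ∀ b ∈ R, a * b = b * a := by
    intro a ha b hb
    have h7 := hDab _ (hg a ha) _ (hg b hb)
    have h8 : g⁻¹ * a * g * (g⁻¹ * b * g) = g⁻¹ * (a * b) * g := by group
    have h9 : g⁻¹ * b * g * (g⁻¹ * a * g) = g⁻¹ * (b * a) * g := by group
    rw [h8, h9] at h7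
    exact mul_left_cancel (mul_right_cancel h7)
  have hT2 := stab_index_coprime hl2 hR hDab hy hyD hly2
  obtain ⟨y', hy', hyR, hly'⟩ := exists_Y hl2 hR (le_cent_of_comm hRab) hT2
  have hly'2 : l y' ≠ 0 := by rw [← hll y' hy']; exact hly'
  obtain ⟨x', hx', hDx'⟩ := hcent D l hl y' hly'2
  obtain ⟨g', hg'⟩ := hyR x' hx' D hD hDx'
  -- orders
  have hfin : Finite G := inferInstance
  let f : R → D := fun r => ⟨g⁻¹ * r * g, hg r r.2⟩
  have hf : Function.Injective f := by
    intro a b hab
    have h1 := congrArg Subtype.val hab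
    exact Subtype.ext (mul_left_cancel (mul_right_cancel h1))
  let f' : D → R := fun r => ⟨g'⁻¹ * r * g', hg' r r.2⟩
  have hf' : Function.Injective f' := by
    intro a b hab
    have h1 := congrArg Subtype.val hab
    exact Subtype.ext (mul_left_cancel (mul_right_cancel h1))
  have hcard : Nat.card R = Nat.card D :=
    le_antisymm (Nat.card_le_card_of_injective f hf) (Nat.card_le_card_of_injective f' hf')
  have hbij : Function.Bijective f := (Nat.bijective_iff_injective_and_card f).2 ⟨hf, hcard⟩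
  refine ⟨g, fun x => ⟨fun hx => hg x hx, fun hx => ?_⟩⟩
  obtain ⟨r, hr⟩ := hbij.2 ⟨_, hx⟩
  have h1 : g⁻¹ * (r : G) * g = g⁻¹ * x * g := congrArg Subtype.val hr
  have h2 : (r : G) = x := mul_left_cancel (mul_right_cancel h1)
  exact h2 ▸ r.2

end FD

section WLdef

variable {p : ℕ} {k : Type*} [Field k] (red : AA →+* k) {G : Type} [Group G]

/-- the weight `w` lies in `l` -/
def WL (l : (G → k) → k) (w : P179H524.Weight p G) : Prop :=
  ∀ z : G → k, IsCF z →
    lam red (Weight.infl w) (fun n : normalizer (w.Q : Set G) => z n) = l z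

theorem wl_of_weightInBlock [Fact p.Prime] [CharP k p] [IsAlgClosed k] [Fintype G]
    {B : MonoidAlgebra k G} {l : (G → k) → k}
    (hlB : ∀ z : G → k, IsCF z → l z = centralChar B (mkF z))
    (w : P179H524.Weight p G) (hw : WeightInBlock red w B) : WL red l w := by
  intro z hz
  have h1 := (weightInBlock_iff_mu red w P179C.blockHomStmt P179C.homBlockStmt B).1 hw
    ⟨mkF z, mkF_mem hz⟩
  rw [muHom_apply] at h1
  simp only [coeff_mkF] at h1
  rw [hlB z hz, ← h1]

end WLdef

section A

variable {p : ℕ} [hp : Fact p.Prime] {k : Type*} [Field k] [CharP k p] [IsAlgClosed k]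
  (red : AA →+* k) {G : Type} [Group G] [Fintype G]

/-- **(K6, Theorem A)** -/
theorem conj_of_WL {D : Subgroup G} {l : (G → k) → k} (hl : BP p D l) (hD : IsPGroup p D)
    (hab : D ≤ centralizer (D : Set G))
    (hT : ¬ p ∣ (centralizer (D : Set G)).relIndex (stabT D l))
    (w : P179H524.Weight p G) (hw : WL red l w) :
    ∃ g : G, ∀ x, x ∈ w.Q ↔ g⁻¹ * x * g ∈ D := by
  have hDab := comm_of_le_cent hab
  obtain ⟨y, hy, hyD, hly⟩ := exists_Y hl hD hab hT
  set N := normalizer (w.Q : Set G) with hN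
  have hQN : w.Q ≤ N := le_normalizer
  set Q' : Subgroup N := w.Q.subgroupOf N with hQ'
  have hQ'p : IsPGroup p Q' := w.isPGroup.comap_subtype
  let χ : Irr N := ⟨Weight.infl w, isIrrChar_infl w⟩
  have hχ : χ.1 = fun n : N => w.φ (QuotientGroup.mk' Q' n) := rfl
  have hwt : WtChar p Q' χ.1 := wtChar_infl red Q' w.defectZero
  set M : Subgroup N := centralizer (Q' : Set N) with hM
  have hMn : M.Normal := by
    have : Q'.Normal := inferInstance
    infer_instance
  have hyN : IsCF (fun n : N => y n) := fun g x => hy g x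
  have hlamy : lam red χ.1 (fun n : N => y n) ≠ 0 := by
    have := hw y hy
    change lam red χ.1 (fun n : N => y n) = l y at this
    rw [this]; exact hly
  -- `Q` is abelian
  have hQab : ∀ a ∈ w.Q, ∀ b ∈ w.Q, a * b = b * a := by
    obtain ⟨x, hxM, hx⟩ : ∃ x ∈ M, y (x : G) ≠ 0 := by
      by_contra hcon
      push Not at hcon
      apply hlamy
      exact lam_infl_cut red Q' hQ'p w.defectZero.1 hyN hcon
    refine hyD.comm hDab x hx w.Q w.isPGroup ?_
    intro q hq
    rw [mem_centralizer_singleton_iff]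
    have h1 := mem_centralizer_iff.1 hxM ⟨q, hQN hq⟩ (mem_subgroupOf.2 hq)
    exact congrArg Subtype.val h1
  have hQ'M : ∀ q ∈ Q', q ∈ M := by
    intro q hq
    rw [hM, mem_centralizer_iff]
    intro q' hq'
    exact Subtype.ext (hQab _ (mem_subgroupOf.1 hq') _ (mem_subgroupOf.1 hq))
  -- the character of `M`
  obtain ⟨θ, hθ⟩ := lam_restr red M hMn χ
  obtain ⟨R, l', hR, hl', hμl', hcen⟩ := exists_BP (p := p) (isHomCF_lam red θ)
  set R2 : Subgroup N := R.map M.subtype with hR2
  have hRR : R2.subgroupOf M = R := comap_map_eq_self_of_injective M.subtype_injective R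
  have hR2M : R2 ≤ M := by
    rintro _ ⟨x, -, rfl⟩
    exact x.2
  have hR2p : IsPGroup p R2 := hR.map _
  have hQ'R2 : Q' ≤ R2 := by
    intro q hq
    refine ⟨⟨q, hQ'M q hq⟩, hcen _ ?_ ?_, rfl⟩
    · rw [Subgroup.mem_center_iff]
      intro m
      exact Subtype.ext (mem_centralizer_iff.1 m.2 q hq).symm
    · obtain ⟨n, hn⟩ := hQ'p ⟨q, hq⟩
      have hn' : q ^ p ^ n = 1 := congrArg Subtype.val hn
      exact ⟨n, Subtype.ext hn'⟩
  have hCM : centralizer (R2 : Set N) ≤ M := by
    intro x hx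
    rw [hM, mem_centralizer_iff]
    intro q hq
    exact mem_centralizer_iff.1 hx q (hQ'R2 hq)
  have hl2 : BP p R2 (fun a : N → k => l' (fun m : M => a m)) :=
    BP.extend hR2M hCM (by rw [hRR]; exact hl')
  have h2 : ∀ z : N → k, IsCF z → l' (fun m : M => z m) = lam red χ.1 z := by
    intro z hz
    have hcf : IsCF (fun m : M => z m) := fun g x => hz g x
    rw [hμl' _ hcf]
    have hz' : IsCF (fun n : N => if n ∈ M then z n else 0) := by
      intro g x
      have : g * x * g⁻¹ ∈ M ↔ x ∈ M := by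
        constructor
        · intro h
          have := hMn.conj_mem _ h g⁻¹
          have e : g⁻¹ * (g * x * g⁻¹) * g⁻¹⁻¹ = x := by group
          rwa [e] at this
        · intro h; exact hMn.conj_mem _ h g
      simp only [this, hz g x]
    have e1 : (fun m : M => z m) = fun m : M => (fun n : N => if n ∈ M then z n else 0) m := by
      funext m
      beta_reduce
      rw [if_pos m.2]
    rw [e1, hθ _ hz' (fun x hx => if_neg hx)]
    exact lam_infl_congr red Q' hQ'p w.defectZero.1 hz' hz (fun x hx => if_pos hx)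
  -- the subgroup of `G`
  set R3 : Subgroup G := R2.map N.subtype with hR3
  have hR3R : R3.subgroupOf N = R2 := comap_map_eq_self_of_injective N.subtype_injective R2
  have hR3N : R3 ≤ N := by
    rintro _ ⟨x, -, rfl⟩
    exact x.2
  have hR3p : IsPGroup p R3 := hR2p.map _
  have hQR3 : w.Q ≤ R3 := fun q hq => ⟨⟨q, hQN hq⟩, hQ'R2 (mem_subgroupOf.2 hq), rfl⟩
  have hCN : centralizer (R3 : Set G) ≤ N := by
    intro x hx
    have h1 : x ∈ centralizer (w.Q : Set G) := by
      rw [mem_centralizer_iff]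
      intro q hq
      exact mem_centralizer_iff.1 hx q (hQR3 hq)
    exact cent_le_norm _ h1
  have hl3 : BP p R3 (fun a : G → k => (fun a : N → k => l' (fun m : M => a m)) (fun n : N => a n)) :=
    BP.extend hR3N hCN (by rw [hR3R]; exact hl2)
  have h3 : ∀ z : G → k, IsCF z →
      (fun a : G → k => (fun a : N → k => l' (fun m : M => a m)) (fun n : N => a n)) z = l z := by
    intro z hz
    have hcf : IsCF (fun n : N => z n) := fun g x => hz g x
    have e1 := h2 _ hcf
    beta_reduce
    rw [e1]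
    exact hw z hz
  obtain ⟨g, hg⟩ := FD' hl hD hab hT hl3 hR3p h3
  have hR2ab : ∀ a ∈ R2, ∀ b ∈ R2, a * b = b * a := by
    intro a ha b hb
    have h1 : (a : G) ∈ R3 := ⟨a, ha, rfl⟩
    have h2 : (b : G) ∈ R3 := ⟨b, hb, rfl⟩
    have h7 := hDab _ ((hg _).1 h1) _ ((hg _).1 h2)
    have h8 : g⁻¹ * (a : G) * g * (g⁻¹ * b * g) = g⁻¹ * ((a : G) * b) * g := by group
    have h9 : g⁻¹ * (b : G) * g * (g⁻¹ * a * g) = g⁻¹ * ((b : G) * a) * g := by group
    rw [h8, h9] at h7
    exact Subtype.ext (mul_left_cancel (mul_right_cancel h7))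
  have hT2 : ¬ p ∣ (centralizer (R2 : Set N)).relIndex
      (stabT R2 (fun a : N → k => l' (fun m : M => a m))) := by
    refine stab_index_coprime' hl2 hR2p (y := fun n : N => y n) hyN ?_ ?_
    · intro x hx P hP hPx a ha b hb
      have h1 := hyD.comm hDab x hx (P.map N.subtype) (hP.map _) (by
        rintro _ ⟨z, hz, rfl⟩
        have := hPx hz
        rw [mem_centralizer_singleton_iff] at this ⊢
        exact congrArg Subtype.val this) a ⟨a, ha, rfl⟩ b ⟨b, hb, rfl⟩
      exact Subtype.ext h1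
    · have e1 := h2 _ hyN
      beta_reduce
      rw [e1]
      exact hlamy
  have hle : R2 ≤ Q' := le_of_wtChar red (by rw [hQ']; infer_instance) χ hwt hl2 hR2p
    (le_cent_of_comm hR2ab) hT2 h2
  refine ⟨g, fun x => ?_⟩
  rw [← hg x]
  constructor
  · intro hx
    exact hQR3 hx
  · rintro ⟨r, hr, rfl⟩
    exact mem_subgroupOf.1 (hle hr)

end A

end P179Y
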