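import Vale.Agent.P179.H166.K6e

/-!
# (K6) the central characters of the weights `(D, φ)` of a block
-/

namespace P179Y

open P179H524 P179C P179A Finset P179P Subgroup

open P179X (pp)

open scoped Classical

section B

variable {p : ℕ} [hp : Fact p.Prime] {k : Type*} [Field k] [CharP k p] {G : Type*} [Group G]
  [Fintype G] {D : Subgroup G}

omit hp [CharP k p] [Fintype G] in
/-- functions on `N_G(D)` supported on `C_G(D)` -/
theorem invOn_ext_norm {z : normalizer (D : Set G) → k} (hz : IsCF z)
    (hzC : ∀ n : normalizer (D : Set G), (n : G) ∉ centralizer (D : Set G) → z n = 0) :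
    InvOn (centralizer (D : Set G)) (ext (normalizer (D : Set G)) z) ∧
      ∀ n ∈ normalizer (D : Set G), cj n (ext (normalizer (D : Set G)) z) =
        ext (normalizer (D : Set G)) z := by
  have key : ∀ n ∈ normalizer (D : Set G), ∀ x,
      ext (normalizer (D : Set G)) z (n * x * n⁻¹) = ext (normalizer (D : Set G)) z x := by
    intro n hn x
    by_cases hx : x ∈ normalizer (D : Set G)
    · rw [ext_of_mem _ z hx, ext_of_mem _ z (mul_mem (mul_mem hn hx) (inv_mem hn))]
      exact hz ⟨n, hn⟩ ⟨x, hx⟩
    · rw [ext_of_not_mem _ z hx, ext_of_not_mem _ z]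
      intro h
      apply hx
      have := mul_mem (mul_mem (inv_mem hn) h) hn
      have e1 : n⁻¹ * (n * x * n⁻¹) * n = x := by group
      rwa [e1] at this
  refine ⟨⟨fun c hc x => key c (cent_le_norm D hc) x, fun x hx => ?_⟩, fun n hn => ?_⟩
  · by_cases hxN : x ∈ normalizer (D : Set G)
    · rw [ext_of_mem _ z hxN]
      exact hzC _ hx
    · exact ext_of_not_mem _ z hxN
  · exact cj_eq_of_inv (key n hn)

/-- the relative trace of a product with an `N_G(D)`-invariant function -/
theorem trG_conv_inv (hD : IsPGroup p D) (hab : D ≤ centralizer (D : Set G)) {t w : G → k}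
    (ht : InvOn (centralizer (D : Set G)) t) (htD : DSupp p D t)
    (hw : InvOn (centralizer (D : Set G)) w) (hwN : ∀ n ∈ normalizer (D : Set G), cj n w = w)
    {x : G} (hx : x ∈ centralizer (D : Set G)) :
    trG (centralizer (D : Set G)) (conv t w) x =
      conv (cutC D (trG (centralizer (D : Set G)) t)) w x := by
  rw [trG_cent hD hab (ht.conv _ hw) (htD.conv p ht hw) hx]
  have h1 : ∀ c : G ⧸ centralizer (D : Set G),
      (if c.out ∈ normalizer (D : Set G) then cj c.out (conv t w) x else 0) =
      ∑ h, (if c.out ∈ normalizer (D : Set G) then cj c.out t h else 0) * w (h⁻¹ * x) := by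
    intro c
    split_ifs with hc
    · rw [cj_conv, hwN _ hc]
      rfl
    · simp
  rw [Finset.sum_congr rfl fun c _ => h1 c, Finset.sum_comm]
  unfold conv
  refine Finset.sum_congr rfl fun h _ => ?_
  rw [← Finset.sum_mul]
  congr 1
  unfold cutC
  by_cases hh : h ∈ centralizer (D : Set G)
  · rw [if_pos hh, trG_cent hD hab ht htD hh]
  · rw [if_neg hh]
    refine Finset.sum_eq_zero fun c _ => ?_
    split_ifs with hc
    · exact (ht.cj hc).2 h hh
    · rfl

end B

section B2

variable {p : ℕ} [hp : Fact p.Prime] {k : Type*} [Field k] [CharP k p]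
  (red : AA →+* k) {G : Type} [Group G] [Fintype G]

omit [CharP k p] hp [Fintype G] in
/-- the values of `lam` of an inflated character only depend on the restriction to `C_G(D)` -/
theorem lam_wt_congr [Finite G] [CharP k p] [Fact p.Prime] (w : P179H524.Weight p G)
    {z z' : normalizer (w.Q : Set G) → k} (hz : IsCF z) (hz' : IsCF z')
    (h0 : ∀ n : normalizer (w.Q : Set G), (n : G) ∈ centralizer (w.Q : Set G) → z n = z' n) :
    lam red (Weight.infl w) z = lam red (Weight.infl w) z' := by
  have := Fintype.ofFinite (normalizer (w.Q : Set G))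
  refine lam_infl_congr red (w.Q.subgroupOf (normalizer (w.Q : Set G))) w.isPGroup.comap_subtype
    w.defectZero.1 hz hz' fun x hx => h0 x ?_
  rw [mem_centralizer_iff] at hx ⊢
  intro q hq
  exact congrArg Subtype.val (hx ⟨q, le_normalizer hq⟩ (mem_subgroupOf.2 hq))

/-- **(K6, Theorem B)** -/
theorem lam_of_WL {D : Subgroup G} {l : (G → k) → k} (hl : BP p D l) (hD : IsPGroup p D)
    (hab : D ≤ centralizer (D : Set G))
    (hT : ¬ p ∣ (centralizer (D : Set G)).relIndex (stabT D l))
    (φ : NQ D → ℂ) (hφ : IsDefectZeroChar p φ)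
    (hw : WL red l (⟨D, hD, φ, hφ⟩ : P179H524.Weight p G))
    (z : normalizer (D : Set G) → k) (hz : IsCF z)
    (hzC : ∀ n : normalizer (D : Set G), (n : G) ∉ centralizer (D : Set G) → z n = 0) :
    lam red (Weight.infl (⟨D, hD, φ, hφ⟩ : P179H524.Weight p G)) z =
      l (ext (normalizer (D : Set G)) z) := by
  obtain ⟨t, ht, hlt, htD, -, hcf, -, -, hne⟩ := exists_Y' hl hD hab hT ∅
  obtain ⟨hw1, hw2⟩ := invOn_ext_norm hz hzC
  set C := centralizer (D : Set G) with hC
  set W : P179H524.Weight p G := ⟨D, hD, φ, hφ⟩ with hW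
  set w := ext (normalizer (D : Set G)) z with hwdef
  have hv : InvOn C (conv t w) := ht.conv _ hw1
  have hvcf : IsCF (trG C (conv t w)) := isCF_trG C hv.1
  -- the value at `l`
  have hs : InvOn C (cutC D (trG C t)) := invOn_cutC D fun d _ x => hcf d x
  have h1 : l (trG C (conv t w)) = l (trG C t) * l w := by
    have e1 : l (trG C (conv t w)) = l (conv (cutC D (trG C t)) w) :=
      hl.congr fun x hx => trG_conv_inv hD hab ht htD hw1 hw2 hx
    rw [e1, hl.mul _ _ hs hw1, hl.cut]
  -- the value at the character
  have hsN : IsCF (fun n : normalizer (D : Set G) => cutC D (trG C t) n) := by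
    intro g x
    have h2 := conj_mem_cent (D := D) g.2 (x : G)
    have h3 : ((g * x * g⁻¹ : normalizer (D : Set G)) : G) ∈ C ↔ (x : G) ∈ C := h2
    change (if ((g * x * g⁻¹ : normalizer (D : Set G)) : G) ∈ C then
      trG C t ((g * x * g⁻¹ : normalizer (D : Set G)) : G) else 0) =
      if (x : G) ∈ C then trG C t x else 0
    by_cases hx : (x : G) ∈ C
    · rw [if_pos hx, if_pos (h3.2 hx)]
      exact hcf g x
    · rw [if_neg hx, if_neg (fun h => hx (h3.1 h))]
  have h4 : (fun n : normalizer (D : Set G) => conv (cutC D (trG C t)) w n) =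
      conv (fun n : normalizer (D : Set G) => cutC D (trG C t) n) z := by
    have e1 := ext_conv (normalizer (D : Set G))
      (fun n : normalizer (D : Set G) => cutC D (trG C t) n) z
    rw [ext_restr (a := cutC D (trG C t)) (fun x hx => if_neg fun h => hx (cent_le_norm D h))] at e1
    funext n
    rw [← e1, ext_coe]
  have h5 : lam red (Weight.infl W) (fun n : normalizer (D : Set G) => trG C (conv t w) n) =
      lam red (Weight.infl W) (conv (fun n : normalizer (D : Set G) => cutC D (trG C t) n) z) := by
    rw [← h4]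
    refine lam_wt_congr red W (fun g x => hvcf g x) ?_ ?_
    · rw [h4]
      exact isCF_conv hsN hz
    · intro n hn
      exact trG_conv_inv hD hab ht htD hw1 hw2 hn
  have h6 : lam red (Weight.infl W) (conv (fun n : normalizer (D : Set G) => cutC D (trG C t) n) z) =
      lam red (Weight.infl W) (fun n : normalizer (D : Set G) => cutC D (trG C t) n) *
        lam red (Weight.infl W) z := lam_conv red (isIrrChar_infl W) hsN hz
  have h7 : lam red (Weight.infl W) (fun n : normalizer (D : Set G) => cutC D (trG C t) n) =
      lam red (Weight.infl W) (fun n : normalizer (D : Set G) => trG C t n) := by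
    refine lam_wt_congr red W hsN (fun g x => hcf g x) ?_
    intro n hn
    exact if_pos hn
  have h8 : lam red (Weight.infl W) (fun n : normalizer (D : Set G) => trG C t n) =
      l (trG C t) := hw _ hcf
  have h9 : lam red (Weight.infl W) (fun n : normalizer (D : Set G) => trG C (conv t w) n) =
      l (trG C (conv t w)) := hw _ hvcf
  rw [h5, h6, h7, h8, h1] at h9
  exact mul_left_cancel₀ hne h9

end B2

end P179Y
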