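import Vale.Agent.P179.H166.K6f
import Vale.Agent.P179.H905.N6c

/-!
# (K6) the number of weights of a block with abelian defect group
-/

namespace P179Y

open P179H524 P179C P179A Finset P179P Subgroup

open P179X (pp autOrd)

open scoped Classical

section

variable {p : ℕ} [hp : Fact p.Prime] {k : Type*} [Field k] [CharP k p]
  (red : AA →+* k) {G : Type} [Group G] [Fintype G]

omit hp [CharP k p] in
theorem lam_infl_eq_sum [Fintype (ConjClasses G)] (w : P179H524.Weight p G) {z : G → k}
    (hz : IsCF z) : lam red (Weight.infl w) (fun n : normalizer (w.Q : Set G) => z n) =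
      ∑ C : ConjClasses G, z C.out * redC red (wOm w (ind C)) := by
  have h5 : (fun n : normalizer (w.Q : Set G) => z (n : G)) =
      ∑ C : ConjClasses G, z C.out •
        (fun n : normalizer (w.Q : Set G) => ((res (normalizer (w.Q : Set G)) (ind C) n : ℤ) : k)) := by
    ext n
    rw [cf_eq_sum hz (n : G)]
    simp only [Finset.sum_apply, Pi.smul_apply, smul_eq_mul]
    rfl
  rw [h5, P179C.lam_sum]
  refine Finset.sum_congr rfl fun C _ => ?_
  rw [lam_smul, lam_int red (isIrrChar_infl w) (isCF_res _ (isCF_ind C)), wOm_eq]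

omit hp [CharP k p] in
theorem WL.conj {l : (G → k) → k} {a b : P179H524.Weight p G} (h : WL red l a) (hab : a.Conj b) :
    WL red l b := by
  have := Fintype.ofFinite (ConjClasses G)
  intro z hz
  rw [← h z hz, lam_infl_eq_sum red a hz, lam_infl_eq_sum red b hz]
  refine Finset.sum_congr rfl fun C _ => ?_
  rw [wOm_conj hab (isCF_ind C)]

/-- weights of a block are conjugate to weights `(D, φ)` -/
theorem exists_conj_WL [IsAlgClosed k] {D : Subgroup G} {l : (G → k) → k} (hl : BP p D l)
    (hD : IsPGroup p D) (hab : D ≤ centralizer (D : Set G))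
    (hT : ¬ p ∣ (centralizer (D : Set G)).relIndex (stabT D l))
    (w : P179H524.Weight p G) (hw : WL red l w) :
    ∃ (φ : NQ D → ℂ) (hφ : IsDefectZeroChar p φ),
      w.Conj (⟨D, hD, φ, hφ⟩ : P179H524.Weight p G) ∧
      WL red l (⟨D, hD, φ, hφ⟩ : P179H524.Weight p G) := by
  obtain ⟨g, hg⟩ := conj_of_WL red hl hD hab hT w hw
  have h1 : w.Conj (w.conj g⁻¹) := (Weight.conj_iff _ _).2 ⟨g⁻¹, (Weight.pr_conj g⁻¹ w).symm⟩
  have h2 : WL red l (w.conj g⁻¹) := hw.conj red h1
  have h3 : (w.conj g⁻¹).Q = D := by
    change w.Q.map (MulAut.conj g⁻¹).toMonoidHom = D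
    ext x
    constructor
    · rintro ⟨y, hy, rfl⟩
      have := (hg y).1 hy
      simpa using this
    · intro hx
      refine ⟨g * x * g⁻¹, (hg _).2 ?_, ?_⟩
      · have : g⁻¹ * (g * x * g⁻¹) * g = x := by group
        rwa [this]
      · simp [mul_assoc]
  generalize w.conj g⁻¹ = w' at h1 h2 h3
  obtain ⟨Q, hQp, φ, hφ⟩ := w'
  dsimp only at h3
  subst h3
  exact ⟨φ, hφ, h1, h2⟩

/-- the characters of the weights `(D, φ)` in `l`, inflated to `N_G(D)` -/
structure WIrr (D : Subgroup G) (l : (G → k) → k) (χ : Irr (normalizer (D : Set G))) : Prop where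
  wt : WtChar p (D.subgroupOf (normalizer (D : Set G))) χ.1
  lam : ∀ z : normalizer (D : Set G) → k, IsCF z →
    lam red χ.1 z = l (cutC D (ext (normalizer (D : Set G)) z))

/-- **(K6)**, given the bound for the number of characters of `N_G(D)` -/
theorem numWeights_le [IsAlgClosed k] {B : MonoidAlgebra k G} {D : Subgroup G}
    {l : (G → k) → k} (hl : BP p D l) (hD : IsPGroup p D) (hab : D ≤ centralizer (D : Set G))
    (hT : ¬ p ∣ (centralizer (D : Set G)).relIndex (stabT D l))
    (hlB : ∀ z : G → k, IsCF z → l z = centralChar B (mkF z)) {b : ℕ}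
    (hb : ∀ S : Finset (Irr (normalizer (D : Set G))), (∀ χ ∈ S, WIrr (p := p) red D l χ) →
      S.card ≤ b) : numWeightsIn p red B ≤ b := by
  have key : ∀ w : {w : P179H524.Weight p G // WeightInBlock red w B},
      ∃ (φ : NQ D → ℂ) (hφ : IsDefectZeroChar p φ),
        w.1.Conj (⟨D, hD, φ, hφ⟩ : P179H524.Weight p G) ∧
        WL red l (⟨D, hD, φ, hφ⟩ : P179H524.Weight p G) :=
    fun w => exists_conj_WL red hl hD hab hT w.1 (wl_of_weightInBlock red hlB w.1 w.2)
  choose Φ hΦ hconj hWL using key
  let r : {w : P179H524.Weight p G // WeightInBlock red w B} →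
      {w : P179H524.Weight p G // WeightInBlock red w B} → Prop := fun a b => Weight.Conj a.1 b.1
  have hout : ∀ q : Quot r, Quot.mk r q.out = q := fun q => Quot.out_eq q
  let F : Quot r → {χ : Irr (normalizer (D : Set G)) // WIrr (p := p) red D l χ} := fun q =>
    ⟨⟨Weight.infl (⟨D, hD, Φ q.out, hΦ q.out⟩ : P179H524.Weight p G), isIrrChar_infl _⟩, {
      wt := wtChar_infl red _ (hΦ q.out)
      lam := by
        intro z hz
        have h1 := lam_of_WL red hl hD hab hT (Φ q.out) (hΦ q.out) (hWL q.out)
          (fun n : normalizer (D : Set G) => if (n : G) ∈ centralizer (D : Set G) then z n else 0)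
          (by
            intro g x
            have h2 := conj_mem_cent (D := D) g.2 (x : G)
            have h3 : ((g * x * g⁻¹ : normalizer (D : Set G)) : G) ∈ centralizer (D : Set G) ↔
              (x : G) ∈ centralizer (D : Set G) := h2
            simp only [h3, hz g x])
          (fun n hn => if_neg hn)
        have h2 : ext (normalizer (D : Set G)) (fun n : normalizer (D : Set G) =>
            if (n : G) ∈ centralizer (D : Set G) then z n else 0) =
            cutC D (ext (normalizer (D : Set G)) z) := by
          funext x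
          unfold cutC
          by_cases hx : x ∈ centralizer (D : Set G)
          · rw [if_pos hx, ext_of_mem _ _ (cent_le_norm D hx),
              ext_of_mem _ _ (cent_le_norm D hx)]
            exact if_pos hx
          · rw [if_neg hx]
            by_cases hxN : x ∈ normalizer (D : Set G)
            · rw [ext_of_mem _ _ hxN]
              exact if_neg hx
            · exact ext_of_not_mem _ _ hxN
        rw [h2] at h1
        rw [← h1]
        refine lam_wt_congr red (⟨D, hD, Φ q.out, hΦ q.out⟩ : P179H524.Weight p G) hz ?_ ?_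
        · intro g x
          have h2 := conj_mem_cent (D := D) g.2 (x : G)
          have h3 : ((g * x * g⁻¹ : normalizer (D : Set G)) : G) ∈ centralizer (D : Set G) ↔
            (x : G) ∈ centralizer (D : Set G) := h2
          simp only [h3]
          by_cases hx : (x : G) ∈ centralizer (D : Set G)
          · rw [if_pos hx, if_pos hx]
            exact hz g x
          · rw [if_neg hx, if_neg hx]
        · intro n hn
          exact (if_pos hn).symm }⟩
  have hF : Function.Injective F := by
    intro q q' hqq
    have h1 : Weight.infl (⟨D, hD, Φ q.out, hΦ q.out⟩ : P179H524.Weight p G) =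
        Weight.infl (⟨D, hD, Φ q'.out, hΦ q'.out⟩ : P179H524.Weight p G) :=
      congrArg Subtype.val (congrArg Subtype.val hqq)
    have h2 : Φ q.out = Φ q'.out := by
      funext x
      obtain ⟨n, rfl⟩ := QuotientGroup.mk_surjective x
      exact congrFun h1 n
    have h3 : (⟨D, hD, Φ q.out, hΦ q.out⟩ : P179H524.Weight p G) =
        ⟨D, hD, Φ q'.out, hΦ q'.out⟩ := by
      congr 1
    have h4 := hconj q.out
    have h5 := hconj q'.out
    rw [h3] at h4
    have h6 : q.out.1.Conj q'.out.1 :=
      (conj_equivalence p G).trans h4 ((conj_equivalence p G).symm h5)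
    rw [← hout q, ← hout q']
    exact Quot.sound h6
  refine (Nat.card_le_card_of_injective F hF).trans ?_
  rw [Nat.card_eq_fintype_card, Fintype.card_subtype]
  exact hb _ fun χ hχ => (mem_filter.1 hχ).2

/-- **(K6)** -/
theorem K6 [IsAlgClosed k] {B : MonoidAlgebra k G} {D : Subgroup G}
    {l : (G → k) → k} (hl : BP p D l) (hD : IsPGroup p D) (hab : D ≤ centralizer (D : Set G))
    (hlB : ∀ z : G → k, IsCF z → l z = centralChar B (mkF z)) (he : autOrd D < p) :
    numWeightsIn p red B ≤ autOrd D := by
  have hpos : autOrd D ≠ 0 := by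
    have h1 : Nat.card (normalizer (D : Set G) ⧸
        (centralizer (D : Set G)).subgroupOf (normalizer (D : Set G))) = autOrd D := rfl
    rw [← h1]
    exact Nat.card_pos.ne'
  have hT : ¬ p ∣ (centralizer (D : Set G)).relIndex (stabT D l) := by
    intro h
    have h1 : p ∣ autOrd D := h.trans (relIndex_stabT_dvd D l)
    exact absurd (Nat.le_of_dvd (Nat.pos_of_ne_zero hpos) h1) (not_le.2 he)
  refine numWeights_le red hl hD hab hT hlB fun S hS => ?_
  set C' := (centralizer (D : Set G)).subgroupOf (normalizer (D : Set G)) with hC'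
  have hidx : C'.index = autOrd D := rfl
  rw [← hidx]
  refine card_wt_le red (D := D.subgroupOf (normalizer (D : Set G))) (C := C') ?_ ?_ ?_
    hD.comap_subtype (by rw [hidx]; exact he) S (fun χ hχ => (hS χ hχ).wt) ?_
  · intro x hx
    exact mem_subgroupOf.2 (hab (mem_subgroupOf.1 hx))
  · refine ⟨fun c hc x => ?_⟩
    rw [hC', mem_subgroupOf] at hc ⊢
    exact (conj_mem_cent x.2 (c : G)).2 hc
  · intro d hd c hc
    exact Subtype.ext (mem_centralizer_iff.1 (mem_subgroupOf.1 hc) _ (mem_subgroupOf.1 hd))
  · intro χ hχ ψ hψ z hz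
    rw [(hS χ hχ).lam z hz, (hS ψ hψ).lam z hz]

end

end P179Y
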