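import Vale.Agent.P179.H166.K6g
import Vale.Agent.P179.H526.N1

/-!
# (K6+) constituents of an induced character of a normal subgroup
-/

namespace P179Y

open P179H524 P179C P179A Finset P179P Subgroup

open P179X (pp autOrd)

open scoped Classical

section Conj

variable {N : Type*} [Group N]

/-- the conjugate `x ↦ θ(c⁻¹ x c)` of a character of a normal subgroup -/
noncomputable def cjI (C : Subgroup N) [C.Normal] (c : N) (θ : Irr C) : Irr C :=
  ⟨fun x => θ.1 (MulAut.conjNormal c⁻¹ x),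
    θ.2.comp (MulAut.conjNormal c⁻¹ : C ≃* C).toMonoidHom (MulAut.conjNormal c⁻¹ : C ≃* C).surjective⟩

theorem cjI_apply (C : Subgroup N) [C.Normal] (c : N) (θ : Irr C) (x : C) :
    (cjI C c θ).1 x = θ.1 (MulAut.conjNormal c⁻¹ x) := rfl

theorem cjI_mul (C : Subgroup N) [C.Normal] (c d : N) (θ : Irr C) :
    cjI C (c * d) θ = cjI C c (cjI C d θ) := by
  apply Subtype.ext
  funext x
  rw [cjI_apply, cjI_apply, cjI_apply, mul_inv_rev, map_mul]
  rfl

theorem cjI_one (C : Subgroup N) [C.Normal] (θ : Irr C) : cjI C 1 θ = θ := by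
  apply Subtype.ext
  funext x
  rw [cjI_apply, inv_one, map_one]
  rfl

theorem cjI_inj (C : Subgroup N) [C.Normal] (c : N) {θ θ' : Irr C}
    (h : cjI C c θ = cjI C c θ') : θ = θ' := by
  have := congrArg (cjI C c⁻¹) h
  rwa [← cjI_mul, ← cjI_mul, inv_mul_cancel, cjI_one, cjI_one] at this

end Conj

section Count

variable {N : Type*} [Group N] [Fintype N]

/-- the pairing of `θ` with the restriction of `χ` -/
noncomputable def pairC (C : Subgroup N) (θ : Irr C) (χ : Irr N) : ℂ :=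
  ∑ x : C, θ.1 x * χ.1 (x : N)⁻¹

theorem pairC_eq (C : Subgroup N) (θ : Irr C) (χ : Irr N) :
    ∃ n : ℕ, pairC C θ χ = n * Nat.card C ∧
      ∀ m : Irr C → ℕ, (∀ h : C, χ.1 h = ∑ ψ : Irr C, (m ψ : ℂ) * ψ.1 h) → n = m θ := by
  obtain ⟨n, hn⟩ := restr_decomp χ C
  have key : ∀ m : Irr C → ℕ, (∀ h : C, χ.1 h = ∑ ψ : Irr C, (m ψ : ℂ) * ψ.1 h) →
      pairC C θ χ = m θ * Nat.card C := by
    intro m hm
    unfold pairC
    have h1 : ∀ x : C, θ.1 x * χ.1 (x : N)⁻¹ = ∑ ψ : Irr C, (m ψ : ℂ) * (θ.1 x * ψ.1 x⁻¹) := by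
      intro x
      have h2 : ((x : N))⁻¹ = ((x⁻¹ : C) : N) := rfl
      rw [h2, hm, Finset.mul_sum]
      exact Finset.sum_congr rfl fun ψ _ => by ring
    rw [Finset.sum_congr rfl fun x _ => h1 x, Finset.sum_comm]
    simp only [← Finset.mul_sum]
    rw [Finset.sum_eq_single θ]
    · rw [row_orth, if_pos rfl, Nat.card_eq_fintype_card]
    · intro ψ _ hne
      rw [row_orth, if_neg (Ne.symm hne), mul_zero]
    · intro h; exact absurd (mem_univ _) h
  refine ⟨n θ, key n hn, fun m hm => ?_⟩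
  have h1 := (key n hn).symm.trans (key m hm)
  have h2 : (Nat.card C : ℂ) ≠ 0 := by exact_mod_cast Nat.card_pos.ne'
  exact_mod_cast mul_right_cancel₀ h2 h1

theorem pairC_cjI (C : Subgroup N) [C.Normal] (θ : Irr C) (χ : Irr N) (c : N) :
    pairC C (cjI C c θ) χ = pairC C θ χ := by
  unfold pairC
  refine Fintype.sum_equiv (MulAut.conjNormal c⁻¹ : C ≃* C).toEquiv _ _ fun x => ?_
  rw [cjI_apply]
  congr 1
  have h1 : (((MulAut.conjNormal c⁻¹ : C ≃* C).toEquiv x : C) : N)⁻¹ = c⁻¹ * (x : N)⁻¹ * c⁻¹⁻¹ := by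
    change ((MulAut.conjNormal c⁻¹ x : C) : N)⁻¹ = _
    rw [MulAut.conjNormal_apply]
    group
  rw [h1, χ.conj]

/-- the sum of all the conjugates of `θ`, extended by zero -/
noncomputable def indF (C : Subgroup N) (θ : Irr C) : N → ℂ := fun g =>
  ∑ c : N, ext C θ.1 (c⁻¹ * g * c)

theorem isCF_indF (C : Subgroup N) (θ : Irr C) : IsCF (indF C θ) := by
  intro g x
  unfold indF
  refine Fintype.sum_equiv (Equiv.mulLeft g⁻¹) _ _ fun c => ?_
  congr 1
  change _ = (g⁻¹ * c)⁻¹ * x * (g⁻¹ * c)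
  group

theorem sum_ext {C : Subgroup N} (f : C → ℂ) (F : N → ℂ) :
    ∑ g : N, ext C f g * F g = ∑ x : C, f x * F x := by
  rw [← Finset.sum_subset (Finset.subset_univ (univ.filter fun x : N => x ∈ C))]
  · rw [Finset.sum_subtype (p := fun x => x ∈ C) (univ.filter fun x : N => x ∈ C)
      (fun x => by simp)]
    exact Finset.sum_congr rfl fun x _ => by rw [ext_coe]
  · intro x _ hx
    rw [ext_of_not_mem C _ (by simpa using hx), zero_mul]

theorem indF_pair (C : Subgroup N) (θ : Irr C) (χ : Irr N) :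
    ∑ g : N, indF C θ g * χ.1 g⁻¹ = Nat.card N * pairC C θ χ := by
  unfold indF
  simp only [Finset.sum_mul]
  rw [Finset.sum_comm]
  have h1 : ∀ c : N, ∑ g : N, ext C θ.1 (c⁻¹ * g * c) * χ.1 g⁻¹ = pairC C θ χ := by
    intro c
    have h2 : ∑ g : N, ext C θ.1 (c⁻¹ * g * c) * χ.1 g⁻¹ = ∑ g : N, ext C θ.1 g * χ.1 g⁻¹ := by
      refine Fintype.sum_equiv (MulAut.conj c⁻¹).toEquiv _ _ fun g => ?_
      have e1 : (MulAut.conj c⁻¹).toEquiv g = c⁻¹ * g * c := by
        change c⁻¹ * g * c⁻¹⁻¹ = _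
        rw [inv_inv]
      rw [e1]
      congr 1
      have e2 : (c⁻¹ * g * c)⁻¹ = c⁻¹ * g⁻¹ * c⁻¹⁻¹ := by group
      rw [e2, χ.conj]
    rw [h2, sum_ext θ.1 (fun g => χ.1 g⁻¹)]
    rfl
  rw [Finset.sum_congr rfl fun c _ => h1 c, Finset.sum_const, Finset.card_univ, nsmul_eq_mul,
    Nat.card_eq_fintype_card]

theorem ext_conj (C : Subgroup N) [C.Normal] (θ : Irr C) (c g : N) :
    ext C θ.1 (c⁻¹ * g * c) = ext C (cjI C c θ).1 g := by
  by_cases hg : g ∈ C
  · have h1 : c⁻¹ * g * c ∈ C := by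
      have := (inferInstance : C.Normal).conj_mem g hg c⁻¹
      rwa [inv_inv] at this
    rw [ext_of_mem C _ hg, ext_of_mem C _ h1, cjI_apply]
    refine congrArg θ.1 (Subtype.ext ?_)
    rw [MulAut.conjNormal_apply, inv_inv]
  · rw [ext_of_not_mem C _ hg, ext_of_not_mem C]
    intro h
    apply hg
    have := (inferInstance : C.Normal).conj_mem _ h c
    have e1 : c * (c⁻¹ * g * c) * c⁻¹ = g := by group
    rwa [e1] at this

theorem indF_norm (C : Subgroup N) [C.Normal] (θ : Irr C) :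
    ∑ g : N, ‖indF C θ g‖ ^ 2 =
      Nat.card N * Nat.card {c : N // cjI C c θ = θ} * Nat.card C := by
  have h1 : ((∑ g : N, ‖indF C θ g‖ ^ 2 : ℝ) : ℂ) =
      ∑ g : N, indF C θ g * (starRingEnd ℂ) (indF C θ g) := by
    push_cast
    refine Finset.sum_congr rfl fun g _ => ?_
    rw [Complex.mul_conj, Complex.normSq_eq_norm_sq]
    push_cast
    rfl
  have h2 : ∀ g : N, indF C θ g * (starRingEnd ℂ) (indF C θ g) =
      ∑ c : N, ∑ d : N, ext C (cjI C c θ).1 g * (starRingEnd ℂ) (ext C (cjI C d θ).1 g) := by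
    intro g
    unfold indF
    rw [map_sum, Finset.sum_mul_sum]
    simp only [ext_conj]
  have h3 : ∑ g : N, indF C θ g * (starRingEnd ℂ) (indF C θ g) =
      ∑ c : N, ∑ d : N, (if cjI C c θ = cjI C d θ then (Nat.card C : ℂ) else 0) := by
    rw [Finset.sum_congr rfl fun g _ => h2 g, Finset.sum_comm]
    refine Finset.sum_congr rfl fun c _ => ?_
    rw [Finset.sum_comm]
    refine Finset.sum_congr rfl fun d _ => ?_
    rw [sum_ext (cjI C c θ).1 (fun g => (starRingEnd ℂ) (ext C (cjI C d θ).1 g)),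
      Nat.card_eq_fintype_card (α := C), ← row_orth (cjI C c θ) (cjI C d θ)]
    refine Finset.sum_congr rfl fun x _ => ?_
    rw [ext_coe, (cjI C d θ).inv_eq_conj]
  have h4 : ∀ c : N, ∑ d : N, (if cjI C c θ = cjI C d θ then (Nat.card C : ℂ) else 0) =
      Nat.card {c : N // cjI C c θ = θ} * Nat.card C := by
    intro c
    rw [← Finset.sum_filter, Finset.sum_const, nsmul_eq_mul]
    congr 2
    rw [← Fintype.card_subtype, ← Nat.card_eq_fintype_card]
    refine Nat.card_congr ((Equiv.mulLeft c⁻¹).subtypeEquiv fun d => ?_)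
    change _ ↔ cjI C (c⁻¹ * d) θ = θ
    rw [cjI_mul]
    constructor
    · intro h
      rw [← h, ← cjI_mul, inv_mul_cancel, cjI_one]
    · intro h
      have := congrArg (cjI C c) h
      rw [← cjI_mul, mul_inv_cancel, cjI_one] at this
      exact this.symm
  rw [h3, Finset.sum_congr rfl fun c _ => h4 c, Finset.sum_const, Finset.card_univ,
    nsmul_eq_mul] at h1
  rw [Nat.card_eq_fintype_card (α := N)]
  have h5 : ((∑ g : N, ‖indF C θ g‖ ^ 2 : ℝ) : ℂ) =
    ((Fintype.card N * Nat.card {c : N // cjI C c θ = θ} * Nat.card C : ℝ) : ℂ) := by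
    rw [h1]
    push_cast
    ring
  exact_mod_cast h5

/-- the number of constituents of an induced character -/
theorem card_const_le (C : Subgroup N) [C.Normal] (θ : Irr C) (S : Finset (Irr N))
    (hS : ∀ χ ∈ S, pairC C θ χ ≠ 0) :
    S.card * Nat.card C ≤ Nat.card {c : N // cjI C c θ = θ} := by
  have hN : (0 : ℝ) < Nat.card N := by exact_mod_cast Nat.card_pos
  have hC : (0 : ℝ) < Nat.card C := by exact_mod_cast Nat.card_pos
  have h1 : ∀ χ ∈ S, ((Nat.card N : ℝ) * Nat.card C) ^ 2 ≤ ‖∑ g : N, indF C θ g * χ.1 g⁻¹‖ ^ 2 := by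
    intro χ hχ
    obtain ⟨n, hn, -⟩ := pairC_eq C θ χ
    have hn0 : 1 ≤ n := by
      rcases Nat.eq_zero_or_pos n with rfl | h
      · exact absurd (by rw [hn]; simp) (hS χ hχ)
      · exact h
    rw [indF_pair, hn]
    simp only [norm_mul, Complex.norm_natCast]
    have h2 : (1 : ℝ) ≤ n := by exact_mod_cast hn0
    apply pow_le_pow_left₀ (by positivity)
    have h3 : (Nat.card C : ℝ) ≤ n * Nat.card C := by nlinarith
    exact mul_le_mul_of_nonneg_left h3 hN.le
  have h2 : (S.card : ℝ) * ((Nat.card N : ℝ) * Nat.card C) ^ 2 ≤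
      ∑ χ : Irr N, ‖∑ g : N, indF C θ g * χ.1 g⁻¹‖ ^ 2 := by
    rw [← nsmul_eq_mul]
    refine (Finset.card_nsmul_le_sum _ _ _ h1).trans ?_
    exact Finset.sum_le_sum_of_subset_of_nonneg (Finset.subset_univ _) (fun _ _ _ => by positivity)
  rw [parseval (isCF_indF C θ), indF_norm, ← Nat.card_eq_fintype_card (α := N)] at h2
  have h3 : (S.card : ℝ) * Nat.card C ≤ Nat.card {c : N // cjI C c θ = θ} := by
    have h4 : ((S.card : ℝ) * Nat.card C) * ((Nat.card N : ℝ) ^ 2 * Nat.card C) ≤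
        (Nat.card {c : N // cjI C c θ = θ}) * ((Nat.card N : ℝ) ^ 2 * Nat.card C) := by
      calc ((S.card : ℝ) * Nat.card C) * ((Nat.card N : ℝ) ^ 2 * Nat.card C) =
          (S.card : ℝ) * ((Nat.card N : ℝ) * Nat.card C) ^ 2 := by ring
        _ ≤ _ := h2
        _ = _ := by ring
    exact le_of_mul_le_mul_right h4 (by positivity)
  exact_mod_cast h3

end Count

end P179Y
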