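import Vale.Agent.P179.H166.K6p1
import Vale.Agent.P179.H526.FDP

/-!
# (K6+) the character of `C_G(D)` below a weight
-/

namespace P179Y

open P179H524 P179C P179A Finset P179P Subgroup

open P179X (pp autOrd)

open scoped Classical

section Restr

variable {k : Type*} [Field k] (red : AA →+* k) {N : Type*} [Group N] [Fintype N]

/-- central characters of `N` and of the constituents of the restriction to a subgroup -/
theorem om_restr_of (M : Subgroup N) (χ : Irr N) (θ : Irr M) (hθ : pairC M θ χ ≠ 0) (z : N → ℤ)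
    (hz : IsCF z) (hzM : ∀ x, x ∉ M → z x = 0) : om θ.1 (fun m : M => z m) = om χ.1 z := by
  obtain ⟨n, hn⟩ := restr_decomp χ M
  have hθ' : n θ ≠ 0 := by
    obtain ⟨m, hm, hmn⟩ := pairC_eq M θ χ
    rw [← hmn n hn]
    rintro rfl
    exact hθ (by rw [hm]; simp)
  rw [om_eq_omC, om_eq_omC]
  have hzC : IsCF (fun x : N => (z x : ℂ)) := fun g x => congrArg Int.cast (hz g x)
  have hzMC : IsCF (fun m : M => (z m : ℂ)) := fun g x => congrArg Int.cast (hz g x)
  have h1 : ∀ y : M, ∑ ψ : Irr M, (n ψ : ℂ) * (omC ψ.1 (fun m : M => (z m : ℂ)) - omC χ.1 (fun x => (z x : ℂ))) * ψ.1 y = 0 := by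
    intro y
    have e1 := sum_mul_irr χ hzC (y : N)
    have e2 : ∑ g : N, (z g : ℂ) * χ.1 (g * y) = ∑ m : M, (z m : ℂ) * χ.1 ((m * y : M) : N) := by
      rw [← Finset.sum_subset (Finset.subset_univ (univ.filter fun x : N => x ∈ M))]
      · rw [Finset.sum_subtype (p := fun x => x ∈ M) (univ.filter fun x : N => x ∈ M)
          (fun x => by simp)]
        rfl
      · intro x _ hx
        rw [hzM x (by simpa using hx), Int.cast_zero, zero_mul]
    rw [e2] at e1
    have e3 : ∑ m : M, (z m : ℂ) * χ.1 ((m * y : M) : N) =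
        ∑ ψ : Irr M, (n ψ : ℂ) * (omC ψ.1 (fun m : M => (z m : ℂ)) * ψ.1 y) := by
      have : ∀ m : M, (z m : ℂ) * χ.1 ((m * y : M) : N) =
          ∑ ψ : Irr M, (n ψ : ℂ) * ((z m : ℂ) * ψ.1 (m * y)) := by
        intro m
        rw [hn, Finset.mul_sum]
        exact Finset.sum_congr rfl fun ψ _ => by ring
      rw [Finset.sum_congr rfl fun m _ => this m, Finset.sum_comm]
      refine Finset.sum_congr rfl fun ψ _ => ?_
      rw [← Finset.mul_sum, sum_mul_irr ψ hzMC]
    rw [e3, hn, Finset.mul_sum] at e1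
    have e4 := sub_eq_zero.2 e1
    rw [← Finset.sum_sub_distrib] at e4
    rw [← e4]
    exact Finset.sum_congr rfl fun ψ _ => by ring
  have h2 : ∑ y : M, (∑ ψ : Irr M, (n ψ : ℂ) * (omC ψ.1 (fun m : M => (z m : ℂ)) -
      omC χ.1 (fun x => (z x : ℂ))) * ψ.1 y) * θ.1 y⁻¹ = 0 :=
    Finset.sum_eq_zero fun y _ => by rw [h1, zero_mul]
  simp only [Finset.sum_mul] at h2
  rw [Finset.sum_comm] at h2
  have h3 : ∀ ψ : Irr M, ∑ y : M, (n ψ : ℂ) * (omC ψ.1 (fun m : M => (z m : ℂ)) -
      omC χ.1 (fun x => (z x : ℂ))) * ψ.1 y * θ.1 y⁻¹ =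
      (n ψ : ℂ) * (omC ψ.1 (fun m : M => (z m : ℂ)) - omC χ.1 (fun x => (z x : ℂ))) *
        (if ψ = θ then (Fintype.card M : ℂ) else 0) := by
    intro ψ
    rw [← row_orth ψ θ, Finset.mul_sum]
    exact Finset.sum_congr rfl fun y _ => by ring
  rw [Finset.sum_congr rfl fun ψ _ => h3 ψ, Finset.sum_eq_single θ] at h2
  · rw [if_pos rfl] at h2
    have h4 : (Fintype.card M : ℂ) ≠ 0 := by exact_mod_cast Fintype.card_ne_zero
    have h5 : (n θ : ℂ) ≠ 0 := by exact_mod_cast hθ'
    rcases mul_eq_zero.1 h2 with h6 | h6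
    · rcases mul_eq_zero.1 h6 with h7 | h7
      · exact absurd h7 h5
      · exact sub_eq_zero.1 h7
    · exact absurd h6 h4
  · intro ψ _ hne
    rw [if_neg hne, mul_zero]
  · intro h; exact absurd (mem_univ _) h

theorem lam_restr_of (M : Subgroup N) (hM : M.Normal) (χ : Irr N) (θ : Irr M)
    (hθ : pairC M θ χ ≠ 0) (z : N → k) (hz : IsCF z) (hzM : ∀ x, x ∉ M → z x = 0) :
    lam red θ.1 (fun m : M => z m) = lam red χ.1 z := by
  have := Fintype.ofFinite (ConjClasses N)
  rw [lam_res_eq red M θ hz, lam_eq_sum red χ z]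
  refine Finset.sum_congr rfl fun D _ => ?_
  by_cases hD : D.out ∈ M
  · congr 2
    refine om_restr_of M χ θ hθ (ind D) (isCF_ind D) fun x hx => ?_
    unfold ind
    rw [if_neg]
    intro h1
    apply hx
    have h2 : ConjClasses.mk D.out = ConjClasses.mk x := by
      rw [h1]; exact Quot.out_eq D
    obtain ⟨g, hg⟩ := isConj_iff.1 (ConjClasses.mk_eq_mk_iff_isConj.1 h2)
    rw [← hg]
    exact hM.conj_mem _ hD g
  · rw [hzM _ hD, zero_mul, zero_mul]

theorem exists_pair_ne (M : Subgroup N) (χ : Irr N) : ∃ θ : Irr M, pairC M θ χ ≠ 0 := by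
  obtain ⟨n, hn⟩ := restr_decomp χ M
  have hex : ∃ θ : Irr M, n θ ≠ 0 := by
    by_contra hcon
    push Not at hcon
    apply χ.one_ne_zero
    have h3 := hn 1
    rw [OneMemClass.coe_one] at h3
    rw [h3]
    refine Finset.sum_eq_zero fun ψ _ => ?_
    rw [hcon, Nat.cast_zero, zero_mul]
  obtain ⟨θ, hθ⟩ := hex
  refine ⟨θ, ?_⟩
  obtain ⟨m, hm, hmn⟩ := pairC_eq M θ χ
  rw [hm, hmn n hn]
  exact mul_ne_zero (by exact_mod_cast hθ) (by exact_mod_cast Nat.card_pos.ne')

end Restr

section Ker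

variable {p : ℕ} [hp : Fact p.Prime] {N : Type} [Group N] [Fintype N]

/-- constituents of characters with `D` in the kernel -/
theorem ker_of_pair {D C : Subgroup N} (hD : IsPGroup p D)
    (hcomm : ∀ d ∈ D, ∀ c ∈ C, d * c = c * d) (χ : Irr N) (hχ : ∀ d ∈ D, ∀ n, χ.1 (d * n) = χ.1 n)
    (θ : Irr C) (hθ : pairC C θ χ ≠ 0) : ∀ d ∈ D.subgroupOf C, ∀ t, θ.1 (d * t) = θ.1 t := by
  intro d hd t
  have hDZ : D.subgroupOf C ≤ center C := by
    intro x hx
    rw [Subgroup.mem_center_iff]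
    intro g
    exact Subtype.ext (hcomm _ (mem_subgroupOf.1 hx) _ g.2).symm
  obtain ⟨c, hc, hct⟩ := central_char (p := p) (D := D.subgroupOf C) hD.comap_subtype hDZ θ ⟨d, hd⟩
  have h1 : pairC C θ χ = c * pairC C θ χ := by
    conv_lhs => unfold pairC
    unfold pairC
    rw [Finset.mul_sum]
    refine Fintype.sum_equiv (Equiv.mulLeft d⁻¹) _ _ fun x => ?_
    have e1 : θ.1 x = c * θ.1 (d⁻¹ * x) := by
      rw [← hct]
      refine congrArg θ.1 ?_
      change x = d * (d⁻¹ * x)
      group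
    have e2 : χ.1 (((d⁻¹ * x : C) : N))⁻¹ = χ.1 (x : N)⁻¹ := by
      have : (((d⁻¹ * x : C) : N))⁻¹ = (x : N)⁻¹ * (d : N) := by
        push_cast
        group
      rw [this, χ.mul_comm, hχ _ (mem_subgroupOf.1 hd)]
    change θ.1 x * _ = c * (θ.1 (d⁻¹ * x) * χ.1 (((d⁻¹ * x : C) : N))⁻¹)
    rw [e2, e1, mul_assoc]
  have h2 : c = 1 := by
    have h3 : (c - 1) * pairC C θ χ = 0 := by rw [sub_mul, ← h1, one_mul, sub_self]
    rcases mul_eq_zero.1 h3 with h4 | h4
    · exact sub_eq_zero.1 h4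
    · exact absurd h4 hθ
  have h3 := hct t
  rw [h2, one_mul] at h3
  exact h3

end Ker

section Exists

variable {p : ℕ} [hp : Fact p.Prime] {k : Type*} [Field k] [CharP k p]
  (red : AA →+* k) {N : Type} [Group N] [Fintype N]

theorem lam_cjI (C : Subgroup N) [C.Normal] (c : N) (θ : Irr C) {y : C → k} (hy : IsCF y) :
    lam red (cjI C c θ).1 (fun x => y (MulAut.conjNormal c⁻¹ x)) = lam red θ.1 y :=
  lam_comp red (MulAut.conjNormal c⁻¹ : C ≃* C) θ.2 hy

omit hp [CharP k p] in
/-- separation of algebra homomorphisms -/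
theorem exists_sep_family {H : Type*} [Group H] [Fintype H] {ι : Type*} (F : Finset ι)
    (m : ι → (H → k) → k) (hm : ∀ i, IsHomCF (m i)) {l : (H → k) → k} (hl : IsHomCF l)
    (hne : ∀ i, ∃ z, IsCF z ∧ m i z ≠ l z) :
    ∃ y, IsCF y ∧ l y ≠ 0 ∧ ∀ i ∈ F, m i y = 0 := by
  have hd : IsCF (fun g : H => if g = 1 then (1 : k) else 0) := by
    intro g x
    have : g * x * g⁻¹ = 1 ↔ x = 1 := by simp
    simp only [this]
  induction F using Finset.induction_on with
  | empty => exact ⟨_, hd, by rw [hl.one]; exact one_ne_zero, fun c hc => absurd hc (notMem_empty c)⟩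
  | insert c F _ ih =>
    obtain ⟨y, hy, hly, hyF⟩ := ih
    obtain ⟨z, hz, hzl⟩ := hne c
    let z' : H → k := z + (-(m c z)) • (fun g : H => if g = 1 then (1 : k) else 0)
    have hz' : IsCF z' := by
      intro g x
      simp only [z', Pi.add_apply, Pi.smul_apply, hz g x]
      congr 2
      exact hd g x
    have h2 : m c z' = 0 := by
      rw [(hm c).add, (hm c).smul, (hm c).one]
      ring
    have h3 : l z' ≠ 0 := by
      rw [hl.add, hl.smul, hl.one]
      intro h
      apply hzl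
      linear_combination -h
    refine ⟨conv y z', isCF_conv hy hz', ?_, ?_⟩
    · rw [hl.mul _ _ hy hz']
      exact mul_ne_zero hly h3
    · intro d hd
      rw [(hm d).mul _ _ hy hz']
      rcases Finset.mem_insert.1 hd with rfl | hd
      · rw [h2, mul_zero]
      · rw [hyF d hd, zero_mul]

omit [Fintype N] in
theorem invOn_ext_self (C : Subgroup N) {y : C → k} (hy : IsCF y) : InvOn C (ext C y) := by
  refine ⟨fun c hc x => ?_, fun x hx => ext_of_not_mem C y hx⟩
  by_cases hx : x ∈ C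
  · rw [ext_of_mem C y hx, ext_of_mem C y (mul_mem (mul_mem hc hx) (inv_mem hc))]
    exact hy ⟨c, hc⟩ ⟨x, hx⟩
  · rw [ext_of_not_mem C y hx, ext_of_not_mem C y]
    intro h
    apply hx
    have := mul_mem (mul_mem (inv_mem hc) h) hc
    have e1 : c⁻¹ * (c * x * c⁻¹) * c = x := by group
    rwa [e1] at this

/-- the central character of a constituent is conjugate to `l` -/
theorem exists_conj_InL {D : Subgroup N} (hDn : D.Normal) {l : (N → k) → k} (hl : BP p D l)
    (hD : IsPGroup p D) (hab : D ≤ centralizer (D : Set N))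
    (hT : ¬ p ∣ (centralizer (D : Set N)).relIndex (stabT D l))
    (C : Subgroup N) [C.Normal] (hC : C = centralizer (D : Set N)) (θ : Irr C)
    (h0 : ∀ z : N → k, IsCF z → (∀ x, x ∉ C → z x = 0) →
      lam red θ.1 (fun m : C => z m) = l z) :
    ∃ c : N, InL red (lres C l) (cjI C c θ).1 := by
  have hnorm : normalizer (D : Set N) = ⊤ := normalizer_eq_top_iff.2 hDn
  have hN : ∀ n : N, n ∈ normalizer (D : Set N) := fun n => by rw [hnorm]; exact mem_top n
  have hDC : D ≤ C := by rw [hC]; exact hab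
  have hlC : BP p (D.subgroupOf C) (lres C l) := hl.restrict hDC hC.ge
  have hhom : IsHomCF (lres C l) := hlC.isHomCF' hD.comap_subtype
  have hmul : ∀ a b, InvOn C a → InvOn C b → l (conv a b) = l a * l b := by
    rw [hC]; exact hl.mul
  have hcj : ∀ n z, InvOn C z → InvOn C (cj n z : N → k) := by
    rw [hC]; exact fun n z hz => hz.cj (hN n)
  by_contra hcon
  push Not at hcon
  obtain ⟨y, hy, hly, hyF⟩ := exists_sep_family (Finset.univ : Finset N)
    (fun c => lam red (cjI C c θ).1) (fun c => isHomCF_lam red _) hhom (fun c => by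
      have h1 := hcon c
      unfold InL at h1
      push Not at h1
      exact h1)
  obtain ⟨t, ht, hlt, -, htF, -⟩ := exists_Y' hl hD hab hT Finset.univ
  rw [← hC] at ht
  have hyinv : InvOn C (ext C y) := invOn_ext_self C hy
  have hly' : l (ext C y) ≠ 0 := hly
  set w := conv t (ext C y) with hw
  have hwinv : InvOn C w := ht.conv _ hyinv
  have htr : trG C w = ∑ c : N ⧸ C, cj c.out w := by
    funext x
    rw [Finset.sum_apply]
    rfl
  have hcjw : ∀ c : N, cj c w = conv (cj c t) (cj c (ext C y)) := fun c => cj_conv c _ _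
  -- the value of `l`
  have h1 : l (trG C w) = C.relIndex (stabT D l) * (l t * l (ext C y)) := by
    rw [htr, hl.sum]
    have h2 : ∀ c : N ⧸ C, l (cj c.out w) =
        if c.out ∈ stabT D l then l t * l (ext C y) else 0 := by
      intro c
      by_cases hcT : c.out ∈ stabT D l
      · rw [if_pos hcT, hcT.2 w (hC ▸ hwinv), hw, hmul _ _ ht hyinv]
      · rw [if_neg hcT, hcjw, hmul _ _ (hcj _ _ ht) (hcj _ _ hyinv),
          htF _ (mem_univ _) (hN _) hcT, zero_mul]
    rw [Finset.sum_congr rfl fun c _ => h2 c, ← Finset.sum_filter, Finset.sum_const, nsmul_eq_mul,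
      card_cosets _ _ (hC ▸ cent_le_stabT D l)]
  have h2 : l (trG C w) ≠ 0 := by
    rw [h1]
    refine mul_ne_zero ?_ (mul_ne_zero hlt hly')
    rwa [Ne, CharP.cast_eq_zero_iff k p, hC]
  have hcf : IsCF (trG C w) := isCF_trG C hwinv.1
  have hvan : ∀ x, x ∉ C → trG C w x = 0 := by
    intro x hx
    rw [htr, Finset.sum_apply]
    exact Finset.sum_eq_zero fun c _ => (hcj _ _ hwinv).2 x hx
  apply h2
  rw [← h0 _ hcf hvan]
  -- the value of the character
  have h3 : (fun m : C => trG C w m) = ∑ c : N ⧸ C, (fun m : C => cj c.out w m) := by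
    funext m
    rw [htr, Finset.sum_apply, Finset.sum_apply]
  rw [h3, P179C.lam_sum]
  refine Finset.sum_eq_zero fun c _ => ?_
  set n := c.out
  have h4 : (fun m : C => cj n w m) =
      conv (fun m : C => cj n t m) (fun m : C => cj n (ext C y) m) := by
    have e1 := ext_conv C (fun m : C => cj n t m) (fun m : C => cj n (ext C y) m)
    rw [ext_restr (hcj n _ ht).2, ext_restr (hcj n _ hyinv).2, ← hcjw n] at e1
    funext m
    rw [← e1, ext_coe]
  have hcft : IsCF (fun m : C => cj n t m) := fun g x => (hcj n _ ht).1 g g.2 x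
  have hcfy : IsCF (fun m : C => cj n (ext C y) m) := fun g x => (hcj n _ hyinv).1 g g.2 x
  rw [h4, lam_conv red θ.2 hcft hcfy]
  have h5 : (fun m : C => cj n (ext C y) m) = fun m : C => y (MulAut.conjNormal n⁻¹ m) := by
    funext m
    change ext C y (n⁻¹ * m * n) = _
    have h6 : n⁻¹ * (m : N) * n = ((MulAut.conjNormal n⁻¹ m : C) : N) := by
      rw [MulAut.conjNormal_apply, inv_inv]
    rw [h6, ext_coe]
  have h6 := lam_cjI red C n (cjI C n⁻¹ θ) hy
  rw [← cjI_mul, mul_inv_cancel, cjI_one, hyF n⁻¹ (mem_univ _)] at h6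
  rw [h5, h6, mul_zero]

/-- the character of `C_G(D)` below a weight character -/
theorem exists_theta {D : Subgroup N} (hDn : D.Normal) {l : (N → k) → k} (hl : BP p D l)
    (hD : IsPGroup p D) (hab : D ≤ centralizer (D : Set N))
    (hT : ¬ p ∣ (centralizer (D : Set N)).relIndex (stabT D l))
    (C : Subgroup N) [C.Normal] (hC : C = centralizer (D : Set N)) (χ : Irr N)
    (hχ : InL red l χ.1) (hker : ∀ d ∈ D, ∀ n, χ.1 (d * n) = χ.1 n) :
    ∃ θ : Irr C, InL red (lres C l) θ.1 ∧ pairC C θ χ ≠ 0 ∧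
      ∀ d ∈ D.subgroupOf C, ∀ t, θ.1 (d * t) = θ.1 t := by
  obtain ⟨θ₀, hθ₀⟩ := exists_pair_ne C χ
  obtain ⟨c, hc⟩ := exists_conj_InL red hDn hl hD hab hT C hC θ₀ fun z hz hzC => by
    rw [lam_restr_of red C inferInstance χ θ₀ hθ₀ z hz hzC]
    exact hχ z hz
  have h1 : pairC C (cjI C c θ₀) χ ≠ 0 := by rw [pairC_cjI]; exact hθ₀
  refine ⟨cjI C c θ₀, hc, h1, ker_of_pair hD ?_ χ hker _ h1⟩
  intro d hd x hx
  rw [hC] at hx
  exact mem_centralizer_iff.1 hx d hd

/-- **(K6+)** on the level of `N` -/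
theorem card_InL_le {D : Subgroup N} (hDn : D.Normal) {l : (N → k) → k} (hl : BP p D l)
    (hD : IsPGroup p D) (hab : D ≤ centralizer (D : Set N))
    (hT : ¬ p ∣ (centralizer (D : Set N)).relIndex (stabT D l)) (S : Finset (Irr N))
    (hS : ∀ χ ∈ S, InL red l χ.1 ∧ ∀ d ∈ D, ∀ n, χ.1 (d * n) = χ.1 n) :
    S.card ≤ (centralizer (D : Set N)).relIndex (stabT D l) := by
  rcases S.eq_empty_or_nonempty with rfl | ⟨χ₀, hχ₀⟩
  · simp
  obtain ⟨C, hC⟩ : ∃ C, C = centralizer (D : Set N) := ⟨_, rfl⟩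
  have hCn : C.Normal := by
    rw [hC]
    infer_instance
  have hnorm : normalizer (D : Set N) = ⊤ := normalizer_eq_top_iff.2 hDn
  have hDC : D ≤ C := by rw [hC]; exact hab
  have hlC : BP p (D.subgroupOf C) (lres C l) := hl.restrict hDC hC.ge
  have hDZ : D.subgroupOf C ≤ center C := by
    intro x hx
    rw [Subgroup.mem_center_iff]
    intro g
    have h1 : (g : N) ∈ centralizer (D : Set N) := hC.le g.2
    exact Subtype.ext (mem_centralizer_iff.1 h1 _ (mem_subgroupOf.1 hx)).symm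
  obtain ⟨θ, hθl, -, hθker⟩ := exists_theta red hDn hl hD hab hT C hC χ₀ (hS χ₀ hχ₀).1
    (hS χ₀ hχ₀).2
  have htop : centralizer ((D.subgroupOf C : Subgroup C) : Set C) = ⊤ := by
    rw [eq_top_iff]
    intro x _
    rw [mem_centralizer_iff]
    intro d hd
    exact ((Subgroup.mem_center_iff.1 (hDZ hd)) x).symm
  obtain ⟨y, hy, hyD, hly⟩ := exists_Y hlC hD.comap_subtype (by rw [htop]; exact le_top) (by
    rw [relIndex_eq_one.2 (by rw [htop]; exact le_top)]
    exact fun h => hp.out.one_lt.ne' (Nat.dvd_one.1 h))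
  have h1 : S.card * Nat.card C ≤ Nat.card {c : N // cjI C c θ = θ} := by
    refine card_const_le C θ S fun χ hχ => ?_
    obtain ⟨θ', hθ'l, hθ'p, hθ'ker⟩ := exists_theta red hDn hl hD hab hT C hC χ (hS χ hχ).1
      (hS χ hχ).2
    have h2 := unique_central red (D := D.subgroupOf C) hD.comap_subtype hDZ hlC θ θ' hθl hθ'l
      hθker hθ'ker hy hyD hly
    rw [h2]
    exact hθ'p
  have h2 : Nat.card {c : N // cjI C c θ = θ} ≤ Nat.card (stabT D l) := by
    have key : ∀ c : N, cjI C c θ = θ → c ∈ stabT D l := by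
      intro c hc
      refine mem_stabT.2 ⟨by rw [hnorm]; exact mem_top c, fun z hz => ?_⟩
      rw [← hC] at hz
      have hcn : c ∈ normalizer (D : Set N) := by rw [hnorm]; exact mem_top c
      have hcz : InvOn C (cj c z) := by
        rw [hC] at hz ⊢
        exact hz.cj hcn
      have e0 : ∀ z : N → k, InvOn C z → l z = lam red θ.1 (fun m : C => z m) := by
        intro z hz
        have hcf : IsCF (fun m : C => z m) := fun g x => hz.1 g g.2 x
        rw [hθl _ hcf]
        unfold lres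
        rw [ext_restr hz.2]
      rw [e0 _ hcz, e0 _ hz]
      have hcf : IsCF (fun m : C => z m) := fun g x => hz.1 g g.2 x
      have h6 := lam_cjI red C c θ hcf
      rw [hc] at h6
      rw [← h6]
      congr 1
      funext m
      change z (c⁻¹ * m * c) = _
      rw [MulAut.conjNormal_apply, inv_inv]
    exact Nat.card_le_card_of_injective (fun c => ⟨c.1, key c.1 c.2⟩) fun a b hab =>
      Subtype.ext (congrArg (fun x : stabT D l => (x : N)) hab)
  have h3 : C ≤ stabT D l := by rw [hC]; exact cent_le_stabT D l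
  have h4 : C.relIndex (stabT D l) * Nat.card C = Nat.card (stabT D l) := by
    rw [mul_comm, Subgroup.relIndex, ← Subgroup.card_mul_index (C.subgroupOf (stabT D l)),
      Nat.card_congr (Subgroup.subgroupOfEquivOfLe h3).toEquiv]
  rw [← hC]
  refine Nat.le_of_mul_le_mul_right ?_ (Nat.card_pos (α := C))
  rw [h4]
  exact h1.trans h2

end Exists

end P179Y
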