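import Vale.Agent.P179.H166.K6p2

/-!
# (K6+) the number of weights of a block with abelian defect group is at most the inertial index
-/

namespace P179Y

open P179H524 P179C P179A Finset P179P Subgroup

open P179X (pp autOrd)

open scoped Classical

section

variable {p : ℕ} [hp : Fact p.Prime] {k : Type*} [Field k] [CharP k p]
  (red : AA →+* k) {G : Type} [Group G] [Fintype G]

/-- **(K6+)** -/
theorem K6plus [IsAlgClosed k] {B : MonoidAlgebra k G} {D : Subgroup G}
    {l : (G → k) → k} (hl : BP p D l) (hD : IsPGroup p D) (hab : D ≤ centralizer (D : Set G))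
    (hT : ¬ p ∣ (centralizer (D : Set G)).relIndex (stabT D l))
    (hlB : ∀ z : G → k, IsCF z → l z = centralChar B (mkF z)) :
    numWeightsIn p red B ≤ (centralizer (D : Set G)).relIndex (stabT D l) := by
  refine numWeights_le red hl hD hab hT hlB fun S hS => ?_
  obtain ⟨N, hN⟩ : ∃ N, N = normalizer (D : Set G) := ⟨_, rfl⟩
  have hDN : D ≤ normalizer (D : Set G) := le_normalizer
  have hCN : centralizer (D : Set G) ≤ normalizer (D : Set G) := cent_le_norm D
  set D' := D.subgroupOf (normalizer (D : Set G)) with hD'
  have hl' : BP p D' (lres (normalizer (D : Set G)) l) := hl.restrict hDN hCN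
  have hidx : (centralizer (D' : Set (normalizer (D : Set G)))).relIndex
      (stabT D' (lres (normalizer (D : Set G)) l)) =
      (centralizer (D : Set G)).relIndex (stabT D l) := by
    rw [relIndex_stabT_lres hDN hCN, inf_eq_left.2 (stabT_le_norm D l)]
  have hab' : D' ≤ centralizer (D' : Set (normalizer (D : Set G))) := by
    intro x hx
    rw [mem_centralizer_iff]
    intro y hy
    exact Subtype.ext (mem_centralizer_iff.1 (hab (mem_subgroupOf.1 hx)) _ (mem_subgroupOf.1 hy))
  rw [← hidx]
  refine card_InL_le red (D := D') (by rw [hD']; infer_instance) hl' hD.comap_subtype hab'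
    (by rw [hidx]; exact hT) S fun χ hχ => ⟨fun z hz => ?_, (hS χ hχ).wt.ker⟩
  rw [(hS χ hχ).lam z hz, hl.cut]
  rfl

/-- `p` does not divide the inertial index of a block with abelian defect group -/
theorem inertial_coprime [IsAlgClosed k] {B : MonoidAlgebra k G} (hB : IsBlock B) {D : Subgroup G}
    (hBD : IsDefectGroup B D) (hDab : ∀ a ∈ D, ∀ b ∈ D, a * b = b * a)
    {l : (G → k) → k} (hl : BP p D l) (hD : IsPGroup p D)
    (hlB : ∀ z : G → k, IsCF z → l z = centralChar B (mkF z)) :
    ¬ p ∣ (centralizer (D : Set G)).relIndex (stabT D l) := by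
  have hb : IsCF (fun g => B.coeff g) := (P179C.mem_center_iff _).1 hB.1
  refine stab_index_coprime hl hD hDab hb ?_ ?_
  · intro x hx P hP hPx
    exact zab_of_relTrace p B D hBD.1 x hx P hP hPx
  · rw [hlB _ hb, mkF_coeff, centralChar_self B hB]
    exact one_ne_zero

end

end P179Y
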