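import Vale.Agent.P179.H166.MainFun

/-!
# Normal chains: the sums over all chains and over the normal chains agree
-/

namespace P179N

open Subgroup P179A

open scoped Classical

variable {p : ℕ} {G : Type*} [Group G]

/-- the members of the chain normalise each other (equivalently, every member is normal in the
largest one) -/
def Nml (s : Finset (Subgroup G)) : Prop := ∀ Q ∈ s, ∀ R ∈ s, R ≤ normalizer (Q : Set G)

/-- the infimum of the members of a chain with a property is a least such member -/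
theorem inf_filter {s : Finset (Subgroup G)} (hs : IsChain (· ≤ ·) (s : Set (Subgroup G)))
    (pr : Subgroup G → Prop) [DecidablePred pr] (h : ∃ Q ∈ s, pr Q) :
    (s.filter pr).inf id ∈ s ∧ pr ((s.filter pr).inf id) ∧
      ∀ Q ∈ s, pr Q → (s.filter pr).inf id ≤ Q := by
  obtain ⟨Q, hQ, hprQ⟩ := h
  have hne : (s.filter pr).Nonempty := ⟨Q, Finset.mem_filter.2 ⟨hQ, hprQ⟩⟩
  obtain ⟨M, hM, hmin⟩ := Finset.exists_minimal hne
  have hM' := Finset.mem_filter.1 hM
  have hle : ∀ Q ∈ s.filter pr, M ≤ Q := by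
    intro Q hQ
    have hQ' := Finset.mem_filter.1 hQ
    rcases hs.total (Finset.mem_coe.2 hM'.1) (Finset.mem_coe.2 hQ'.1) with h | h
    · exact h
    · exact hmin hQ h
  have heq : (s.filter pr).inf id = M :=
    le_antisymm (Finset.inf_le (f := id) hM) (Finset.le_inf hle)
  rw [heq]
  exact ⟨hM'.1, hM'.2, fun Q hQ hp => hle Q (Finset.mem_filter.2 ⟨hQ, hp⟩)⟩

/-- the least member which is not normalised by all members -/
noncomputable def q0 (s : Finset (Subgroup G)) : Subgroup G :=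
  (s.filter fun Q : Subgroup G => ∃ R ∈ s, ¬ R ≤ normalizer (Q : Set G)).inf id

/-- the least member which does not normalise `q0 s` -/
noncomputable def x0 (s : Finset (Subgroup G)) : Subgroup G :=
  (s.filter fun X : Subgroup G => ¬ X ≤ normalizer (q0 s : Set G)).inf id

/-- the subgroup which is toggled -/
noncomputable def tt (s : Finset (Subgroup G)) : Subgroup G := x0 s ⊓ normalizer (q0 s : Set G)

/-- toggle -/
noncomputable def tg (s : Finset (Subgroup G)) : Finset (Subgroup G) := symmDiff s {tt s}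

theorem mem_tg {Q : Subgroup G} {s : Finset (Subgroup G)} :
    Q ∈ tg s ↔ (Q ∈ s ∧ Q ≠ tt s) ∨ (Q = tt s ∧ Q ∉ s) := by
  rw [tg, Finset.mem_symmDiff]; simp

section

variable {s : Finset (Subgroup G)} (hs : IsChain (· ≤ ·) (s : Set (Subgroup G)))
  (hn : ¬ Nml s)

include hs hn

theorem q0_spec : q0 s ∈ s ∧ (∃ R ∈ s, ¬ R ≤ normalizer (q0 s : Set G)) ∧
    ∀ Q ∈ s, (∃ R ∈ s, ¬ R ≤ normalizer (Q : Set G)) → q0 s ≤ Q := by
  have h : ∃ Q ∈ s, ∃ R ∈ s, ¬ R ≤ normalizer (Q : Set G) := by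
    unfold Nml at hn
    push Not at hn
    exact hn
  exact inf_filter hs (fun Q : Subgroup G => ∃ R ∈ s, ¬ R ≤ normalizer (Q : Set G)) h

theorem x0_spec : x0 s ∈ s ∧ ¬ x0 s ≤ normalizer (q0 s : Set G) ∧
    ∀ Q ∈ s, ¬ Q ≤ normalizer (q0 s : Set G) → x0 s ≤ Q := by
  exact inf_filter hs (fun X : Subgroup G => ¬ X ≤ normalizer (q0 s : Set G))
    (q0_spec hs hn).2.1

theorem q0_lt_x0 : q0 s < x0 s := by
  obtain ⟨h1, -, -⟩ := q0_spec hs hn
  obtain ⟨h2, h3, -⟩ := x0_spec hs hn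
  have hne : q0 s ≠ x0 s := by
    intro h
    exact h3 (h ▸ le_normalizer)
  rcases hs.total (Finset.mem_coe.2 h1) (Finset.mem_coe.2 h2) with h | h
  · exact lt_of_le_of_ne h hne
  · exact absurd (h.trans le_normalizer) h3

theorem tt_lt_x0 : tt s < x0 s := by
  refine lt_of_le_of_ne inf_le_left ?_
  intro h
  exact (x0_spec hs hn).2.1 (inf_eq_left.1 h)

/-- members are comparable with `tt s` -/
theorem tt_comp {Q : Subgroup G} (hQ : Q ∈ s) : Q ≤ tt s ∨ tt s ≤ Q := by
  obtain ⟨h2, h3, h4⟩ := x0_spec hs hn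
  by_cases h : Q ≤ normalizer (q0 s : Set G)
  · left
    refine le_inf ?_ h
    rcases hs.total (Finset.mem_coe.2 hQ) (Finset.mem_coe.2 h2) with h5 | h5
    · exact h5
    · exact absurd (h5.trans h) h3
  · right
    exact inf_le_left.trans (h4 Q hQ h)

end

/-- the largest member -/
theorem exists_largest {s : Finset (Subgroup G)} (hs : IsChain (· ≤ ·) (s : Set (Subgroup G)))
    (hne : s.Nonempty) : ∃ M ∈ s, ∀ Q ∈ s, Q ≤ M := by
  obtain ⟨M, hM, hmax⟩ := Finset.exists_maximal hne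
  refine ⟨M, hM, fun Q hQ => ?_⟩
  rcases hs.total (Finset.mem_coe.2 hM) (Finset.mem_coe.2 hQ) with h | h
  · exact hmax hQ h
  · exact h

section

variable [hp : Fact p.Prime] [Finite G] {s : Finset (Subgroup G)} (hs : IsPChain p s)
  (hn : ¬ Nml s)

include hp hs hn

theorem q0_lt_tt : q0 s < tt s := by
  have hlt := q0_lt_x0 hs.2 hn
  refine lt_of_le_of_ne (le_inf hlt.le le_normalizer) ?_
  intro h
  have hX : IsPGroup p (x0 s) := (hs.1 _ (x0_spec hs.2 hn).1).1
  have := hX.isNilpotent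
  have hnc := Group.normalizerCondition_of_isNilpotent (G := x0 s)
  have h1 := hnc ((q0 s).subgroupOf (x0 s)) (lt_top_iff_ne_top.2 fun h2 => by
    rw [subgroupOf_eq_top] at h2
    exact absurd h2 hlt.not_ge)
  obtain ⟨x, hx1, hx2⟩ := SetLike.exists_of_lt h1
  apply hx2
  rw [mem_subgroupOf, h, tt]
  refine mem_inf.2 ⟨x.2, ?_⟩
  rw [mem_normalizer_iff] at hx1 ⊢
  intro y
  constructor
  · intro hy
    exact (hx1 ⟨y, hlt.le hy⟩).1 hy
  · intro hy
    have hy' : y ∈ x0 s := by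
      have h3 := mul_mem (mul_mem (inv_mem x.2) (hlt.le hy)) x.2
      simpa [mul_assoc] using h3
    exact (hx1 ⟨y, hy'⟩).2 hy

omit hp [Finite G] in
theorem tt_isPGroup : IsPGroup p (tt s) :=
  (hs.1 _ (x0_spec hs.2 hn).1).1.to_le (tt_lt_x0 hs.2 hn).le

theorem tt_ne_bot : tt s ≠ ⊥ := by
  intro h
  have h1 := q0_lt_tt hs hn
  rw [h] at h1
  exact not_lt_bot h1

omit hp [Finite G] hs hn in
theorem mem_tg_of_ne {Q : Subgroup G} (hQ : Q ≠ tt s) : Q ∈ tg s ↔ Q ∈ s := by
  rw [mem_tg]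
  constructor
  · rintro (h | h)
    · exact h.1
    · exact absurd h.1 hQ
  · intro h
    exact Or.inl ⟨h, hQ⟩

theorem isPChain_tg : IsPChain p (tg s) := by
  constructor
  · intro Q hQ
    rcases mem_tg.1 hQ with ⟨h, -⟩ | ⟨h, -⟩
    · exact hs.1 Q h
    · rw [h]
      exact ⟨tt_isPGroup hs hn, tt_ne_bot hs hn⟩
  · intro Q hQ R hR hne
    rw [Finset.mem_coe] at hQ hR
    rcases mem_tg.1 hQ with ⟨h, -⟩ | ⟨h, -⟩ <;> rcases mem_tg.1 hR with ⟨h', -⟩ | ⟨h', -⟩
    · exact hs.2 (Finset.mem_coe.2 h) (Finset.mem_coe.2 h') hne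
    · rw [h']; exact tt_comp hs.2 hn h
    · rw [h]; exact (tt_comp hs.2 hn h').symm
    · exact absurd (h.trans h'.symm) hne

theorem not_nml_tg : ¬ Nml (tg s) := by
  intro h
  have h1 : q0 s ∈ tg s := (mem_tg_of_ne (q0_lt_tt hs hn).ne).2 (q0_spec hs.2 hn).1
  have h2 : x0 s ∈ tg s := (mem_tg_of_ne (tt_lt_x0 hs.2 hn).ne').2 (x0_spec hs.2 hn).1
  exact (x0_spec hs.2 hn).2.1 (h _ h1 _ h2)

theorem q0_tg : q0 (tg s) = q0 s := by
  have hs' := isPChain_tg hs hn
  have hn' := not_nml_tg hs hn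
  obtain ⟨h1, h2, h3⟩ := q0_spec hs.2 hn
  obtain ⟨h1', ⟨R', hR', hR''⟩, h3'⟩ := q0_spec hs'.2 hn'
  have hx := x0_spec hs.2 hn
  have hlt := q0_lt_tt hs hn
  have hxt : x0 s ∈ tg s := (mem_tg_of_ne (tt_lt_x0 hs.2 hn).ne').2 hx.1
  have hqt : q0 s ∈ tg s := (mem_tg_of_ne hlt.ne).2 h1
  refine le_antisymm (h3' _ hqt ⟨_, hxt, hx.2.1⟩) ?_
  by_cases hQ : q0 (tg s) = tt s
  · rw [hQ]; exact hlt.le
  · have hm : q0 (tg s) ∈ s := (mem_tg_of_ne hQ).1 h1'
    by_cases hR : R' = tt s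
    · refine h3 _ hm ⟨x0 s, hx.1, fun h => hR'' ?_⟩
      rw [hR]
      exact (tt_lt_x0 hs.2 hn).le.trans h
    · exact h3 _ hm ⟨R', (mem_tg_of_ne hR).1 hR', hR''⟩

theorem x0_tg : x0 (tg s) = x0 s := by
  unfold x0
  rw [q0_tg hs hn]
  congr 1
  ext Q
  rw [Finset.mem_filter, Finset.mem_filter]
  refine and_congr_left fun h => ?_
  refine mem_tg_of_ne ?_
  rintro rfl
  exact h inf_le_right

theorem tt_tg : tt (tg s) = tt s := by
  unfold tt
  rw [q0_tg hs hn, x0_tg hs hn]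

theorem tg_tg : tg (tg s) = s := by
  conv_lhs => rw [tg, tt_tg hs hn]
  rw [tg, symmDiff_assoc, symmDiff_self]
  exact symmDiff_bot s

omit hp [Finite G] hs hn in
theorem tg_ne : tg s ≠ s := by
  intro h
  have := congrArg (symmDiff s) h
  rw [tg, ← symmDiff_assoc, symmDiff_self, bot_symmDiff] at this
  simp at this

omit hp [Finite G] hs hn in
theorem sign_tg : (-1 : ℤ) ^ (tg s).card = - (-1) ^ s.card := by
  by_cases h : tt s ∈ s
  · have h1 : tg s = s.erase (tt s) := by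
      ext Q
      rw [mem_tg, Finset.mem_erase]
      constructor
      · rintro (⟨a, b⟩ | ⟨a, b⟩)
        · exact ⟨b, a⟩
        · exact absurd h (a ▸ b)
      · rintro ⟨a, b⟩
        exact Or.inl ⟨b, a⟩
    rw [h1, Finset.card_erase_of_mem h]
    obtain ⟨k, hk⟩ : ∃ k, s.card = k + 1 :=
      ⟨s.card - 1, by have := Finset.card_pos.mpr ⟨_, h⟩; omega⟩
    rw [hk]; simp [pow_succ]
  · have h1 : tg s = insert (tt s) s := by
      ext Q
      rw [mem_tg, Finset.mem_insert]
      constructor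
      · rintro (⟨a, b⟩ | ⟨a, b⟩)
        · exact Or.inr a
        · exact Or.inl a
      · rintro (a | b)
        · exact Or.inr ⟨a, a ▸ h⟩
        · refine Or.inl ⟨b, ?_⟩
          rintro rfl
          exact h b
    rw [h1, Finset.card_insert_of_notMem h, pow_succ]
    ring

omit hp hs hn [Finite G] in
theorem mem_norm_inf_norm {A B : Subgroup G} {g : G} (hA : g ∈ normalizer (A : Set G))
    (hB : g ∈ normalizer (B : Set G)) :
    g ∈ normalizer ((A ⊓ normalizer (B : Set G) : Subgroup G) : Set G) := by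
  have key : ∀ g : G, g ∈ normalizer (A : Set G) → g ∈ normalizer (B : Set G) →
      ∀ x ∈ A ⊓ normalizer (B : Set G), g * x * g⁻¹ ∈ A ⊓ normalizer (B : Set G) := by
    intro g hg hg' x hx
    rw [mem_inf] at hx ⊢
    exact ⟨(mem_normalizer_iff.1 hg x).1 hx.1, mul_mem (mul_mem hg' hx.2) (inv_mem hg')⟩
  rw [mem_normalizer_iff]
  intro x
  refine ⟨key g hA hB x, fun hx => ?_⟩
  have := key g⁻¹ (inv_mem hA) (inv_mem hB) _ hx
  simpa [mul_assoc] using this

omit hp [Finite G] in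
theorem stab_tg_le : stab s ≤ stab (tg s) := by
  intro g hg
  rw [mem_stab] at hg ⊢
  intro Q hQ
  rcases mem_tg.1 hQ with ⟨h, -⟩ | ⟨h, -⟩
  · exact hg Q h
  · rw [h]
    exact mem_norm_inf_norm (hg _ (x0_spec hs.2 hn).1) (hg _ (q0_spec hs.2 hn).1)

theorem stab_tg : stab (tg s) = stab s := by
  refine le_antisymm ?_ (stab_tg_le hs hn)
  have h := stab_tg_le (isPChain_tg hs hn) (not_nml_tg hs hn)
  rwa [tg_tg hs hn] at h

end

/-- the sum over the chains equals the sum over the normal chains, for functions which depend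
only on the stabiliser of the chain -/
theorem sum_normal [hp : Fact p.Prime] [Finite G] (f : Finset (Subgroup G) → ℤ)
    (hf : ∀ s t : Finset (Subgroup G), stab s = stab t → f s = f t) :
    ∑ s ∈ chains p G, (-1 : ℤ) ^ s.card * f s =
      ∑ s ∈ (chains p G).filter Nml, (-1 : ℤ) ^ s.card * f s := by
  rw [← Finset.sum_filter_add_sum_filter_not (chains p G) Nml]
  have h0 : ∑ s ∈ (chains p G).filter (fun s => ¬ Nml s), (-1 : ℤ) ^ s.card * f s = 0 := by
    refine Finset.sum_involution (fun s _ => tg s) ?_ ?_ ?_ ?_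
    · intro s hs
      rw [Finset.mem_filter, mem_chains] at hs
      rw [hf (tg s) s (stab_tg hs.1 hs.2), sign_tg]; ring
    · intro s hs _
      rw [Finset.mem_filter, mem_chains] at hs
      exact tg_ne
    · intro s hs
      rw [Finset.mem_filter, mem_chains] at hs ⊢
      exact ⟨isPChain_tg hs.1 hs.2, not_nml_tg hs.1 hs.2⟩
    · intro s hs
      rw [Finset.mem_filter, mem_chains] at hs
      exact tg_tg hs.1 hs.2
  rw [h0, add_zero]

end P179N
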