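import Vale.Agent.P179.H166.KN1
import Vale.Agent.P179.H166.Blocks
import Vale.Agent.P179.H525.QuotS

/-!
# The Brauer homomorphism to the stabiliser of a normal chain
-/

namespace P179N

open Subgroup P179A P179C P179K P179H524 MonoidAlgebra

open scoped Classical

section Brauer

variable {p : ℕ} [hp : Fact p.Prime] {k : Type*} [Field k] [CharP k p]
  {G : Type*} [Group G] [Fintype G]

/-- the key property of the Brauer homomorphism -/
theorem pushR_convH (Q N : Subgroup G) [(Q.subgroupOf N).Normal] (hQ : IsPGroup p Q) (hQN : Q ≤ N)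
    (hC : centralizer (Q : Set G) ≤ N) {a b : G → k} (ha : IsCF a) (hb : IsCF b) :
    pushR (QuotientGroup.mk' (Q.subgroupOf N)) (fun n : N => conv a b n) =
    pushR (QuotientGroup.mk' (Q.subgroupOf N))
      (conv (fun n : N => a n) (fun n : N => b n)) := by
  set π := QuotientGroup.mk' (Q.subgroupOf N) with hπ
  ext c
  let F : G × G → k := fun t => if h : t.1 ∈ N then
    (if π ⟨t.1, h⟩ = c ∧ t.2 ∉ N then a t.2 * b (t.2⁻¹ * t.1) else 0) else 0
  have hF : ∑ t, F t = 0 := by
    refine sum_eq_zero_of_perm p hQ (conjPair Q) F ?_ ?_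
    · rintro q ⟨n, h⟩
      have hqN : (q : G) ∈ N := hQN q.2
      have h1 : conjPair Q q (n, h) = ((q : G) * n * (q : G)⁻¹, (q : G) * h * (q : G)⁻¹) := rfl
      have hmem : ∀ x : G, (q : G) * x * (q : G)⁻¹ ∈ N ↔ x ∈ N := by
        intro x
        constructor
        · intro hx
          have := mul_mem (mul_mem (inv_mem hqN) hx) hqN
          simpa [mul_assoc] using this
        · intro hx
          exact mul_mem (mul_mem hqN hx) (inv_mem hqN)
      rw [h1]
      simp only [F]
      by_cases hn : n ∈ N
      · rw [dif_pos hn, dif_pos ((hmem n).mpr hn)]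
        have h2 : π ⟨(q : G) * n * (q : G)⁻¹, (hmem n).mpr hn⟩ = π ⟨n, hn⟩ := by
          have h3 : (⟨(q : G) * n * (q : G)⁻¹, (hmem n).mpr hn⟩ : N) =
              ⟨q, hqN⟩ * ⟨n, hn⟩ * ⟨q, hqN⟩⁻¹ := rfl
          have h4 : π ⟨q, hqN⟩ = 1 := by
            rw [hπ, QuotientGroup.mk'_apply, QuotientGroup.eq_one_iff, mem_subgroupOf]
            exact q.2
          rw [h3, map_mul, map_mul, map_inv, h4, one_mul, inv_one, mul_one]
        rw [h2, ha, hmem h]
        have h5 : ((q : G) * h * (q : G)⁻¹)⁻¹ * ((q : G) * n * (q : G)⁻¹) =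
            (q : G) * (h⁻¹ * n) * (q : G)⁻¹ := by group
        rw [h5, hb]
      · rw [dif_neg hn, dif_neg (fun h' => hn ((hmem n).mp h'))]
    · rintro ⟨n, h⟩ hfix
      simp only [F]
      have hh : h ∈ N := by
        refine hC (mem_centralizer_iff.2 fun q hq => ?_)
        have h1 := congrArg Prod.snd (hfix ⟨q, hq⟩)
        have h2 : q * h * q⁻¹ = h := h1
        exact mul_inv_eq_iff_eq_mul.mp h2
      split_ifs with h1 h2
      · exact absurd hh h2.2
      · rfl
      · rfl
  have hsum : ∑ t, F t = pushR π (fun n : N => conv a b n) c -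
      pushR π (conv (fun n : N => a n) (fun n : N => b n)) c := by
    rw [Fintype.sum_prod_type]
    unfold pushR conv
    rw [← Finset.sum_sub_distrib]
    have h1 : ∀ f : G → k, (∀ g, g ∉ N → f g = 0) → ∑ g, f g = ∑ n : N, f n := by
      intro f hf
      have h2 : ∑ g ∈ Finset.univ.filter (fun g => g ∈ N), f g = ∑ n : N, f n :=
        Finset.sum_subtype _ (fun g => by simp) f
      rw [Finset.sum_filter_of_ne (fun g _ hg => by
        by_contra hgN
        exact hg (hf g hgN))] at h2
      exact h2
    rw [h1]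
    · refine Finset.sum_congr rfl fun n _ => ?_
      have h2 : ∀ h : G, F (n, h) =
          if π n = c then (a h * b (h⁻¹ * n) - if h ∈ N then a h * b (h⁻¹ * n) else 0) else 0 := by
        intro h
        simp only [F]
        rw [dif_pos n.2]
        by_cases h3 : π n = c <;> by_cases h4 : h ∈ N <;> simp [h3, h4]
      rw [Finset.sum_congr rfl fun h _ => h2 h]
      split_ifs with h3
      · rw [Finset.sum_sub_distrib, h1 (fun h => if h ∈ N then a h * b (h⁻¹ * n) else 0)]
        · congr 1
          refine Finset.sum_congr rfl fun h _ => ?_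
          rw [if_pos h.2]
          rfl
        · intro g hg
          rw [if_neg hg]
      · simp
    · intro g hg
      refine Finset.sum_eq_zero fun h _ => ?_
      simp only [F]
      rw [dif_neg hg]
  rw [hF] at hsum
  exact (sub_eq_zero.mp hsum.symm)

end Brauer

section Kill

variable {p : ℕ} [hp : Fact p.Prime] {k : Type*} [Field k] [IsAlgClosed k] [CharP k p]
  {H : Type} [Group H] [Fintype H]

omit [IsAlgClosed k] in
/-- elements which vanish modulo a normal `p`-subgroup act as zero on the simple modules -/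
theorem act_eq_zero (M : Subgroup H) [M.Normal] (hM : IsPGroup p M) (a : IrrRep k H)
    (z : MonoidAlgebra k H)
    (hz : pushR (QuotientGroup.mk' M) (fun h => z.coeff h) = 0) : a.1.2.asAlgebraHom z = 0 := by
  have h1 : z = ∑ h : H, MonoidAlgebra.single h (z.coeff h) := by
    ext x
    rw [← finsum_eq_sum_of_fintype, coeff_finsum_single, Finset.sum_eq_single x]
    · rw [if_pos rfl]
    · intro y _ hy
      rw [if_neg hy]
    · intro h'; exact absurd (Finset.mem_univ _) h'
  have htriv : ∀ h h' : H, QuotientGroup.mk' M h = QuotientGroup.mk' M h' →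
      a.1.2 h = a.1.2 h' := by
    intro h h' hh
    have h2 : h⁻¹ * h' ∈ M := QuotientGroup.eq.1 hh
    have h3 := apply_eq_one_of_isIrreducible M hM a.1.2 a.2 _ h2
    have h4 : h' = h * (h⁻¹ * h') := by group
    rw [h4, map_mul, h3, mul_one]
  have := Fintype.ofFinite (H ⧸ M)
  rw [h1, map_sum]
  simp only [Representation.asAlgebraHom_single]
  rw [← Finset.sum_fiberwise_of_maps_to (t := (Finset.univ : Finset (H ⧸ M)))
    (g := fun h => QuotientGroup.mk' M h) (fun _ _ => Finset.mem_univ _)]
  refine Finset.sum_eq_zero fun c _ => ?_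
  have h5 : ∀ h ∈ (Finset.univ : Finset H).filter (fun h => QuotientGroup.mk' M h = c),
      z.coeff h • a.1.2 h = z.coeff h • a.1.2 c.out := by
    intro h hh
    rw [Finset.mem_filter] at hh
    rw [htriv h c.out]
    rw [hh.2]
    exact (Quotient.out_eq' c).symm
  rw [Finset.sum_congr rfl h5, ← Finset.sum_smul]
  have h6 : ∑ h ∈ (Finset.univ : Finset H).filter (fun h => QuotientGroup.mk' M h = c),
      z.coeff h = 0 := by
    have h7 := congrFun hz c
    rw [Pi.zero_apply] at h7
    unfold pushR at h7
    rw [Finset.sum_filter]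
    convert h7
  rw [h6, zero_smul]

/-- homomorphisms of the centre vanish on elements which vanish modulo a normal `p`-subgroup -/
theorem hom_eq_zero (M : Subgroup H) [M.Normal] (hM : IsPGroup p M)
    (μ : Subalgebra.center k (MonoidAlgebra k H) →ₐ[k] k)
    (z : Subalgebra.center k (MonoidAlgebra k H))
    (hz : pushR (QuotientGroup.mk' M) (fun h => z.1.coeff h) = 0) : μ z = 0 := by
  obtain ⟨B, hB, hBl⟩ := homBlockStmt μ
  obtain ⟨a, ha⟩ := exists_inBlock B hB
  obtain ⟨l, hl⟩ := exists_chi a
  rw [hBl, centralChar_eq B hB a ha l hl]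
  have h1 := hl z
  rw [act_eq_zero M hM a z.1 hz] at h1
  have := nontrivial_irrRep a
  have hinj : Function.Injective (algebraMap k (Module.End k (Fin a.1.1 → k))) :=
    FaithfulSMul.algebraMap_injective _ _
  apply hinj
  rw [Algebra.algebraMap_eq_smul_one, ← h1, map_zero]

end Kill

section Res

variable {p : ℕ} [hp : Fact p.Prime] {k : Type*} [Field k] [IsAlgClosed k] [CharP k p]
  {G : Type} [Group G] [Fintype G]

omit [IsAlgClosed k] [CharP k p] hp in
theorem trunc_mem (N : Subgroup G) {z : MonoidAlgebra k G}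
    (hz : z ∈ Subalgebra.center k (MonoidAlgebra k G)) :
    trunc N z ∈ Subalgebra.center k (MonoidAlgebra k N) := by
  rw [P179C.mem_center_iff] at hz ⊢
  intro g x
  beta_reduce
  rw [coeff_trunc, coeff_trunc]
  exact hz g x

/-- the truncation followed by a homomorphism of the centre, for a subgroup `N` between
`Q C(Q)` and `N(Q)` -/
noncomputable def resHom (Q N : Subgroup G) (hQ : IsPGroup p Q) (hQN : Q ≤ N)
    (hNQ : N ≤ normalizer (Q : Set G)) (hC : centralizer (Q : Set G) ≤ N)
    (μ : Subalgebra.center k (MonoidAlgebra k N) →ₐ[k] k) :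
    Subalgebra.center k (MonoidAlgebra k G) →ₐ[k] k :=
  AlgHom.ofLinearMap
    { toFun := fun z => μ ⟨trunc N z.1, trunc_mem N z.2⟩
      map_add' := fun a b => by
        rw [← map_add]
        congr 1
        apply Subtype.ext
        ext h
        change (trunc N (a.1 + b.1)).coeff h = (trunc N a.1 + trunc N b.1).coeff h
        rw [coeff_trunc, MonoidAlgebra.coeff_add, MonoidAlgebra.coeff_add, Finsupp.add_apply,
          Finsupp.add_apply, coeff_trunc, coeff_trunc]
      map_smul' := fun c a => by
        rw [← map_smul]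
        congr 1
        apply Subtype.ext
        ext h
        change (trunc N (c • a.1)).coeff h = (c • trunc N a.1).coeff h
        rw [coeff_trunc, MonoidAlgebra.coeff_smul, MonoidAlgebra.coeff_smul, Finsupp.smul_apply,
          Finsupp.smul_apply, coeff_trunc] }
    (by
      change μ ⟨trunc N (1 : MonoidAlgebra k G), _⟩ = 1
      rw [← map_one μ]
      congr 1
      apply Subtype.ext
      ext h
      change (trunc N (1 : MonoidAlgebra k G)).coeff h = (1 : MonoidAlgebra k N).coeff h
      rw [coeff_trunc, MonoidAlgebra.one_def, MonoidAlgebra.one_def, MonoidAlgebra.coeff_single,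
        MonoidAlgebra.coeff_single, Finsupp.single_apply, Finsupp.single_apply]
      have : (1 : G) = (h : G) ↔ 1 = h := by
        rw [eq_comm, OneMemClass.coe_eq_one, eq_comm]
      simp only [this])
    (fun a b => by
      change μ ⟨trunc N (a.1 * b.1), _⟩ = μ ⟨trunc N a.1, _⟩ * μ ⟨trunc N b.1, _⟩
      rw [← map_mul, ← sub_eq_zero, ← map_sub]
      have hn : (Q.subgroupOf N).Normal := ⟨fun x hx g => by
        rw [mem_subgroupOf] at hx ⊢
        exact (mem_normalizer_iff.1 (hNQ g.2) _).1 hx⟩
      refine hom_eq_zero (p := p) (Q.subgroupOf N)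
        (hQ.of_equiv (subgroupOfEquivOfLe hQN).symm) μ _ ?_
      have h1 := pushR_convH (k := k) Q N hQ hQN hC ((P179C.mem_center_iff _).1 a.2)
        ((P179C.mem_center_iff _).1 b.2)
      funext c
      have h2 := congrFun h1 c
      rw [← sub_eq_zero] at h2
      rw [Pi.zero_apply, ← h2]
      unfold pushR
      rw [← Finset.sum_sub_distrib]
      refine Finset.sum_congr rfl fun n _ => ?_
      by_cases hc : (QuotientGroup.mk' (Q.subgroupOf N)) n = c
      · rw [if_pos hc, if_pos hc, if_pos hc]
        change ((trunc N (a.1 * b.1)) - (trunc N a.1 * trunc N b.1)).coeff n = _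
        rw [MonoidAlgebra.coeff_sub, Finsupp.sub_apply, coeff_trunc, coeff_mul_eq_conv,
          coeff_mul_eq_conv]
        congr 1
        simp only [coeff_trunc]
      · rw [if_neg hc, if_neg hc, if_neg hc, sub_zero])

theorem resHom_apply (Q N : Subgroup G) (hQ : IsPGroup p Q) (hQN : Q ≤ N)
    (hNQ : N ≤ normalizer (Q : Set G)) (hC : centralizer (Q : Set G) ≤ N)
    (μ : Subalgebra.center k (MonoidAlgebra k N) →ₐ[k] k)
    (z : Subalgebra.center k (MonoidAlgebra k G)) :
    resHom Q N hQ hQN hNQ hC μ z = μ ⟨trunc N z.1, trunc_mem N z.2⟩ := rfl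

end Res

end P179N
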