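import Vale.Agent.P179.H166.KN3

/-!
# The Knörr–Robinson sum modulo `p`
-/

namespace P179N

open Subgroup Finset P179H524 P179A P179K P179R P179Y P179C MonoidAlgebra

open P179B (IsNormalChain NChain chainStab)

open scoped Classical Pointwise

universe u

section Fun

variable {p : ℕ} [hp : Fact p.Prime] {G : Type} [Group G] [Finite G]

theorem tau_smul {z : G → ℤ} (hz : IsCF z) (g : G) (s : Finset (Subgroup G)) :
    C2.tau p (res (stab (g • s)) z) = C2.tau p (res (stab s) z) := by
  have h1 := nL_comp (p := p) (stabEquiv g s) (res (stab (g • s)) z)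
  rw [res_stab_smul hz g s, C2.nL_eq_tau p _ (isCF_res _ hz), C2.nL_eq_tau p _ (isCF_res _ hz),
    Nat.card_congr (stabEquiv g s).toEquiv] at h1
  exact (mul_left_cancel₀ (by exact_mod_cast Nat.card_pos.ne') h1).symm

/-- the functional attached to the normal chains -/
noncomputable def TT (p : ℕ) [Fact p.Prime] {G : Type} [Group G] [Finite G]
    [Fintype (Quot (NChain.Conj (p := p) (G := G)))]
    (z : G → ℤ) : ℤ :=
  C2.tau p z + ∑ c : Quot (NChain.Conj (p := p) (G := G)),
    (-1) ^ c.out.1.card * C2.tau p (res (stab c.out.1) z)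

theorem card_mul_TT [Fintype (Quot (NChain.Conj (p := p) (G := G)))] {z : G → ℤ} (hz : IsCF z) :
    (Nat.card G : ℤ) * TT p z = ∑ s ∈ chains p G, (-1 : ℤ) ^ s.card * nL p (res (stab s) z) := by
  have := Fintype.ofFinite (NChain p G)
  rw [sum_normal (p := p) (fun s => nL p (res (stab s) z)) (by
    intro s t h
    change (fun K : Subgroup G => nL p (res K z)) (stab s) =
      (fun K : Subgroup G => nL p (res K z)) (stab t)
    rw [h])]
  have h1 : (chains p G).filter Nml = insert ∅ ((Finset.univ : Finset (NChain p G)).map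
      ⟨Subtype.val, Subtype.val_injective⟩) := by
    ext s
    rw [Finset.mem_filter, mem_chains, Finset.mem_insert, Finset.mem_map]
    constructor
    · rintro ⟨hs, hn⟩
      rcases s.eq_empty_or_nonempty with h | h
      · exact Or.inl h
      · exact Or.inr ⟨⟨s, (isNormalChain_iff s).2 ⟨⟨hs, hn⟩, h⟩⟩, Finset.mem_univ _, rfl⟩
    · rintro (rfl | ⟨t, -, rfl⟩)
      · exact ⟨P179A.isPChain_empty p, fun Q hQ => absurd hQ (Finset.notMem_empty Q)⟩
      · exact ((isNormalChain_iff _).1 t.2).1
  rw [h1, Finset.sum_insert, Finset.sum_map]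
  · have e' : ∃ e : G ≃* stab (∅ : Finset (Subgroup G)), ∀ x, (e x : G) = x := by
      rw [P179A.stab_empty]; exact ⟨topEquiv.symm, fun _ => rfl⟩
    obtain ⟨e, he⟩ := e'
    have h4 : (fun x => res (stab (∅ : Finset (Subgroup G))) z (e x)) = z := by
      ext x
      exact congrArg z (he x)
    rw [Finset.card_empty, pow_zero, one_mul, ← nL_comp e, h4, C2.nL_eq_tau p z hz, TT, mul_add]
    congr 1
    rw [← sum_quot (G := G) (R := ℤ) (NChain.Conj (p := p) (G := G)) conj_iff
      (fun s => (-1 : ℤ) ^ s.1.card * C2.tau p (res (stab s.1) z)) (fun g s => by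
        rw [val_smul, card_smul, tau_smul hz])]
    refine Finset.sum_congr rfl fun s _ => ?_
    rw [stabilizer_nCh]
    change _ = (-1 : ℤ) ^ s.1.card * nL p (res (stab s.1) z)
    rw [C2.nL_eq_tau p _ (isCF_res _ hz)]
    ring
  · rw [Finset.mem_map]
    rintro ⟨t, -, h⟩
    have := t.2.1
    have h2 : (t : Finset (Subgroup G)) = ∅ := h
    rw [h2] at this
    exact Finset.not_nonempty_empty this

theorem TT_dvd [Fintype (Quot (NChain.Conj (p := p) (G := G)))] {z : G → ℤ} (hz : IsCF z)
    (h : ((Nat.card G * p : ℕ) : ℤ) ∣ FF p z) : (p : ℤ) ∣ TT p z := by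
  have h1 := stepL p G z hz
  have h2 : ∑ s ∈ chains p G, (-1 : ℤ) ^ s.card * (nTr (res (stab s) z) - nL p (res (stab s) z)) =
      FF p z - (Nat.card G : ℤ) * TT p z := by
    rw [card_mul_TT hz, FF, ← Finset.sum_sub_distrib]
    exact Finset.sum_congr rfl fun s _ => by ring
  rw [h2] at h1
  have h3 := (Int.dvd_iff_dvd_of_dvd_sub h1).1 h
  push_cast at h3
  exact Int.dvd_of_mul_dvd_mul_left (by exact_mod_cast Nat.card_pos.ne') h3

end Fun

section Homs

variable {p : ℕ} [hp : Fact p.Prime] {k : Type u} [Field k] [IsAlgClosed k] [CharP k p]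
  {G : Type} [Group G]

/-- homomorphisms of the centre at a stabiliser give homomorphisms of the centre -/
theorem exists_res [Fintype G] (s : NChain p G)
    (μ : Subalgebra.center k (MonoidAlgebra k (stab s.1)) →ₐ[k] k) :
    ∃ ν : Subalgebra.center k (MonoidAlgebra k G) →ₐ[k] k,
      ∀ z, ν z = μ ⟨trunc (stab s.1) z.1, trunc_mem _ z.2⟩ := by
  have hs := (isNormalChain_iff s.1).1 s.2
  obtain ⟨M, hM, hmax⟩ := exists_largest hs.1.1.2 hs.2
  refine ⟨resHom (p := p) M (stab s.1) (hs.1.1.1 M hM).1 ?_ ?_ ?_ μ, fun z => rfl⟩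
  · rw [le_stab]
    exact fun Q hQ => hs.1.2 Q hQ M hM
  · intro x hx
    exact mem_stab.1 hx M hM
  · intro x hx
    rw [mem_stab]
    intro Q hQ
    have hxc : ∀ q ∈ Q, q * x = x * q := fun q hq => mem_centralizer_iff.1 hx q (hmax Q hQ hq)
    rw [mem_normalizer_iff]
    intro y
    constructor
    · intro hy
      rw [← hxc y hy, mul_inv_cancel_right]
      exact hy
    · intro hy
      have h2 := hxc _ hy
      have h3 : x * y = x * (x * y * x⁻¹) := by
        rw [← h2, mul_assoc, inv_mul_cancel, mul_one]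
      rw [mul_left_cancel h3]
      exact hy

variable [Finite G]

/-- the simple modules in the blocks `b` with `b^G = B` are those on which the truncation of `B`
acts as the identity -/
theorem numSimpleOver_eq {B : MonoidAlgebra k G} (hB : IsBlock B) (s : NChain p G) :
    P179B.numSimpleOver (chainStab s.1) B = numSimpleIn (trunc (stab s.1) B) := by
  have := Fintype.ofFinite G
  have hst : chainStab s.1 = stab s.1 := rfl
  rw [hst]
  refine P179B.quot_aux IrrRep.Iso _ _ (funext fun a => propext ?_)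
  have htr : ∀ z : MonoidAlgebra k G, P179B.trunc (stab s.1) z = trunc (stab s.1) z := fun _ => rfl
  have hI : ∀ b : MonoidAlgebra k (stab s.1), P179B.InducesTo b B ↔ InducesTo b B := by
    intro b
    unfold P179B.InducesTo InducesTo
    simp only [P179B.centralChar_eq, htr]
  obtain ⟨L, hL⟩ := exists_chi a
  have hone : ∀ c : k, (c • 1 : Module.End k (Fin a.1.1 → k)) = 1 ↔ c = 1 := by
    intro c
    have := nontrivial_irrRep a
    have hinj : Function.Injective (algebraMap k (Module.End k (Fin a.1.1 → k))) :=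
      FaithfulSMul.algebraMap_injective _ _
    constructor
    · intro h
      apply hinj
      rw [Algebra.algebraMap_eq_smul_one, h, map_one]
    · rintro rfl
      exact one_smul _ _
  have hin : ∀ z : Subalgebra.center k (MonoidAlgebra k (stab s.1)), InBlock a z.1 ↔ L z = 1 := by
    intro z
    unfold InBlock
    rw [hL z, hone]
  refine Iff.trans ?_ (hin ⟨_, trunc_mem (stab s.1) hB.1⟩).symm
  constructor
  · rintro ⟨b, hb, hab, hbB⟩
    rw [P179B.inBlock_eq] at hab
    rw [hI] at hbB
    have hb' : IsBlock b := hb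
    rw [← centralChar_eq b hb' a hab L hL]
    exact (hbB B hB.1).trans (centralChar_self B hB)
  · intro h
    obtain ⟨b, hb, hbl⟩ := homBlockStmt L
    refine ⟨b, hb, ?_, ?_⟩
    · rw [P179B.inBlock_eq, hin ⟨b, hb.1⟩, hbl]
      exact centralChar_self b hb
    · rw [hI]
      intro z hz
      obtain ⟨ν, hν⟩ := exists_res (p := p) s L
      obtain ⟨LB, hLB⟩ := blockHomStmt B hB
      have hprim := (isBlock_iff_prim ⟨B, hB.1⟩).1 hB
      have h1 : ν = LB := by
        refine eq_of_prim hprim ν LB ?_ ?_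
        · rw [hν]
          exact h
        · rw [hLB]
          exact centralChar_self B hB
      have h2 := hν ⟨z, hz⟩
      rw [h1, hLB, hbl] at h2
      exact h2.symm

/-- the linear functional of the normal chains on the centre of the group algebra -/
theorem exists_Phi [Fintype (Quot (NChain.Conj (p := p) (G := G)))] {B : MonoidAlgebra k G}
    (hB : IsBlock B) : ∃ Φ : Subalgebra.center k (MonoidAlgebra k G) →ₗ[k] k,
      (∀ (z : G → ℤ) (Z : Subalgebra.center k (MonoidAlgebra k G)),
        (∀ g, Z.1.coeff g = (z g : k)) → Φ Z = ((TT p z : ℤ) : k)) ∧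
      ∀ c : Subalgebra.center k (MonoidAlgebra k G),
        Φ (⟨B, hB.1⟩ * c) = ((P179B.krSum p B : ℤ) : k) * centralChar B c.1 := by
  have := Fintype.ofFinite G
  obtain ⟨r0, μ0, h01, h02⟩ := exists_L p (k := k) (G := G)
  have hL := fun q : Quot (NChain.Conj (p := p) (G := G)) =>
    exists_L p (k := k) (G := stab q.out.1)
  choose r μ hμ1 hμ2 using hL
  have hR := fun (q : Quot (NChain.Conj (p := p) (G := G))) (i : Fin (r q)) =>
    exists_res (p := p) q.out (μ q i)
  choose ν hν using hR
  let Φ : Subalgebra.center k (MonoidAlgebra k G) →ₗ[k] k :=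
    ∑ i, (μ0 i).toLinearMap + ∑ q : Quot (NChain.Conj (p := p) (G := G)),
      ((-1 : k) ^ q.out.1.card) • ∑ i, (ν q i).toLinearMap
  have hΦ : ∀ Z, Φ Z = ∑ i, μ0 i Z + ∑ q : Quot (NChain.Conj (p := p) (G := G)),
      (-1 : k) ^ q.out.1.card * ∑ i, ν q i Z := by
    intro Z
    simp only [Φ, LinearMap.add_apply, LinearMap.sum_apply, LinearMap.smul_apply, smul_eq_mul,
      AlgHom.toLinearMap_apply]
  refine ⟨Φ, ?_, ?_⟩
  · intro z Z hZ
    rw [hΦ, TT]
    push_cast
    rw [h02 z Z hZ]
    congr 1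
    refine Finset.sum_congr rfl fun q _ => ?_
    rw [hμ2 q (res (stab q.out.1) z) ⟨_, trunc_mem (stab q.out.1) Z.2⟩ (fun g => by
      rw [coeff_trunc, hZ]; rfl)]
    congr 1
    exact Finset.sum_congr rfl fun i _ => hν q i Z
  · intro c
    rw [hΦ, P179B.krSum, finsum_eq_sum_of_fintype]
    push_cast
    rw [add_mul, Finset.sum_mul, P179B.numSimpleIn_eq]
    congr 1
    · rw [sum_homs_block μ0 hB c, h01 B hB.1]
    · refine Finset.sum_congr rfl fun q _ => ?_
      rw [sum_homs_block (ν q) hB c, numSimpleOver_eq hB q.out,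
        hμ1 q _ (trunc_mem (stab q.out.1) hB.1), mul_assoc]
      simp only [hν]

omit [IsAlgClosed k] [CharP k p] hp in
theorem eq_sum_center [Fintype (ConjClasses G)] (F : Subalgebra.center k (MonoidAlgebra k G)) :
    F = ∑ C : ConjClasses G, F.1.coeff C.out • (⟨classSum k C.out, classSum_mem_center _⟩ :
        Subalgebra.center k (MonoidAlgebra k G)) := by
  have := Fintype.ofFinite G
  apply Subtype.ext
  push_cast
  exact eq_sum_classSum F.1 F.2

omit [IsAlgClosed k] [CharP k p] hp in
theorem coeff_classSum_out (C : ConjClasses G) (g : G) :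
    (classSum k C.out).coeff g = ((ind C g : ℤ) : k) := by
  rw [coeff_classSum, show ConjClasses.mk C.out = C from Quot.out_eq C]

/-- **Theorem KR**, for a block with the criterion `NewAt` at its defect group. -/
theorem kr_main {B : MonoidAlgebra k G} (hB : IsBlock B) {D : Subgroup G}
    (hD : IsDefectGroup B D) (hnew : ∀ [Fintype G], NewAt p D) : (p : ℤ) ∣ P179B.krSum p B := by
  have := Fintype.ofFinite G
  have := Fintype.ofFinite (ConjClasses G)
  have := Fintype.ofFinite (Quot (NChain.Conj (p := p) (G := G)))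
  obtain ⟨c, hc, hcB, hdvd⟩ := exists_mul_dvd hB hD (hnew)
  obtain ⟨Φ, hΦ1, hΦ2⟩ := exists_Phi (p := p) hB
  have hΦ0 : Φ (⟨B, hB.1⟩ * ⟨c, hc⟩) = 0 := by
    rw [eq_sum_center (⟨B, hB.1⟩ * ⟨c, hc⟩), map_sum]
    refine Finset.sum_eq_zero fun C _ => ?_
    rw [map_smul]
    change (B * c).coeff C.out • _ = (0 : k)
    by_cases h0 : (B * c).coeff C.out = 0
    · rw [h0, zero_smul]
    · rw [hΦ1 (ind C) _ (fun g => coeff_classSum_out C g)]
      have h2 := TT_dvd (isCF_ind C) (hdvd C h0)
      rw [(CharP.intCast_eq_zero_iff k p _).2 h2, smul_zero]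
  rw [hΦ2 ⟨c, hc⟩] at hΦ0
  rcases mul_eq_zero.1 hΦ0 with h | h
  · exact (CharP.intCast_eq_zero_iff k p _).1 h
  · exact absurd h hcB

end Homs

end P179N
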