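import Vale.Agent.P179.H166.KN4

/-!
# The Knörr–Robinson congruence and the blockwise weight conjecture modulo `p`
-/

namespace P179N

open Subgroup Finset P179H524 P179A P179K P179R P179Y P179C MonoidAlgebra

open P179B (IsNormalChain NChain chainStab)

open scoped Classical Pointwise

universe u

section

variable {p : ℕ} [hp : Fact p.Prime] {G : Type} [Group G] [Finite G]

omit hp [Finite G] in
theorem nL_empty {z : G → ℤ} : nL p (res (stab (∅ : Finset (Subgroup G))) z) = nL p z ∧
    nW p (res (stab (∅ : Finset (Subgroup G))) z) = nW p z := by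
  have e' : ∃ e : G ≃* stab (∅ : Finset (Subgroup G)), ∀ x, (e x : G) = x := by
    rw [P179A.stab_empty]; exact ⟨topEquiv.symm, fun _ => rfl⟩
  obtain ⟨e, he⟩ := e'
  have h4 : (fun x => res (stab (∅ : Finset (Subgroup G))) z (e x)) = z := by
    ext x
    exact congrArg z (he x)
  constructor
  · rw [← nL_comp e, h4]
  · rw [← nW_comp e, h4]

/-- if the congruence holds at the stabilisers of the nonempty chains, then the value of the
functional is congruent to the difference -/
theorem TT_cong [Fintype (Quot (NChain.Conj (p := p) (G := G)))] (O : ValuationSubring ℂ)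
    [CharP (IsLocalRing.ResidueField O) p] {z : G → ℤ} (hz : IsCF z)
    (hcong : ∀ s : Finset (Subgroup G), IsPChain p s → s.Nonempty →
      Cong O (Nat.card (stab s)) (nL p (res (stab s) z)) (nW p (res (stab s) z)))
    (hdz : Cong O 1 (dz p z) 0) :
    O.valuation ((TT p z : ℂ) - ((C2.tau p z : ℂ) - nW p z / Nat.card G)) < 1 := by
  have := Fintype.ofFinite (neChains p G)
  have hG0 : (Nat.card G : ℂ) ≠ 0 := by exact_mod_cast Nat.card_pos.ne'
  have hF : O.valuation ((∑ s : neChains p G, (-1 : ℂ) ^ s.1.card *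
      ((nL p (res (stab s.1) z) : ℂ) - nW p (res (stab s.1) z))) / Nat.card G) < 1 := by
    refine orb_sum_val O (fun s : neChains p G => (-1 : ℂ) ^ s.1.card *
      ((nL p (res (stab s.1) z) : ℂ) - nW p (res (stab s.1) z))) ?_ ?_
    · intro g s
      have key : ∀ t : Finset (Subgroup G), (-1 : ℂ) ^ (g • t).card *
          ((nL p (res (stab (g • t)) z) : ℂ) - nW p (res (stab (g • t)) z)) =
          (-1 : ℂ) ^ t.card * ((nL p (res (stab t) z) : ℂ) - nW p (res (stab t) z)) := by
        intro t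
        rw [card_smul, ← nL_comp (stabEquiv g t), ← nW_comp (stabEquiv g t),
          res_stab_smul hz g t]
      exact key s.1
    · intro s
      rw [stabilizer_neChains, mul_div_assoc, map_mul, map_pow]
      have h3 : O.valuation (-1 : ℂ) = 1 := by rw [Valuation.map_neg, map_one]
      rw [h3, one_pow, one_mul]
      exact hcong s.1 s.2.1 s.2.2
  have h1 := congrArg (Int.cast : ℤ → ℂ) (card_mul_TT (p := p) hz)
  have h2 := KR_W p z hz
  have h1' : (Nat.card G : ℂ) * (TT p z : ℂ) =
      ∑ s ∈ chains p G, (-1 : ℂ) ^ s.card * (nL p (res (stab s) z) : ℂ) := by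
    push_cast at h1
    exact h1
  rw [sum_chains_eq', nL_empty.1, Finset.card_empty, pow_zero, one_mul, C2.nL_eq_tau p z hz] at h1'
  rw [sum_chains_eq', nL_empty.2, Finset.card_empty, pow_zero, one_mul] at h2
  have h5 : (TT p z : ℂ) - ((C2.tau p z : ℂ) - nW p z / Nat.card G) =
      (∑ s : neChains p G, (-1 : ℂ) ^ s.1.card *
        ((nL p (res (stab s.1) z) : ℂ) - nW p (res (stab s.1) z))) / Nat.card G + dz p z := by
    have h6 : ∑ s : neChains p G, (-1 : ℂ) ^ s.1.card *
        ((nL p (res (stab s.1) z) : ℂ) - nW p (res (stab s.1) z)) =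
        ((Nat.card G : ℂ) * (TT p z : ℂ) - Nat.card G * C2.tau p z) -
        (Nat.card G * dz p z - nW p z) := by
      rw [h1', ← h2]
      push_cast
      simp only [mul_sub, Finset.sum_sub_distrib]
      ring
    rw [h6]
    field_simp
    ring
  rw [h5]
  unfold Cong at hdz
  rw [Nat.cast_one, div_one, sub_zero] at hdz
  exact O.valuation.map_add_lt hF hdz

variable {k : Type u} [Field k] [IsAlgClosed k] [CharP k p] (red : integralClosure ℤ ℂ →+* k)

/-- **The Knörr–Robinson sum of a block is `l(B) - |W_p(B)|` modulo `p`** if the congruence of the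
weight conjecture holds at the stabilisers of the nonempty chains. -/
theorem krSum_eq (O : ValuationSubring ℂ) [CharP (IsLocalRing.ResidueField O) p]
    (hred : ∀ (a : ℂ) (ha : a ∈ integralClosure ℤ ℂ), O.valuation a < 1 ↔ red ⟨a, ha⟩ = 0)
    {B : MonoidAlgebra k G} (hB : IsBlock B) {D : Subgroup G} (hD : IsDefectGroup B D)
    (hD1 : D ≠ ⊥)
    (hcong : ∀ s : Finset (Subgroup G), IsPChain p s → s.Nonempty → ∀ z : stab s → ℤ, IsCF z →
      Cong O (Nat.card (stab s)) (nL p z) (nW p z)) :
    ((P179B.krSum p B : ℤ) : k) = (numSimpleIn B : k) - numWeightsIn p red B := by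
  have := Fintype.ofFinite G
  have := Fintype.ofFinite (ConjClasses G)
  have := Fintype.ofFinite (Quot (NChain.Conj (p := p) (G := G)))
  have := Fintype.ofFinite (Quot (P179H524.Weight.Conj (p := p) (G := G)))
  -- the class
  obtain ⟨x, l, hl, hlz, hBx, hlx, hSyl, hxreg⟩ := exists_elt_of_block (p := p) hB hD
  have hDp : IsPGroup p D := hSyl.pgp
  obtain ⟨v, hv, hv1, hvc⟩ : ∃ v ∈ D, v ≠ 1 ∧ ∀ a ∈ D, a * v = v * a := by
    have hnt : Nontrivial D := (Subgroup.nontrivial_iff_ne_bot D).2 hD1
    have hc := hDp.center_nontrivial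
    obtain ⟨v, hv⟩ := exists_ne (1 : center D)
    refine ⟨(v : D), (v : D).2, ?_, ?_⟩
    · intro h
      exact hv (Subtype.ext (Subtype.ext h))
    · intro a ha
      exact congrArg Subtype.val (mem_center_iff.1 v.2 ⟨a, ha⟩)
  have hvp : ∃ n : ℕ, v ^ p ^ n = 1 := by
    obtain ⟨a, ha⟩ := hDp ⟨v, hv⟩
    exact ⟨a, congrArg Subtype.val ha⟩
  have hxv : Commute x v := (mem_centralizer_singleton_iff.1 (hSyl.le hv)).symm
  have hb : IsCF (fun g => B.coeff g) := (P179C.mem_center_iff _).1 hB.1
  have hbb : conv (fun g => B.coeff g) (fun g => B.coeff g) = fun g => B.coeff g := by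
    funext g
    rw [← coeff_mul_eq_conv, hB.2.1]
  have hc := mkF_mem (isCF_cls (k := k) (x * v))
  obtain ⟨n', hn', hln⟩ := BP.cls_mul hl hSyl hxreg hv hvc
  have hcB : centralChar B (mkF (cls k (x * v))) ≠ 0 := by
    rw [← hlz _ (isCF_cls _), hln]
    refine mul_ne_zero ?_ hlx
    rwa [Ne, CharP.cast_eq_zero_iff k p]
  obtain ⟨Φ, hΦ1, hΦ2⟩ := exists_Phi (p := p) hB
  obtain ⟨r, μ, hμ1, hμ2⟩ := exists_L p (k := k) (G := G)
  let F : Subalgebra.center k (MonoidAlgebra k G) := ⟨B, hB.1⟩ * ⟨_, hc⟩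
  have key : Φ F = ∑ i, μ i F - ∑ q : Quot (P179H524.Weight.Conj (p := p) (G := G)),
      mu p red q.out F := by
    rw [eq_sum_center F]
    simp only [map_sum, map_smul, smul_eq_mul]
    rw [Finset.sum_comm (s := (Finset.univ : Finset (Fin r))), Finset.sum_comm (s := (Finset.univ :
      Finset (Quot (P179H524.Weight.Conj (p := p) (G := G))))), ← Finset.sum_sub_distrib]
    refine Finset.sum_congr rfl fun C _ => ?_
    rw [← Finset.mul_sum, ← Finset.mul_sum, ← mul_sub]
    by_cases hC : F.1.coeff C.out = 0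
    · rw [hC, zero_mul, zero_mul]
    · congr 1
      have hC' : (B * mkF (cls k (x * v))).coeff C.out ≠ 0 := hC
      have hy : ∀ y, ind C y ≠ 0 → conv (fun g => B.coeff g) (cls k (x * v)) y ≠ 0 := by
        intro y hy
        have h1 := out_of_ind (mul_mem hB.1 hc) hC' hy
        rw [coeff_mul_eq_conv] at h1
        simpa only [coeff_mkF] using h1
      have hdz := P179C.dz_sing p O (ind C) (isCF_ind C) (fun y hy' => by
        by_contra hyreg
        have hbot : IsPGroup p (⊥ : Subgroup G) := IsPGroup.of_bot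
        obtain ⟨s, hs1, -⟩ := supp_mul_cls (p := p) hb hbb hxreg hvp hxv
          (SylCent.mul_central hSyl hv hvc hxreg) (hy y hy') ⊥ hbot bot_le
        rw [pr_of_regular hyreg, mul_inv_cancel, mul_one, inv_mul_cancel] at hs1
        exact hv1 hs1.symm)
      have hT := TT_cong (p := p) O (isCF_ind C) (fun s hs hne =>
        hcong s hs hne _ (isCF_res _ (isCF_ind C))) hdz
      have hint : nW p (ind C) / Nat.card G ∈ integralClosure ℤ ℂ := isIntegral_nW' (isCF_ind C)
      have h4 : ((C2.tau p (ind C) : ℤ) : ℂ) ∈ integralClosure ℤ ℂ := intCast_mem _ _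
      have h5 : ((TT p (ind C) : ℤ) : ℂ) ∈ integralClosure ℤ ℂ := intCast_mem _ _
      rw [hred _ (sub_mem h5 (sub_mem h4 hint))] at hT
      have h6 : (⟨(TT p (ind C) : ℂ) - ((C2.tau p (ind C) : ℂ) - nW p (ind C) / Nat.card G),
          sub_mem h5 (sub_mem h4 hint)⟩ : integralClosure ℤ ℂ) =
          ((TT p (ind C) : ℤ) : integralClosure ℤ ℂ) -
          (((C2.tau p (ind C) : ℤ) : integralClosure ℤ ℂ) - ⟨nW p (ind C) / Nat.card G, hint⟩) := rfl
      have hZ : ∀ g, (⟨classSum k C.out, classSum_mem_center C.out⟩ :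
          Subalgebra.center k (MonoidAlgebra k G)).1.coeff g = ((ind C g : ℤ) : k) :=
        fun g => coeff_classSum_out C g
      rw [h6, map_sub, map_sub, map_intCast, map_intCast, sub_eq_zero, hμ2 (ind C) _ hZ,
        ← redC_of_mem red hint, redC_nW p red (isCF_ind C) _ hZ] at hT
      rw [hΦ1 (ind C) _ hZ, hT]
  have h1 := hΦ2 ⟨_, hc⟩
  have h2 := sum_homs_block μ hB ⟨_, hc⟩
  have h3 := sum_homs_block (fun q : Quot (P179H524.Weight.Conj (p := p) (G := G)) =>
      mu p red q.out) hB ⟨_, hc⟩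
  have h4 : ((P179B.krSum p B : ℤ) : k) * centralChar B (mkF (cls k (x * v))) =
      (Nat.card {i // μ i ⟨B, hB.1⟩ = 1} : k) * centralChar B (mkF (cls k (x * v))) -
      (Nat.card {q : Quot (P179H524.Weight.Conj (p := p) (G := G)) //
        mu p red q.out ⟨B, hB.1⟩ = 1} : k) * centralChar B (mkF (cls k (x * v))) := by
    rw [← h2, ← h3, ← h1]
    exact key
  rw [← sub_mul] at h4
  have h5 := mul_right_cancel₀ hcB h4
  rw [← hμ1 B hB.1, ← numWc_eq_card p red hB.1, ← numWeightsIn_eq_numWc p red hB] at h5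
  exact h5

end

end P179N
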