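import Vale.Agent.P179.H166.KN5

/-!
# The Knörr–Robinson congruence: the theorem, and its relation to the weight conjecture
-/

namespace P179B

open Subgroup P179H524

universe u

variable {p : ℕ} [hp : Fact p.Prime] {k : Type u} [Field k] [IsAlgClosed k] [CharP k p]

omit hp in
theorem goodSection_bot {G : Type} [Group G] : GoodSection p (⊥ : Subgroup G) :=
  Or.inl inferInstance

/-- **Theorem KR.** The Knörr–Robinson congruence for blocks with good nontrivial defect
groups. -/
theorem theoremKR {G : Type} [Group G] [Finite G] {B : MonoidAlgebra k G} (hB : IsBlock B)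
    {D : Subgroup G} (hD : IsDefectGroup B D) (hD1 : D ≠ ⊥) (h : GoodSection p D) :
    (p : ℤ) ∣ krSum p B := by
  have hD' : P179C.IsDefectGroup B D := hD
  refine P179N.kr_main (p := p) hB hD' ?_
  intro _
  rcases crit_of_goodSection h with h1 | h1
  · have hDp : IsPGroup p D := (P179Y.exists_BP_of_block (p := p) B hB D hD').1
    exact P179N.newAt_of_oldAt hDp hD1 h1
  · exact h1

variable {red : integralClosure ℤ ℂ →+* k} {𝒞 : ∀ (G : Type) [Group G], Prop}

/-- the sum is `l(B) - |W_p(B)|` modulo `p`, if the weight conjecture modulo `p` holds for the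
stabilisers of the nonempty chains -/
theorem krSum_dvd_iff {G : Type} [Group G] [Finite G] {B : MonoidAlgebra k G} (hB : IsBlock B)
    {D : Subgroup G} (hD : IsDefectGroup B D) (hD1 : D ≠ ⊥)
    (h : ∀ s : Finset (Subgroup G), P179A.IsPChain p s → s.Nonempty →
      ∀ B' : MonoidAlgebra k (P179A.stab s), IsBlock B' →
        numSimpleIn B' ≡ numWeightsIn p red B' [MOD p]) :
    (p : ℤ) ∣ krSum p B ↔ numSimpleIn B ≡ numWeightsIn p red B [MOD p] := by
  obtain ⟨O, hO, hred⟩ := P179C.exists_O p red
  have hD' : P179C.IsDefectGroup B D := hD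
  have h1 := P179N.krSum_eq (p := p) red O hred hB hD' hD1 (fun s hs hne z hz => by
    obtain ⟨Z, hZ⟩ := P179R.exists_central k hz
    refine P179C.cong_of_blocks' p red O hred hz Z hZ fun B' hB' _ => ?_
    have := h s hs hne B' hB'
    rwa [numSimpleIn_eq, numWeightsIn_eq] at this)
  rw [numSimpleIn_eq, numWeightsIn_eq, ← CharP.natCast_eq_natCast k p, ← sub_eq_zero, ← h1,
    CharP.intCast_eq_zero_iff k p]

theorem krMod_of_mod (h𝒞 : SectionClosed p 𝒞) (h : WeightConjMod p red 𝒞) : KRMod p k 𝒞 := by
  intro G _ _ hG B hB D hD hD1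
  rw [krSum_dvd_iff (red := red) hB hD hD1 fun s _ _ B' hB' => h _ (h𝒞.1 G _ hG) B' hB']
  exact h G hG B hB

theorem mod_of_krModExc (h𝒞 : SectionClosed p 𝒞) (h : KRModExc p k 𝒞) :
    WeightConjMod p red 𝒞 := by
  have key : ∀ n : ℕ, WeightConjMod p red (fun (G : Type) [Group G] => 𝒞 G ∧ Nat.card G ≤ n) := by
    intro n
    induction n with
    | zero =>
      intro G _ _ hG
      exact absurd hG.2 (by have : 0 < Nat.card G := Nat.card_pos; omega)
    | succ n ih =>
      refine weightConjMod_of_exc ?_ ?_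
      · refine ⟨fun G _ _ H hG => ⟨h𝒞.1 G H hG.1, (card_le_card_group H).trans hG.2⟩,
          fun G _ _ N _ hN hG => ⟨h𝒞.2 G N hN hG.1, ?_⟩⟩
        exact (Nat.card_le_card_of_surjective _ (QuotientGroup.mk'_surjective N)).trans hG.2
      · intro G _ _ hG hO B hB D hD hgood
        have hD1 : D ≠ ⊥ := by
          rintro rfl
          exact hgood goodSection_bot
        refine (krSum_dvd_iff (red := red) hB hD hD1 fun s hs hne B' hB' => ?_).1
          (h G hG.1 hO B hB D hD hgood)
        have hlt := P179C.card_stab_lt p hO hs hne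
        exact ih _ ⟨h𝒞.1 G _ hG.1, by have := hG.2; omega⟩ B' hB'
  intro G _ _ hG B hB
  exact key (Nat.card G) G ⟨hG, le_rfl⟩ B hB

end P179B
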