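import Vale.Agent.P179.H166.WB5
import Vale.Agent.P179.H905.WA2

/-!
# Theorem R, weights of `G ≀ C_p`: types A and B together
-/

namespace P179R

open P179H524 P179C P179A P179P Finset Subgroup RegularWreathProduct

section Glue

/-- classes of an equivalence relation, split by an invariant predicate -/
theorem card_quot_split {X : Type*} [Finite X] (R : X → X → Prop) (hR : Equivalence R)
    (S T : X → Prop) (hT : ∀ a b, R a b → (T a ↔ T b)) :
    Nat.card (Quot fun a b : {x // S x} => R a.1 b.1) =
      Nat.card (Quot fun a b : {x // S x ∧ T x} => R a.1 b.1) +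
      Nat.card (Quot fun a b : {x // S x ∧ ¬ T x} => R a.1 b.1) := by
  classical
  have hE : ∀ U : X → Prop, Equivalence (fun a b : {x // U x} => R a.1 b.1) := fun U =>
    ⟨fun a => hR.refl _, fun h => hR.symm h, fun h h' => hR.trans h h'⟩
  rw [← Nat.card_sum]
  symm
  let F : (Quot fun a b : {x // S x ∧ T x} => R a.1 b.1) ⊕
      (Quot fun a b : {x // S x ∧ ¬ T x} => R a.1 b.1) →
      Quot fun a b : {x // S x} => R a.1 b.1 :=
    Sum.elim (Quot.map (fun a => ⟨a.1, a.2.1⟩) fun _ _ h => h)
      (Quot.map (fun a => ⟨a.1, a.2.1⟩) fun _ _ h => h)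
  refine Nat.card_congr (Equiv.ofBijective F ⟨?_, ?_⟩)
  · rintro (a | a) (b | b) h
    · induction a using Quot.ind with | mk a =>
      induction b using Quot.ind with | mk b =>
      exact congrArg Sum.inl (Quot.sound (((hE S).quot_mk_eq_iff _ _).1 h))
    · induction a using Quot.ind with | mk a =>
      induction b using Quot.ind with | mk b =>
      exact absurd ((hT _ _ (((hE S).quot_mk_eq_iff _ _).1 h)).1 a.2.2) b.2.2
    · induction a using Quot.ind with | mk a =>
      induction b using Quot.ind with | mk b =>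
      exact absurd ((hT _ _ (((hE S).quot_mk_eq_iff _ _).1 h)).2 b.2.2) a.2.2
    · induction a using Quot.ind with | mk a =>
      induction b using Quot.ind with | mk b =>
      exact congrArg Sum.inr (Quot.sound (((hE S).quot_mk_eq_iff _ _).1 h))
  · intro x
    induction x using Quot.ind with | mk x =>
    by_cases h : T x.1
    · exact ⟨Sum.inl (Quot.mk _ ⟨x.1, x.2, h⟩), rfl⟩
    · exact ⟨Sum.inr (Quot.mk _ ⟨x.1, x.2, h⟩), rfl⟩

end Glue

section Main

variable {p : ℕ} [hp : Fact p.Prime] {k : Type*} [Field k] [CharP k p]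
  {red : integralClosure ℤ ℂ →+* k} {G : Type} [Group G] [Fintype G] {Q : Type} [Group Q]
  [Fintype Q]

omit hp [Fintype G] [Fintype Q] in
theorem le_range_iff_of_rel {a b : WF p (G ≀ᵣ Q)} (h : WF.Rel a b) :
    a.R ≤ (incl G Q).range ↔ b.R ≤ (incl G Q).range := by
  have hN : (incl G Q).range.Normal := incl_normal
  have key : ∀ a b : WF p (G ≀ᵣ Q), WF.Rel a b → a.R ≤ (incl G Q).range →
      b.R ≤ (incl G Q).range := by
    rintro a b ⟨g, h1, -⟩ h x hx
    have h2 := hN.conj_mem _ (h ((h1 x).1 hx)) g
    have h3 : g * (g⁻¹ * x * g) * g⁻¹ = x := by group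
    rwa [h3] at h2
  exact ⟨key a b h, key b a (relB_symm h)⟩

/-- the weights of `G ≀ C_p` in `e ⊗ ... ⊗ e` of types A and B -/
theorem numW_ehat_split (hQ : Nat.card Q = p) {red2 : integralClosure ℤ ℂ →+* k}
    (h : ∀ x, red2 x ^ p = red x) {e : MonoidAlgebra k G}
    (he : e ∈ Subalgebra.center k (MonoidAlgebra k G)) (hee : e * e = e) :
    numW p red (ehat Q e) =
      Nat.card (Quot fun a b : {w : WF p (G ≀ᵣ Q) // w.In red (ehat Q e) ∧
        w.R ≤ (incl G Q).range} => WF.Rel a.1 b.1) + numW p red2 e := by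
  have hfin : Finite (WF p (G ≀ᵣ Q)) := inferInstance
  rw [← card_typeB h hQ he hee, numW]
  exact card_quot_split WF.Rel relB_equivalence (fun w => w.In red (ehat Q e))
    (fun w => w.R ≤ (incl G Q).range) fun a b hab => le_range_iff_of_rel hab

end Main

section Frob

universe u

variable {p : ℕ} [hp : Fact p.Prime] {k : Type u} [Field k] [IsAlgClosed k] [CharP k p]

theorem frob_symm_pow (red : integralClosure ℤ ℂ →+* k) (x : integralClosure ℤ ℂ) :
    (((frobeniusEquiv k p).symm : k →+* k).comp red) x ^ p = red x := by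
  change (frobeniusEquiv k p).symm (red x) ^ p = red x
  exact frobeniusEquiv_symm_pow_p k p (red x)

/-- **the number of classes of weights of `G ≀ C_p` in `e ⊗ ... ⊗ e`** -/
theorem numW_wr (red : integralClosure ℤ ℂ →+* k) {G : Type} [Group G] [Finite G] {Q : Type}
    [Group Q] [Fintype Q] (hQ : Nat.card Q = p) {e : MonoidAlgebra k G}
    (he : e ∈ Subalgebra.center k (MonoidAlgebra k G)) (hee : e * e = e) :
    p * numW p red (ehat Q e) + numW p red e =
      numW p red e ^ p + p * numW p (((frobeniusEquiv k p).symm : k →+* k).comp red) e := by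
  have := Fintype.ofFinite G
  rw [numW_ehat_split hQ (frob_symm_pow red) he hee, ← card_typeA red hQ he hee, mul_add]
  have h1 : Nat.card (Quot fun a b : {w : WF p (G ≀ᵣ Q) // w.In red (ehat Q e) ∧
        w.R ≤ (incl G Q).range} => WF.Rel a.1 b.1) =
      Nat.card (Quot fun a b : {w : WF p (G ≀ᵣ Q) // w.R ≤ (incl G Q).range ∧
        w.In red (ehat Q e)} => WF.Rel a.1 b.1) :=
    Nat.card_congr (Quot.congr (Equiv.subtypeEquivRight fun w => and_comm) fun a b => Iff.rfl)
  rw [h1]
  ring

theorem wrStmt : WrStmt p k := fun red _ _ _ _ _ _ hQ _ he hee => numW_wr red hQ he hee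

end Frob

end P179R
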