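import Vale.Agent.P179.H166.KN6
import Vale.Agent.P179.H143.RFinal2
import Vale.Agent.P179.H166.WG

/-!
# The Knörr–Robinson congruence: the final theorem
-/

namespace P179B

open Subgroup P179H524

universe u

variable {p : ℕ} [hp : Fact p.Prime] {k : Type u} [Field k] [IsAlgClosed k] [CharP k p]

/-- the weight conjecture and the Knörr–Robinson congruence -/
theorem tfae_KR (red : integralClosure ℤ ℂ →+* k) (𝒞 : ∀ (G : Type) [Group G], Prop)
    (hW : WreathClosed p 𝒞) (h𝒞 : SectionClosed p 𝒞) :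
    List.TFAE [WeightConj p red 𝒞, WeightConjMod p red 𝒞, KRMod p k 𝒞, KRModExc p k 𝒞] := by
  have h := (theoremR_final2 p P179R.wrStmt).2 red 𝒞 hW h𝒞
  tfae_have 1 ↔ 2 := h.out 0 1
  tfae_have 2 → 3 := krMod_of_mod h𝒞
  tfae_have 3 → 4 := fun h G _ _ hG _ B hB D hD hgood => h G hG B hB D hD (by
    rintro rfl
    exact hgood goodSection_bot)
  tfae_have 4 → 2 := mod_of_krModExc h𝒞
  tfae_finish

end P179B
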