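import Vale.Agent.P179.H166.KN5

/-!
# The Knörr–Robinson sum modulo `p` and the local blocks below `B`
-/

namespace P179N

open Subgroup Finset P179H524 P179A P179K P179R P179Y P179C MonoidAlgebra

open P179B (IsNormalChain NChain chainStab)

open scoped Classical Pointwise

universe u

section

variable {p : ℕ} [hp : Fact p.Prime] {G : Type} [Group G] [Finite G]

/-- the sum over the chains equals the sum over the normal chains, complex form -/
theorem sum_normalC (f : Finset (Subgroup G) → ℂ)
    (hf : ∀ s t : Finset (Subgroup G), stab s = stab t → f s = f t) :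
    ∑ s ∈ chains p G, (-1 : ℂ) ^ s.card * f s =
      ∑ s ∈ (chains p G).filter Nml, (-1 : ℂ) ^ s.card * f s := by
  rw [← Finset.sum_filter_add_sum_filter_not (chains p G) Nml]
  have h0 : ∑ s ∈ (chains p G).filter (fun s => ¬ Nml s), (-1 : ℂ) ^ s.card * f s = 0 := by
    refine Finset.sum_involution (fun s _ => tg s) ?_ ?_ ?_ ?_
    · intro s hs
      rw [Finset.mem_filter, mem_chains] at hs
      have h1 := congrArg (Int.cast : ℤ → ℂ) (sign_tg (s := s))
      push_cast at h1
      rw [hf (tg s) s (stab_tg hs.1 hs.2), h1]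
      ring
    · intro s hs _
      rw [Finset.mem_filter, mem_chains] at hs
      exact tg_ne
    · intro s hs
      rw [Finset.mem_filter, mem_chains] at hs ⊢
      exact ⟨isPChain_tg hs.1 hs.2, not_nml_tg hs.1 hs.2⟩
    · intro s hs
      rw [Finset.mem_filter, mem_chains] at hs
      exact tg_tg hs.1 hs.2
  rw [h0, add_zero]

/-- the weight side of the Knörr–Robinson sum over the classes of normal chains -/
theorem sum_nW [Fintype (Quot (NChain.Conj (p := p) (G := G)))] {z : G → ℤ} (hz : IsCF z) :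
    nW p z / Nat.card G + ∑ c : Quot (NChain.Conj (p := p) (G := G)),
      (-1 : ℂ) ^ c.out.1.card * (nW p (res (stab c.out.1) z) / Nat.card (stab c.out.1)) =
      dz p z := by
  have := Fintype.ofFinite (NChain p G)
  have hG0 : (Nat.card G : ℂ) ≠ 0 := by exact_mod_cast Nat.card_pos.ne'
  have h0 := KR_W p z hz
  rw [sum_normalC (p := p) (fun s => nW p (res (stab s) z)) (by
    intro s t h
    change (fun K : Subgroup G => nW p (res K z)) (stab s) =
      (fun K : Subgroup G => nW p (res K z)) (stab t)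
    rw [h])] at h0
  have h1 : (chains p G).filter Nml = insert ∅ ((Finset.univ : Finset (NChain p G)).map
      ⟨Subtype.val, Subtype.val_injective⟩) := by
    ext s
    rw [Finset.mem_filter, mem_chains, Finset.mem_insert, Finset.mem_map]
    constructor
    · rintro ⟨hs, hn⟩
      rcases s.eq_empty_or_nonempty with h | h
      · exact Or.inl h
      · exact Or.inr ⟨⟨s, (isNormalChain_iff s).2 ⟨⟨hs, hn⟩, h⟩⟩, Finset.mem_univ _, rfl⟩
    · rintro (rfl | ⟨t, -, rfl⟩)
      · exact ⟨P179A.isPChain_empty p, fun Q hQ => absurd hQ (Finset.notMem_empty Q)⟩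
      · exact ((isNormalChain_iff _).1 t.2).1
  have hne : (∅ : Finset (Subgroup G)) ∉ ((Finset.univ : Finset (NChain p G)).map
      ⟨Subtype.val, Subtype.val_injective⟩) := by
    rw [Finset.mem_map]
    rintro ⟨t, -, h⟩
    have := t.2.1
    have h2 : (t : Finset (Subgroup G)) = ∅ := h
    rw [h2] at this
    exact Finset.not_nonempty_empty this
  rw [h1, Finset.sum_insert hne, Finset.sum_map, nL_empty.2, Finset.card_empty, pow_zero,
    one_mul] at h0
  have h2 := sum_quot (G := G) (R := ℂ) (NChain.Conj (p := p) (G := G)) conj_iff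
      (fun s => (-1 : ℂ) ^ s.1.card * (nW p (res (stab s.1) z) / Nat.card (stab s.1)))
      (fun g s => by
        rw [val_smul, card_smul, ← nW_comp (stabEquiv g s.1), res_stab_smul hz g s.1,
          ← Nat.card_congr (stabEquiv g s.1).toEquiv])
  have h3 : ∑ x : NChain p G, (Nat.card (MulAction.stabilizer G x) : ℂ) *
      ((-1 : ℂ) ^ x.1.card * (nW p (res (stab x.1) z) / Nat.card (stab x.1))) =
      ∑ x : NChain p G, (-1 : ℂ) ^ x.1.card * nW p (res (stab x.1) z) := by
    refine Finset.sum_congr rfl fun s _ => ?_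
    rw [stabilizer_nCh]
    have h4 : (Nat.card (stab s.1) : ℂ) ≠ 0 := by exact_mod_cast Nat.card_pos.ne'
    field_simp
  rw [h3] at h2
  have h4 : nW p z + (Nat.card G : ℂ) * ∑ c : Quot (NChain.Conj (p := p) (G := G)),
      (-1 : ℂ) ^ c.out.1.card * (nW p (res (stab c.out.1) z) / Nat.card (stab c.out.1)) =
      Nat.card G * dz p z := by
    rw [← h2, ← h0]
    rfl
  have h5 : (Nat.card G : ℂ) * (nW p z / Nat.card G +
      ∑ c : Quot (NChain.Conj (p := p) (G := G)),
      (-1 : ℂ) ^ c.out.1.card * (nW p (res (stab c.out.1) z) / Nat.card (stab c.out.1))) =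
      Nat.card G * dz p z := by
    rw [← h4, mul_add, mul_div_cancel₀ _ hG0]
  exact mul_left_cancel₀ hG0 h5

end

section

variable {p : ℕ} [hp : Fact p.Prime] {k : Type u} [Field k] [IsAlgClosed k] [CharP k p]
  {G : Type} [Group G] [Finite G]

/-- the blocks of the stabiliser of a normal chain at which `B c` does not vanish induce to `B` -/
theorem inducesTo_of_ne {B : MonoidAlgebra k G} (hB : IsBlock B) (s : NChain p G)
    {b : MonoidAlgebra k (stab s.1)} (hb : IsBlock b)
    (c : Subalgebra.center k (MonoidAlgebra k G))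
    (h : centralChar b (trunc (stab s.1) (B * c.1)) ≠ 0) : InducesTo b B := by
  have := Fintype.ofFinite G
  obtain ⟨L, hL⟩ := blockHomStmt b hb
  obtain ⟨ν, hν⟩ := exists_res (p := p) s L
  obtain ⟨LB, hLB⟩ := blockHomStmt B hB
  have hprim := (isBlock_iff_prim ⟨B, hB.1⟩).1 hB
  have h1 : ν (⟨B, hB.1⟩ * c) ≠ 0 := by
    rw [hν, hL]
    exact h
  have h2 : ν ⟨B, hB.1⟩ = 1 := by
    have h3 : ν ⟨B, hB.1⟩ * ν ⟨B, hB.1⟩ = ν ⟨B, hB.1⟩ := by
      rw [← map_mul]
      exact congrArg ν (Subtype.ext hB.2.1)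
    rw [map_mul] at h1
    have h4 : ν ⟨B, hB.1⟩ ≠ 0 := left_ne_zero_of_mul h1
    exact mul_left_cancel₀ h4 (by rw [h3, mul_one])
  have h3 : ν = LB := by
    refine eq_of_prim hprim ν LB h2 ?_
    rw [hLB]
    exact centralChar_self B hB
  intro z hz
  have h4 := hν ⟨z, hz⟩
  rw [h3, hLB, hL] at h4
  exact h4.symm

variable (red : integralClosure ℤ ℂ →+* k)

/-- **The Knörr–Robinson sum of a block is `l(B) - |W_p(B)|` modulo `p`** if the congruence of the
weight conjecture holds for the blocks `b` with `b^G = B` of the stabilisers of the nonempty normal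
chains. -/
theorem krSum_eq_block (O : ValuationSubring ℂ) [CharP (IsLocalRing.ResidueField O) p]
    (hred : ∀ (a : ℂ) (ha : a ∈ integralClosure ℤ ℂ), O.valuation a < 1 ↔ red ⟨a, ha⟩ = 0)
    {B : MonoidAlgebra k G} (hB : IsBlock B) {D : Subgroup G} (hD : IsDefectGroup B D)
    (hD1 : D ≠ ⊥)
    (hloc : ∀ (s : NChain p G) (b : MonoidAlgebra k (stab s.1)), IsBlock b → InducesTo b B →
      numSimpleIn b ≡ numWeightsIn p red b [MOD p]) :
    ((P179B.krSum p B : ℤ) : k) = (numSimpleIn B : k) - numWeightsIn p red B := by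
  have := Fintype.ofFinite G
  have := Fintype.ofFinite (ConjClasses G)
  have := Fintype.ofFinite (Quot (NChain.Conj (p := p) (G := G)))
  have := Fintype.ofFinite (Quot (P179H524.Weight.Conj (p := p) (G := G)))
  have hfin : ∀ q : Quot (NChain.Conj (p := p) (G := G)),
      Fintype (Quot (P179H524.Weight.Conj (p := p) (G := stab q.out.1))) :=
    fun q => Fintype.ofFinite _
  -- the class
  obtain ⟨x, l, hl, hlz, hBx, hlx, hSyl, hxreg⟩ := exists_elt_of_block (p := p) hB hD
  have hDp : IsPGroup p D := hSyl.pgp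
  obtain ⟨v, hv, hv1, hvc⟩ : ∃ v ∈ D, v ≠ 1 ∧ ∀ a ∈ D, a * v = v * a := by
    have hnt : Nontrivial D := (Subgroup.nontrivial_iff_ne_bot D).2 hD1
    have hc := hDp.center_nontrivial
    obtain ⟨v, hv⟩ := exists_ne (1 : center D)
    refine ⟨(v : D), (v : D).2, ?_, ?_⟩
    · intro h
      exact hv (Subtype.ext (Subtype.ext h))
    · intro a ha
      exact congrArg Subtype.val (mem_center_iff.1 v.2 ⟨a, ha⟩)
  have hvp : ∃ n : ℕ, v ^ p ^ n = 1 := by
    obtain ⟨a, ha⟩ := hDp ⟨v, hv⟩
    exact ⟨a, congrArg Subtype.val ha⟩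
  have hxv : Commute x v := (mem_centralizer_singleton_iff.1 (hSyl.le hv)).symm
  have hb : IsCF (fun g => B.coeff g) := (P179C.mem_center_iff _).1 hB.1
  have hbb : conv (fun g => B.coeff g) (fun g => B.coeff g) = fun g => B.coeff g := by
    funext g
    rw [← coeff_mul_eq_conv, hB.2.1]
  have hc := mkF_mem (isCF_cls (k := k) (x * v))
  obtain ⟨n', hn', hln⟩ := BP.cls_mul hl hSyl hxreg hv hvc
  have hcB : centralChar B (mkF (cls k (x * v))) ≠ 0 := by
    rw [← hlz _ (isCF_cls _), hln]
    refine mul_ne_zero ?_ hlx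
    rwa [Ne, CharP.cast_eq_zero_iff k p]
  let c : Subalgebra.center k (MonoidAlgebra k G) := ⟨_, hc⟩
  let F : Subalgebra.center k (MonoidAlgebra k G) := ⟨B, hB.1⟩ * c
  -- the homomorphisms
  obtain ⟨r0, μ0, h01, h02⟩ := exists_L p (k := k) (G := G)
  have hL := fun q : Quot (NChain.Conj (p := p) (G := G)) =>
    exists_L p (k := k) (G := stab q.out.1)
  choose r μ hμ1 hμ2 using hL
  have hR := fun (q : Quot (NChain.Conj (p := p) (G := G))) (i : Fin (r q)) =>
    exists_res (p := p) q.out (μ q i)
  choose ν hν using hR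
  have hS := fun (q : Quot (NChain.Conj (p := p) (G := G)))
      (j : Quot (P179H524.Weight.Conj (p := p) (G := stab q.out.1))) =>
    exists_res (p := p) q.out (mu p red j.out)
  choose η hη using hS
  -- the simple modules
  have hA : ((P179B.krSum p B : ℤ) : k) * centralChar B c.1 =
      ∑ i, μ0 i F + ∑ q : Quot (NChain.Conj (p := p) (G := G)),
        (-1 : k) ^ q.out.1.card * ∑ i, ν q i F := by
    rw [P179B.krSum, finsum_eq_sum_of_fintype]
    push_cast
    rw [add_mul, Finset.sum_mul, P179B.numSimpleIn_eq]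
    congr 1
    · rw [sum_homs_block μ0 hB c, h01 B hB.1]
    · refine Finset.sum_congr rfl fun q _ => ?_
      rw [sum_homs_block (ν q) hB c, numSimpleOver_eq hB q.out,
        hμ1 q _ (trunc_mem (stab q.out.1) hB.1), mul_assoc]
      simp only [hν]
  -- the weights
  have hW : ∑ j : Quot (P179H524.Weight.Conj (p := p) (G := G)), mu p red j.out F +
      ∑ q : Quot (NChain.Conj (p := p) (G := G)), (-1 : k) ^ q.out.1.card * ∑ j, η q j F = 0 := by
    let Ψ : Subalgebra.center k (MonoidAlgebra k G) →ₗ[k] k :=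
      ∑ j : Quot (P179H524.Weight.Conj (p := p) (G := G)), (mu p red j.out).toLinearMap +
        ∑ q : Quot (NChain.Conj (p := p) (G := G)),
          ((-1 : k) ^ q.out.1.card) • ∑ j, (η q j).toLinearMap
    have hΨ : ∀ Z, Ψ Z = ∑ j : Quot (P179H524.Weight.Conj (p := p) (G := G)),
        mu p red j.out Z + ∑ q : Quot (NChain.Conj (p := p) (G := G)),
          (-1 : k) ^ q.out.1.card * ∑ j, η q j Z := by
      intro Z
      simp only [Ψ, LinearMap.add_apply, LinearMap.sum_apply, LinearMap.smul_apply, smul_eq_mul,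
        AlgHom.toLinearMap_apply]
    rw [← hΨ, eq_sum_center F, map_sum]
    refine Finset.sum_eq_zero fun C _ => ?_
    rw [map_smul]
    change (B * mkF (cls k (x * v))).coeff C.out • _ = (0 : k)
    by_cases hC : (B * mkF (cls k (x * v))).coeff C.out = 0
    · rw [hC, zero_smul]
    rw [smul_eq_mul]
    refine mul_eq_zero_of_right _ ?_
    rw [hΨ]
    have hC' : (B * mkF (cls k (x * v))).coeff C.out ≠ 0 := hC
    have hy : ∀ y, ind C y ≠ 0 → conv (fun g => B.coeff g) (cls k (x * v)) y ≠ 0 := by
      intro y hy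
      have h1 := out_of_ind (mul_mem hB.1 hc) hC' hy
      rw [coeff_mul_eq_conv] at h1
      simpa only [coeff_mkF] using h1
    have hdz := P179C.dz_sing p O (ind C) (isCF_ind C) (fun y hy' => by
      by_contra hyreg
      have hbot : IsPGroup p (⊥ : Subgroup G) := IsPGroup.of_bot
      obtain ⟨s, hs1, -⟩ := supp_mul_cls (p := p) hb hbb hxreg hvp hxv
        (SylCent.mul_central hSyl hv hvc hxreg) (hy y hy') ⊥ hbot bot_le
      rw [pr_of_regular hyreg, mul_inv_cancel, mul_one, inv_mul_cancel] at hs1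
      exact hv1 hs1.symm)
    unfold Cong at hdz
    rw [Nat.cast_one, div_one, sub_zero] at hdz
    have hsum := sum_nW (p := p) (isCF_ind C)
    have hZ : ∀ g, (⟨classSum k C.out, classSum_mem_center C.out⟩ :
        Subalgebra.center k (MonoidAlgebra k G)).1.coeff g = ((ind C g : ℤ) : k) :=
      fun g => coeff_classSum_out C g
    have hint : nW p (ind C) / Nat.card G ∈ integralClosure ℤ ℂ := isIntegral_nW' (isCF_ind C)
    have hint2 : ∀ q : Quot (NChain.Conj (p := p) (G := G)),
        nW p (res (stab q.out.1) (ind C)) / Nat.card (stab q.out.1) ∈ integralClosure ℤ ℂ :=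
      fun q => isIntegral_nW' (isCF_res _ (isCF_ind C))
    let X : integralClosure ℤ ℂ := ⟨_, hint⟩ + ∑ q : Quot (NChain.Conj (p := p) (G := G)),
      (-1) ^ q.out.1.card * ⟨_, hint2 q⟩
    have hX : (X : ℂ) = dz p (ind C) := by
      rw [← hsum]
      simp only [X]
      push_cast
      rfl
    have hX0 : red X = 0 := by
      have h1 := (hred X X.2).1 (by rw [hX]; exact hdz)
      exact h1
    simp only [X, map_add, map_sum, map_mul, map_pow, map_neg, map_one] at hX0
    rw [← redC_of_mem red hint, redC_nW p red (isCF_ind C) _ hZ] at hX0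
    rw [← hX0]
    congr 1
    refine Finset.sum_congr rfl fun q _ => ?_
    congr 1
    rw [← redC_of_mem red (hint2 q), redC_nW p red (isCF_res _ (isCF_ind C))
      ⟨_, trunc_mem (stab q.out.1) (classSum_mem_center (k := k) C.out)⟩ (fun g => by
        rw [coeff_trunc, hZ]; rfl)]
    exact Finset.sum_congr rfl fun j _ => hη q j _
  -- the comparison at the stabilisers
  have hC : ∀ q : Quot (NChain.Conj (p := p) (G := G)), ∑ i, ν q i F = ∑ j, η q j F := by
    intro q
    have h1 := sum_homs_eq' (μ q) (fun j : Quot (P179H524.Weight.Conj (p := p)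
        (G := stab q.out.1)) => mu p red j.out)
      ⟨trunc (stab q.out.1) F.1, trunc_mem _ F.2⟩ fun b hb hbZ => by
        rw [← hμ1 q b hb.1, ← numWc_eq_card p red hb.1, ← numWeightsIn_eq_numWc p red hb]
        exact (CharP.natCast_eq_natCast k p).mpr
          (hloc q.out b hb (inducesTo_of_ne hB q.out hb c hbZ))
    simp only [hν, hη]
    exact h1
  simp only [hC] at hA
  have h2 := sum_homs_block μ0 hB c
  have h3 := sum_homs_block (fun q : Quot (P179H524.Weight.Conj (p := p) (G := G)) =>
      mu p red q.out) hB c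
  have h4 : ((P179B.krSum p B : ℤ) : k) * centralChar B c.1 =
      (Nat.card {i // μ0 i ⟨B, hB.1⟩ = 1} : k) * centralChar B c.1 -
      (Nat.card {q : Quot (P179H524.Weight.Conj (p := p) (G := G)) //
        mu p red q.out ⟨B, hB.1⟩ = 1} : k) * centralChar B c.1 := by
    rw [← h2, ← h3, hA, eq_sub_iff_add_eq]
    change _ + ∑ j : Quot (P179H524.Weight.Conj (p := p) (G := G)), mu p red j.out F = _
    rw [add_assoc, add_comm (∑ q : Quot (NChain.Conj (p := p) (G := G)), _) _, hW, add_zero]
  rw [← sub_mul] at h4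
  have h5 := mul_right_cancel₀ hcB h4
  rw [← h01 B hB.1, ← numWc_eq_card p red hB.1, ← numWeightsIn_eq_numWc p red hB] at h5
  exact h5

end

end P179N
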