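import Vale.Agent.P179.H166.KN7
import Vale.Agent.P179.H166.KN8
import Vale.Agent.P179.H166.Z15

/-!
# The Knörr–Robinson congruence and the local blocks below a single block
-/

namespace P179B

open Subgroup P179H524

universe u

/-- The congruence `l(b) ≡ |W_p(b)|` modulo `p` for the blocks `b` with `b^G = B` of the stabilisers
of the nonempty normal `p`-chains of `G`. -/
def LocalMod (p : ℕ) {k : Type*} [Field k] (red : integralClosure ℤ ℂ →+* k) {G : Type} [Group G]
    (B : MonoidAlgebra k G) : Prop :=
  ∀ (s : NChain p G) (b : MonoidAlgebra k (chainStab s.1)), IsBlock b → InducesTo b B →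
    numSimpleIn b ≡ numWeightsIn p red b [MOD p]

section

variable {p : ℕ} [hp : Fact p.Prime] {k : Type u} [Field k] [IsAlgClosed k] [CharP k p]
  {red : integralClosure ℤ ℂ →+* k}

omit hp [IsAlgClosed k] [CharP k p] in
theorem inducesTo_iff' {G : Type} [Group G] [Finite G] {H : Subgroup G} (b : MonoidAlgebra k H)
    (B : MonoidAlgebra k G) : InducesTo b B ↔ P179C.InducesTo b B := by
  have htr : ∀ (K : Subgroup G) (z : MonoidAlgebra k G), P179B.trunc K z = P179C.trunc K z :=
    fun _ _ => rfl
  unfold P179B.InducesTo P179C.InducesTo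
  simp only [P179B.centralChar_eq, htr]

omit hp [IsAlgClosed k] [CharP k p] in
theorem modEq_iff {H : Type} [Group H] [Finite H] (b : MonoidAlgebra k H) :
    numSimpleIn b ≡ numWeightsIn p red b [MOD p] ↔
      P179C.numSimpleIn b ≡ P179C.numWeightsIn p red b [MOD p] := by
  rw [numSimpleIn_eq, numWeightsIn_eq]

/-- the Knörr–Robinson congruence for `B` is equivalent to the weight congruence for `B`, if the
weight congruence holds for the local blocks below `B` -/
theorem krSum_dvd_iff_local {G : Type} [Group G] [Finite G] {B : MonoidAlgebra k G}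
    (hB : IsBlock B) {D : Subgroup G} (hD : IsDefectGroup B D) (hD1 : D ≠ ⊥)
    (h : LocalMod p red B) :
    (p : ℤ) ∣ krSum p B ↔ numSimpleIn B ≡ numWeightsIn p red B [MOD p] := by
  obtain ⟨O, hO, hred⟩ := P179C.exists_O p red
  have hD' : P179C.IsDefectGroup B D := hD
  have h1 := P179N.krSum_eq_block (p := p) red O hred hB hD' hD1 (fun s b hb hbB =>
    (modEq_iff (H := chainStab s.1) b).1
      (h s b hb ((inducesTo_iff' (H := chainStab s.1) b B).2 hbB)))
  rw [numSimpleIn_eq, numWeightsIn_eq, ← CharP.natCast_eq_natCast k p, ← sub_eq_zero, ← h1,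
    CharP.intCast_eq_zero_iff k p]

/-- **From the local blocks to `B`.** If the defect group of `B` is good, then the weight
congruence for the local blocks below `B` implies the weight congruence for `B`. -/
theorem modEq_of_localMod {G : Type} [Group G] [Finite G] {B : MonoidAlgebra k G}
    (hB : IsBlock B) {D : Subgroup G} (hD : IsDefectGroup B D) (hgood : GoodSection p D)
    (h : LocalMod p red B) : numSimpleIn B ≡ numWeightsIn p red B [MOD p] := by
  by_cases hD1 : D = ⊥
  · refine theoremGood2 p red B hB D hD ⟨hgood, fun H N _ hN => ?_⟩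
    exfalso
    apply hN
    rw [eq_bot_iff]
    intro a _
    have h2 : (((a : H) : D) : G) = 1 := mem_bot.1 (hD1.le ((a : H) : D).2)
    rw [mem_bot]
    exact Subtype.ext (Subtype.ext h2)
  · exact (krSum_dvd_iff_local hB hD hD1 h).1 (theoremKR hB hD hD1 hgood)

end

end P179B
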