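import Vale.Agent.P179.H905.Chain
import Vale.Agent.P179.H525.Weights
import Vale.Agent.P179.H525.DZ
import Vale.Agent.P179.H524.Brauer

/-!
# The Knörr–Robinson sums for weights and for simple modules
-/

namespace P179K

open Subgroup P179H524 P179A

open scoped Classical

universe u

variable {p : ℕ}

/-- toggling by a nontrivial `p`-subgroup contained in all relevant stabilisers cancels -/
theorem sum_tog_eq_zero {G : Type*} [Group G] [Finite G]
    (U : Subgroup G)
    (C : Finset (Finset (Subgroup G))) (hCt : ∀ s ∈ C, tog U s ∈ C)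
    (f : Finset (Subgroup G) → ℤ) (hf : ∀ s ∈ C, f (tog U s) = f s) :
    ∑ s ∈ C, (-1 : ℤ) ^ s.card * f s = 0 := by
  refine Finset.sum_involution (fun s _ => tog U s) ?_ ?_ ?_ ?_
  · intro s hs
    rw [hf s hs, neg_one_pow_card_tog]; ring
  · intro s _ _
    exact tog_ne U s
  · intro s hs
    exact hCt s hs
  · intro s _
    exact tog_tog U s

section Transport

variable {G : Type*} [Group G]

/-- The number of defect zero characters of `K / Q` for subgroups `Q ≤ K ≤ N_G(Q)`. -/
noncomputable def dzQ (p : ℕ) (K Q : Subgroup G) : ℕ :=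
  numDZ p (K ⧸ (Q.subgroupOf K).normalCore)

theorem mem_normalizer_map_subtype {H : Subgroup G} (Q' : Subgroup H) (x : H) :
    (x : G) ∈ normalizer ((Q'.map H.subtype : Subgroup G) : Set G) ↔
      x ∈ normalizer (Q' : Set H) := by
  have key : ∀ z : H, (z : G) ∈ Q'.map H.subtype ↔ z ∈ Q' := by
    intro z
    rw [mem_map]
    constructor
    · rintro ⟨w, hw, h⟩
      have : w = z := Subtype.ext h
      rwa [← this]
    · intro hz
      exact ⟨z, hz, rfl⟩
  rw [mem_normalizer_iff, mem_normalizer_iff]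
  constructor
  · intro h z
    have := h z
    rw [key] at this
    rw [this, ← key]
    rfl
  · intro h z
    constructor
    · intro hz
      obtain ⟨w, hw, rfl⟩ := mem_map.mp hz
      have := (h w).mp hw
      exact mem_map.mpr ⟨_, this, rfl⟩
    · intro hz
      obtain ⟨w, hw, hw2⟩ := mem_map.mp hz
      have hz2 : z = ((x⁻¹ * w * x : H) : G) := by
        have hw3 : (w : G) = (x : G) * z * (x : G)⁻¹ := hw2
        have hw4 : ((x⁻¹ * w * x : H) : G) = (x : G)⁻¹ * (w : G) * (x : G) := rfl
        rw [hw4, hw3]; group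
      rw [hz2, key, h]
      have : x * (x⁻¹ * w * x) * x⁻¹ = w := by group
      rwa [this]

/-- the normaliser in `H` of a subgroup of `H`, seen inside `G` -/
def normalizerEquivInf (H : Subgroup G) (Q' : Subgroup H) :
    normalizer (Q' : Set H) ≃*
      (normalizer ((Q'.map H.subtype : Subgroup G) : Set G) ⊓ H : Subgroup G) where
  toFun x := ⟨x.1.1, (mem_normalizer_map_subtype Q' x.1).mpr x.2, x.1.2⟩
  invFun x := ⟨⟨x.1, x.2.2⟩, (mem_normalizer_map_subtype Q' ⟨x.1, x.2.2⟩).mp x.2.1⟩
  left_inv _ := rfl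
  right_inv _ := rfl
  map_mul' _ _ := rfl

theorem normalCore_subgroupOf {K Q : Subgroup G} (h : K ≤ normalizer (Q : Set G)) :
    (Q.subgroupOf K).normalCore = Q.subgroupOf K := by
  have : (Q.subgroupOf K).Normal := by
    refine ⟨fun n hn g => ?_⟩
    rw [mem_subgroupOf] at hn ⊢
    exact (mem_normalizer_iff.mp (h g.2) _).mp hn
  exact Subgroup.normalCore_eq_self _

theorem numDZ_NQ_eq (H : Subgroup G) (Q' : Subgroup H) :
    numDZ p (NQ Q') =
      dzQ p (normalizer ((Q'.map H.subtype : Subgroup G) : Set G) ⊓ H) (Q'.map H.subtype) := by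
  unfold dzQ
  refine numDZ_congr p (QuotientGroup.congr _ _ (normalizerEquivInf H Q') ?_)
  rw [normalCore_subgroupOf inf_le_left]
  ext x
  rw [mem_map, mem_subgroupOf]
  constructor
  · rintro ⟨y, hy, rfl⟩
    rw [mem_subgroupOf] at hy
    exact ⟨y.1, hy, rfl⟩
  · rintro ⟨w, hw, hw2⟩
    refine ⟨(normalizerEquivInf H Q').symm x, ?_, (normalizerEquivInf H Q').apply_symm_apply x⟩
    rw [mem_subgroupOf]
    have : (((normalizerEquivInf H Q').symm x : normalizer (Q' : Set H)) : H) = w :=
      Subtype.ext hw2.symm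
    rw [this]
    exact hw

end Transport

/-- The weights of a subgroup `H` counted inside `G`. -/
theorem card_mul_numWeights_subgroup [Fact p.Prime] {G : Type} [Group G] [Finite G]
    [Fintype (Subgroup G)] (H : Subgroup G) :
    (Nat.card H * numWeights p H : ℤ) =
      ∑ Q ∈ (Finset.univ : Finset (Subgroup G)).filter (fun Q : Subgroup G => IsPGroup p Q ∧ Q ≤ H),
        ((Nat.card (normalizer (Q : Set G) ⊓ H : Subgroup G) : ℤ) *
          dzQ p (normalizer (Q : Set G) ⊓ H) Q) := by
  have h := card_mul_numWeights p H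
  have := Fintype.ofFinite {Q : Subgroup H // IsPGroup p Q}
  rw [finsum_eq_sum_of_fintype] at h
  have h' : (Nat.card H * numWeights p H : ℤ) =
      ((Nat.card H * numWeights p H : ℕ) : ℤ) := by push_cast; rfl
  rw [h', h]
  push_cast
  refine Finset.sum_bij (fun Q' _ => Q'.1.map H.subtype) ?_ ?_ ?_ ?_
  · intro Q' _
    rw [Finset.mem_filter]
    exact ⟨Finset.mem_univ _, Q'.2.map _, map_subtype_le _⟩
  · intro Q' _ Q'' _ h2
    exact Subtype.ext (map_injective H.subtype_injective h2)
  · intro Q hQ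
    rw [Finset.mem_filter] at hQ
    refine ⟨⟨Q.subgroupOf H, ?_⟩, Finset.mem_univ _, ?_⟩
    · exact hQ.2.1.of_equiv (subgroupOfEquivOfLe hQ.2.2).symm
    · simp only [subgroupOf_map_subtype]
      exact inf_eq_left.mpr hQ.2.2
  · intro Q' _
    rw [numDZ_NQ_eq, Nat.card_congr (normalizerEquivInf H Q'.1).toEquiv]

theorem inf_stab_tog {G : Type*} [Group G] {s : Finset (Subgroup G)} (hs : IsPChain p s)
    {U : Subgroup G} (hU : IsPGroup p U) (hU1 : U ≠ ⊥) (hUs : U ≤ stab s) :
    normalizer (U : Set G) ⊓ stab (tog U s) = normalizer (U : Set G) ⊓ stab s := by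
  apply le_antisymm
  · refine le_inf inf_le_left ?_
    intro x hx
    exact (mem_stab_tog hs hU hU1 hUs hx.1).mp hx.2
  · refine le_inf inf_le_left ?_
    intro x hx
    exact (mem_stab_tog hs hU hU1 hUs hx.1).mpr hx.2

/-- The least member of a nonempty chain. -/
theorem exists_least {G : Type*} [Group G] {s : Finset (Subgroup G)} (hs : IsPChain p s)
    (hne : s.Nonempty) : ∃ R ∈ s, ∀ Q ∈ s, R ≤ Q := by
  obtain ⟨M, hM, hmin⟩ := Finset.exists_minimal hne
  refine ⟨M, hM, fun Q hQ => ?_⟩
  rcases hs.2.total hM hQ with h | h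
  · exact h
  · exact hmin hQ h

theorem le_normalizer_of_le {G : Type*} [Group G] {R Q : Subgroup G} (h : R ≤ Q) :
    R ≤ normalizer (Q : Set G) := h.trans Subgroup.le_normalizer

/-- The stabiliser of a nonempty chain has a nontrivial normal `p`-subgroup. -/
theorem not_opTrivial_stab {G : Type*} [Group G] {s : Finset (Subgroup G)} (hs : IsPChain p s)
    (hne : s.Nonempty) : ¬ OpTrivial p (stab s) := by
  obtain ⟨R, hR, hmin⟩ := exists_least hs hne
  have hRs : R ≤ stab s := le_stab.mpr fun Q hQ => le_normalizer_of_le (hmin Q hQ)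
  intro h
  have h1 : (R.subgroupOf (stab s)).Normal := by
    refine ⟨fun n hn g => ?_⟩
    rw [mem_subgroupOf] at hn ⊢
    exact (mem_normalizer_iff.mp (mem_stab.mp g.2 R hR) _).mp hn
  have h2 : IsPGroup p (R.subgroupOf (stab s)) :=
    (hs.1 R hR).1.of_equiv (subgroupOfEquivOfLe hRs).symm
  have h3 := h _ h1 h2
  rw [subgroupOf_eq_bot, disjoint_iff, inf_eq_left.mpr hRs] at h3
  exact (hs.1 R hR).2 h3

theorem stab_empty {G : Type*} [Group G] : stab (∅ : Finset (Subgroup G)) = ⊤ := by
  simp [stab]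

theorem isPChain_empty {G : Type*} [Group G] (p : ℕ) : IsPChain p (∅ : Finset (Subgroup G)) := by
  simp [IsPChain]

/-- **Knörr–Robinson sum for weights.** -/
theorem KR_weights (p : ℕ) [Fact p.Prime] (G : Type) [Group G] [Finite G] :
    ∑ s ∈ chains p G, (-1 : ℤ) ^ s.card * (Nat.card (stab s) * numWeights p (stab s)) =
      Nat.card G * numDZ p G := by
  have := Fintype.ofFinite (Subgroup G)
  have h1 : ∀ s ∈ chains p G, (-1 : ℤ) ^ s.card * (Nat.card (stab s) * numWeights p (stab s)) =
      ∑ Q ∈ (Finset.univ : Finset (Subgroup G)).filter (fun Q : Subgroup G => IsPGroup p Q),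
        if Q ≤ stab s then (-1 : ℤ) ^ s.card *
        ((Nat.card (normalizer (Q : Set G) ⊓ stab s : Subgroup G) : ℤ) *
          dzQ p (normalizer (Q : Set G) ⊓ stab s) Q) else 0 := by
    intro s _
    rw [card_mul_numWeights_subgroup, Finset.mul_sum, ← Finset.sum_filter, Finset.filter_filter]
  rw [Finset.sum_congr rfl h1, Finset.sum_comm]
  rw [Finset.sum_eq_single (⊥ : Subgroup G)]
  · rw [Finset.sum_eq_single (∅ : Finset (Subgroup G))]
    · rw [if_pos bot_le]
      simp only [Finset.card_empty, pow_zero, one_mul]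
      have h2 : (normalizer ((⊥ : Subgroup G) : Set G) ⊓ stab (∅ : Finset (Subgroup G))) = ⊤ := by
        rw [stab_empty, inf_top_eq, normalizer_eq_top_iff]
        infer_instance
      rw [h2]
      congr 1
      · rw [Nat.card_congr (topEquiv (G := G)).toEquiv]
      · congr 1
        unfold dzQ
        refine numDZ_congr p ?_
        refine (?_ : (⊤ : Subgroup G) ⧸ ((⊥ : Subgroup G).subgroupOf ⊤).normalCore ≃* G)
        have h3 : ((⊥ : Subgroup G).subgroupOf ⊤).normalCore = ⊥ := by
          rw [eq_bot_iff]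
          refine (Subgroup.normalCore_le _).trans ?_
          rw [bot_subgroupOf]
        exact (QuotientGroup.quotientMulEquivOfEq h3).trans
          (QuotientGroup.quotientBot.trans topEquiv)
    · intro s hs hs0
      rw [if_pos bot_le]
      have hs' := mem_chains.mp hs
      have h2 : normalizer ((⊥ : Subgroup G) : Set G) ⊓ stab s = stab s := by
        rw [inf_eq_right]
        refine le_trans le_top (top_le_iff.mpr ?_)
        rw [normalizer_eq_top_iff]
        infer_instance
      rw [h2]
      have h3 : dzQ p (stab s) ⊥ = 0 := by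
        unfold dzQ
        have h3 : ((⊥ : Subgroup G).subgroupOf (stab s)).normalCore = ⊥ := by
          rw [eq_bot_iff]
          refine (Subgroup.normalCore_le _).trans ?_
          rw [bot_subgroupOf]
        rw [numDZ_congr p ((QuotientGroup.quotientMulEquivOfEq h3).trans
          QuotientGroup.quotientBot)]
        exact numDZ_eq_zero p _ (not_opTrivial_stab hs' (Finset.nonempty_of_ne_empty hs0))
      rw [h3]; simp
    · intro h
      exact absurd (mem_chains.mpr (isPChain_empty p)) h
  · intro Q hQ hQ1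
    rw [Finset.mem_filter] at hQ
    rw [← Finset.sum_filter]
    have := sum_tog_eq_zero Q ((chains p G).filter fun s => Q ≤ stab s)
      (fun s hs => by
        rw [Finset.mem_filter, mem_chains] at hs ⊢
        exact ⟨tog_isPChain hs.1 hQ.2 hQ1 hs.2,
          (le_stab_tog hs.1 hQ.2 hQ1 hs.2 Subgroup.le_normalizer).mpr hs.2⟩)
      (fun s => ((Nat.card (normalizer (Q : Set G) ⊓ stab s : Subgroup G) : ℤ) *
          dzQ p (normalizer (Q : Set G) ⊓ stab s) Q))
      (fun s hs => by
        rw [Finset.mem_filter, mem_chains] at hs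
        rw [inf_stab_tog hs.1 hQ.2 hQ1 hs.2])
    simpa [smul_eq_mul] using this
  · intro h
    refine absurd ?_ h
    rw [Finset.mem_filter]
    exact ⟨Finset.mem_univ _, IsPGroup.of_bot⟩

/-- `W p x y = 0` if `⟨x, y⟩` normalises a nontrivial `p`-subgroup which fixes all chains fixed by
`x` and `y`. -/
theorem W_eq_zero {G : Type*} [Group G] [Finite G] (x y : G) (U : Subgroup G)
    (hU : IsPGroup p U) (hU1 : U ≠ ⊥) (hx : x ∈ normalizer (U : Set G))
    (hy : y ∈ normalizer (U : Set G))
    (hs : ∀ s : Finset (Subgroup G), x ∈ stab s → y ∈ stab s → U ≤ stab s) : W p x y = 0 := by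
  unfold W
  have := sum_tog_eq_zero U ((chains p G).filter fun s => x ∈ stab s ∧ y ∈ stab s)
      (fun s hs' => by
        rw [Finset.mem_filter, mem_chains] at hs' ⊢
        have hUs := hs s hs'.2.1 hs'.2.2
        exact ⟨tog_isPChain hs'.1 hU hU1 hUs,
          (mem_stab_tog hs'.1 hU hU1 hUs hx).mpr hs'.2.1,
          (mem_stab_tog hs'.1 hU hU1 hUs hy).mpr hs'.2.2⟩)
      (fun _ => (1 : ℤ)) (fun _ _ => rfl)
  simpa using this

/-- summing `W` over a set of pairs is summing over the stabilisers -/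
theorem sum_W_eq {G : Type*} [Group G] [Finite G] (p : ℕ) (S : Finset (G × G)) :
    ∑ t ∈ S, W p t.1 t.2 =
      ∑ s ∈ chains p G, (-1 : ℤ) ^ s.card *
        ((S.filter fun t => t.1 ∈ stab s ∧ t.2 ∈ stab s).card : ℤ) := by
  unfold W
  simp only [Finset.sum_filter]
  rw [Finset.sum_comm]
  refine Finset.sum_congr rfl fun s _ => ?_
  rw [← Finset.sum_filter, Finset.sum_const, nsmul_eq_mul, mul_comm]

theorem W_eq_zero_of_commute {G : Type*} [Group G] [Finite G] [hp : Fact p.Prime] (x y : G)
    (hxy : x * y = y * x) (hx : p ∣ orderOf x) : W p x y = 0 := by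
  obtain ⟨m, hm⟩ := hx
  have hm0 : m ≠ 0 := by
    rintro rfl
    have := orderOf_pos x
    omega
  set z := x ^ m with hz
  have hord : orderOf z = p := by
    rw [hz, orderOf_pow_of_dvd hm0 ⟨p, by rw [hm, mul_comm]⟩, hm,
      Nat.mul_div_cancel _ (Nat.pos_of_ne_zero hm0)]
  have hxz : ∀ w ∈ zpowers z, x * w * x⁻¹ = w := by
    intro w hw
    obtain ⟨k, rfl⟩ := mem_zpowers_iff.mp hw
    rw [hz, mul_inv_eq_iff_eq_mul]
    exact ((Commute.refl x).pow_right m).zpow_right k
  have hyz : ∀ w ∈ zpowers z, y * w * y⁻¹ = w := by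
    intro w hw
    obtain ⟨k, rfl⟩ := mem_zpowers_iff.mp hw
    rw [hz, mul_inv_eq_iff_eq_mul]
    have : Commute y x := hxy.symm
    exact (this.pow_right m).zpow_right k
  refine W_eq_zero x y (zpowers z) ?_ ?_ ?_ ?_ ?_
  · rw [IsPGroup.iff_card]
    exact ⟨1, by rw [Nat.card_zpowers, hord, pow_one]⟩
  · intro h
    rw [zpowers_eq_bot] at h
    rw [h, orderOf_one] at hord
    exact hp.out.one_lt.ne hord
  · rw [mem_normalizer_iff]
    intro w
    constructor
    · intro hw; rw [hxz w hw]; exact hw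
    · intro hw
      have := hxz _ hw
      have h2 : w = x⁻¹ * (x * w * x⁻¹) * x := by group
      have h3 : x * w * x⁻¹ = w := by
        have h4 : x * (x * w * x⁻¹) = (x * w * x⁻¹) * x := mul_inv_eq_iff_eq_mul.mp this
        have h5 : x * (x * w * x⁻¹) = x * w := by rw [h4]; group
        exact mul_left_cancel h5
      rwa [h3] at hw
  · rw [mem_normalizer_iff]
    intro w
    constructor
    · intro hw; rw [hyz w hw]; exact hw
    · intro hw
      have := hyz _ hw
      have h3 : y * w * y⁻¹ = w := by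
        have h4 : y * (y * w * y⁻¹) = (y * w * y⁻¹) * y := mul_inv_eq_iff_eq_mul.mp this
        have h5 : y * (y * w * y⁻¹) = y * w := by rw [h4]; group
        exact mul_left_cancel h5
      rwa [h3] at hw
  · intro s h1 _
    rw [zpowers_le]
    exact pow_mem h1 m

/-- **Knörr–Robinson sum for simple modules.** -/
theorem KR_simple (p : ℕ) [Fact p.Prime] (k : Type u) [Field k] [IsAlgClosed k] [CharP k p]
    (G : Type) [Group G] [Finite G] [Fintype G] :
    ∑ s ∈ chains p G, (-1 : ℤ) ^ s.card * (Nat.card (stab s) * numSimple k (stab s)) =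
      ∑ t ∈ (Finset.univ : Finset (G × G)).filter (fun t => t.1 * t.2 = t.2 * t.1),
        W p t.1 t.2 := by
  have h1 : ∑ t ∈ (Finset.univ : Finset (G × G)).filter (fun t => t.1 * t.2 = t.2 * t.1),
        W p t.1 t.2 =
      ∑ t ∈ (Finset.univ : Finset (G × G)).filter
        (fun t => t.1 * t.2 = t.2 * t.1 ∧ ¬ p ∣ orderOf t.1), W p t.1 t.2 := by
    symm
    refine Finset.sum_subset ?_ ?_
    · intro t ht
      rw [Finset.mem_filter] at ht ⊢
      exact ⟨ht.1, ht.2.1⟩
    · intro t ht ht2
      rw [Finset.mem_filter] at ht ht2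
      refine W_eq_zero_of_commute _ _ ht.2 ?_
      by_contra h
      exact ht2 ⟨ht.1, ht.2, h⟩
  rw [h1, sum_W_eq]
  refine Finset.sum_congr rfl fun s _ => ?_
  congr 1
  have h2 := card_mul_numSimple p k (stab s)
  have h3 : (Nat.card (stab s) * numSimple k (stab s) : ℤ) =
      ((Nat.card (stab s) * numSimple k (stab s) : ℕ) : ℤ) := by push_cast; rfl
  rw [h3, h2]
  norm_cast
  rw [Finset.filter_filter, ← Fintype.card_subtype, ← Nat.card_eq_fintype_card]
  refine Nat.card_congr ?_
  exact
    { toFun := fun t => ⟨(t.1.1.1, t.1.2.1), by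
        refine ⟨⟨congrArg Subtype.val t.2.1.eq, ?_⟩, t.1.1.2, t.1.2.2⟩
        have := t.2.2
        rwa [← Subgroup.orderOf_coe] at this⟩
      invFun := fun t => ⟨(⟨t.1.1, t.2.2.1⟩, ⟨t.1.2, t.2.2.2⟩), by
        refine ⟨Subtype.ext t.2.1.1, ?_⟩
        rw [← Subgroup.orderOf_coe]
        exact t.2.1.2⟩
      left_inv := fun _ => rfl
      right_inv := fun _ => rfl }

end P179K
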