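import Vale.Agent.P179.H166.KR
import Vale.Agent.P179.H143.CFun

/-!
# (C6) Knörr–Robinson for weights, with class functions
-/

namespace P179C

open Subgroup P179H524 P179A P179K Vale.Agent.P179.H525

open scoped Classical

universe u

section Transport

variable {p : ℕ}

theorem om_comp {K K' : Type*} [Group K] [Group K'] (e : K' ≃* K) (χ : K → ℂ) (z : K → ℤ) :
    om (fun x => χ (e x)) (fun x => z (e x)) = om χ z := by
  unfold om
  simp only [map_one]
  congr 1
  exact finsum_comp_equiv e.toEquiv (f := fun g : K => (z g : ℂ) * χ g)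

theorem dz_comp {K K' : Type*} [Group K] [Group K'] (e : K' ≃* K) (z : K → ℤ) :
    dz p (fun x => z (e x)) = dz p z := by
  unfold dz
  rw [← finsum_comp_equiv (⟨fun χ => ⟨fun x => χ.1 (e x), χ.2.comp e⟩,
    fun χ => ⟨fun x => χ.1 (e.symm x), χ.2.comp e.symm⟩, fun χ => by ext x; simp,
    fun χ => by ext x; simp⟩ : {χ : K → ℂ // IsDefectZeroChar p χ} ≃
      {χ : K' → ℂ // IsDefectZeroChar p χ})]
  exact finsum_congr fun χ => om_comp e χ.1 z

theorem push_comp {A A' B B' : Type*} [Group A] [Group A'] [Group B] [Group B']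
    (π : A →* B) (π' : A' →* B') (e : A ≃* A') (f : B ≃* B') (h : ∀ a, f (π a) = π' (e a))
    (z : A' → ℤ) (b : B) : push π (fun a => z (e a)) b = push π' z (f b) := by
  unfold push
  let E : {a : A // π a = b} ≃ {a : A' // π' a = f b} :=
    { toFun := fun a => ⟨e a.1, by rw [← h, a.2]⟩
      invFun := fun a => ⟨e.symm a.1, by
        apply f.injective
        rw [h, e.apply_symm_apply, a.2]⟩
      left_inv := fun a => by simp
      right_inv := fun a => by simp }
  exact finsum_comp_equiv E (f := fun a : {a : A' // π' a = f b} => z a.1)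

theorem dz_push {A A' B B' : Type*} [Group A] [Group A'] [Group B] [Group B']
    (π : A →* B) (π' : A' →* B') (e : A ≃* A') (f : B ≃* B') (h : ∀ a, f (π a) = π' (e a))
    (z : A' → ℤ) : dz p (push π (fun a => z (e a))) = dz p (push π' z) := by
  rw [← dz_comp f]
  congr 1
  ext b
  exact push_comp π π' e f h z b

variable {G : Type*} [Group G]

/-- `dz` of the image in `K / Q` of the restriction of `z` to `K`, for `Q ≤ K ≤ N_G(Q)`. -/
noncomputable def dzQ (p : ℕ) (K Q : Subgroup G) (z : G → ℤ) : ℂ :=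
  dz p (push (QuotientGroup.mk' (Q.subgroupOf K).normalCore) (res K z))

theorem dz_resNQ (H : Subgroup G) (Q' : Subgroup H) (z : G → ℤ) :
    dz p (resNQ Q' (res H z)) =
      dzQ p (normalizer ((Q'.map H.subtype : Subgroup G) : Set G) ⊓ H) (Q'.map H.subtype) z := by
  unfold dzQ resNQ
  have hK := normalCore_subgroupOf (G := G) (Q := Q'.map H.subtype)
    (K := normalizer ((Q'.map H.subtype : Subgroup G) : Set G) ⊓ H) inf_le_left
  have hmap : Subgroup.map (normalizerEquivInf H Q' : _ →* _)
      (Q'.subgroupOf (normalizer (Q' : Set H))) =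
      ((Q'.map H.subtype).subgroupOf
        (normalizer ((Q'.map H.subtype : Subgroup G) : Set G) ⊓ H)).normalCore := by
    rw [hK]
    ext x
    rw [mem_map, mem_subgroupOf]
    constructor
    · rintro ⟨y, hy, rfl⟩
      rw [mem_subgroupOf] at hy
      exact ⟨y.1, hy, rfl⟩
    · rintro ⟨w, hw, hw2⟩
      refine ⟨(normalizerEquivInf H Q').symm x, ?_, (normalizerEquivInf H Q').apply_symm_apply x⟩
      rw [mem_subgroupOf]
      have : (((normalizerEquivInf H Q').symm x : normalizer (Q' : Set H)) : H) = w :=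
        Subtype.ext hw2.symm
      rw [this]
      exact hw
  exact dz_push _ _ (normalizerEquivInf H Q')
    (QuotientGroup.congr _ _ (normalizerEquivInf H Q') hmap) (fun a => rfl)
    (res (normalizer ((Q'.map H.subtype : Subgroup G) : Set G) ⊓ H : Subgroup G) z)

end Transport

/-- `nW` of the restriction to a subgroup `H`, counted inside `G`. -/
theorem nW_res {p : ℕ} [Fact p.Prime] {G : Type*} [Group G] [Finite G]
    [Fintype (Subgroup G)] (H : Subgroup G) (z : G → ℤ) :
    nW p (res H z) =
      ∑ Q ∈ (Finset.univ : Finset (Subgroup G)).filter (fun Q : Subgroup G => IsPGroup p Q ∧ Q ≤ H),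
        ((Nat.card (normalizer (Q : Set G) ⊓ H : Subgroup G) : ℂ) *
          dzQ p (normalizer (Q : Set G) ⊓ H) Q z) := by
  have := Fintype.ofFinite {Q : Subgroup H // IsPGroup p Q}
  unfold nW
  rw [finsum_eq_sum_of_fintype]
  refine Finset.sum_bij (fun Q' _ => Q'.1.map H.subtype) ?_ ?_ ?_ ?_
  · intro Q' _
    rw [Finset.mem_filter]
    exact ⟨Finset.mem_univ _, Q'.2.map _, map_subtype_le _⟩
  · intro Q' _ Q'' _ h2
    exact Subtype.ext (map_injective H.subtype_injective h2)
  · intro Q hQ
    rw [Finset.mem_filter] at hQ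
    refine ⟨⟨Q.subgroupOf H, ?_⟩, Finset.mem_univ _, ?_⟩
    · exact hQ.2.1.of_equiv (subgroupOfEquivOfLe hQ.2.2).symm
    · simp only [subgroupOf_map_subtype]
      exact inf_eq_left.mpr hQ.2.2
  · intro Q' _
    rw [dz_resNQ, Nat.card_congr (normalizerEquivInf H Q'.1).toEquiv]

/-- a wedderburn decomposition in any universe -/
theorem exists_wedderburn_complex (K : Type*) [Group K] [Finite K] :
    ∃ (r : ℕ) (d : Fin r → ℕ) (_ : ∀ i, NeZero (d i)),
      Nonempty (MonoidAlgebra ℂ K ≃ₐ[ℂ] Π i, Matrix (Fin (d i)) (Fin (d i)) ℂ) := by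
  have := Fintype.ofFinite K
  have : NeZero (Nat.card K : ℂ) := ⟨by exact_mod_cast Nat.card_pos.ne'⟩
  have : Module.Finite ℂ (MonoidAlgebra ℂ K) := Module.Finite.of_basis (MonoidAlgebra.basis K ℂ)
  obtain ⟨n, d, hd, h⟩ :=
    IsSemisimpleRing.exists_algEquiv_pi_matrix_of_isAlgClosed ℂ (MonoidAlgebra ℂ K)
  exact ⟨n, d, hd, h⟩

theorem numDZ_eq_zero' (p : ℕ) [hp : Fact p.Prime] (K : Type*) [Group K] [Finite K]
    (h : ¬ OpTrivial p K) : numDZ p K = 0 := by
  have := Fintype.ofFinite K
  obtain ⟨r, d, hd, ⟨f⟩⟩ := exists_wedderburn_complex K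
  have h1 := numDZ_eq p f.toAlgHom f.surjective (fun x hx => by
    have h0 : x = 0 := f.injective (by rw [map_zero]; exact hx)
    rw [h0]
    exact zero_mem _)
  rw [h1, Nat.card_eq_fintype_card, Fintype.card_eq_zero_iff]
  refine ⟨fun ⟨i, h2⟩ => ?_⟩
  simp only [OpTrivial, not_forall] at h
  obtain ⟨R, hRn, hR, hR1⟩ := h
  rw [Nat.card_eq_fintype_card,
    factorization_eq_iff hp.out (NeZero.ne _) Fintype.card_ne_zero (dvd_card f hd i)] at h2
  exact h2 (dvd_of_normal f hd hp.out R hR hR1 i)

theorem dz_eq_zero (p : ℕ) [hp : Fact p.Prime] {K : Type*} [Group K] [Finite K]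
    (h : ¬ OpTrivial p K) (z : K → ℤ) : dz p z = 0 := by
  have h1 := numDZ_eq_zero' p K h
  unfold numDZ at h1
  rw [Nat.card_eq_zero] at h1
  rcases h1 with h1 | h1
  · unfold dz
    exact finsum_of_isEmpty _
  · exact absurd (inferInstance : Finite {χ : K → ℂ // IsDefectZeroChar p χ}) h1.not_finite

/-- toggling by a nontrivial `p`-subgroup contained in all relevant stabilisers cancels -/
theorem sum_tog_eq_zero' {G : Type*} [Group G] [Finite G]
    (U : Subgroup G)
    (C : Finset (Finset (Subgroup G))) (hCt : ∀ s ∈ C, tog U s ∈ C)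
    (f : Finset (Subgroup G) → ℂ) (hf : ∀ s ∈ C, f (tog U s) = f s) :
    ∑ s ∈ C, (-1 : ℂ) ^ s.card * f s = 0 := by
  refine Finset.sum_involution (fun s _ => tog U s) ?_ ?_ ?_ ?_
  · intro s hs
    have h1 := neg_one_pow_card_tog U s
    have h2 : (-1 : ℂ) ^ (tog U s).card = - (-1) ^ s.card := by exact_mod_cast congrArg (Int.cast : ℤ → ℂ) h1
    rw [hf s hs, h2]; ring
  · intro s _ _
    exact tog_ne U s
  · intro s hs
    exact hCt s hs
  · intro s _
    exact tog_tog U s

theorem dzQ_bot {p : ℕ} {G : Type*} [Group G] (K : Subgroup G) (z : G → ℤ) :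
    dzQ p K ⊥ z = dz p (res K z) := by
  unfold dzQ
  have h3 : ((⊥ : Subgroup G).subgroupOf K).normalCore = ⊥ := by
    rw [eq_bot_iff]
    refine (Subgroup.normalCore_le _).trans ?_
    rw [bot_subgroupOf]
  let e : (K ⧸ ((⊥ : Subgroup G).subgroupOf K).normalCore) ≃* K :=
    (QuotientGroup.quotientMulEquivOfEq h3).trans QuotientGroup.quotientBot
  rw [← dz_comp e.symm]
  congr 1
  ext c
  unfold push
  let _ : Unique {h : K // (QuotientGroup.mk' ((⊥ : Subgroup G).subgroupOf K).normalCore) h =
      e.symm c} :=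
    { default := ⟨c, rfl⟩
      uniq := by
        rintro ⟨a, ha⟩
        apply Subtype.ext
        exact e.symm.injective ha }
  rw [finsum_unique]
  rfl

/-- (C6) Knörr–Robinson for weights -/
theorem KR_W (p : ℕ) [Fact p.Prime] {G : Type u} [Group G] [Finite G] (z : G → ℤ)
    (_hz : IsCF z) :
    ∑ s ∈ chains p G, (-1) ^ s.card * nW p (res (stab s) z) = Nat.card G * dz p z := by
  have := Fintype.ofFinite (Subgroup G)
  have h1 : ∀ s ∈ chains p G, (-1 : ℂ) ^ s.card * nW p (res (stab s) z) =
      ∑ Q ∈ (Finset.univ : Finset (Subgroup G)).filter (fun Q : Subgroup G => IsPGroup p Q),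
        if Q ≤ stab s then (-1 : ℂ) ^ s.card *
        ((Nat.card (normalizer (Q : Set G) ⊓ stab s : Subgroup G) : ℂ) *
          dzQ p (normalizer (Q : Set G) ⊓ stab s) Q z) else 0 := by
    intro s _
    rw [nW_res, Finset.mul_sum, ← Finset.sum_filter, Finset.filter_filter]
  rw [Finset.sum_congr rfl h1, Finset.sum_comm]
  rw [Finset.sum_eq_single (⊥ : Subgroup G)]
  · rw [Finset.sum_eq_single (∅ : Finset (Subgroup G))]
    · rw [if_pos bot_le]
      simp only [Finset.card_empty, pow_zero, one_mul]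
      have h2 : (normalizer ((⊥ : Subgroup G) : Set G) ⊓ stab (∅ : Finset (Subgroup G))) = ⊤ := by
        rw [stab_empty, inf_top_eq, normalizer_eq_top_iff]
        infer_instance
      rw [h2, dzQ_bot]
      congr 1
      · rw [Nat.card_congr (topEquiv (G := G)).toEquiv]
      · exact dz_comp (topEquiv (G := G)) z
    · intro s hs hs0
      rw [if_pos bot_le]
      have hs' := mem_chains.mp hs
      have h2 : normalizer ((⊥ : Subgroup G) : Set G) ⊓ stab s = stab s := by
        rw [inf_eq_right]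
        refine le_trans le_top (top_le_iff.mpr ?_)
        rw [normalizer_eq_top_iff]
        infer_instance
      rw [h2, dzQ_bot, dz_eq_zero p (not_opTrivial_stab hs' (Finset.nonempty_of_ne_empty hs0))]
      simp
    · intro h
      exact absurd (mem_chains.mpr (isPChain_empty p)) h
  · intro Q hQ hQ1
    rw [Finset.mem_filter] at hQ
    rw [← Finset.sum_filter]
    exact sum_tog_eq_zero' Q ((chains p G).filter fun s => Q ≤ stab s)
      (fun s hs => by
        rw [Finset.mem_filter, mem_chains] at hs ⊢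
        exact ⟨tog_isPChain hs.1 hQ.2 hQ1 hs.2,
          (le_stab_tog hs.1 hQ.2 hQ1 hs.2 Subgroup.le_normalizer).mpr hs.2⟩)
      (fun s => ((Nat.card (normalizer (Q : Set G) ⊓ stab s : Subgroup G) : ℂ) *
          dzQ p (normalizer (Q : Set G) ⊓ stab s) Q z))
      (fun s hs => by
        rw [Finset.mem_filter, mem_chains] at hs
        rw [inf_stab_tog hs.1 hQ.2 hQ1 hs.2])
  · intro h
    refine absurd ?_ h
    rw [Finset.mem_filter]
    exact ⟨Finset.mem_univ _, IsPGroup.of_bot⟩

end P179C
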