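import Vale.Agent.P179.H166.PPMain4

/-!
# The main lemma for `p = 2, 3`, conclusion
-/

namespace P179A

open Subgroup

open scoped Classical Pointwise

variable {G : Type*} [Group G] [Finite G]

/-- the signed number of free triples twisted by `k` -/
noncomputable def DD (p : ℕ) (g : G) (R : Subgroup G) (σ : Tri G → Tri G) (k : G) : ℤ :=
  (((FP p g R 1).filter (fun w => k • σ w = w)).card : ℤ) -
    ((FP p g R (-1)).filter (fun w => k • σ w = w)).card

/-- **Main lemma with fixed points.** -/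
theorem main_pp_aux (p : ℕ) [hp : Fact p.Prime] {q n i j : ℕ} (hqn : q = p ^ n)
    {τ : Tri G → Tri G} (hT : Tw G q i j τ) (g : G) (m : ℕ)
    (P : Subgroup G) (hP : IsPGroup p P) (hg : ∀ a ∈ P, a * g = g * a) (hgP : g ^ m ∈ P)
    (hu1 : g ^ m ≠ 1) (hup : (g ^ m) ^ p = 1) (hm : ∀ x : G, (∃ n, x ^ p ^ n = 1) → x ^ m = x)
    (h : ∀ k ∈ P, k ^ q = g ^ m → ∃ e, e ≡ 1 [MOD p] ∧ ∀ c ∈ P, c * k * c⁻¹ ≠ k ^ e) :
    ((Nat.card P * p : ℕ) : ℤ) ∣ ∑ w ∈ OF p g, (-1 : ℤ) ^ w.s.card := by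
  set u := g ^ m with hu
  have hup1 : ∃ n, u ^ p ^ n = 1 := ⟨1, by rw [pow_one]; exact hup⟩
  have huo : orderOf u = p := orderOf_eq_prime hup hu1
  have hm0 : m ≠ 0 := by rintro rfl; exact hu1 (by rw [hu, pow_zero])
  have hpm : ¬ p ∣ m := by
    intro hd
    obtain ⟨t, ht⟩ := hd
    have := hm u hup1
    rw [ht, pow_mul, hup, one_pow] at this
    exact hu1 this.symm
  set σ : Tri G → Tri G := τ^[m] with hσ
  have hσg : ∀ ε, Good p g P ε σ := fun ε => (hT.good p g P ε).iterate m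
  have hσq : ∀ w, InO p g w → σ^[q] w = u⁻¹ • w := by
    intro w hw
    rw [hσ, ← Function.iterate_mul, mul_comm, Function.iterate_mul]
    exact hT.full_iterate hw m
  have hσU : ∀ w, U P (σ w) = U P w := fun w => hT.iter_U P w m
  have hσtg : ∀ V w, σ (tg V w) = tg V (σ w) := fun V w => hT.iter_tg V w m
  rw [sum_OF_eq_gen hP]
  have hfin : Finite {k : G // k ∈ P ∧ k ^ q = u} := inferInstance
  let _ : Fintype {k : G // k ∈ P ∧ k ^ q = u} := Fintype.ofFinite _
  have hsplit : ∀ ε : ℤ, (FP p g P ε).card =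
      (∑ k : {k : G // k ∈ P ∧ k ^ q = u}, ((FP p g P ε).filter (fun w => k.1 • σ w = w)).card) +
      ((FP p g P ε).filter (fun w => ¬ ∃ k ∈ P, k • σ w = w)).card := by
    intro ε
    rw [← card_fixed (hσg ε) hgP hσq]
    exact (Finset.card_filter_add_card_filter_not (fun w => ∃ k ∈ P, k • σ w = w)).symm
  rw [hsplit 1, hsplit (-1)]
  have hrest : ∀ ε : ℤ, ((Nat.card P * p : ℕ) : ℤ) ∣
      ((((FP p g P ε).filter (fun w => ¬ ∃ k ∈ P, k • σ w = w)).card : ℕ) : ℤ) := fun ε =>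
    Int.natCast_dvd_natCast.mpr (dvd_card_rest hg (hσg ε) hqn hgP hσq)
  have hsum : ((Nat.card P * p : ℕ) : ℤ) ∣ ∑ k : {k : G // k ∈ P ∧ k ^ q = u},
      DD p g P σ k.1 := by
    -- the two actions
    have hkN : ∀ k : {k : G // k ∈ P ∧ k ^ q = u}, k.1 ^ (p ^ (n + 1)) = 1 := by
      intro k
      rw [pow_succ, pow_mul, ← hqn, k.2.2, hup]
    let act1 : MulAction P {k : G // k ∈ P ∧ k ^ q = u} :=
      { smul := fun c k => ⟨(c : G) * k.1 * (c : G)⁻¹,
          mul_mem (mul_mem c.2 k.2.1) (inv_mem c.2), by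
            rw [conj_pow, k.2.2, hu]
            have : Commute (c : G) (g ^ m) := Commute.pow_right (hg c c.2) m
            rw [this.eq, mul_inv_cancel_right]⟩
        one_smul := fun k => Subtype.ext (by
          change (1 : G) * k.1 * (1 : G)⁻¹ = k.1
          group)
        mul_smul := fun c d k => Subtype.ext (by
          change ((c : G) * d) * k.1 * ((c : G) * d)⁻¹ = c * (d * k.1 * (d : G)⁻¹) * (c : G)⁻¹
          group) }
    let vv : AdU p n → ℕ := fun a => ((a : (ZMod (p ^ (n + 1)))ˣ) : ZMod (p ^ (n + 1))).val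
    have hvv : ∀ a, vv a ≡ 1 [MOD p] := fun a => adU_val a
    have hne : NeZero (p ^ (n + 1)) := ⟨pow_ne_zero _ hp.out.ne_zero⟩
    have hvm : ∀ a b, vv (a * b) = vv a * vv b % p ^ (n + 1) := fun a b => ZMod.val_mul _ _
    have hv1 : vv 1 = 1 := by
      have : Fact (1 < p ^ (n + 1)) := ⟨Nat.one_lt_pow (Nat.succ_ne_zero n) hp.out.one_lt⟩
      exact ZMod.val_one _
    have huv : ∀ a, u ^ vv a = u := by
      intro a
      conv_rhs => rw [← pow_one u]
      rw [pow_eq_pow_iff_modEq, huo]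
      exact hvv a
    let act2 : MulAction (AdU p n) {k : G // k ∈ P ∧ k ^ q = u} :=
      { smul := fun a k => ⟨k.1 ^ vv a, pow_mem k.2.1 _, by
          rw [← pow_mul, mul_comm, pow_mul, k.2.2, huv]⟩
        one_smul := fun k => Subtype.ext (by
          change k.1 ^ vv 1 = k.1
          rw [hv1, pow_one])
        mul_smul := fun a b k => Subtype.ext (by
          change k.1 ^ vv (a * b) = (k.1 ^ vv b) ^ vv a
          rw [hvm, ← pow_eq_pow_mod _ (hkN k), mul_comm, pow_mul]) }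
    have hs1 : ∀ (c : P) (k : {k : G // k ∈ P ∧ k ^ q = u}),
      ((c • k : {k : G // k ∈ P ∧ k ^ q = u}) : G) = c * k.1 * (c : G)⁻¹ := fun _ _ => rfl
    have hs2 : ∀ (a : AdU p n) (k : {k : G // k ∈ P ∧ k ^ q = u}),
      ((a • k : {k : G // k ∈ P ∧ k ^ q = u}) : G) = k.1 ^ vv a := fun _ _ => rfl
    refine dvd_sum_prod p (R := P) (A := AdU p n) (adU_isPGroup p n) ?_
      (fun k : {k : G // k ∈ P ∧ k ^ q = u} => DD p g P σ k.1) ?_ ?_ ?_ ?_
    · intro c a k
      apply Subtype.ext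
      rw [hs1, hs2, hs2, hs1, conj_pow]
    · -- invariance under conjugation
      intro c k
      have key : ∀ ε : ℤ, ((FP p g P ε).filter (fun w => (c • k).1 • σ w = w)).card =
          ((FP p g P ε).filter (fun w => k.1 • σ w = w)).card := by
        intro ε
        symm
        refine Finset.card_bij (fun w _ => (c : G) • w) ?_ ?_ ?_
        · intro w hw
          rw [Finset.mem_filter] at hw ⊢
          refine ⟨FP_smul_mem hg c.2 hw.1, ?_⟩
          rw [hs1, (hσg ε).comm, ← mul_smul, inv_mul_cancel_right, mul_smul, hw.2]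
        · intro w _ w' _ hww
          exact MulAction.injective (c : G) hww
        · intro w hw
          rw [Finset.mem_filter] at hw
          refine ⟨(c : G)⁻¹ • w, ?_, smul_inv_smul _ _⟩
          rw [Finset.mem_filter]
          refine ⟨FP_smul_mem hg (inv_mem c.2) hw.1, ?_⟩
          rw [(hσg ε).comm]
          have h2 := hw.2
          rw [hs1] at h2
          rw [eq_inv_smul_iff, ← mul_smul, ← mul_smul]
          exact h2
      simp only [DD]
      rw [key, key]
    · -- invariance under Adams operations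
      intro a k
      have hQ : ∀ k : {k : G // k ∈ P ∧ k ^ q = u}, DD p g P σ k.1 =
          ∑ w ∈ (OF p g).filter (fun w => k.1 • σ w = w), (-1 : ℤ) ^ w.s.card := by
        intro k
        symm
        refine sum_OF_eq_rel hP (fun w => k.1 • σ w = w) ?_
        intro w _ _ hkw
        have hV : MulAut.conj k.1 • U P w = U P w := by
          conv_rhs => rw [← hkw, U_smul_eq k.2.1, hσU]
        change k.1 • σ (tg (U P w) w) = tg (U P w) w
        rw [hσtg, smul_tg, hV, hkw]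
      have hko : orderOf k.1 = p ^ (n + 1) := by
        refine orderOf_eq_prime_pow (by rw [← hqn, k.2.2]; exact hu1) (hkN k)
      -- `m = 1 + q a`
      have hkm : k.1 ^ m = k.1 := hm k.1 ⟨n + 1, hkN k⟩
      have hqm : ∃ b, m = 1 + q * b := by
        have h1 : m ≡ 1 [MOD orderOf k.1] := by
          rw [← pow_eq_pow_iff_modEq, pow_one]; exact hkm
        rw [hko] at h1
        have h2 : q ∣ m - 1 := by
          refine (dvd_trans ?_ ((Nat.modEq_iff_dvd' (Nat.one_le_iff_ne_zero.mpr hm0)).mp h1.symm))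
          rw [hqn]
          exact pow_dvd_pow p (Nat.le_succ n)
        obtain ⟨b, hb⟩ := h2
        exact ⟨b, by omega⟩
      obtain ⟨b, hb⟩ := hqm
      obtain ⟨e, he1, he2, he3⟩ := exists_exp (g := g) (k := k.1) (m := m) (v := vv a)
        hu1 hup hpm (by rw [← hqn]; exact k.2.2) (hvv a)
      have hcg : Commute k.1 g := hg k.1 k.2.1
      have hκ : (k.1 * (g ^ b)⁻¹) ^ q = g := by
        rw [((hcg.pow_right b).inv_right).mul_pow, k.2.2, hu, inv_pow, ← pow_mul, mul_inv_eq_iff_eq_mul,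
          mul_comm b q, ← pow_succ', add_comm (q * b) 1, ← hb]
      have hκe : (k.1 * (g ^ b)⁻¹) ^ e = k.1 ^ vv a * (g ^ b)⁻¹ := by
        rw [((hcg.pow_right b).inv_right).mul_pow, he3, inv_pow, ← pow_mul, mul_comm b e, pow_mul,
          he2]
      have hfil : ∀ k' : G, (OF p g).filter (fun w => k' • σ w = w) =
          (OF p g).filter (fun w => (k' * (g ^ b)⁻¹) • τ w = w) := by
        intro k'
        refine Finset.filter_congr fun w hw => ?_
        rw [hσ, hb, hT.iter_eq (mem_OF.1 hw), mul_smul]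
      rw [hQ, hQ, hs2, hfil, hfil, ← hκe]
      exact count_fix_pow hT hκ he1 he2
    · -- the centraliser acts freely
      intro k
      have hst : Nat.card (MulAction.stabilizer P k) = Nat.card {c : P // (c : G) * k.1 = k.1 * c} := by
        refine Nat.card_congr (Equiv.subtypeEquivRight fun c => ?_)
        rw [MulAction.mem_stabilizer_iff, Subtype.ext_iff, hs1, mul_inv_eq_iff_eq_mul]
      rw [hst]
      exact dvd_sub (Int.natCast_dvd_natCast.mpr (centralizer_dvd_card hg (hσg 1) k.1))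
        (Int.natCast_dvd_natCast.mpr (centralizer_dvd_card hg (hσg (-1)) k.1))
    · intro k _
      obtain ⟨e, he1, he2⟩ := h k.1 k.2.1 k.2.2
      -- the unit
      have hcop : e.Coprime (p ^ (n + 1)) := by
        refine Nat.Coprime.pow_right _ ?_
        have := he1.gcd_eq
        rwa [Nat.gcd_one_left] at this
      let a0 : (ZMod (p ^ (n + 1)))ˣ := ZMod.unitOfCoprime e hcop
      have ha0 : a0 ∈ AdU p n := by
        rw [AdU, MonoidHom.mem_ker]
        apply Units.ext
        rw [ZMod.unitsMap_val, Units.val_one]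
        change ((e : ZMod (p ^ (n + 1))).cast : ZMod p) = 1
        rw [ZMod.cast_natCast (dvd_pow_self p (Nat.succ_ne_zero n))]
        have := (ZMod.natCast_eq_natCast_iff _ _ _).mpr he1
        rwa [Nat.cast_one] at this
      refine ⟨⟨a0, ha0⟩, ?_⟩
      intro c hc
      apply he2 c c.2
      have h1 := congrArg Subtype.val hc
      rw [hs1, hs2] at h1
      rw [h1]
      change k.1 ^ (e : ZMod (p ^ (n + 1))).val = k.1 ^ e
      rw [ZMod.val_natCast, ← pow_eq_pow_mod _ (hkN k)]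
  have hsum' : ∑ k : {k : G // k ∈ P ∧ k ^ q = u}, DD p g P σ k.1 =
      ((∑ k : {k : G // k ∈ P ∧ k ^ q = u}, ((FP p g P 1).filter (fun w => k.1 • σ w = w)).card : ℕ) : ℤ)
      - ((∑ k : {k : G // k ∈ P ∧ k ^ q = u},
        ((FP p g P (-1)).filter (fun w => k.1 • σ w = w)).card : ℕ) : ℤ) := by
    simp only [DD]
    rw [Finset.sum_sub_distrib]
    push_cast
    rfl
  have hfinal : ∀ a b c d : ℤ, ((Nat.card P * p : ℕ) : ℤ) ∣ a - b → ((Nat.card P * p : ℕ) : ℤ) ∣ c →
      ((Nat.card P * p : ℕ) : ℤ) ∣ d → ((Nat.card P * p : ℕ) : ℤ) ∣ (a + c) - (b + d) := by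
    intro a b c d h1 h2 h3
    have : (a + c) - (b + d) = (a - b) + (c - d) := by ring
    rw [this]
    exact dvd_add h1 (dvd_sub h2 h3)
  rw [Nat.cast_add, Nat.cast_add]
  refine hfinal _ _ _ _ ?_ (hrest 1) (hrest (-1))
  rw [← hsum']
  exact hsum

/-- **Main lemma, `p = 2, 3`.** -/
theorem main_pp [Fintype G] (p : ℕ) [hp : Fact p.Prime] (g : G) (m : ℕ)
    (P : Subgroup G) (hP : IsPGroup p P) (hg : ∀ a ∈ P, a * g = g * a) (hgP : g ^ m ∈ P)
    (hu1 : g ^ m ≠ 1) (hup : (g ^ m) ^ p = 1) (hm : ∀ x : G, (∃ n, x ^ p ^ n = 1) → x ^ m = x)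
    (h : (p = 2 ∧ ∀ k ∈ P, k ^ 4 = g ^ m → ∃ e, e ≡ 1 [MOD p] ∧ ∀ c ∈ P, c * k * c⁻¹ ≠ k ^ e) ∨
      (p = 3 ∧ ∀ k ∈ P, k ^ 3 = g ^ m → ∃ e, e ≡ 1 [MOD p] ∧ ∀ c ∈ P, c * k * c⁻¹ ≠ k ^ e)) :
    ((Nat.card P * p : ℕ) : ℤ) ∣
      ∑ t ∈ (Finset.univ : Finset (G × G)).filter (fun t => t.1 * t.2 * t.1⁻¹ * t.2⁻¹ = g),
        W p t.1 t.2 := by
  rw [sum_W_eq]
  rcases h with ⟨h2, h⟩ | ⟨h3, h⟩
  · exact main_pp_aux p (q := 4) (n := 2) (by rw [h2]; norm_num) tw_hd g m P hP hg hgP hu1 hup hm h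
  · exact main_pp_aux p (q := 3) (n := 1) (by rw [h3]; norm_num) tw_h12 g m P hP hg hgP hu1 hup hm h

end P179A
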