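import Vale.Agent.P179.H166.V4
import Vale.Agent.P179.H166.PPMain5

/-!
# The main lemma for `p = 2, 3` with characters: Theorem M and Adams operations together
-/

set_option linter.unusedSectionVars false

namespace P179V

open Subgroup P179A

open scoped Classical Pointwise

variable {G : Type*} [Group G] [Finite G]

/-! ### the sum over the roots with a property -/

/-- The signed numbers `DD` sum up to `0` modulo `p |P|` over the roots with an invariant property
implying that the root is not twisted. -/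
theorem dvd_sum_DD (p : ℕ) [hp : Fact p.Prime] {q n i j : ℕ} (hqn : q = p ^ n)
    {τ : Tri G → Tri G} (hT : Tw G q i j τ) (g : G) (m : ℕ)
    (P : Subgroup G) [Fintype P] (hP : IsPGroup p P) (hg : ∀ a ∈ P, a * g = g * a)
    (hgP : g ^ m ∈ P)
    (hu1 : g ^ m ≠ 1) (hup : (g ^ m) ^ p = 1) (hm : ∀ x : G, (∃ n, x ^ p ^ n = 1) → x ^ m = x)
    (Q : P → Prop) (hQc : ∀ c k : P, Q k → Q (c * k * c⁻¹))
    (hQa : ∀ k : P, Q k → ∀ v, v ≡ 1 [MOD p] → Q (k ^ v))
    (h : ∀ k : P, k ^ q = ⟨g ^ m, hgP⟩ → Q k → ∃ e, e ≡ 1 [MOD p] ∧ ∀ c : P, c * k * c⁻¹ ≠ k ^ e) :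
    ((Nat.card P * p : ℕ) : ℤ) ∣
      ∑ k ∈ (Finset.univ : Finset P).filter (fun k => k ^ q = ⟨g ^ m, hgP⟩ ∧ Q k),
        DD p g P (τ^[m]) k := by
  set u := g ^ m with hu
  have hup1 : ∃ n, u ^ p ^ n = 1 := ⟨1, by rw [pow_one]; exact hup⟩
  have huo : orderOf u = p := orderOf_eq_prime hup hu1
  have hm0 : m ≠ 0 := by rintro rfl; exact hu1 (by rw [hu, pow_zero])
  have hpm : ¬ p ∣ m := by
    intro hd
    obtain ⟨t, ht⟩ := hd
    have := hm u hup1
    rw [ht, pow_mul, hup, one_pow] at this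
    exact hu1 this.symm
  set σ : Tri G → Tri G := τ^[m] with hσ
  have hσg : ∀ ε, Good p g P ε σ := fun ε => (hT.good p g P ε).iterate m
  have hσU : ∀ w, U P (σ w) = U P w := fun w => hT.iter_U P w m
  have hσtg : ∀ V w, σ (tg V w) = tg V (σ w) := fun V w => hT.iter_tg V w m
  -- the type of the roots
  let X := {k : P // k ^ q = ⟨u, hgP⟩ ∧ Q k}
  have hsub : ∑ k ∈ (Finset.univ : Finset P).filter (fun k => k ^ q = ⟨u, hgP⟩ ∧ Q k),
      DD p g P σ k = ∑ k : X, DD p g P σ (k.1 : G) :=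
    Finset.sum_subtype _ (by simp) _
  rw [hsub]
  have hkq : ∀ k : X, (k.1 : G) ^ q = u := fun k => congrArg Subtype.val k.2.1
  have hkN : ∀ k : X, (k.1 : G) ^ (p ^ (n + 1)) = 1 := by
    intro k
    rw [pow_succ, pow_mul, ← hqn, hkq, hup]
  have hcu : ∀ c : P, c * ⟨u, hgP⟩ * c⁻¹ = ⟨u, hgP⟩ := by
    intro c
    apply Subtype.ext
    have : Commute (c : G) (g ^ m) := Commute.pow_right (hg c c.2) m
    change (c : G) * u * (c : G)⁻¹ = u
    rw [hu, this.eq, mul_inv_cancel_right]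
  let act1 : MulAction P X :=
    { smul := fun c k => ⟨c * k.1 * c⁻¹, by rw [conj_pow, k.2.1, hcu], hQc c k.1 k.2.2⟩
      one_smul := fun k => Subtype.ext (by
        change (1 : P) * k.1 * (1 : P)⁻¹ = k.1
        group)
      mul_smul := fun c d k => Subtype.ext (by
        change (c * d) * k.1 * (c * d)⁻¹ = c * (d * k.1 * d⁻¹) * c⁻¹
        group) }
  let vv : AdU p n → ℕ := fun a => ((a : (ZMod (p ^ (n + 1)))ˣ) : ZMod (p ^ (n + 1))).val
  have hvv : ∀ a, vv a ≡ 1 [MOD p] := fun a => adU_val a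
  have hne : NeZero (p ^ (n + 1)) := ⟨pow_ne_zero _ hp.out.ne_zero⟩
  have hvm : ∀ a b, vv (a * b) = vv a * vv b % p ^ (n + 1) := fun a b => ZMod.val_mul _ _
  have hv1 : vv 1 = 1 := by
    have : Fact (1 < p ^ (n + 1)) := ⟨Nat.one_lt_pow (Nat.succ_ne_zero n) hp.out.one_lt⟩
    exact ZMod.val_one _
  have huv : ∀ a, u ^ vv a = u := by
    intro a
    conv_rhs => rw [← pow_one u]
    rw [pow_eq_pow_iff_modEq, huo]
    exact hvv a
  have hkN' : ∀ k : X, k.1 ^ (p ^ (n + 1)) = 1 := fun k => Subtype.ext (hkN k)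
  let act2 : MulAction (AdU p n) X :=
    { smul := fun a k => ⟨k.1 ^ vv a, by
        rw [← pow_mul, mul_comm, pow_mul, k.2.1]
        exact Subtype.ext (huv a), hQa k.1 k.2.2 _ (hvv a)⟩
      one_smul := fun k => Subtype.ext (by
        change k.1 ^ vv 1 = k.1
        rw [hv1, pow_one])
      mul_smul := fun a b k => Subtype.ext (by
        change k.1 ^ vv (a * b) = (k.1 ^ vv b) ^ vv a
        rw [hvm, ← pow_eq_pow_mod _ (hkN' k), mul_comm, pow_mul]) }
  have hs1 : ∀ (c : P) (k : X), (c • k : X).1 = c * k.1 * c⁻¹ := fun _ _ => rfl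
  have hs2 : ∀ (a : AdU p n) (k : X), (a • k : X).1 = k.1 ^ vv a := fun _ _ => rfl
  refine dvd_sum_prod p (R := P) (A := AdU p n) (adU_isPGroup p n) ?_
    (fun k : X => DD p g P σ (k.1 : G)) ?_ ?_ ?_ ?_
  · intro c a k
    apply Subtype.ext
    rw [hs1, hs2, hs2, hs1, conj_pow]
  · -- invariance under conjugation
    intro c k
    have key : ∀ ε : ℤ, ((FP p g P ε).filter (fun w => ((c • k : X).1 : G) • σ w = w)).card =
        ((FP p g P ε).filter (fun w => (k.1 : G) • σ w = w)).card := by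
      intro ε
      symm
      have hs1' : ((c • k : X).1 : G) = (c : G) * (k.1 : G) * (c : G)⁻¹ := by rw [hs1]; rfl
      refine Finset.card_bij (fun w _ => (c : G) • w) ?_ ?_ ?_
      · intro w hw
        rw [Finset.mem_filter] at hw ⊢
        refine ⟨FP_smul_mem hg c.2 hw.1, ?_⟩
        rw [hs1', (hσg ε).comm, ← mul_smul, inv_mul_cancel_right, mul_smul, hw.2]
      · intro w _ w' _ hww
        exact MulAction.injective (c : G) hww
      · intro w hw
        rw [Finset.mem_filter] at hw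
        refine ⟨(c : G)⁻¹ • w, ?_, smul_inv_smul _ _⟩
        rw [Finset.mem_filter]
        refine ⟨FP_smul_mem hg (inv_mem c.2) hw.1, ?_⟩
        rw [(hσg ε).comm]
        have h2 := hw.2
        rw [hs1'] at h2
        rw [eq_inv_smul_iff, ← mul_smul, ← mul_smul]
        exact h2
    simp only [DD]
    rw [key, key]
  · -- invariance under Adams operations
    intro a k
    have hQ : ∀ k : X, DD p g P σ (k.1 : G) =
        ∑ w ∈ (OF p g).filter (fun w => (k.1 : G) • σ w = w), (-1 : ℤ) ^ w.s.card := by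
      intro k
      symm
      refine sum_OF_eq_rel hP (fun w => (k.1 : G) • σ w = w) ?_
      intro w _ _ hkw
      have hV : MulAut.conj (k.1 : G) • U P w = U P w := by
        conv_rhs => rw [← hkw, U_smul_eq k.1.2, hσU]
      change (k.1 : G) • σ (tg (U P w) w) = tg (U P w) w
      rw [hσtg, smul_tg, hV, hkw]
    have hko : orderOf (k.1 : G) = p ^ (n + 1) := by
      refine orderOf_eq_prime_pow (by rw [← hqn, hkq]; exact hu1) (hkN k)
    -- `m = 1 + q a`
    have hkm : (k.1 : G) ^ m = k.1 := hm k.1 ⟨n + 1, hkN k⟩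
    have hqm : ∃ b, m = 1 + q * b := by
      have h1 : m ≡ 1 [MOD orderOf (k.1 : G)] := by
        rw [← pow_eq_pow_iff_modEq, pow_one]; exact hkm
      rw [hko] at h1
      have h2 : q ∣ m - 1 := by
        refine (dvd_trans ?_ ((Nat.modEq_iff_dvd' (Nat.one_le_iff_ne_zero.mpr hm0)).mp h1.symm))
        rw [hqn]
        exact pow_dvd_pow p (Nat.le_succ n)
      obtain ⟨b, hb⟩ := h2
      exact ⟨b, by omega⟩
    obtain ⟨b, hb⟩ := hqm
    obtain ⟨e, he1, he2, he3⟩ := exists_exp (g := g) (k := (k.1 : G)) (m := m) (v := vv a)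
      hu1 hup hpm (by rw [← hqn]; exact hkq k) (hvv a)
    have hcg : Commute (k.1 : G) g := hg k.1 k.1.2
    have hκ : ((k.1 : G) * (g ^ b)⁻¹) ^ q = g := by
      rw [((hcg.pow_right b).inv_right).mul_pow, hkq, hu, inv_pow, ← pow_mul, mul_inv_eq_iff_eq_mul,
        mul_comm b q, ← pow_succ', add_comm (q * b) 1, ← hb]
    have hκe : ((k.1 : G) * (g ^ b)⁻¹) ^ e = (k.1 : G) ^ vv a * (g ^ b)⁻¹ := by
      rw [((hcg.pow_right b).inv_right).mul_pow, he3, inv_pow, ← pow_mul, mul_comm b e, pow_mul,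
        he2]
    have hfil : ∀ k' : G, (OF p g).filter (fun w => k' • σ w = w) =
        (OF p g).filter (fun w => (k' * (g ^ b)⁻¹) • τ w = w) := by
      intro k'
      refine Finset.filter_congr fun w hw => ?_
      rw [hσ, hb, hT.iter_eq (mem_OF.1 hw), mul_smul]
    have hs2' : ((a • k : X).1 : G) = (k.1 : G) ^ vv a := by rw [hs2]; rfl
    rw [hQ, hQ, hs2', hfil, hfil, ← hκe]
    exact count_fix_pow hT hκ he1 he2
  · -- the centraliser acts freely
    intro k
    have hst : Nat.card (MulAction.stabilizer P k) =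
        Nat.card {c : P // (c : G) * (k.1 : G) = k.1 * c} := by
      refine Nat.card_congr (Equiv.subtypeEquivRight fun c => ?_)
      rw [MulAction.mem_stabilizer_iff, Subtype.ext_iff, hs1, mul_inv_eq_iff_eq_mul]
      exact Subtype.ext_iff
    rw [hst]
    exact dvd_sub (Int.natCast_dvd_natCast.mpr (centralizer_dvd_card hg (hσg 1) (k.1 : G)))
      (Int.natCast_dvd_natCast.mpr (centralizer_dvd_card hg (hσg (-1)) (k.1 : G)))
  · intro k _
    obtain ⟨e, he1, he2⟩ := h k.1 k.2.1 k.2.2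
    -- the unit
    have hcop : e.Coprime (p ^ (n + 1)) := by
      refine Nat.Coprime.pow_right _ ?_
      have := he1.gcd_eq
      rwa [Nat.gcd_one_left] at this
    let a0 : (ZMod (p ^ (n + 1)))ˣ := ZMod.unitOfCoprime e hcop
    have ha0 : a0 ∈ AdU p n := by
      rw [AdU, MonoidHom.mem_ker]
      apply Units.ext
      rw [ZMod.unitsMap_val, Units.val_one]
      change ((e : ZMod (p ^ (n + 1))).cast : ZMod p) = 1
      rw [ZMod.cast_natCast (dvd_pow_self p (Nat.succ_ne_zero n))]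
      have := (ZMod.natCast_eq_natCast_iff _ _ _).mpr he1
      rwa [Nat.cast_one] at this
    refine ⟨⟨a0, ha0⟩, ?_⟩
    intro c hc
    apply he2 c
    have h1 := congrArg Subtype.val hc
    rw [hs1, hs2] at h1
    rw [h1]
    change k.1 ^ (e : ZMod (p ^ (n + 1))).val = k.1 ^ e
    rw [ZMod.val_natCast, ← pow_eq_pow_mod _ (hkN' k)]

/-! ### the fixed orbits -/

section fixed

variable {p : ℕ} {g : G} {P : Subgroup G} [Fintype P] {ε : ℤ} {σ : Tri G → Tri G}

/-- the fixed orbits with a property of the twisting element -/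
theorem card_fixed_Q (hσ : Good p g P ε σ) {q m : ℕ} (hgP : g ^ m ∈ P)
    (hσq : ∀ w, InO p g w → σ^[q] w = (g ^ m)⁻¹ • w) (Q : P → Prop) :
    ((FP p g P ε).filter (fun w => ∃ k : P, Q k ∧ (k : G) • σ w = w)).card =
      ∑ k ∈ (Finset.univ : Finset P).filter (fun k => k ^ q = ⟨g ^ m, hgP⟩ ∧ Q k),
        ((FP p g P ε).filter (fun w => (k : G) • σ w = w)).card := by
  rw [← Finset.card_biUnion]
  · congr 1
    ext w
    simp only [Finset.mem_filter, Finset.mem_biUnion, Finset.mem_univ, true_and]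
    constructor
    · rintro ⟨hw, k, hQ, hk⟩
      refine ⟨k, ⟨?_, hQ⟩, hw, hk⟩
      exact Subtype.ext (root_of_fixed hσ hgP hσq hw k.2 hk)
    · rintro ⟨k, ⟨_, hQ⟩, hw, hk⟩
      exact ⟨hw, k, hQ, hk⟩
  · intro k _ k' _ hne
    rw [Function.onFun, Finset.disjoint_left]
    intro w hw hw'
    rw [Finset.mem_filter] at hw hw'
    apply hne
    have h1 : (k : G) • σ w = (k' : G) • σ w := by rw [hw.2, hw'.2]
    have h2 : ((k' : G)⁻¹ * k) • σ w = σ w := by rw [mul_smul, h1, inv_smul_smul]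
    have h3 := FP_smul_free (mul_mem (inv_mem k'.2) k.2) (hσ.maps w hw.1) h2
    exact Subtype.ext (inv_mul_eq_one.1 h3).symm

end fixed

/-! ### the main lemma -/

/-- **Main lemma with characters.** `u = g ^ m` has order `p`; `L` is a homomorphism from `P` to a
group `A` of exponent `p`, the value of `L` at the twisted `p ^ n`-th roots of `u` is `ω ≠ 1`, the
value at the `p ^ r`-th roots with `r < n` is `1`. -/
theorem main_chi (p : ℕ) [hp : Fact p.Prime] {q n i j : ℕ} (hqn : q = p ^ n)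
    {τ : Tri G → Tri G} (hT : Tw G q i j τ) (g : G) (m : ℕ)
    (P : Subgroup G) (hP : IsPGroup p P) (hg : ∀ a ∈ P, a * g = g * a) (hgP : g ^ m ∈ P)
    (hu1 : g ^ m ≠ 1) (hup : (g ^ m) ^ p = 1) (hm : ∀ x : G, (∃ n, x ^ p ^ n = 1) → x ^ m = x)
    (hq : ∀ x : G, ∃ n : ℕ, (x ^ m) ^ (p ^ n) = 1)
    {A : Type*} [CommGroup A] [Finite A] (hA : ∀ α : A, α ^ p = 1) (L : P →* A) {ω : A}
    (hω : ω ≠ 1) {d : ℕ}
    (hd : ∀ (ε : ℤ) (c : Tri G → P), Tv (FP p g P ε) c →
      del L c τ (FP p g P ε) = (del L c s1 (FP p g P ε)) ^ d)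
    (h0 : ∀ k : P, k ^ q = ⟨g ^ m, hgP⟩ → (∀ e, e ≡ 1 [MOD p] → ∃ c : P, c * k * c⁻¹ = k ^ e) →
      L k = ω)
    (h1 : ∀ k : P, ∀ r < n, k ^ p ^ r = ⟨g ^ m, hgP⟩ → L k = 1) :
    ((Nat.card P * p : ℕ) : ℤ) ∣ ∑ w ∈ OF p g, (-1 : ℤ) ^ w.s.card := by
  have : Fintype A := Fintype.ofFinite A
  have : Fintype P := Fintype.ofFinite P
  set σ : Tri G → Tri G := τ^[m] with hσ
  have hσg : ∀ ε, Good p g P ε σ := fun ε => (hT.good p g P ε).iterate m
  have hσq : ∀ w, InO p g w → σ^[q] w = (g ^ m)⁻¹ • w := by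
    intro w hw
    rw [hσ, ← Function.iterate_mul, mul_comm, Function.iterate_mul]
    exact hT.full_iterate hw m
  have hevτ : ∀ ε, Ev P (FP p g P ε) (FP p g P ε) τ := fun ε =>
    ev_mk (hT.good p g P ε).maps (fun w _ e => (hT.good p g P ε).comm (e : G) w)
      (hT.good p g P ε).inj
  have hev : ∀ ε, Ev P (FP p g P ε) (FP p g P ε) σ := fun ε => (hevτ ε).iterate m
  have hNid : ∀ ε, ∀ w ∈ FP p g P ε, σ^[p ^ (n + 1)] w = w := by
    intro ε w hw
    have h2 : σ^[q] w = (⟨g ^ m, hgP⟩⁻¹ : P) • w := hσq w (mem_FP.1 hw).1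
    have h3 := iter_mul (hev ε) hw h2 p
    rw [pow_succ, ← hqn, h3]
    have h4 : (⟨g ^ m, hgP⟩⁻¹ : P) ^ p = 1 := by
      rw [inv_pow, inv_eq_one]
      exact Subtype.ext hup
    rw [h4, one_smul]
  obtain ⟨c1, hc1⟩ := exists_tv_FP (p := p) hg 1
  obtain ⟨c2, hc2⟩ := exists_tv_FP (p := p) hg (-1)
  have hs1 := del_s1_eq hP hg hq (clStat p g m hq) L
    (fun α => ⟨1, by rw [pow_one]; exact hA α⟩) hc1 hc2
  have hdelσ : ∀ (ε : ℤ) (c : Tri G → P), Tv (FP p g P ε) c →
      del L c σ (FP p g P ε) = (del L c (s1^[m]) (FP p g P ε)) ^ d := by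
    intro ε c hc
    rw [hσ, del_iterate hc (hevτ ε), hd ε c hc, del_iterate hc (ev_s1 p g P ε), ← pow_mul,
      ← pow_mul, mul_comm]
  have hdel : del L c1 σ (FP p g P 1) = del L c2 σ (FP p g P (-1)) := by
    rw [hdelσ 1 c1 hc1, hdelσ (-1) c2 hc2, hs1]
  obtain ⟨b1, hb1, hb1'⟩ := del_formula (p := p) L hc1 (hev 1) (hNid 1)
  obtain ⟨b2, hb2, hb2'⟩ := del_formula (p := p) L hc2 (hev (-1)) (hNid (-1))
  have hPpos : 0 < Nat.card P := Nat.card_pos
  -- the terms with `i ≥ 1`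
  have hhigh : ∀ (ε : ℤ) (b : ℕ → A → ℕ),
      (∀ i α, ((FP p g P ε).filter (fun w => Pd p L σ i α w)).card = p ^ i * Nat.card P * b i α) →
      ∏ i ∈ Finset.range (n + 1 + 1), ∏ α : A, α ^ b i α = ∏ α : A, α ^ b 0 α := by
    intro ε b hb
    rw [Finset.prod_range_succ']
    conv_rhs => rw [← one_mul (∏ α : A, α ^ b 0 α)]
    congr 1
    refine Finset.prod_eq_one fun i _ => Finset.prod_eq_one fun α _ => ?_
    by_cases hα : α = 1
    · rw [hα, one_pow]
    have hempty : (FP p g P ε).filter (fun w => Pd p L σ (i + 1) α w) = ∅ := by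
      rw [Finset.filter_eq_empty_iff]
      rintro w hw ⟨⟨e, he1, he2⟩, hno⟩
      apply hα
      have hq' : σ^[p ^ n] w = (⟨g ^ m, hgP⟩⁻¹ : P) • w := by
        rw [← hqn]; exact hσq w (mem_FP.1 hw).1
      have hin : i + 1 ≤ n := by
        by_contra hlt
        exact hno n (by omega) _ hq'
      have h2 := iter_mul (hev ε) hw he2 (p ^ (n - (i + 1)))
      rw [← pow_add, Nat.add_sub_cancel' hin, hq'] at h2
      have h3 : ((⟨g ^ m, hgP⟩⁻¹ : P)⁻¹ * e ^ p ^ (n - (i + 1))) • w = w := by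
        rw [mul_smul, ← h2, inv_smul_smul]
      have h4 := inv_mul_eq_one.1 (FPs_free hw h3)
      have h5 := h1 e⁻¹ (n - (i + 1)) (by omega) (by rw [inv_pow, ← h4, inv_inv])
      rw [map_inv, inv_eq_one] at h5
      rw [← he1, h5]
    have h2 := hb (i + 1) α
    rw [hempty, Finset.card_empty] at h2
    have h3 : b (i + 1) α = 0 := by
      have h4 : 0 < p ^ (i + 1) * Nat.card P := Nat.mul_pos (pow_pos hp.out.pos _) hPpos
      rcases Nat.mul_eq_zero.1 h2.symm with h5 | h5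
      · omega
      · exact h5
    rw [h3, pow_zero]
  rw [hb1', hb2', hhigh 1 b1 hb1, hhigh (-1) b2 hb2] at hdel
  -- the terms with `i = 0`
  let rt : (P → Prop) → Finset P := fun Q =>
    (Finset.univ : Finset P).filter (fun k => k ^ q = ⟨g ^ m, hgP⟩ ∧ Q k)
  let TT : A → ℤ := fun β => ∑ k ∈ rt (fun k => L k = β), DD p g P σ k
  have hPd0 : ∀ (ε : ℤ) (α : A), ((FP p g P ε).filter (fun w => Pd p L σ 0 α w)).card =
      ∑ k ∈ rt (fun k => L k = α⁻¹), ((FP p g P ε).filter (fun w => (k : G) • σ w = w)).card := by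
    intro ε α
    rw [← card_fixed_Q (hσg ε) hgP hσq (fun k => L k = α⁻¹)]
    refine congrArg Finset.card (Finset.filter_congr fun w _ => ?_)
    unfold Pd
    constructor
    · rintro ⟨⟨e, h2, h3⟩, _⟩
      refine ⟨e⁻¹, by rw [map_inv, h2], ?_⟩
      rw [pow_zero, Function.iterate_one] at h3
      rw [h3]
      exact inv_smul_smul e w
    · rintro ⟨k, h2, h3⟩
      refine ⟨⟨k⁻¹, by rw [map_inv, h2, inv_inv], ?_⟩, fun i' hi' => absurd hi' (Nat.not_lt_zero _)⟩
      rw [pow_zero, Function.iterate_one, eq_inv_smul_iff]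
      exact h3
  have hTT : ∀ α : A, TT α⁻¹ = (Nat.card P : ℤ) * ((b1 0 α : ℤ) - b2 0 α) := by
    intro α
    have e1 := hb1 0 α
    have e2 := hb2 0 α
    rw [hPd0, pow_zero, one_mul] at e1 e2
    simp only [TT, DD]
    rw [Finset.sum_sub_distrib]
    rw [← Nat.cast_sum, ← Nat.cast_sum, e1, e2]
    push_cast
    ring
  -- the values different from `ω`
  have hne : ∀ β : A, β ≠ ω → ((Nat.card P * p : ℕ) : ℤ) ∣ TT β := by
    intro β hβ
    refine dvd_sum_DD p hqn hT g m P hP hg hgP hu1 hup hm (fun k => L k = β) ?_ ?_ ?_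
    · intro c k hk
      rw [map_mul, map_mul, map_inv, mul_comm, ← mul_assoc, inv_mul_cancel, one_mul, hk]
    · intro k hk v hv
      rw [map_pow, hk]
      conv_rhs => rw [← pow_one β]
      rw [pow_eq_pow_iff_modEq]
      exact hv.of_dvd (orderOf_dvd_of_pow_eq_one (hA β))
    · intro k hk hLk
      by_contra hcon
      push Not at hcon
      exact hβ (hLk.symm.trans (h0 k hk hcon))
  have hbne : ∀ α : A, α⁻¹ ≠ ω → α ^ b1 0 α = α ^ b2 0 α := by
    intro α hα
    have h2 := hne α⁻¹ hα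
    rw [hTT] at h2
    push_cast at h2
    have h3 : (p : ℤ) ∣ (b1 0 α : ℤ) - b2 0 α :=
      (mul_dvd_mul_iff_left (by exact_mod_cast hPpos.ne')).1 h2
    rw [pow_eq_pow_iff_modEq]
    have h4 : b2 0 α ≡ b1 0 α [MOD p] := Nat.modEq_iff_dvd.2 h3
    exact (h4.of_dvd (orderOf_dvd_of_pow_eq_one (hA α))).symm
  have hωω : ω⁻¹ ^ b1 0 ω⁻¹ = ω⁻¹ ^ b2 0 ω⁻¹ := by
    rw [← Finset.mul_prod_erase Finset.univ (fun α => α ^ b1 0 α) (Finset.mem_univ ω⁻¹),
      ← Finset.mul_prod_erase Finset.univ (fun α => α ^ b2 0 α) (Finset.mem_univ ω⁻¹)] at hdel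
    have h2 : ∏ α ∈ Finset.univ.erase ω⁻¹, α ^ b1 0 α = ∏ α ∈ Finset.univ.erase ω⁻¹, α ^ b2 0 α := by
      refine Finset.prod_congr rfl fun α hα => hbne α ?_
      rw [Finset.mem_erase] at hα
      intro h
      exact hα.1 (by rw [← h, inv_inv])
    rw [h2] at hdel
    exact mul_right_cancel hdel
  have hω' : ((Nat.card P * p : ℕ) : ℤ) ∣ TT ω := by
    have h2 := hTT ω⁻¹
    rw [inv_inv] at h2
    rw [h2]
    push_cast
    refine mul_dvd_mul_left _ ?_
    have h3 : orderOf ω⁻¹ = p := by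
      rw [orderOf_inv]
      exact orderOf_eq_prime (hA ω) hω
    rw [pow_eq_pow_iff_modEq, h3] at hωω
    exact Nat.modEq_iff_dvd.1 hωω.symm
  obtain ⟨Q0, hQ0⟩ : ∃ Q0 : P → Prop, ∀ k, Q0 k := ⟨fun _ => True, fun _ => trivial⟩
  have hall : ((Nat.card P * p : ℕ) : ℤ) ∣ ∑ k ∈ rt Q0, DD p g P σ k := by
    have h2 : ∑ k ∈ rt Q0, DD p g P σ k = ∑ β : A, TT β := by
      rw [← Finset.sum_fiberwise (rt Q0) (fun k => L k)]
      refine Finset.sum_congr rfl fun β _ => ?_
      refine Finset.sum_congr ?_ fun _ _ => rfl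
      ext k
      simp [rt, hQ0]
    rw [h2]
    refine Finset.dvd_sum fun β _ => ?_
    by_cases hβ : β = ω
    · rw [hβ]; exact hω'
    · exact hne β hβ
  -- conclusion
  rw [sum_OF_eq_gen hP]
  have hsplit : ∀ ε : ℤ, (FP p g P ε).card =
      (∑ k ∈ rt Q0, ((FP p g P ε).filter (fun w => (k : G) • σ w = w)).card) +
      ((FP p g P ε).filter (fun w => ¬ ∃ k ∈ P, k • σ w = w)).card := by
    intro ε
    have e1 := card_fixed_Q (hσg ε) hgP hσq Q0
    rw [← Finset.card_filter_add_card_filter_not (s := FP p g P ε)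
      (fun w => ∃ k ∈ P, k • σ w = w)]
    refine congrArg (· + _) (Eq.trans (congrArg Finset.card ?_) e1)
    ext w
    rw [Finset.mem_filter, Finset.mem_filter]
    refine and_congr_right fun _ => ?_
    constructor
    · rintro ⟨k, hk, h⟩
      exact ⟨⟨k, hk⟩, hQ0 _, h⟩
    · rintro ⟨k, _, h⟩
      exact ⟨k, k.2, h⟩
  have hrest : ∀ ε : ℤ, ((Nat.card P * p : ℕ) : ℤ) ∣
      ((((FP p g P ε).filter (fun w => ¬ ∃ k ∈ P, k • σ w = w)).card : ℕ) : ℤ) := fun ε =>
    Int.natCast_dvd_natCast.mpr (dvd_card_rest hg (hσg ε) hqn hgP hσq)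
  have hsum' : ∑ k ∈ rt Q0, DD p g P σ k =
      ((∑ k ∈ rt Q0, ((FP p g P 1).filter (fun w => (k : G) • σ w = w)).card : ℕ) : ℤ)
      - ((∑ k ∈ rt Q0,
        ((FP p g P (-1)).filter (fun w => (k : G) • σ w = w)).card : ℕ) : ℤ) := by
    simp only [DD]
    rw [Finset.sum_sub_distrib]
    push_cast
    rfl
  have hfinal : ∀ a b c d : ℤ, ((Nat.card P * p : ℕ) : ℤ) ∣ a - b → ((Nat.card P * p : ℕ) : ℤ) ∣ c →
      ((Nat.card P * p : ℕ) : ℤ) ∣ d → ((Nat.card P * p : ℕ) : ℤ) ∣ (a + c) - (b + d) := by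
    intro a b c d h1 h2 h3
    have : (a + c) - (b + d) = (a - b) + (c - d) := by ring
    rw [this]
    exact dvd_add h1 (dvd_sub h2 h3)
  rw [hsplit 1, hsplit (-1), Nat.cast_add, Nat.cast_add]
  refine hfinal _ _ _ _ ?_ (hrest 1) (hrest (-1))
  rw [← hsum']
  exact hall

/-! ### the transfers of the braids of finite order modulo the centre -/

section braids

variable {P : Subgroup G} {A : Type*} [CommGroup A] {p : ℕ} {g : G}

theorem del_s1_s2 (L : P →* A) {ε : ℤ} {c : Tri G → P} (hcT : Tv (FP p g P ε) c) :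
    del L c s1 (FP p g P ε) = del L c s2 (FP p g P ε) := by
  have e1 := ev_s1 p g P ε
  have e2 := ev_s2 p g P ε
  set S := FP p g P ε with hS
  have d1 : del L c (fun w => s1 (s2 (s1 w))) S
      = del L c s1 S * (del L c s2 S * del L c s1 S) := by
    rw [del_comp hcT e1 (e2.comp e1), del_comp hcT e2 e1]
  have d2 : del L c (fun w => s2 (s1 (s2 w))) S
      = del L c s2 S * (del L c s1 S * del L c s2 S) := by
    rw [del_comp hcT e2 (e1.comp e2), del_comp hcT e1 e2]
  have d3 : del L c (fun w : Tri G => s1 (s2 (s1 w))) S = del L c (fun w => s2 (s1 (s2 w))) S :=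
    del_congr fun w _ => braid w
  rw [d1, d2] at d3
  have h1 : del L c s1 S * (del L c s1 S * del L c s2 S)
      = del L c s2 S * (del L c s1 S * del L c s2 S) := by
    rw [← d3]; congr 1; exact mul_comm _ _
  exact mul_right_cancel h1

theorem del_hd (L : P →* A) (ε : ℤ) (c : Tri G → P) (hcT : Tv (FP p g P ε) c) :
    del L c hd (FP p g P ε) = (del L c s1 (FP p g P ε)) ^ 3 := by
  have e1 := ev_s1 p g P ε
  have e2 := ev_s2 p g P ε
  change del L c (fun w => s1 (s2 (s1 w))) (FP p g P ε) = _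
  rw [del_comp hcT e1 (e2.comp e1), del_comp hcT e2 e1, ← del_s1_s2 L hcT]
  rw [pow_succ', pow_succ', pow_one]

theorem del_h12 (L : P →* A) (ε : ℤ) (c : Tri G → P) (hcT : Tv (FP p g P ε) c) :
    del L c (fun w => h12 (h12 w)) (FP p g P ε) = (del L c s1 (FP p g P ε)) ^ 4 := by
  have e1 := ev_s1 p g P ε
  have e2 := ev_s2 p g P ε
  have e12 : Ev P (FP p g P ε) (FP p g P ε) h12 := e1.comp e2
  rw [del_comp hcT e12 e12]
  have h : del L c h12 (FP p g P ε) = del L c s1 (FP p g P ε) * del L c s1 (FP p g P ε) := by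
    change del L c (fun w => s1 (s2 w)) (FP p g P ε) = _
    rw [del_comp hcT e1 e2, ← del_s1_s2 L hcT]
  rw [h]
  rw [pow_succ', pow_succ', pow_succ', pow_one, mul_assoc]

end braids

/-- The criterion for `p = 2, 3`: a character of `K` with value `1` (additively) at the twisted
fourth (third) roots of `u`, and, for `p = 2`, with value `0` at the square roots of `u`. -/
def TwCrit (p : ℕ) (K : Type*) [Group K] (u : K) : Prop :=
  ∃ χ : K →* Multiplicative (ZMod p),
    (∀ k : K, k ^ (if p = 2 then 4 else 3) = u → (∀ e, e ≡ 1 [MOD p] → IsConj k (k ^ e)) →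
      χ k = Multiplicative.ofAdd 1) ∧ (p = 2 → ∀ k : K, k ^ 2 = u → χ k = 1)

/-- **Main lemma for `p = 2, 3`, with characters.** -/
theorem main_chi23 [Fintype G] (p : ℕ) [hp : Fact p.Prime] (hp23 : p = 2 ∨ p = 3) (g : G) (m : ℕ)
    (P : Subgroup G) (hP : IsPGroup p P) (hg : ∀ a ∈ P, a * g = g * a) (hgP : g ^ m ∈ P)
    (hu1 : g ^ m ≠ 1) (hup : (g ^ m) ^ p = 1) (hm : ∀ x : G, (∃ n, x ^ p ^ n = 1) → x ^ m = x)
    (hq : ∀ x : G, ∃ n : ℕ, (x ^ m) ^ (p ^ n) = 1)
    (hcrit : TwCrit p P ⟨g ^ m, hgP⟩) :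
    ((Nat.card P * p : ℕ) : ℤ) ∣
      ∑ t ∈ (Finset.univ : Finset (G × G)).filter (fun t => t.1 * t.2 * t.1⁻¹ * t.2⁻¹ = g),
        W p t.1 t.2 := by
  obtain ⟨χ, h0, h1⟩ := hcrit
  have hne : NeZero p := ⟨hp.out.ne_zero⟩
  have hA : ∀ α : Multiplicative (ZMod p), α ^ p = 1 := by
    intro α
    have h2 : p • Multiplicative.toAdd α = 0 := by
      rw [nsmul_eq_mul, CharP.cast_eq_zero, zero_mul]
    exact congrArg Multiplicative.ofAdd h2
  have hfinA : Finite (Multiplicative (ZMod p)) := inferInstanceAs (Finite (ZMod p))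
  by_cases hLu : χ ⟨g ^ m, hgP⟩ = 1
  · have hω : (Multiplicative.ofAdd (1 : ZMod p)) ≠ 1 := by
      intro h
      have h2 : (1 : ZMod p) = 0 := congrArg Multiplicative.toAdd h
      have : Fact (1 < p) := ⟨hp.out.one_lt⟩
      exact one_ne_zero h2
    rw [sum_W_eq]
    rcases hp23 with rfl | rfl
    · refine main_chi 2 (q := 4) (n := 2) (by norm_num) tw_hd g m P hP hg hgP hu1 hup hm hq hA χ
        hω (d := 3) (del_hd χ) ?_ ?_
      · intro k hk he
        exact h0 k hk fun e he1 => isConj_iff.2 (he e he1)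
      · intro k r hr hk
        interval_cases r
        · rw [pow_zero, pow_one] at hk
          rw [hk, hLu]
        · rw [pow_one] at hk
          exact h1 rfl k hk
    · refine main_chi 3 (q := 3) (n := 1) (by norm_num) tw_h12 g m P hP hg hgP hu1 hup hm hq hA χ
        hω (d := 4) (del_h12 χ) ?_ ?_
      · intro k hk he
        exact h0 k hk fun e he1 => isConj_iff.2 (he e he1)
      · intro k r hr hk
        interval_cases r
        rw [pow_zero, pow_one] at hk
        rw [hk, hLu]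
  · -- Theorem M
    have hmain := main_V hP hg hq (clStat p g m hq) hgP χ
      (fun α => ⟨1, by rw [pow_one]; exact hA α⟩)
    rw [orderOf_eq_prime (hA _) hLu] at hmain
    rw [sum_W_eq]
    exact hmain

end P179V
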