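import Vale.Agent.P179.H905.MainLem

/-!
# The main lemma for nonabelian `p`-subgroups, `p = 2, 3`

`P` is an arbitrary `p`-subgroup of the centraliser of `g`. The braid group acts on the solutions
of `[x, y] = g`, and its torsion modulo the centre gives the additional factor `p` if the `p`-part
of `g` is not a fourth power (`p = 2`), not a cube (`p = 3`) in `P`.
-/

namespace P179A

open Subgroup

open scoped Classical Pointwise

variable {G : Type*} [Group G] [Finite G]

omit [Finite G] in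
theorem U_smul_gen {R : Subgroup G} {e : G} (he : e ∈ R) (w : Tri G) (h : U R w = ⊥) :
    U R (e • w) = ⊥ := by
  rw [eq_bot_iff]
  intro a ha
  have h1 : e⁻¹ * a * e ∈ U R w := by
    rw [mem_U] at ha ⊢
    obtain ⟨h1, h2, h3, h4⟩ := ha
    simp only [smul_x, smul_y, smul_s] at h2 h3 h4
    refine ⟨mul_mem (mul_mem (inv_mem he) h1) he, ?_, ?_, ?_⟩
    · have : e⁻¹ * (a * (e * w.x * e⁻¹)) * e = e⁻¹ * ((e * w.x * e⁻¹) * a) * e := by rw [h2]
      have e1 : e⁻¹ * (a * (e * w.x * e⁻¹)) * e = e⁻¹ * a * e * w.x := by group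
      have e2 : e⁻¹ * ((e * w.x * e⁻¹) * a) * e = w.x * (e⁻¹ * a * e) := by group
      rwa [e1, e2] at this
    · have : e⁻¹ * (a * (e * w.y * e⁻¹)) * e = e⁻¹ * ((e * w.y * e⁻¹) * a) * e := by rw [h3]
      have e1 : e⁻¹ * (a * (e * w.y * e⁻¹)) * e = e⁻¹ * a * e * w.y := by group
      have e2 : e⁻¹ * ((e * w.y * e⁻¹) * a) * e = w.y * (e⁻¹ * a * e) := by group
      rwa [e1, e2] at this
    · rw [← smul_mem_stab_iff (MulAut.conj e), MulAut.conj_apply]
      have e1 : e * (e⁻¹ * a * e) * e⁻¹ = a := by group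
      rw [e1]
      exact h4
  rw [h, mem_bot] at h1
  rw [mem_bot]
  have : a = e * (e⁻¹ * a * e) * e⁻¹ := by group
  rw [this, h1]; group

/-- Toggling by the stabiliser `U` does not change it: no commutativity is needed. -/
theorem U_tg_self {R : Subgroup G} {p : ℕ} [hp : Fact p.Prime] (hR : IsPGroup p R) {w : Tri G}
    (hch : IsPChain p w.s) (hV1 : U R w ≠ ⊥) : U R (tg (U R w) w) = U R w := by
  set V := U R w with hV
  have hVT : V ≤ T R w := inf_le_left
  have hVs : V ≤ stab w.s := fun v hv => (mem_U.1 hv).2.2.2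
  have hVp : IsPGroup p V := isPGroup_of_le_T hR hVT
  have hle : V ≤ U R (tg V w) := by
    intro v hv
    have h1 := mem_U.1 hv
    rw [mem_U]
    refine ⟨h1.1, h1.2.1, h1.2.2.1, ?_⟩
    exact (mem_stab_tog hch hVp hV1 hVs (le_normalizer hv)).2 h1.2.2.2
  by_contra hne
  have hlt : V < U R (tg V w) := lt_of_le_of_ne hle (fun h => hne h.symm)
  set V' := U R (tg V w) with hV'
  have hV'p : IsPGroup p V' := hR.to_le (fun a ha => (mem_U.1 ha).1)
  have hnil : Group.IsNilpotent V' := hV'p.isNilpotent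
  have hlt' : V.subgroupOf V' < ⊤ := by
    rw [lt_top_iff_ne_top, Ne, subgroupOf_eq_top]
    exact not_le_of_gt hlt
  have h1 := Group.normalizerCondition_of_isNilpotent (V.subgroupOf V') hlt'
  obtain ⟨n, hn1, hn2⟩ := SetLike.exists_of_lt h1
  apply hn2
  rw [mem_subgroupOf]
  have hnN : (n : G) ∈ normalizer (V : Set G) := by
    rw [mem_normalizer_iff] at hn1 ⊢
    intro z
    constructor
    · intro hz
      have := (hn1 ⟨z, hle hz⟩).1 hz
      exact this
    · intro hz
      have hz' : z ∈ V' := by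
        have h2 := mul_mem (mul_mem (inv_mem n.2) (hle hz)) n.2
        have h3 : (n : G)⁻¹ * ((n : G) * z * (n : G)⁻¹) * n = z := by group
        rwa [h3] at h2
      exact (hn1 ⟨z, hz'⟩).2 hz
  have h2 := mem_U.1 n.2
  rw [hV, mem_U]
  refine ⟨h2.1, h2.2.1, h2.2.2.1, ?_⟩
  exact (mem_stab_tog hch hVp hV1 hVs hnN).1 h2.2.2.2

section

variable {R : Subgroup G} {p : ℕ} [hp : Fact p.Prime] (hR : IsPGroup p R) {g : G}

include hR

/-- The non-free triples cancel. -/
theorem sum_nonfree_gen :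
    ∑ w ∈ (OF p g).filter (fun w => U R w ≠ ⊥), (-1 : ℤ) ^ w.s.card = 0 := by
  refine Finset.sum_involution (fun w _ => tg (U R w) w) ?_ ?_ ?_ ?_
  · intro w hw
    simp only [tg]
    rw [neg_one_pow_card_tog]; ring
  · intro w hw _ h
    have := congrArg Tri.s h
    exact tog_ne _ _ this
  · intro w hw
    rw [Finset.mem_filter, mem_OF] at hw ⊢
    have hle : U R w ≤ T R w := inf_le_left
    refine ⟨hw.1.tg hR hle hw.2 (mem_normalizer_of_comm fun v hv => (mem_U.1 hv).2.2.1.symm), ?_⟩
    rw [U_tg_self hR hw.1.chain hw.2]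
    exact hw.2
  · intro w hw
    rw [Finset.mem_filter, mem_OF] at hw
    rw [U_tg_self hR hw.1.chain hw.2, tg_tg]

theorem sum_OF_eq_gen : ∑ w ∈ OF p g, (-1 : ℤ) ^ w.s.card
    = ((FP p g R 1).card : ℤ) - (FP p g R (-1)).card := by
  rw [← Finset.sum_filter_add_sum_filter_not (OF p g) (fun w => U R w = ⊥)]
  have h0 := sum_nonfree_gen hR (g := g)
  rw [show (∑ w ∈ (OF p g).filter (fun w => ¬ U R w = ⊥), (-1 : ℤ) ^ w.s.card) = 0 from h0,
    add_zero]
  rw [← Finset.sum_filter_add_sum_filter_not ((OF p g).filter (fun w => U R w = ⊥))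
    (fun w => (-1 : ℤ) ^ w.s.card = 1)]
  have h1 : ∑ w ∈ ((OF p g).filter (fun w => U R w = ⊥)).filter
      (fun w => (-1 : ℤ) ^ w.s.card = 1), (-1 : ℤ) ^ w.s.card = (FP p g R 1).card := by
    rw [Finset.filter_filter]
    rw [Finset.sum_congr rfl (g := fun _ => (1 : ℤ))]
    · rw [Finset.sum_const, FP]; simp
    · intro w hw
      exact (Finset.mem_filter.1 hw).2.2
  have h2 : ∑ w ∈ ((OF p g).filter (fun w => U R w = ⊥)).filter
      (fun w => ¬ (-1 : ℤ) ^ w.s.card = 1), (-1 : ℤ) ^ w.s.card = -(FP p g R (-1)).card := by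
    rw [Finset.filter_filter]
    rw [Finset.sum_congr rfl (g := fun _ => (-1 : ℤ))]
    · rw [Finset.sum_const, FP]
      have : ((OF p g).filter (fun w => U R w = ⊥ ∧ ¬ (-1 : ℤ) ^ w.s.card = 1))
          = ((OF p g).filter (fun w => U R w = ⊥ ∧ (-1 : ℤ) ^ w.s.card = -1)) := by
        refine Finset.filter_congr fun w _ => and_congr_right fun _ => ?_
        rcases neg_one_pow_eq_or ℤ w.s.card with h | h <;> simp [h]
      rw [this]; simp
    · intro w hw
      rcases neg_one_pow_eq_or ℤ w.s.card with h | h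
      · exact absurd h (Finset.mem_filter.1 hw).2.2
      · exact h
  rw [h1, h2]; ring

end

/-- **Counting lemma.** A finite group `R` acts freely on the finite set `Ω`; `τ` is an injective
map commuting with `R`, `τ^q` acts as `u⁻¹`, `q` is a power of `p`, and `u` is not a `q`-th
power in `R`. Then `p |R|` divides `|Ω|`. -/
theorem count_lemma (p : ℕ) [hp : Fact p.Prime] {R Ω : Type*} [Group R] [Finite R] [Finite Ω]
    [MulAction R Ω] (hfree : ∀ (e : R) (w : Ω), e • w = w → e = 1) (τ : Ω → Ω)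
    (hinj : Function.Injective τ) (hcomm : ∀ (e : R) (w : Ω), τ (e • w) = e • τ w) (q n : ℕ)
    (hqn : q = p ^ n) (u : R) (hτ : ∀ w, τ^[q] w = u⁻¹ • w) (hu : ∀ k : R, k ^ q ≠ u) :
    Nat.card R * p ∣ Nat.card Ω := by
  have hst : ∀ b : Ω, MulAction.stabilizer R b = ⊥ := by
    intro b
    rw [eq_bot_iff]
    intro e he
    rw [mem_bot]
    exact hfree e b he
  let X := Quotient (MulAction.orbitRel R Ω)
  have hcard : Nat.card Ω = Nat.card X * Nat.card R := by
    rw [Nat.card_congr (MulAction.selfEquivOrbitsQuotientProd hst), Nat.card_prod]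
  rw [hcard, mul_comm (Nat.card X)]
  refine mul_dvd_mul_left _ ?_
  have hfX : Finite X := Quotient.finite _
  let f : X → X := Quotient.map τ (by
    rintro a b ⟨e, rfl⟩
    exact ⟨e, (hcomm e b).symm⟩)
  have hf : ∀ w : Ω, f (Quotient.mk _ w) = Quotient.mk _ (τ w) := fun w => rfl
  have hsurj : Function.Surjective f := by
    intro x
    induction x using Quotient.inductionOn with
    | _ w =>
      obtain ⟨v, rfl⟩ := Finite.surjective_of_injective hinj w
      exact ⟨Quotient.mk _ v, rfl⟩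
  let F : Equiv.Perm X := Equiv.ofBijective f (Finite.surjective_iff_bijective.mp hsurj)
  have hFw : ∀ w : Ω, F (Quotient.mk _ w) = Quotient.mk _ (τ w) := fun w => rfl
  have hFpow : ∀ (j : ℕ) (w : Ω), (F ^ j) (Quotient.mk _ w) = Quotient.mk _ (τ^[j] w) := by
    intro j
    induction j with
    | zero => intro w; rfl
    | succ j ih =>
      intro w
      rw [pow_succ', Equiv.Perm.mul_apply, ih, hFw, Function.iterate_succ', Function.comp]
  have hFq : F ^ q = 1 := by
    ext x
    induction x using Quotient.inductionOn with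
    | _ w =>
      rw [hFpow, hτ]
      exact Quotient.sound ⟨u⁻¹, rfl⟩
  have hG : IsPGroup p (Subgroup.zpowers F) := by
    rw [IsPGroup.iff_card]
    have h1 : orderOf F ∣ p ^ n := by
      rw [← hqn]
      exact orderOf_dvd_of_pow_eq_one hFq
    obtain ⟨m, -, hm⟩ := (Nat.dvd_prime_pow hp.out).mp h1
    exact ⟨m, by rw [Nat.card_zpowers, hm]⟩
  have hmod := hG.card_modEq_card_fixedPoints X
  have hno : IsEmpty (MulAction.fixedPoints (Subgroup.zpowers F) X) := by
    refine ⟨?_⟩
    rintro ⟨x, hx⟩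
    have hx1 : F x = x := hx ⟨F, mem_zpowers F⟩
    induction x using Quotient.inductionOn with
    | _ w =>
      rw [hFw] at hx1
      obtain ⟨k, hk⟩ := Quotient.exact hx1
      have hk' : τ w = k • w := hk.symm
      have hpow : ∀ j : ℕ, τ^[j] w = k ^ j • w := by
        intro j
        induction j with
        | zero => simp
        | succ j ih =>
          rw [Function.iterate_succ', Function.comp, ih, hcomm, hk', smul_smul, pow_succ]
      have h2 := hpow q
      rw [hτ w] at h2
      have h3 : (u * k ^ q) • w = w := by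
        rw [mul_smul, ← h2, smul_inv_smul]
      have h4 := hfree _ _ h3
      apply hu k⁻¹
      rw [inv_pow]
      exact (eq_inv_of_mul_eq_one_left h4).symm
  rw [Nat.card_eq_zero.mpr (Or.inl hno)] at hmod
  exact (Nat.modEq_zero_iff_dvd).mp hmod

/-- The half twist. -/
def hd (w : Tri G) : Tri G := s1 (s2 (s1 w))

/-- The product of the two generators. -/
def h12 (w : Tri G) : Tri G := s1 (s2 w)

omit [Finite G] in
theorem hd_four {p : ℕ} {g : G} {w : Tri G} (hw : InO p g w) : hd^[4] w = g⁻¹ • w :=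
  delta_four hw

omit [Finite G] in
theorem h12_three (w : Tri G) : h12^[3] w = hd^[2] w := by
  simp only [Function.iterate_succ, Function.iterate_zero, Function.comp, id, hd, h12]
  rw [braid w]

omit [Finite G] in
theorem h12_six (w : Tri G) : h12^[6] w = hd^[4] w := by
  have h : (h12 : Tri G → Tri G)^[3] = hd^[2] := funext h12_three
  rw [show (6 : ℕ) = 3 * 2 from rfl, Function.iterate_mul, h, ← Function.iterate_mul]

/-- a map of the right kind -/
structure Good (p : ℕ) (g : G) (R : Subgroup G) (ε : ℤ) (τ : Tri G → Tri G) : Prop where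
  maps : ∀ w ∈ FP p g R ε, τ w ∈ FP p g R ε
  inj : Function.Injective τ
  comm : ∀ (e : G) (w : Tri G), τ (e • w) = e • τ w

theorem Good.comp {p : ℕ} {g : G} {R : Subgroup G} {ε : ℤ} {τ τ' : Tri G → Tri G}
    (h : Good p g R ε τ) (h' : Good p g R ε τ') : Good p g R ε (fun w => τ (τ' w)) where
  maps w hw := h.maps _ (h'.maps _ hw)
  inj := h.inj.comp h'.inj
  comm e w := by rw [h'.comm, h.comm]

theorem Good.iterate {p : ℕ} {g : G} {R : Subgroup G} {ε : ℤ} {τ : Tri G → Tri G}
    (h : Good p g R ε τ) (n : ℕ) : Good p g R ε τ^[n] where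
  maps := by
    induction n with
    | zero => intro w hw; exact hw
    | succ n ih =>
      intro w hw
      rw [Function.iterate_succ', Function.comp]
      exact h.maps _ (ih w hw)
  inj := h.inj.iterate n
  comm e := by
    induction n with
    | zero => intro w; rfl
    | succ n ih =>
      intro w
      rw [Function.iterate_succ', Function.comp, ih, h.comm]
      rfl

theorem good_s1 (p : ℕ) (g : G) (R : Subgroup G) (ε : ℤ) : Good p g R ε s1 where
  maps w hw := by
    rw [mem_FP] at hw ⊢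
    exact ⟨hw.1.s1, by rw [U_s1]; exact hw.2.1, hw.2.2⟩
  inj _ _ h := s1_inj h
  comm := s1_smul

theorem good_s2 (p : ℕ) (g : G) (R : Subgroup G) (ε : ℤ) : Good p g R ε s2 where
  maps w hw := by
    rw [mem_FP] at hw ⊢
    exact ⟨hw.1.s2, by rw [U_s2]; exact hw.2.1, hw.2.2⟩
  inj _ _ h := s2_inj h
  comm := s2_smul

theorem good_hd (p : ℕ) (g : G) (R : Subgroup G) (ε : ℤ) : Good p g R ε hd :=
  (good_s1 p g R ε).comp ((good_s2 p g R ε).comp (good_s1 p g R ε))

theorem good_h12 (p : ℕ) (g : G) (R : Subgroup G) (ε : ℤ) : Good p g R ε h12 :=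
  (good_s1 p g R ε).comp (good_s2 p g R ε)

omit [Finite G] in
theorem full_iterate {p : ℕ} {g : G} {w : Tri G} (hw : InO p g w) (m : ℕ) :
    (hd^[4])^[m] w = (g ^ m)⁻¹ • w := by
  induction m with
  | zero => simp
  | succ m ih =>
    rw [Function.iterate_succ', Function.comp, ih, hd_four (p := p) (g := g), pow_succ, mul_inv_rev,
      mul_smul]
    refine hw.smul ?_
    exact (((Commute.refl g).pow_left m).inv_left)

/-- the number of free triples of either sign is divisible by `p |R|` -/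
theorem dvd_card_FP {p : ℕ} [hp : Fact p.Prime] {g : G} {R : Subgroup G}
    (hg : ∀ a ∈ R, a * g = g * a) {ε : ℤ} {τ : Tri G → Tri G} (hτ : Good p g R ε τ) {q n m : ℕ}
    (hq : q = p ^ n) (hm : g ^ m ∈ R) (hτq : ∀ w, InO p g w → τ^[q] w = (g ^ m)⁻¹ • w)
    (hu : ∀ k ∈ R, k ^ q ≠ g ^ m) : Nat.card R * p ∣ (FP p g R ε).card := by
  let Ω := {w : Tri G // w ∈ FP p g R ε}
  have hst : ∀ (e : R) (w : Tri G), w ∈ FP p g R ε → (e : G) • w ∈ FP p g R ε := by
    intro e w hw
    rw [mem_FP] at hw ⊢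
    refine ⟨hw.1.smul (hg e e.2), U_smul_gen e.2 w hw.2.1, ?_⟩
    rw [smul_s, card_smul_chain]
    exact hw.2.2
  let _ : MulAction R Ω :=
    { smul := fun e w => ⟨(e : G) • w.1, hst e w.1 w.2⟩
      one_smul := fun w => Subtype.ext (one_smul G w.1)
      mul_smul := fun a b w => Subtype.ext (mul_smul (a : G) (b : G) w.1) }
  have hsmul : ∀ (e : R) (w : Ω), ((e • w : Ω) : Tri G) = (e : G) • w.1 := fun _ _ => rfl
  let σ : Ω → Ω := fun w => ⟨τ w.1, hτ.maps w.1 w.2⟩
  have hσ : ∀ (j : ℕ) (w : Ω), ((σ^[j] w : Ω) : Tri G) = τ^[j] w.1 := by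
    intro j
    induction j with
    | zero => intro w; rfl
    | succ j ih =>
      intro w
      rw [Function.iterate_succ', Function.iterate_succ', Function.comp, Function.comp, ← ih]
  have key := count_lemma p (R := R) (Ω := Ω) (fun e w he => by
      have h1 : (e : G) • w.1 = w.1 := congrArg Subtype.val he
      have h2 := (mem_FP.1 w.2)
      have h3 := (smul_eq_iff (p := p) h2.1.chain e.2).1 h1
      rw [h2.2.1, mem_bot] at h3
      exact Subtype.ext h3) σ
    (fun a b h => Subtype.ext (hτ.inj (congrArg Subtype.val h)))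
    (fun e w => Subtype.ext (hτ.comm e w.1)) q n hq ⟨g ^ m, hm⟩
    (fun w => Subtype.ext (by
      rw [hσ, hτq _ (mem_FP.1 w.2).1]
      rfl))
    (fun k hk => hu k k.2 (congrArg Subtype.val hk))
  rwa [Nat.card_eq_fintype_card (α := Ω), Fintype.card_coe] at key

/-- **Main lemma, `p = 2, 3`, `P` not necessarily abelian.** -/
theorem main_plus [Fintype G] (p : ℕ) [hp : Fact p.Prime] (g : G) (m : ℕ)
    (P : Subgroup G) (hP : IsPGroup p P) (hg : ∀ a ∈ P, a * g = g * a) (hgP : g ^ m ∈ P)
    (h : (p = 2 ∧ ∀ k ∈ P, k ^ 4 ≠ g ^ m) ∨ (p = 3 ∧ ∀ k ∈ P, k ^ 3 ≠ g ^ m)) :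
    ((Nat.card P * p : ℕ) : ℤ) ∣
      ∑ t ∈ (Finset.univ : Finset (G × G)).filter (fun t => t.1 * t.2 * t.1⁻¹ * t.2⁻¹ = g),
        W p t.1 t.2 := by
  rw [sum_W_eq, sum_OF_eq_gen hP]
  have key : ∀ ε : ℤ, Nat.card P * p ∣ (FP p g P ε).card := by
    intro ε
    rcases h with ⟨h2, h⟩ | ⟨h3, h⟩
    · refine dvd_card_FP hg ((good_hd p g P ε).iterate m) (q := 4) (n := 2)
        (by rw [h2]; norm_num) hgP ?_ h
      intro w hw
      rw [← Function.iterate_mul, mul_comm, Function.iterate_mul]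
      exact full_iterate hw m
    · refine dvd_card_FP hg ((good_h12 p g P ε).iterate (2 * m)) (q := 3) (n := 1)
        (by rw [h3]; norm_num) hgP ?_ h
      intro w hw
      have h6 : (h12 : Tri G → Tri G)^[6] = hd^[4] := funext h12_six
      rw [← Function.iterate_mul, show 2 * m * 3 = 6 * m by ring, Function.iterate_mul, h6]
      exact full_iterate hw m
  exact dvd_sub (Int.natCast_dvd_natCast.mpr (key 1)) (Int.natCast_dvd_natCast.mpr (key (-1)))

end P179A
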