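import Vale.Agent.P179.H166.Central
import Vale.Agent.P179.H143.Words

/-!
# Adams operations on the number of factorisations
-/

namespace P179C

open P179H524

open scoped Classical

namespace Adams

variable {K : Type*} [Group K] [Fintype K]

theorem exists_inv {r : ℕ} (hr : Nat.Coprime r (Fintype.card K)) :
    ∃ e : ℕ, ∀ g : K, g ^ (r * e) = g := by
  refine ⟨r ^ (Nat.totient (Fintype.card K) - 1), fun g => ?_⟩
  have ht : 0 < Nat.totient (Fintype.card K) := Nat.totient_pos.mpr Fintype.card_pos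
  have h1 : r * r ^ (Nat.totient (Fintype.card K) - 1) = r ^ Nat.totient (Fintype.card K) := by
    rw [← pow_succ', Nat.sub_add_cancel ht]
  rw [h1]
  have h2 : r ^ Nat.totient (Fintype.card K) ≡ 1 [MOD Fintype.card K] := Nat.ModEq.pow_totient hr
  conv_rhs => rw [← pow_one g]
  rw [pow_eq_pow_iff_modEq]
  exact h2.of_dvd (orderOf_dvd_card)

theorem coeff_pow_prime (r : ℕ) [hr : Fact r.Prime] (hK : Fintype.card K < r)
    (x : MonoidAlgebra (ZMod r) K) (hx : IsCF (fun h => x.coeff h)) (h : K) :
    (x ^ r).coeff (h ^ r) = x.coeff h := by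
  have hc : Nat.Coprime r (Fintype.card K) :=
    (Nat.Prime.coprime_iff_not_dvd hr.out).mpr fun h1 =>
      absurd (Nat.le_of_dvd Fintype.card_pos h1) (not_le_of_gt hK)
  obtain ⟨e, he⟩ := exists_inv (K := K) hc
  have hpow : ∀ g g' : K, IsConj (g ^ r) (g' ^ r) ↔ IsConj g g' := by
    intro g g'
    constructor
    · intro h1
      obtain ⟨c, hc⟩ := isConj_iff.mp h1
      refine isConj_iff.mpr ⟨c, ?_⟩
      have h2 := congrArg (fun y => y ^ e) hc
      simp only [conj_pow, ← pow_mul, he] at h2
      exact h2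
    · intro h1
      obtain ⟨c, hc⟩ := isConj_iff.mp h1
      refine isConj_iff.mpr ⟨c, ?_⟩
      rw [← hc, conj_pow]
  have hxr : IsCF (fun h => (x ^ r).coeff h) :=
    (mem_center_iff _).mp (Subalgebra.pow_mem _ ((mem_center_iff x).mpr hx) r)
  let φ : K → ZMod r := fun g => if IsConj (h ^ r) g then 1 else 0
  have hφ : ∀ g y : K, φ (g * y * g⁻¹) = φ y := by
    intro g y
    simp only [φ]
    have : IsConj (h ^ r) (g * y * g⁻¹) ↔ IsConj (h ^ r) y := by
      have h1 : IsConj y (g * y * g⁻¹) := isConj_iff.mpr ⟨g, rfl⟩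
      exact ⟨fun h2 => h2.trans h1.symm, fun h2 => h2.trans h1⟩
    simp only [this]
  have hconst : ∀ (a : K → ZMod r), IsCF a → ∀ y : K,
      ∑ g : K, a g * (if IsConj y g then 1 else 0) =
        ((Finset.univ.filter (fun g => IsConj y g)).card : ZMod r) * a y := by
    intro a ha y
    simp only [mul_ite, mul_one, mul_zero]
    rw [← Finset.sum_filter, Finset.sum_congr rfl (g := fun _ => a y)]
    · rw [Finset.sum_const, nsmul_eq_mul]
    · intro g hg
      rw [Finset.mem_filter] at hg
      obtain ⟨c, hc⟩ := isConj_iff.mp hg.2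
      rw [← hc, ha]
  have key := lin_pow r 1 φ hφ x
  rw [pow_one] at key
  unfold lin at key
  rw [hconst _ hxr] at key
  have h3 : ∀ g : K, x.coeff g ^ r * φ (g ^ r) = x.coeff g * (if IsConj h g then 1 else 0) := by
    intro g
    rw [ZMod.pow_card]
    simp only [φ, hpow]
  rw [Finset.sum_congr rfl fun g _ => h3 g, hconst _ hx] at key
  have h4 : (Finset.univ.filter (fun g => IsConj (h ^ r) g)).card =
      (Finset.univ.filter (fun g => IsConj h g)).card := by
    symm
    refine Finset.card_bij (fun g _ => g ^ r) ?_ ?_ ?_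
    · intro g hg
      rw [Finset.mem_filter] at hg ⊢
      exact ⟨Finset.mem_univ _, (hpow h g).mpr hg.2⟩
    · intro g _ g' _ hgg'
      have := congrArg (fun y => y ^ e) hgg'
      simp only [← pow_mul, he] at this
      exact this
    · intro g hg
      rw [Finset.mem_filter] at hg
      refine ⟨g ^ e, ?_, ?_⟩
      · rw [Finset.mem_filter]
        refine ⟨Finset.mem_univ _, ?_⟩
        rw [← hpow, ← pow_mul, mul_comm e r, he]
        exact hg.2
      · rw [← pow_mul, mul_comm e r, he]
  rw [h4] at key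
  have h5 : ((Finset.univ.filter (fun g => IsConj h g)).card : ZMod r) ≠ 0 := by
    intro h6
    rw [ZMod.natCast_eq_zero_iff] at h6
    have h7 : 0 < (Finset.univ.filter (fun g => IsConj h g)).card :=
      Finset.card_pos.mpr ⟨h, Finset.mem_filter.mpr ⟨Finset.mem_univ _, IsConj.refl h⟩⟩
    have h8 : (Finset.univ.filter (fun g => IsConj h g)).card ≤ Fintype.card K :=
      Finset.card_le_univ _
    have := Nat.le_of_dvd h7 h6
    omega
  exact mul_left_cancel₀ h5 key

/-- the number of `w` with `w^i = 1` and `(κ w)^j = 1` is invariant under `κ ↦ κ^e` -/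
theorem adams (i j e : ℕ) (he : Nat.Coprime e (Fintype.card K)) (κ : K) :
    (Finset.univ.filter (fun w : K => w ^ i = 1 ∧ (κ ^ e * w) ^ j = 1)).card =
      (Finset.univ.filter (fun w : K => w ^ i = 1 ∧ (κ * w) ^ j = 1)).card := by
  -- a large prime
  obtain ⟨r, hr1, hr2, hr3⟩ := Nat.forall_exists_prime_gt_and_modEq (Fintype.card K)
    (Fintype.card_pos.ne') he
  have : Fact r.Prime := ⟨hr2⟩
  have hKr : κ ^ r = κ ^ e := by
    rw [pow_eq_pow_iff_modEq]
    exact hr3.of_dvd orderOf_dvd_card
  have hc : Nat.Coprime r (Fintype.card K) :=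
    (Nat.Prime.coprime_iff_not_dvd hr2).mpr fun h1 =>
      absurd (Nat.le_of_dvd Fintype.card_pos h1) (not_le_of_gt hr1)
  obtain ⟨e', he'⟩ := exists_inv (K := K) hc
  let S : ℕ → MonoidAlgebra (ZMod r) K := fun n =>
    ∑ g ∈ Finset.univ.filter (fun g : K => g ^ n = 1), MonoidAlgebra.single g 1
  have hS : ∀ n g, (S n).coeff g = if g ^ n = 1 then 1 else 0 := by
    intro n g
    simp only [S, MonoidAlgebra.coeff_sum, Finsupp.finsetSum_apply, MonoidAlgebra.coeff_single,
      Finsupp.single_apply]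
    rw [Finset.sum_ite_eq']
    simp
  have hScf : ∀ n, IsCF (fun g => (S n).coeff g) := by
    intro n g x
    simp only [hS]
    have : (g * x * g⁻¹) ^ n = 1 ↔ x ^ n = 1 := by
      rw [conj_pow]
      constructor
      · intro h
        have h1 : x ^ n = g⁻¹ * (g * x ^ n * g⁻¹) * g := by group
        rw [h1, h]; group
      · intro h
        rw [h]; group
    simp only [this]
  have hSr : ∀ n, (S n) ^ r = S n := by
    intro n
    apply MonoidAlgebra.ext
    ext g
    have h1 := coeff_pow_prime r hr1 (S n) (hScf n) (g ^ e')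
    rw [← pow_mul, mul_comm e' r, he'] at h1
    rw [h1, hS, hS]
    have : (g ^ e') ^ n = 1 ↔ g ^ n = 1 := by
      constructor
      · intro h
        have h2 : ((g ^ e') ^ n) ^ r = g ^ n := by
          have h3 : ((g ^ e') ^ n) ^ r = (g ^ (r * e')) ^ n := by
            rw [← pow_mul, ← pow_mul, ← pow_mul]
            congr 1
            ring
          rw [h3, he']
        rw [← h2, h, one_pow]
      · intro h
        rw [← pow_mul, mul_comm, pow_mul, h, one_pow]
    simp only [this]
  have hcen : ∀ n, S n ∈ Subalgebra.center (ZMod r) (MonoidAlgebra (ZMod r) K) := fun n =>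
    (mem_center_iff _).mpr (hScf n)
  set x := S j * S i with hx
  have hxcf : IsCF (fun g => x.coeff g) :=
    (mem_center_iff _).mp (Subalgebra.mul_mem _ (hcen j) (hcen i))
  have hxr : x ^ r = x := by
    have hcomm : Commute (S j) (S i) := (Subalgebra.mem_center_iff.mp (hcen i)) (S j)
    rw [hx, hcomm.mul_pow, hSr, hSr]
  have h1 := coeff_pow_prime r hr1 x hxcf κ
  rw [hxr, hKr] at h1
  have hcount : ∀ c : K, x.coeff c =
      ((Finset.univ.filter (fun w : K => w ^ i = 1 ∧ (c * w) ^ j = 1)).card : ZMod r) := by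
    intro c
    rw [hx, coeff_mul_eq_conv]
    unfold conv
    rw [← Equiv.sum_comp (Equiv.mulLeft c)]
    have h2 : ∀ w : K, (S j).coeff ((Equiv.mulLeft c) w) *
        (S i).coeff (((Equiv.mulLeft c) w)⁻¹ * c) =
        if w ^ i = 1 ∧ (c * w) ^ j = 1 then 1 else 0 := by
      intro w
      rw [Equiv.coe_mulLeft]
      have h3 : (c * w)⁻¹ * c = w⁻¹ := by group
      rw [h3, hS, hS, inv_pow, inv_eq_one]
      by_cases h4 : (c * w) ^ j = 1 <;> by_cases h5 : w ^ i = 1 <;> simp [h4, h5]
    rw [Finset.sum_congr rfl fun w _ => h2 w, Finset.sum_boole]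
  rw [hcount, hcount, ZMod.natCast_eq_natCast_iff] at h1
  have h6 : ∀ c : K, (Finset.univ.filter (fun w : K => w ^ i = 1 ∧ (c * w) ^ j = 1)).card < r :=
    fun c => lt_of_le_of_lt (Finset.card_le_univ _) hr1
  exact Nat.ModEq.eq_of_lt_of_lt h1 (h6 _) (h6 _)

end Adams

end P179C
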