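import Vale.Agent.P179.H166.MainPlus
import Vale.Agent.P179.H905.Step1C

/-!
# Two counting lemmas for `p`-groups acting on finite sets
-/

namespace P179A

open Subgroup

open scoped Classical Pointwise

/-- `R` is a finite group, `A` a finite `p`-group, the actions commute; `D` is invariant and
`|R_x|` divides `D x`; no `R`-orbit is fixed by `A`. Then `p |R|` divides `∑ D x`. -/
theorem dvd_sum_prod (p : ℕ) [hp : Fact p.Prime] {R A X : Type*} [Group R] [Finite R] [Group A]
    [Finite A] (hA : IsPGroup p A) [Fintype X] [MulAction R X] [MulAction A X]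
    (hcomm : ∀ (c : R) (a : A) (x : X), c • a • x = a • c • x) (D : X → ℤ)
    (hDR : ∀ (c : R) (x : X), D (c • x) = D x) (hDA : ∀ (a : A) (x : X), D (a • x) = D x)
    (hdvd : ∀ x : X, (Nat.card (MulAction.stabilizer R x) : ℤ) ∣ D x)
    (hno : ∀ x : X, D x ≠ 0 → ∃ a : A, ∀ c : R, c • x ≠ a • x) :
    ((Nat.card R * p : ℕ) : ℤ) ∣ ∑ x, D x := by
  let inst : MulAction (R × A) X :=
    { smul := fun t x => t.1 • t.2 • x
      one_smul := fun x => by
        change (1 : R) • (1 : A) • x = x
        rw [one_smul, one_smul]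
      mul_smul := fun s t x => by
        change (s.1 * t.1) • (s.2 * t.2) • x = s.1 • s.2 • t.1 • t.2 • x
        rw [mul_smul, mul_smul, ← hcomm t.1 s.2] }
  have hsm : ∀ (t : R × A) (x : X), t • x = t.1 • t.2 • x := fun _ _ => rfl
  refine P179C.dvd_orbits (Γ := R × A) D ?_ _ ?_
  · intro t x
    rw [hsm, hDR, hDA]
  intro x
  by_cases hD0 : D x = 0
  · rw [hD0, mul_zero]; exact dvd_zero _
  let S := MulAction.stabilizer (R × A) x
  let f : S →* A := (MonoidHom.snd R A).comp S.subtype
  have h1 : Nat.card (MulAction.orbit (R × A) x) * Nat.card S = Nat.card R * Nat.card A := by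
    rw [← Nat.card_prod, ← Nat.card_prod]
    exact Nat.card_congr (MulAction.orbitProdStabilizerEquivGroup (R × A) x)
  have h2 : Nat.card f.ker * Nat.card f.range = Nat.card S := by
    rw [← index_ker, card_mul_index]
  have h3 : Nat.card f.ker = Nat.card (MulAction.stabilizer R x) := by
    refine Nat.card_congr
      { toFun := fun t => ⟨t.1.1.1, ?_⟩
        invFun := fun c => ⟨⟨(c.1, 1), ?_⟩, ?_⟩
        left_inv := ?_
        right_inv := fun _ => rfl }
    · rw [MulAction.mem_stabilizer_iff]
      have ht := t.1.2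
      have ht2 : t.1.1.2 = 1 := t.2
      rw [MulAction.mem_stabilizer_iff, hsm, ht2, one_smul] at ht
      exact ht
    · rw [MulAction.mem_stabilizer_iff, hsm, one_smul]
      exact c.2
    · rfl
    · intro t
      apply Subtype.ext
      apply Subtype.ext
      exact Prod.ext rfl (t.2 : t.1.1.2 = 1).symm
  have h4 : Nat.card f.range * f.range.index = Nat.card A := card_mul_index _
  have h5 : p ∣ f.range.index := by
    have hne : f.range.index ≠ 1 := by
      intro hi
      rw [index_eq_one] at hi
      obtain ⟨a, ha⟩ := hno x hD0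
      have ha' : a⁻¹ ∈ f.range := hi ▸ mem_top _
      obtain ⟨t, ht⟩ := ha'
      apply ha t.1.1
      have ht1 := t.2
      have ht2 : t.1.2 = a⁻¹ := ht
      rw [MulAction.mem_stabilizer_iff, hsm, ht2] at ht1
      have h6 : a • (t.1.1 • a⁻¹ • x) = a • x := by rw [ht1]
      rw [← hcomm, smul_inv_smul] at h6
      exact h6
    obtain ⟨n, hn⟩ := (IsPGroup.iff_card).mp hA
    have h6 : f.range.index ∣ p ^ n := by
      rw [← hn]; exact index_dvd_card _
    obtain ⟨m, -, hm⟩ := (Nat.dvd_prime_pow hp.out).mp h6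
    rw [hm] at hne ⊢
    exact dvd_pow_self p (by rintro rfl; exact hne (pow_zero p))
  obtain ⟨d, hd⟩ := hdvd x
  have h7 : Nat.card (MulAction.orbit (R × A) x) * Nat.card (MulAction.stabilizer R x) =
      Nat.card R * f.range.index := by
    have hpos : 0 < Nat.card f.range := Nat.card_pos
    apply Nat.eq_of_mul_eq_mul_right hpos
    rw [← h3, mul_assoc, h2, h1, ← h4]
    ring
  rw [hd, ← mul_assoc]
  have h8 : ((Nat.card (MulAction.orbit (R × A) x) : ℤ) * (Nat.card (MulAction.stabilizer R x) : ℤ))
      = ((Nat.card R * f.range.index : ℕ) : ℤ) := by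
    rw [← h7]; push_cast; ring
  rw [h8]
  refine Dvd.dvd.mul_right ?_ _
  exact_mod_cast mul_dvd_mul_left _ h5

/-- **Counting lemma.** A finite group `R` acts freely on the finite set `Ω`; `τ` is an injective
map commuting with `R`, `τ^q` acts as an element of `R`, `q` is a power of `p`, and `τ` fixes no
orbit. Then `p |R|` divides `|Ω|`. -/
theorem count_lemma2 (p : ℕ) [hp : Fact p.Prime] {R Ω : Type*} [Group R] [Finite R] [Finite Ω]
    [MulAction R Ω] (hfree : ∀ (e : R) (w : Ω), e • w = w → e = 1) (τ : Ω → Ω)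
    (hinj : Function.Injective τ) (hcomm : ∀ (e : R) (w : Ω), τ (e • w) = e • τ w) (q n : ℕ)
    (hqn : q = p ^ n) (u : R) (hτ : ∀ w, τ^[q] w = u⁻¹ • w) (hno : ∀ (k : R) (w : Ω), k • τ w ≠ w) :
    Nat.card R * p ∣ Nat.card Ω := by
  have hst : ∀ b : Ω, MulAction.stabilizer R b = ⊥ := by
    intro b
    rw [eq_bot_iff]
    intro e he
    rw [mem_bot]
    exact hfree e b he
  let X := Quotient (MulAction.orbitRel R Ω)
  have hcard : Nat.card Ω = Nat.card X * Nat.card R := by
    rw [Nat.card_congr (MulAction.selfEquivOrbitsQuotientProd hst), Nat.card_prod]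
  rw [hcard, mul_comm (Nat.card X)]
  refine mul_dvd_mul_left _ ?_
  have hfX : Finite X := Quotient.finite _
  let f : X → X := Quotient.map τ (by
    rintro a b ⟨e, rfl⟩
    exact ⟨e, (hcomm e b).symm⟩)
  have hf : ∀ w : Ω, f (Quotient.mk _ w) = Quotient.mk _ (τ w) := fun w => rfl
  have hsurj : Function.Surjective f := by
    intro x
    induction x using Quotient.inductionOn with
    | _ w =>
      obtain ⟨v, rfl⟩ := Finite.surjective_of_injective hinj w
      exact ⟨Quotient.mk _ v, rfl⟩
  let F : Equiv.Perm X := Equiv.ofBijective f (Finite.surjective_iff_bijective.mp hsurj)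
  have hFw : ∀ w : Ω, F (Quotient.mk _ w) = Quotient.mk _ (τ w) := fun w => rfl
  have hFpow : ∀ (j : ℕ) (w : Ω), (F ^ j) (Quotient.mk _ w) = Quotient.mk _ (τ^[j] w) := by
    intro j
    induction j with
    | zero => intro w; rfl
    | succ j ih =>
      intro w
      rw [pow_succ', Equiv.Perm.mul_apply, ih, hFw, Function.iterate_succ', Function.comp]
  have hFq : F ^ q = 1 := by
    ext x
    induction x using Quotient.inductionOn with
    | _ w =>
      rw [hFpow, hτ]
      exact Quotient.sound ⟨u⁻¹, rfl⟩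
  have hG : IsPGroup p (Subgroup.zpowers F) := by
    rw [IsPGroup.iff_card]
    have h1 : orderOf F ∣ p ^ n := by
      rw [← hqn]
      exact orderOf_dvd_of_pow_eq_one hFq
    obtain ⟨m, -, hm⟩ := (Nat.dvd_prime_pow hp.out).mp h1
    exact ⟨m, by rw [Nat.card_zpowers, hm]⟩
  have hmod := hG.card_modEq_card_fixedPoints X
  have hno' : IsEmpty (MulAction.fixedPoints (Subgroup.zpowers F) X) := by
    refine ⟨?_⟩
    rintro ⟨x, hx⟩
    have hx1 : F x = x := hx ⟨F, mem_zpowers F⟩
    induction x using Quotient.inductionOn with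
    | _ w =>
      rw [hFw] at hx1
      obtain ⟨k, hk⟩ := Quotient.exact hx1
      have hk' : τ w = k • w := hk.symm
      refine hno k⁻¹ w ?_
      rw [hk', inv_smul_smul]
  rw [Nat.card_eq_zero.mpr (Or.inl hno')] at hmod
  exact (Nat.modEq_zero_iff_dvd).mp hmod

end P179A
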