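import Vale.Agent.P179.H166.PPCount
import Vale.Agent.P179.H166.PPAdams

/-!
# The main lemma for `p = 2, 3`: fixed points of the braid of order `q` and Adams operations
-/

namespace P179A

open Subgroup

open scoped Classical Pointwise

variable {G : Type*} [Group G]

theorem U_smul_eq {R : Subgroup G} {e : G} (he : e ∈ R) (w : Tri G) :
    U R (e • w) = MulAut.conj e • U R w := by
  ext h
  rw [Subgroup.mem_pointwise_smul_iff_inv_smul_mem]
  have h2 : (MulAut.conj e)⁻¹ • h = e⁻¹ * h * e := by simp [MulAut.smul_def]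
  rw [h2, mem_U, mem_U]
  have hR : h ∈ R ↔ e⁻¹ * h * e ∈ R := by
    constructor
    · intro hh; exact mul_mem (mul_mem (inv_mem he) hh) he
    · intro hh
      have := mul_mem (mul_mem he hh) (inv_mem he)
      have e1 : e * (e⁻¹ * h * e) * e⁻¹ = h := by group
      rwa [e1] at this
  have hx : ∀ x : G, h * (e * x * e⁻¹) = e * x * e⁻¹ * h ↔
      e⁻¹ * h * e * x = x * (e⁻¹ * h * e) := by
    intro x
    constructor
    · intro hh
      have e1 : e⁻¹ * h * e * x = e⁻¹ * (h * (e * x * e⁻¹)) * e := by group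
      rw [e1, hh]; group
    · intro hh
      have e1 : h * (e * x * e⁻¹) = e * (e⁻¹ * h * e * x) * e⁻¹ := by group
      rw [e1, hh]; group
  have hs : h ∈ stab (e • w).s ↔ e⁻¹ * h * e ∈ stab w.s := by
    rw [smul_s]
    conv_rhs => rw [← smul_mem_stab_iff (MulAut.conj e), MulAut.conj_apply]
    have e1 : e * (e⁻¹ * h * e) * e⁻¹ = h := by group
    rw [e1]
  rw [hs, smul_x, smul_y, hx, hx, ← hR]

theorem smul_tg (e : G) (V : Subgroup G) (w : Tri G) :
    e • tg V w = tg (MulAut.conj e • V) (e • w) := by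
  apply Tri.ext
  · rfl
  · rfl
  · simp only [tg, smul_s]
    rw [smul_tog]

variable [Finite G]

/-- A braid whose `q`-th power is the full twist, with the description of its twisted fixed
points. -/
structure Tw (G : Type*) [Group G] [Finite G] (q i j : ℕ) (τ : Tri G → Tri G) : Prop where
  good : ∀ (p : ℕ) (g : G) (R : Subgroup G) (ε : ℤ), Good p g R ε τ
  full : ∀ (p : ℕ) (g : G) (w : Tri G), InO p g w → τ^[q] w = g⁻¹ • w
  tgc : ∀ (V : Subgroup G) (w : Tri G), τ (tg V w) = tg V (τ w)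
  chain : ∀ w, (τ w).s = w.s
  Ueq : ∀ (R : Subgroup G) (w : Tri G), U R (τ w) = U R w
  fix : ∀ (κ : G) (w : Tri G), (κ * (τ w).x * κ⁻¹ = w.x ∧ κ * (τ w).y * κ⁻¹ = w.y ∧
    w.x * w.y * w.x⁻¹ * w.y⁻¹ = κ ^ q) ↔
    (w.x = κ * (κ * w.y)⁻¹ ∧ (κ * w.y) ^ i = 1 ∧ (κ * (κ * w.y)) ^ j = 1)

omit [Finite G] in
theorem hd_eq (w : Tri G) : hd w = ⟨w.y⁻¹, w.y * w.x * w.y⁻¹, w.s⟩ := delta_formula w

omit [Finite G] in
theorem h12_eq (w : Tri G) : h12 (h12 w) = ⟨w.y⁻¹, w.y * w.x * w.y⁻¹ * w.y⁻¹, w.s⟩ := by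
  apply Tri.ext
  · simp only [h12, s1, s2]; group
  · simp only [h12, s1, s2]; group
  · rfl

theorem tw_hd : Tw G 4 4 2 hd where
  good := good_hd
  full p g w hw := hd_four hw
  tgc V w := rfl
  chain w := rfl
  Ueq R w := by rw [hd, U_s1, U_s2, U_s1]
  fix κ w := by
    rw [hd_eq]
    generalize hv : κ * w.y = v
    have hy : w.y = κ⁻¹ * v := by rw [← hv]; group
    generalize w.x = x
    rw [hy]
    simp only
    constructor
    · rintro ⟨h1, h2, h3⟩
      have hx : x = κ * v⁻¹ := by rw [← h1]; group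
      rw [hx] at h2 h3
      have hB : v * v * v = κ * v * κ := by
        have e1 : κ * (κ⁻¹ * v * (κ * v⁻¹) * (κ⁻¹ * v)⁻¹) * κ⁻¹ = v * κ * v⁻¹ * v⁻¹ := by group
        rw [e1] at h2
        have e2 : v * v * v = κ * (κ⁻¹ * v) * v * v := by group
        rw [e2, ← h2]; group
      have hC : v * v = (κ * v * κ) * (κ * v * κ) := by
        have e1 : κ * v⁻¹ * (κ⁻¹ * v) * (κ * v⁻¹)⁻¹ * (κ⁻¹ * v)⁻¹ =
            κ * v⁻¹ * κ⁻¹ * (v * v) * κ⁻¹ * v⁻¹ * κ := by group
        rw [e1] at h3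
        have e2 : v * v = κ * v * κ⁻¹ * (κ * v⁻¹ * κ⁻¹ * (v * v) * κ⁻¹ * v⁻¹ * κ) * κ⁻¹ * v * κ := by
          group
        rw [e2, h3]; simp only [pow_succ, pow_zero]; group
      rw [← hB] at hC
      have h4 : v ^ 4 = 1 := by
        have e1 : v * v * v * (v * v * v) = v * v * v ^ 4 := by
          simp only [pow_succ, pow_zero, one_mul, mul_assoc]
        rw [e1] at hC
        exact (mul_eq_left.mp hC.symm)
      refine ⟨hx, h4, ?_⟩
      have e1 : (κ * v) ^ 2 = κ * v * κ * v := by simp only [pow_succ, pow_zero]; group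
      rw [e1, ← hB]
      have e2 : v * v * v * v = v ^ 4 := by simp only [pow_succ, pow_zero]; group
      rw [e2, h4]
    · rintro ⟨hx, h4, h2⟩
      rw [hx]
      have h4' : v * v * v * v = 1 := by
        rw [← h4]; simp only [pow_succ, pow_zero]; group
      have h2' : κ * v * κ * v = 1 := by
        rw [← h2]; simp only [pow_succ, pow_zero]; group
      have hB : v * v * v = κ * v * κ := by
        rw [eq_inv_of_mul_eq_one_left h4', eq_inv_of_mul_eq_one_left h2']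
      refine ⟨by group, ?_, ?_⟩
      · have e1 : κ * (κ⁻¹ * v * (κ * v⁻¹) * (κ⁻¹ * v)⁻¹) * κ⁻¹ =
          κ⁻¹ * (κ * v * κ) * v⁻¹ * v⁻¹ := by group
        rw [e1, ← hB]; group
      · have hvv : v * v = (κ * v * κ) * (κ * v * κ) := by
          rw [← hB]
          have e2 : v * v * v * (v * v * v) = v * v * v * v * (v * v) := by group
          rw [e2, h4', one_mul]
        have e1 : κ * v⁻¹ * (κ⁻¹ * v) * (κ * v⁻¹)⁻¹ * (κ⁻¹ * v)⁻¹ =
            κ * v⁻¹ * κ⁻¹ * (v * v) * κ⁻¹ * v⁻¹ * κ := by group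
        rw [e1, hvv]
        simp only [pow_succ, pow_zero]; group

theorem tw_h12 : Tw G 3 3 3 (fun w => h12 (h12 w)) where
  good p g R ε := (good_h12 p g R ε).comp (good_h12 p g R ε)
  full p g w hw := by
    have h : (fun w : Tri G => h12 (h12 w)) = h12^[2] := rfl
    rw [h, ← Function.iterate_mul]
    change h12^[6] w = _
    rw [h12_six]
    exact hd_four hw
  tgc V w := rfl
  chain w := rfl
  Ueq R w := by rw [h12, U_s1, U_s2, h12, U_s1, U_s2]
  fix κ w := by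
    rw [h12_eq]
    generalize hv : κ * w.y = v
    have hy : w.y = κ⁻¹ * v := by rw [← hv]; group
    generalize w.x = x
    rw [hy]
    simp only
    constructor
    · rintro ⟨h1, h2, h3⟩
      have hx : x = κ * v⁻¹ := by rw [← h1]; group
      rw [hx] at h2 h3
      have hB : κ⁻¹ * (v * v) * κ⁻¹ = v * κ * v⁻¹ * v⁻¹ := by
        have e1 : κ * (κ⁻¹ * v * (κ * v⁻¹) * (κ⁻¹ * v)⁻¹ * (κ⁻¹ * v)⁻¹) * κ⁻¹ =
          v * κ * v⁻¹ * v⁻¹ * κ * v⁻¹ := by group
        rw [e1] at h2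
        have e2 : κ⁻¹ * (v * v) * κ⁻¹ = (κ⁻¹ * v) * v * κ⁻¹ := by group
        rw [e2, ← h2]; group
      have hC : κ⁻¹ * (v * v) * κ⁻¹ = v * κ * v := by
        have e1 : κ * v⁻¹ * (κ⁻¹ * v) * (κ * v⁻¹)⁻¹ * (κ⁻¹ * v)⁻¹ =
            κ * v⁻¹ * (κ⁻¹ * (v * v) * κ⁻¹) * v⁻¹ * κ := by group
        rw [e1] at h3
        have e2 : κ⁻¹ * (v * v) * κ⁻¹ = v * κ⁻¹ * (κ * v⁻¹ * (κ⁻¹ * (v * v) * κ⁻¹) * v⁻¹ * κ) *
            κ⁻¹ * v := by group
        rw [e2, h3]; simp only [pow_succ, pow_zero]; group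
      have h4 : v * v * v = 1 := by
        rw [hC] at hB
        have e1 : v = κ⁻¹ * v⁻¹ * (v * κ * v) := by group
        rw [hB] at e1
        have e2 : v * v * v = v * v * (κ⁻¹ * v⁻¹ * (v * κ * v⁻¹ * v⁻¹)) := by rw [← e1]
        rw [e2]; group
      refine ⟨hx, ?_, ?_⟩
      · rw [← h4]; simp only [pow_succ, pow_zero]; group
      · have e1 : (κ * v) ^ 3 = κ * (v * κ * v) * κ * v := by
          simp only [pow_succ, pow_zero]; group
        rw [e1, ← hC, ← h4]; group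
    · rintro ⟨hx, h3, h3'⟩
      rw [hx]
      have h4 : v * v * v = 1 := by
        rw [← h3]; simp only [pow_succ, pow_zero]; group
      have h5 : κ * v * κ * v * κ * v = 1 := by
        rw [← h3']; simp only [pow_succ, pow_zero]; group
      have hC : κ⁻¹ * (v * v) * κ⁻¹ = v * κ * v := by
        have e1 : v * v = v⁻¹ := eq_inv_of_mul_eq_one_left h4
        have e2 : κ * v * κ * v * κ = v⁻¹ := eq_inv_of_mul_eq_one_left h5
        rw [e1, ← e2]; group
      refine ⟨by group, ?_, ?_⟩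
      · have e1 : κ * (κ⁻¹ * v * (κ * v⁻¹) * (κ⁻¹ * v)⁻¹ * (κ⁻¹ * v)⁻¹) * κ⁻¹ =
          (v * κ * v) * (v * v * v)⁻¹ * κ * v⁻¹ := by group
        rw [e1, h4, ← hC]; group
      · have e1 : κ * v⁻¹ * (κ⁻¹ * v) * (κ * v⁻¹)⁻¹ * (κ⁻¹ * v)⁻¹ =
            κ * v⁻¹ * (κ⁻¹ * (v * v) * κ⁻¹) * v⁻¹ * κ := by group
        rw [e1, hC]; simp only [pow_succ, pow_zero]; group

end P179A
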