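import Vale.Agent.P179.H166.PPMain

/-!
# The main lemma for `p = 2, 3`, second part
-/

namespace P179A

open Subgroup

open scoped Classical Pointwise

variable {G : Type*} [Group G] [Finite G]

/-- `sum_OF_eq_gen` relative to a condition invariant under toggling. -/
theorem sum_OF_eq_rel {R : Subgroup G} {p : ℕ} [hp : Fact p.Prime] (hR : IsPGroup p R) {g : G}
    (Q : Tri G → Prop) (hQ : ∀ w, InO p g w → U R w ≠ ⊥ → Q w → Q (tg (U R w) w)) :
    ∑ w ∈ (OF p g).filter Q, (-1 : ℤ) ^ w.s.card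
    = (((FP p g R 1).filter Q).card : ℤ) - ((FP p g R (-1)).filter Q).card := by
  rw [← Finset.sum_filter_add_sum_filter_not ((OF p g).filter Q) (fun w => U R w = ⊥)]
  have h0 : ∑ w ∈ ((OF p g).filter Q).filter (fun w => ¬ U R w = ⊥), (-1 : ℤ) ^ w.s.card = 0 := by
    refine Finset.sum_involution (fun w _ => tg (U R w) w) ?_ ?_ ?_ ?_
    · intro w hw
      simp only [tg]
      rw [neg_one_pow_card_tog]; ring
    · intro w hw _ h
      have := congrArg Tri.s h
      exact tog_ne _ _ this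
    · intro w hw
      rw [Finset.mem_filter, Finset.mem_filter, mem_OF] at hw ⊢
      have hle : U R w ≤ T R w := inf_le_left
      refine ⟨⟨hw.1.1.tg hR hle hw.2 (mem_normalizer_of_comm fun v hv => (mem_U.1 hv).2.2.1.symm),
        hQ w hw.1.1 hw.2 hw.1.2⟩, ?_⟩
      rw [U_tg_self hR hw.1.1.chain hw.2]
      exact hw.2
    · intro w hw
      rw [Finset.mem_filter, Finset.mem_filter, mem_OF] at hw
      rw [U_tg_self hR hw.1.1.chain hw.2, tg_tg]
  rw [h0, add_zero]
  rw [← Finset.sum_filter_add_sum_filter_not (((OF p g).filter Q).filter (fun w => U R w = ⊥))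
    (fun w => (-1 : ℤ) ^ w.s.card = 1)]
  have h1 : ∑ w ∈ (((OF p g).filter Q).filter (fun w => U R w = ⊥)).filter
      (fun w => (-1 : ℤ) ^ w.s.card = 1), (-1 : ℤ) ^ w.s.card = ((FP p g R 1).filter Q).card := by
    have e : (((OF p g).filter Q).filter (fun w => U R w = ⊥)).filter
      (fun w => (-1 : ℤ) ^ w.s.card = 1) = (FP p g R 1).filter Q := by
      ext w
      simp only [Finset.mem_filter, FP]
      tauto
    rw [e, Finset.sum_congr rfl (g := fun _ => (1 : ℤ))]
    · rw [Finset.sum_const]; simp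
    · intro w hw
      exact (mem_FP.1 (Finset.mem_filter.1 hw).1).2.2
  have h2 : ∑ w ∈ (((OF p g).filter Q).filter (fun w => U R w = ⊥)).filter
      (fun w => ¬ (-1 : ℤ) ^ w.s.card = 1), (-1 : ℤ) ^ w.s.card =
        -((FP p g R (-1)).filter Q).card := by
    have e : (((OF p g).filter Q).filter (fun w => U R w = ⊥)).filter
      (fun w => ¬ (-1 : ℤ) ^ w.s.card = 1) = (FP p g R (-1)).filter Q := by
      ext w
      have e1 : ¬ (-1 : ℤ) ^ w.s.card = 1 ↔ (-1 : ℤ) ^ w.s.card = -1 := by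
        rcases neg_one_pow_eq_or ℤ w.s.card with h | h <;> simp [h]
      simp only [Finset.mem_filter, FP, e1]
      tauto
    rw [e, Finset.sum_congr rfl (g := fun _ => (-1 : ℤ))]
    · rw [Finset.sum_const]; simp
    · intro w hw
      exact (mem_FP.1 (Finset.mem_filter.1 hw).1).2.2
  rw [h1, h2]; ring

/-- the number of `v` in the stabiliser of the chain with `v^i = 1`, `(κ v)^j = 1` -/
noncomputable def Ncount (i j : ℕ) (κ : G) (s : Finset (Subgroup G)) : ℕ :=
  Nat.card {v : G // v ∈ stab s ∧ v ^ i = 1 ∧ (κ * v) ^ j = 1}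

omit [Group G] [Finite G] in
theorem adams_card {K : Type*} [Group K] [Finite K] (i j e : ℕ) (he : e.Coprime (Nat.card K))
    (κ : K) : Nat.card {w : K // w ^ i = 1 ∧ (κ ^ e * w) ^ j = 1} =
      Nat.card {w : K // w ^ i = 1 ∧ (κ * w) ^ j = 1} := by
  have := Fintype.ofFinite K
  rw [Nat.card_eq_fintype_card, Nat.card_eq_fintype_card, Fintype.card_subtype,
    Fintype.card_subtype]
  exact P179C.Adams.adams i j e (by rwa [← Nat.card_eq_fintype_card]) κ

theorem Ncount_pow (i j e : ℕ) (he : e.Coprime (Nat.card G)) (κ : G) (s : Finset (Subgroup G))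
    (hκ : κ ∈ stab s) : Ncount i j (κ ^ e) s = Ncount i j κ s := by
  have key : ∀ κ' : stab s, Ncount i j (κ' : G) s =
      Nat.card {w : stab s // w ^ i = 1 ∧ (κ' * w) ^ j = 1} := by
    intro κ'
    refine Nat.card_congr
      { toFun := fun v => ⟨⟨v.1, v.2.1⟩, Subtype.ext v.2.2.1, Subtype.ext v.2.2.2⟩
        invFun := fun v => ⟨v.1.1, v.1.2, congrArg Subtype.val v.2.1, congrArg Subtype.val v.2.2⟩
        left_inv := fun _ => rfl
        right_inv := fun _ => rfl }
  have h1 := key ⟨κ, hκ⟩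
  have h2 := key (⟨κ, hκ⟩ ^ e)
  rw [adams_card i j e (he.of_dvd_right (card_subgroup_dvd_card _)) ⟨κ, hκ⟩, ← h1] at h2
  exact h2

/-- the signed number of twisted fixed points -/
theorem count_fix {p q i j : ℕ} {τ : Tri G → Tri G} (hT : Tw G q i j τ) {κ g : G}
    (hκ : κ ^ q = g) :
    ∑ w ∈ (OF p g).filter (fun w => κ • τ w = w), (-1 : ℤ) ^ w.s.card =
      ∑ s ∈ (chains p G).filter (fun s => κ ∈ stab s), (-1 : ℤ) ^ s.card * Ncount i j κ s := by
  have := Fintype.ofFinite G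
  have h1 : ∀ s ∈ (chains p G).filter (fun s => κ ∈ stab s), (-1 : ℤ) ^ s.card * Ncount i j κ s =
      ∑ v ∈ (Finset.univ : Finset G).filter (fun v => v ∈ stab s ∧ v ^ i = 1 ∧ (κ * v) ^ j = 1),
        (-1 : ℤ) ^ s.card := by
    intro s _
    rw [Finset.sum_const, nsmul_eq_mul, mul_comm]
    congr 2
    unfold Ncount
    rw [Nat.card_eq_fintype_card, Fintype.card_subtype]
  rw [Finset.sum_congr rfl h1, Finset.sum_sigma']
  symm
  refine Finset.sum_bij (fun a _ => (⟨κ * a.2⁻¹, κ⁻¹ * a.2, a.1⟩ : Tri G)) ?_ ?_ ?_ ?_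
  · intro a ha
    simp only [Finset.mem_sigma, Finset.mem_filter, Finset.mem_univ, true_and, mem_chains] at ha
    obtain ⟨⟨hs, hκs⟩, hv, hvi, hvj⟩ := ha
    have hfix := (hT.fix κ ⟨κ * a.2⁻¹, κ⁻¹ * a.2, a.1⟩).2 (by
      simp only
      have e1 : κ * (κ⁻¹ * a.2) = a.2 := by group
      rw [e1]
      exact ⟨rfl, hvi, hvj⟩)
    rw [Finset.mem_filter, mem_OF]
    refine ⟨⟨?_, hs, mul_mem hκs (inv_mem hv), mul_mem (inv_mem hκs) hv⟩, ?_⟩
    · rw [hfix.2.2, hκ]
    · apply Tri.ext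
      · rw [smul_x]; exact hfix.1
      · rw [smul_y]; exact hfix.2.1
      · rw [smul_s, hT.chain]
        exact conj_smul_eq_self_of_mem hκs
  · rintro ⟨s, v⟩ _ ⟨s', v'⟩ _ h
    simp only [Tri.mk.injEq] at h
    obtain ⟨-, h2, rfl⟩ := h
    rw [mul_left_cancel h2]
  · intro w hw
    rw [Finset.mem_filter, mem_OF] at hw
    obtain ⟨hw, hfx⟩ := hw
    have hx := congrArg Tri.x hfx
    have hy := congrArg Tri.y hfx
    have hs := congrArg Tri.s hfx
    rw [smul_x] at hx
    rw [smul_y] at hy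
    rw [smul_s, hT.chain] at hs
    have hκs := mem_stab_of_conj_smul_eq hw.chain.2 hs
    have hfix := (hT.fix κ w).1 ⟨hx, hy, by rw [hw.comm, hκ]⟩
    refine ⟨⟨w.s, κ * w.y⟩, ?_, ?_⟩
    · simp only [Finset.mem_sigma, Finset.mem_filter, Finset.mem_univ, true_and, mem_chains]
      exact ⟨⟨hw.chain, hκs⟩, mul_mem hκs hw.hy, hfix.2.1, hfix.2.2⟩
    · apply Tri.ext
      · exact hfix.1.symm
      · simp
      · rfl
  · intro a _; rfl

/-- the signed number of twisted fixed points is invariant under Adams operations -/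
theorem count_fix_pow {p q i j : ℕ} {τ : Tri G → Tri G} (hT : Tw G q i j τ) {κ g : G}
    (hκ : κ ^ q = g) {e : ℕ} (he : e.Coprime (Nat.card G)) (hge : g ^ e = g) :
    ∑ w ∈ (OF p g).filter (fun w => κ ^ e • τ w = w), (-1 : ℤ) ^ w.s.card =
      ∑ w ∈ (OF p g).filter (fun w => κ • τ w = w), (-1 : ℤ) ^ w.s.card := by
  rw [count_fix hT hκ, count_fix (κ := κ ^ e) hT (by rw [← pow_mul, mul_comm, pow_mul, hκ, hge])]
  have h1 : ∀ s : Finset (Subgroup G), κ ^ e ∈ stab s ↔ κ ∈ stab s := by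
    intro s
    constructor
    · intro h
      have hco : e.Coprime (orderOf κ) := he.of_dvd_right (orderOf_dvd_natCard κ)
      obtain ⟨f, hf⟩ := exists_pow_eq_self_of_coprime hco
      rw [← hf]
      exact pow_mem h f
    · intro h; exact pow_mem h e
  simp only [h1]
  refine Finset.sum_congr rfl fun s hs => ?_
  rw [Ncount_pow i j e he κ s (Finset.mem_filter.1 hs).2]

end P179A
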