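import Vale.Agent.P179.H166.PPMain2

/-!
# The main lemma for `p = 2, 3`, third part
-/

namespace P179A

open Subgroup

open scoped Classical Pointwise

/-! ### the group of exponents -/

/-- the units modulo `p^(n+1)` congruent to `1` modulo `p` -/
def AdU (p n : ℕ) : Subgroup (ZMod (p ^ (n + 1)))ˣ :=
  (ZMod.unitsMap (dvd_pow_self p (Nat.succ_ne_zero n))).ker

theorem adU_val {p n : ℕ} [hp : Fact p.Prime] (a : AdU p n) :
    ((a : (ZMod (p ^ (n + 1)))ˣ) : ZMod (p ^ (n + 1))).val ≡ 1 [MOD p] := by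
  have h1 : ZMod.unitsMap (dvd_pow_self p (Nat.succ_ne_zero n)) a.1 = 1 := a.2
  have h2 := congrArg Units.val h1
  rw [ZMod.unitsMap_val, ← ZMod.natCast_val, Units.val_one] at h2
  rw [← ZMod.natCast_eq_natCast_iff, h2, Nat.cast_one]

theorem adU_isPGroup (p n : ℕ) [hp : Fact p.Prime] : IsPGroup p (AdU p n) := by
  intro a
  refine ⟨n, ?_⟩
  have h1 := adU_val a
  set v := ((a : (ZMod (p ^ (n + 1)))ˣ) : ZMod (p ^ (n + 1))).val with hv
  have h2 : ((p : ℕ) : ℤ) ∣ (v : ℤ) - 1 := by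
    have := (Nat.modEq_iff_dvd.mp h1.symm)
    simpa using this
  have h3 := dvd_sub_pow_of_dvd_sub h2 n
  rw [one_pow] at h3
  apply Subtype.ext
  apply Units.ext
  rw [SubgroupClass.coe_pow, Units.val_pow_eq_pow_val, OneMemClass.coe_one, Units.val_one]
  have hne : NeZero (p ^ (n + 1)) := ⟨pow_ne_zero _ hp.out.ne_zero⟩
  have h4 : ((v : ℕ) : ZMod (p ^ (n + 1))) = ((a : (ZMod (p ^ (n + 1)))ˣ) : ZMod (p ^ (n + 1))) := by
    rw [hv, ZMod.natCast_val, ZMod.cast_id]
  have h5 := (ZMod.intCast_zmod_eq_zero_iff_dvd ((v : ℤ) ^ p ^ n - 1) (p ^ (n + 1))).mpr (by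
    exact_mod_cast h3)
  push_cast at h5
  rw [← h4]
  exact sub_eq_zero.mp h5

instance adU_finite (p n : ℕ) [hp : Fact p.Prime] : Finite (AdU p n) := by
  have hne : NeZero (p ^ (n + 1)) := ⟨pow_ne_zero _ hp.out.ne_zero⟩
  infer_instance

variable {G : Type*} [Group G] [Finite G]

/-- choice of the exponent -/
theorem exists_exp {p n : ℕ} [hp : Fact p.Prime] {g k : G} {m v : ℕ} (hu1 : g ^ m ≠ 1)
    (hup : (g ^ m) ^ p = 1) (hpm : ¬ p ∣ m) (hk : k ^ p ^ n = g ^ m) (hv : v ≡ 1 [MOD p]) :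
    ∃ e : ℕ, e.Coprime (Nat.card G) ∧ g ^ e = g ∧ k ^ e = k ^ v := by
  set N := Nat.card G with hN
  have hN0 : N ≠ 0 := Nat.card_pos.ne'
  set A := p ^ N.factorization p with hA
  set c := N / A with hc
  have hAc : A * c = N := Nat.ordProj_mul_ordCompl_eq_self N p
  have hpc : ¬ p ∣ c := Nat.not_dvd_ordCompl hp.out hN0
  have hcop : A.Coprime c :=
    Nat.Coprime.pow_left _ ((Nat.Prime.coprime_iff_not_dvd hp.out).mpr hpc)
  obtain ⟨e, he1, he2⟩ := Nat.chineseRemainder hcop v 1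
  have hu : orderOf (g ^ m) = p := orderOf_eq_prime hup hu1
  have hpA : p ∣ A := by
    have h1 : p ∣ N := by rw [← hu]; exact orderOf_dvd_natCard _
    rw [← hAc] at h1
    exact (Nat.Coprime.dvd_of_dvd_mul_right
      ((Nat.Prime.coprime_iff_not_dvd hp.out).mpr hpc) h1)
  have hep : e ≡ 1 [MOD p] := (he1.of_dvd hpA).trans hv
  refine ⟨e, ?_, ?_, ?_⟩
  · rw [← hAc]
    refine Nat.Coprime.mul_right ?_ ?_
    · refine Nat.Coprime.pow_right _ ?_
      have := hep.gcd_eq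
      rwa [Nat.gcd_one_left] at this
    · have := he2.gcd_eq
      rwa [Nat.gcd_one_left] at this
  · conv_rhs => rw [← pow_one g]
    rw [pow_eq_pow_iff_modEq]
    have hd : orderOf g ∣ A * c := by rw [hAc]; exact orderOf_dvd_natCard _
    have hd1 : Nat.gcd (orderOf g) A ∣ p := by
      have h1 : Nat.gcd (orderOf g) A ∣ m * p := by
        refine (Nat.gcd_dvd_left _ _).trans ?_
        apply orderOf_dvd_of_pow_eq_one
        rw [pow_mul, hup]
      obtain ⟨t, -, ht⟩ := (Nat.dvd_prime_pow hp.out).mp (Nat.gcd_dvd_right (orderOf g) A)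
      rw [ht] at h1 ⊢
      exact Nat.Coprime.dvd_of_dvd_mul_left
        (Nat.Coprime.pow_left _ ((Nat.Prime.coprime_iff_not_dvd hp.out).mpr hpm)) h1
    have hd2 : orderOf g = Nat.gcd (orderOf g) A * Nat.gcd (orderOf g) c := by
      rw [← Nat.Coprime.gcd_mul _ hcop, Nat.gcd_eq_left hd]
    rw [hd2]
    have hcop' : (Nat.gcd (orderOf g) A).Coprime (Nat.gcd (orderOf g) c) :=
      Nat.Coprime.gcd_both _ _ hcop
    exact (Nat.modEq_and_modEq_iff_modEq_mul hcop').mp
      ⟨hep.of_dvd hd1, he2.of_dvd (Nat.gcd_dvd_right _ _)⟩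
  · rw [pow_eq_pow_iff_modEq]
    refine he1.of_dvd ?_
    have hko : orderOf k = p ^ (n + 1) := by
      refine orderOf_eq_prime_pow (by rw [hk]; exact hu1) ?_
      rw [pow_succ, pow_mul, hk, hup]
    have h1 : orderOf k ∣ A * c := by rw [hAc]; exact orderOf_dvd_natCard _
    rw [hko] at h1 ⊢
    exact Nat.Coprime.dvd_of_dvd_mul_right
      (Nat.Coprime.pow_left _ ((Nat.Prime.coprime_iff_not_dvd hp.out).mpr hpc)) h1

theorem Tw.full_iterate {p q i j : ℕ} {τ : Tri G → Tri G} (hT : Tw G q i j τ) {g : G} {w : Tri G}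
    (hw : InO p g w) (m : ℕ) : (τ^[q])^[m] w = (g ^ m)⁻¹ • w := by
  induction m with
  | zero => simp
  | succ m ih =>
    rw [Function.iterate_succ', Function.comp, ih, hT.full p g, pow_succ, mul_inv_rev,
      mul_smul]
    refine hw.smul ?_
    exact (((Commute.refl g).pow_left m).inv_left)

theorem Tw.iter_eq {p q i j : ℕ} {τ : Tri G → Tri G} (hT : Tw G q i j τ) {g : G} {w : Tri G}
    (hw : InO p g w) (a : ℕ) : τ^[1 + q * a] w = (g ^ a)⁻¹ • τ w := by
  rw [Function.iterate_add, Function.comp, Function.iterate_one, Function.iterate_mul,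
    hT.full_iterate hw, (hT.good p g ⊥ 1).comm]

theorem Tw.iter_U {q i j : ℕ} {τ : Tri G → Tri G} (hT : Tw G q i j τ) (R : Subgroup G)
    (w : Tri G) (m : ℕ) : U R (τ^[m] w) = U R w := by
  induction m with
  | zero => rfl
  | succ m ih => rw [Function.iterate_succ', Function.comp, hT.Ueq, ih]

theorem Tw.iter_tg {q i j : ℕ} {τ : Tri G → Tri G} (hT : Tw G q i j τ) (V : Subgroup G)
    (w : Tri G) (m : ℕ) : τ^[m] (tg V w) = tg V (τ^[m] w) := by
  induction m with
  | zero => rfl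
  | succ m ih =>
    rw [Function.iterate_succ', Function.comp, ih, hT.tgc]
    rfl

end P179A
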