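import Vale.Agent.P179.H166.PPMain3

/-!
# The main lemma for `p = 2, 3`, last part
-/

namespace P179A

open Subgroup

open scoped Classical Pointwise

variable {G : Type*} [Group G] [Finite G]

theorem FP_smul_mem {p : ℕ} {g : G} {R : Subgroup G} {ε : ℤ} (hg : ∀ a ∈ R, a * g = g * a)
    {e : G} (he : e ∈ R) {w : Tri G} (hw : w ∈ FP p g R ε) : e • w ∈ FP p g R ε := by
  rw [mem_FP] at hw ⊢
  refine ⟨hw.1.smul (hg e he), U_smul_gen he w hw.2.1, ?_⟩
  rw [smul_s, card_smul_chain]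
  exact hw.2.2

theorem FP_smul_free {p : ℕ} {g : G} {R : Subgroup G} {ε : ℤ} {e : G} (he : e ∈ R) {w : Tri G}
    (hw : w ∈ FP p g R ε) (h : e • w = w) : e = 1 := by
  have h2 := mem_FP.1 hw
  have h3 := (smul_eq_iff (p := p) h2.1.chain he).1 h
  rwa [h2.2.1, mem_bot] at h3

/-- the triples whose orbit is not fixed by `τ` -/
theorem dvd_card_rest {p : ℕ} [hp : Fact p.Prime] {g : G} {R : Subgroup G}
    (hg : ∀ a ∈ R, a * g = g * a) {ε : ℤ} {τ : Tri G → Tri G} (hτ : Good p g R ε τ) {q n m : ℕ}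
    (hq : q = p ^ n) (hm : g ^ m ∈ R) (hτq : ∀ w, InO p g w → τ^[q] w = (g ^ m)⁻¹ • w) :
    Nat.card R * p ∣ ((FP p g R ε).filter (fun w => ¬ ∃ k ∈ R, k • τ w = w)).card := by
  let S := (FP p g R ε).filter (fun w => ¬ ∃ k ∈ R, k • τ w = w)
  let Ω := {w : Tri G // w ∈ S}
  have hmemS : ∀ w, w ∈ S ↔ w ∈ FP p g R ε ∧ ¬ ∃ k ∈ R, k • τ w = w := fun w =>
    Finset.mem_filter
  have hst : ∀ (e : R) (w : Tri G), w ∈ S → (e : G) • w ∈ S := by
    intro e w hw
    rw [hmemS] at hw ⊢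
    refine ⟨FP_smul_mem hg e.2 hw.1, ?_⟩
    rintro ⟨k, hk, h⟩
    apply hw.2
    refine ⟨(e : G)⁻¹ * k * e, mul_mem (mul_mem (inv_mem e.2) hk) e.2, ?_⟩
    rw [hτ.comm] at h
    rw [mul_smul, mul_smul, h, inv_smul_smul]
  let _ : MulAction R Ω :=
    { smul := fun e w => ⟨(e : G) • w.1, hst e w.1 w.2⟩
      one_smul := fun w => Subtype.ext (one_smul G w.1)
      mul_smul := fun a b w => Subtype.ext (mul_smul (a : G) (b : G) w.1) }
  let σ : Ω → Ω := fun w => ⟨τ w.1, by
    have hw := (hmemS w.1).1 w.2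
    rw [hmemS]
    refine ⟨hτ.maps w.1 hw.1, ?_⟩
    rintro ⟨k, hk, h⟩
    apply hw.2
    refine ⟨k, hk, ?_⟩
    rw [← hτ.comm] at h
    exact hτ.inj h⟩
  have hσ : ∀ (j : ℕ) (w : Ω), ((σ^[j] w : Ω) : Tri G) = τ^[j] w.1 := by
    intro j
    induction j with
    | zero => intro w; rfl
    | succ j ih =>
      intro w
      rw [Function.iterate_succ', Function.iterate_succ', Function.comp, Function.comp, ← ih]
  have key := count_lemma2 p (R := R) (Ω := Ω) (fun e w he => by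
      have h1 : (e : G) • w.1 = w.1 := congrArg Subtype.val he
      exact Subtype.ext (FP_smul_free e.2 ((hmemS w.1).1 w.2).1 h1)) σ
    (fun a b h => Subtype.ext (hτ.inj (congrArg Subtype.val h)))
    (fun e w => Subtype.ext (hτ.comm e w.1)) q n hq ⟨g ^ m, hm⟩
    (fun w => Subtype.ext (by
      rw [hσ, hτq _ (mem_FP.1 ((hmemS w.1).1 w.2).1).1]
      rfl))
    (fun k w hk => ((hmemS w.1).1 w.2).2 ⟨k, k.2, congrArg Subtype.val hk⟩)
  rwa [Nat.card_eq_fintype_card (α := Ω), Fintype.card_coe] at key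

/-- an element twisting the orbit of `w` is a `q`-th root of `g^m` -/
theorem root_of_fixed {p : ℕ} {g : G} {R : Subgroup G} {ε : ℤ} {τ : Tri G → Tri G}
    (hτ : Good p g R ε τ) {q m : ℕ} (hm : g ^ m ∈ R)
    (hτq : ∀ w, InO p g w → τ^[q] w = (g ^ m)⁻¹ • w) {w : Tri G} (hw : w ∈ FP p g R ε) {k : G}
    (hk : k ∈ R) (h : k • τ w = w) : k ^ q = g ^ m := by
  have h1 : τ w = k⁻¹ • w := by rw [← h, inv_smul_smul, h]
  have hpow : ∀ j : ℕ, τ^[j] w = (k⁻¹) ^ j • w := by
    intro j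
    induction j with
    | zero => simp
    | succ j ih =>
      rw [Function.iterate_succ', Function.comp, ih, hτ.comm, h1, smul_smul, pow_succ]
  have h2 := hpow q
  rw [hτq w (mem_FP.1 hw).1] at h2
  have h3 : (g ^ m * (k⁻¹) ^ q) • w = w := by
    rw [mul_smul, ← h2, smul_inv_smul]
  have h4 := FP_smul_free (mul_mem hm (pow_mem (inv_mem hk) q)) hw h3
  rw [inv_pow, mul_inv_eq_one] at h4
  exact h4.symm

/-- the fixed orbits, sorted by the twisting element -/
theorem card_fixed {p : ℕ} {g : G} {R : Subgroup G} {ε : ℤ} {τ : Tri G → Tri G}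
    (hτ : Good p g R ε τ) {q m : ℕ} (hm : g ^ m ∈ R)
    (hτq : ∀ w, InO p g w → τ^[q] w = (g ^ m)⁻¹ • w) [Fintype {k : G // k ∈ R ∧ k ^ q = g ^ m}] :
    ((FP p g R ε).filter (fun w => ∃ k ∈ R, k • τ w = w)).card =
      ∑ k : {k : G // k ∈ R ∧ k ^ q = g ^ m}, ((FP p g R ε).filter (fun w => k.1 • τ w = w)).card := by
  simp only [Finset.card_filter]
  rw [Finset.sum_comm]
  refine Finset.sum_congr rfl fun w hw => ?_
  split_ifs with h
  · obtain ⟨k, hk, hkw⟩ := h
    have hkq := root_of_fixed hτ hm hτq hw hk hkw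
    rw [Finset.sum_eq_single (⟨k, hk, hkq⟩ : {k : G // k ∈ R ∧ k ^ q = g ^ m})]
    · rw [if_pos hkw]
    · intro k' _ hne
      rw [if_neg]
      intro h'
      apply hne
      have h1 : (k'.1⁻¹ * k) • w = w := by
        have h2 : τ w = k'.1⁻¹ • w := by rw [← h', inv_smul_smul, h']
        have h3 : τ w = k⁻¹ • w := by rw [← hkw, inv_smul_smul, hkw]
        have h4 : k'.1⁻¹ • w = k⁻¹ • w := by rw [← h2, h3]
        have hττ : k • (k'.1⁻¹ • w) = w := by rw [h4, smul_inv_smul]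
        have h5 : (k * k'.1⁻¹) • w = w := by rw [mul_smul, hττ]
        have h6 := FP_smul_free (mul_mem hk (inv_mem k'.2.1)) hw h5
        rw [mul_inv_eq_one] at h6
        rw [h6, inv_mul_cancel, one_smul]
      have h6 := FP_smul_free (mul_mem (inv_mem k'.2.1) hk) hw h1
      rw [inv_mul_eq_one] at h6
      exact Subtype.ext h6
    · intro h'; exact absurd (Finset.mem_univ _) h'
  · symm
    refine Finset.sum_eq_zero fun k _ => ?_
    rw [if_neg]
    intro h'
    exact h ⟨k.1, k.2.1, h'⟩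

/-- a free action -/
theorem free_dvd {H Ω : Type*} [Group H] [Finite H] [Finite Ω] [MulAction H Ω]
    (hfree : ∀ (e : H) (w : Ω), e • w = w → e = 1) : Nat.card H ∣ Nat.card Ω := by
  have hst : ∀ b : Ω, MulAction.stabilizer H b = ⊥ := by
    intro b
    rw [eq_bot_iff]
    intro e he
    rw [mem_bot]
    exact hfree e b he
  rw [Nat.card_congr (MulAction.selfEquivOrbitsQuotientProd hst), Nat.card_prod]
  exact dvd_mul_left _ _

theorem centralizer_dvd_card {p : ℕ} {g : G} {R : Subgroup G} (hg : ∀ a ∈ R, a * g = g * a)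
    {ε : ℤ} {τ : Tri G → Tri G} (hτ : Good p g R ε τ) (k : G) :
    Nat.card {c : R // (c : G) * k = k * c} ∣
      ((FP p g R ε).filter (fun w => k • τ w = w)).card := by
  let H : Subgroup R := (centralizer ({k} : Set G)).subgroupOf R
  have hH : ∀ c : R, c ∈ H ↔ (c : G) * k = k * c := by
    intro c
    rw [mem_subgroupOf, mem_centralizer_singleton_iff]
  have h1 : Nat.card {c : R // (c : G) * k = k * c} = Nat.card H := by
    refine Nat.card_congr (Equiv.subtypeEquivRight fun c => (hH c).symm)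
  rw [h1]
  let S := (FP p g R ε).filter (fun w => k • τ w = w)
  let Ω := {w : Tri G // w ∈ S}
  have hmemS : ∀ w, w ∈ S ↔ w ∈ FP p g R ε ∧ k • τ w = w := fun w => Finset.mem_filter
  have hst : ∀ (e : H) (w : Tri G), w ∈ S → ((e : R) : G) • w ∈ S := by
    intro e w hw
    rw [hmemS] at hw ⊢
    refine ⟨FP_smul_mem hg e.1.2 hw.1, ?_⟩
    have h2 := (hH e.1).1 e.2
    rw [hτ.comm, ← mul_smul, ← h2, mul_smul, hw.2]
  let _ : MulAction H Ω :=
    { smul := fun e w => ⟨((e : R) : G) • w.1, hst e w.1 w.2⟩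
      one_smul := fun w => Subtype.ext (one_smul G w.1)
      mul_smul := fun a b w => Subtype.ext (mul_smul ((a : R) : G) ((b : R) : G) w.1) }
  have key := free_dvd (H := H) (Ω := Ω) (fun e w he => by
    have h1 : ((e : R) : G) • w.1 = w.1 := congrArg Subtype.val he
    exact Subtype.ext (Subtype.ext (FP_smul_free e.1.2 ((hmemS w.1).1 w.2).1 h1)))
  rwa [Nat.card_eq_fintype_card (α := Ω), Fintype.card_coe] at key

end P179A
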