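import Vale.Agent.P179.H166.TheoremC
import Vale.Agent.P179.H166.MainPlus

/-!
# Theorem C for other classes of defect groups
-/

namespace P179C

open Subgroup P179H524 P179A P179K

open scoped Classical Pointwise

/-- The properties of a class of `p`-subgroups for which the proof of Theorem C works. -/
structure GoodClass (p : ℕ) (𝒢 : ∀ (G : Type) [Group G], Subgroup G → Prop) : Prop where
  /-- subgroups -/
  res : ∀ (G : Type) [Group G] [Finite G] (H : Subgroup G) (P : Subgroup H),
    𝒢 G (P.map H.subtype) → 𝒢 H P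
  /-- quotients -/
  quot : ∀ (G : Type) [Group G] [Finite G] (R : Subgroup G) [R.Normal] (P : Subgroup (G ⧸ R)),
    𝒢 G (P.comap (QuotientGroup.mk' R)) → 𝒢 (G ⧸ R) P
  /-- the main lemma -/
  dvd : ∀ (G : Type) [Group G] [Finite G] [Fintype G] (g : G) (q : ℕ),
    (∀ x : G, ∃ n : ℕ, (x ^ q) ^ (p ^ n) = 1) → g ^ q ≠ 1 →
    ∀ P : Subgroup G, IsPGroup p P → (∀ a ∈ P, a * g = g * a) → g ^ q ∈ P → 𝒢 G P →
      ((Nat.card P * p : ℕ) : ℤ) ∣ SS p g

/-- If `p` does not divide `z g`, the `p`-subgroups of `C_G(g)` are in the class. -/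
def ZG (p : ℕ) (𝒢 : ∀ (G : Type) [Group G], Subgroup G → Prop) {G : Type} [Group G]
    (z : G → ℤ) : Prop :=
  ∀ g : G, ¬ (p : ℤ) ∣ z g → ∀ P : Subgroup G, IsPGroup p P → P ≤ centralizer {g} → 𝒢 G P

section

variable {p : ℕ} {𝒢 : ∀ (G : Type) [Group G], Subgroup G → Prop}

theorem zg_res (h𝒢 : GoodClass p 𝒢) {G : Type} [Group G] [Finite G] (H : Subgroup G) {z : G → ℤ}
    (hz : ZG p 𝒢 z) : ZG p 𝒢 (res H z) := by
  intro g hg P hP hPg
  refine h𝒢.res G H P (hz g.1 hg (P.map H.subtype) (hP.map _) ?_)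
  rintro _ ⟨c, hc, rfl⟩
  have h2 := mem_centralizer_singleton_iff.mp (hPg hc)
  exact mem_centralizer_singleton_iff.mpr (congrArg Subtype.val h2)

end

section

variable {p : ℕ} [hp : Fact p.Prime] {𝒢 : ∀ (G : Type) [Group G], Subgroup G → Prop}

theorem zg_quot (h𝒢 : GoodClass p 𝒢) {G : Type} [Group G] [Finite G] (R : Subgroup G)
    [R.Normal] (hR : IsPGroup p R) (z : G → ℤ) (hz : IsCF z) (hab : ZG p 𝒢 z) :
    ZG p 𝒢 (push (QuotientGroup.mk' R) z) := by
  have := Fintype.ofFinite G
  intro c hc P' hP' hPc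
  set π : G →* G ⧸ R := QuotientGroup.mk' R with hπ
  have hπs : Function.Surjective π := QuotientGroup.mk'_surjective R
  have hker : π.ker = R := QuotientGroup.ker_mk' R
  set P : Subgroup G := P'.comap π with hPdef
  have hP : IsPGroup p P := hP'.comap_of_ker_isPGroup π (by rw [hker]; exact hR)
  let act : MulAction P {h : G // π h = c} :=
    { smul := fun g h => ⟨g.1 * h.1 * g.1⁻¹, by
        have h1 : π g.1 ∈ centralizer {c} := hPc g.2
        rw [mem_centralizer_singleton_iff] at h1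
        rw [map_mul, map_mul, map_inv, h.2, h1, mul_inv_cancel_right]⟩
      one_smul := fun h => Subtype.ext (by
        change (1 : G) * h.1 * 1⁻¹ = h.1
        simp)
      mul_smul := fun g g' h => Subtype.ext (by
        change (g.1 * g'.1) * h.1 * (g.1 * g'.1)⁻¹ = g.1 * (g'.1 * h.1 * g'.1⁻¹) * g.1⁻¹
        group) }
  rw [push, finsum_eq_sum_of_fintype] at hc
  obtain ⟨h, hh, hzh⟩ := Q7.sum_fixed p hP (fun h : {h : G // π h = c} => z h.1)
    (fun g x => hz g.1 x.1) hc
  have hPh : P ≤ centralizer {h.1} := by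
    intro g hg
    rw [mem_centralizer_singleton_iff]
    have h1 := congrArg Subtype.val (hh ⟨g, hg⟩)
    have h2 : g * h.1 * g⁻¹ = h.1 := h1
    exact mul_inv_eq_iff_eq_mul.1 h2
  exact h𝒢.quot G R P' (hab h.1 hzh P hP hPh)

theorem SS_dvd_good (h𝒢 : GoodClass p 𝒢) {G : Type} [Group G] [Finite G] [Fintype G] (g : G)
    (hg : p ∣ orderOf g)
    (hab : ∀ P : Subgroup G, IsPGroup p P → P ≤ centralizer {g} → 𝒢 G P) :
    (p : ℤ) ^ ((Nat.card (centralizer ({g} : Set G))).factorization p + 1) ∣ SS p g := by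
  obtain ⟨q, hq, hq'⟩ := exists_exponent p G
  obtain ⟨P, hP, hgP, hPC, hcard⟩ := exists_sylow_centralizer' (p := p) g q (hq g)
  have h0 : g ^ q ≠ 1 := by
    intro h1
    set x := g ^ (orderOf g / p) with hx
    have hx1 : x ^ p = 1 := by
      rw [hx, ← pow_mul, Nat.div_mul_cancel hg, pow_orderOf_eq_one]
    have hx2 : x ^ q = x := hq' x ⟨1, by rw [pow_one]; exact hx1⟩
    have hx3 : x ^ q = 1 := by
      rw [hx, ← pow_mul, mul_comm, pow_mul, h1, one_pow]
    have hx4 : x = 1 := by rw [← hx2, hx3]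
    have h5 : orderOf g ∣ orderOf g / p := by
      rw [orderOf_dvd_iff_pow_eq_one]; exact hx4
    have h6 : 0 < orderOf g := orderOf_pos g
    have h7 : 0 < orderOf g / p := Nat.div_pos (Nat.le_of_dvd h6 hg) hp.out.pos
    have h8 := Nat.le_of_dvd h7 h5
    have h9 : orderOf g / p < orderOf g := Nat.div_lt_self h6 hp.out.one_lt
    omega
  have h1 := h𝒢.dvd G g q hq h0 P hP
    (fun a ha => mem_centralizer_singleton_iff.mp (hPC ha)) hgP (hab P hP hPC)
  rw [hcard] at h1
  rw [pow_succ]
  exact_mod_cast h1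

theorem FF_sing_good (h𝒢 : GoodClass p 𝒢) {G : Type} [Group G] [Finite G] (z : G → ℤ) (hz : IsCF z) (hab : ZG p 𝒢 z) (hs : ∀ g, z g ≠ 0 → p ∣ orderOf g) :
    ((Nat.card G * p : ℕ) : ℤ) ∣ FF p z := by
  have := Fintype.ofFinite G
  rw [FF_eq_SS]
  refine dvd_orbits (Γ := ConjAct G) (fun g => z g * SS p g) ?_ _ ?_
  · intro g x
    obtain ⟨g, rfl⟩ := ConjAct.toConjAct.surjective g
    rw [ConjAct.toConjAct_smul]
    change z (g * x * g⁻¹) * SS p (g * x * g⁻¹) = z x * SS p x
    rw [hz, SS_conj]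
  · intro g
    by_cases h0 : z g = 0
    · simp [h0]
    have h1 := card_dvd_SS (p := p) g
    by_cases h2 : (p : ℤ) ∣ z g
    · obtain ⟨c, hc⟩ := h2
      obtain ⟨d, hd⟩ := h1
      refine ⟨c * d, ?_⟩
      rw [hc]
      push_cast
      calc (Nat.card (MulAction.orbit (ConjAct G) g) : ℤ) * (p * c * SS p g)
          = p * c * ((Nat.card (MulAction.orbit (ConjAct G) g) : ℤ) * SS p g) := by ring
        _ = _ := by rw [hd]; ring
    · have h3 := SS_dvd_good h𝒢 g (hs g h0) (hab g h2)
      set o := Nat.card (MulAction.orbit (ConjAct G) g) with ho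
      have h4 : o * Nat.card (centralizer ({g} : Set G)) = Nat.card G := card_orbit_conj g
      have ho0 : o ≠ 0 := by
        intro h; rw [h, zero_mul] at h4; exact Nat.card_pos.ne h4
      have h5 : (Nat.card G).factorization p = o.factorization p +
          (Nat.card (centralizer ({g} : Set G))).factorization p := by
        rw [← h4, Nat.factorization_mul ho0 Nat.card_pos.ne', Finsupp.add_apply]
      have h6 : (p : ℤ) ^ ((Nat.card G).factorization p + 1) ∣ (o : ℤ) * SS p g := by
        rw [h5, add_assoc, pow_add]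
        refine mul_dvd_mul ?_ h3
        exact_mod_cast Nat.ordProj_dvd _ p
      -- combine with the divisibility by `|G|`
      set m := ordCompl[p] (Nat.card G) with hm
      have h7 : Nat.card G = p ^ (Nat.card G).factorization p * m :=
        (Nat.ordProj_mul_ordCompl_eq_self _ p).symm
      have h8 : (m : ℤ) ∣ (o : ℤ) * SS p g := by
        refine dvd_trans ?_ h1
        exact_mod_cast (Dvd.intro_left _ h7.symm)
      have hcop : IsCoprime ((p : ℤ) ^ ((Nat.card G).factorization p + 1)) (m : ℤ) := by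
        have : Nat.Coprime (p ^ ((Nat.card G).factorization p + 1)) m :=
          Nat.Coprime.pow_left _ ((Nat.Prime.coprime_iff_not_dvd hp.out).mpr
            (Nat.not_dvd_ordCompl hp.out Nat.card_pos.ne'))
        have := Nat.isCoprime_iff_coprime.mpr this
        push_cast at this
        exact this
      have h9 := hcop.mul_dvd h6 h8
      have h10 : ((Nat.card G * p : ℕ) : ℤ) = (p : ℤ) ^ ((Nat.card G).factorization p + 1) * m := by
        conv_lhs => rw [h7]
        push_cast
        ring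
      rw [h10]
      have h11 : (o : ℤ) * (z g * SS p g) = z g * (o * SS p g) := by ring
      rw [h11]
      exact h9.mul_left _

/-- (C4) Step 1, from the facts on sections and on `p`-singular classes. -/
theorem step1_good (h𝒢 : GoodClass p 𝒢) {G : Type} [Group G] [Finite G] (O : ValuationSubring ℂ) [CharP (IsLocalRing.ResidueField O) p]
    (hsec : ∀ z : G → ℤ, IsCF z →
      (∀ u v : G, u * v = v * u → (∃ n : ℕ, v ^ p ^ n = 1) → z (u * v) = z u) →
      Cong O (Nat.card G) (nTr z) (Nat.card G * dz p z))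
    (hsing : ∀ z : G → ℤ, IsCF z → (∀ g : G, z g ≠ 0 → p ∣ orderOf g) → Cong O 1 (dz p z) 0)
    (z : G → ℤ) (hz : IsCF z) (hab : ZG p 𝒢 z) :
    Cong O (Nat.card G) ((∑ s ∈ chains p G, (-1) ^ s.card * nTr (res (stab s) z) : ℤ) : ℂ)
      (Nat.card G * dz p z) := by
  have hG0 : Nat.card G ≠ 0 := Nat.card_pos.ne'
  have hGC : (Nat.card G : ℂ) ≠ 0 := by exact_mod_cast hG0
  -- the section function and the difference
  let y : G → ℤ := fun g => z (pr p g)
  let w : G → ℤ := fun g => y g - z g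
  have hy : IsCF y := by
    intro g x
    have h := P179C905.map_pr p (MulAut.conj g).toMonoidHom x
    have h' : g * pr p x * g⁻¹ = pr p (g * x * g⁻¹) := h
    change z (pr p (g * x * g⁻¹)) = z (pr p x)
    rw [← h', hz]
  have hw : IsCF w := fun g x => by
    change y (g * x * g⁻¹) - z (g * x * g⁻¹) = y x - z x
    rw [hy, hz]
  have hyS : ∀ (K : Subgroup G) (u v : K), u * v = v * u → (∃ n : ℕ, v ^ p ^ n = 1) →
      res K y (u * v) = res K y u := by
    intro K u v huv hv
    obtain ⟨n, hn⟩ := hv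
    change z (pr p ((u * v : K) : G)) = z (pr p (u : G))
    obtain ⟨a, h1, h2, ⟨m, hm⟩, h4⟩ := P179C905.pr_decomp p (u : G)
    have huv' : (u : G) * v = v * u := congrArg Subtype.val huv
    have hc : Commute (v : G) (pr p (u : G)) := by
      have : Commute (u : G) (v : G) := huv'
      exact (this.pow_left _).symm
    have hca : Commute a (v : G) := by
      have e : a = (pr p (u : G))⁻¹ * u := by rw [eq_inv_mul_iff_mul_eq, h1]
      rw [e]
      have : Commute (u : G) (v : G) := huv'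
      exact (hc.symm.inv_left).mul_left this
    have e : ((u * v : K) : G) = pr p (u : G) * (a * v) := by
      rw [Subgroup.coe_mul, ← mul_assoc, h1]
    rw [e]
    congr 1
    refine P179C905.pr_mul p ?_ (orderOf_pos _).ne' h4 ⟨m + n, ?_⟩
    · have h5 : Commute (pr p (u : G)) (a * (v : G)) :=
        Commute.mul_right h2 hc.symm
      exact h5
    · have hn' : (v : G) ^ p ^ n = 1 := by
        have := congrArg Subtype.val hn
        simpa using this
      rw [hca.mul_pow, pow_add, pow_mul, hm, one_pow, one_mul, mul_comm, pow_mul, hn', one_pow]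
  have hwab : ZG p 𝒢 w := by
    intro g hg P hP hPg
    have h1 : ¬ (p : ℤ) ∣ y g ∨ ¬ (p : ℤ) ∣ z g := by
      by_contra h
      push Not at h
      exact hg (dvd_sub h.1 h.2)
    rcases h1 with h1 | h1
    · refine hab _ h1 P hP ?_
      intro x hx
      have h2 := mem_centralizer_singleton_iff.mp (hPg hx)
      rw [mem_centralizer_singleton_iff]
      exact Commute.pow_right h2 _
    · exact hab g h1 P hP hPg
  have hws : ∀ g, w g ≠ 0 → p ∣ orderOf g := by
    intro g hg
    by_contra h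
    apply hg
    have e : pr p g = g := by
      have := P179C905.pr_mul p (a := g) (b := 1) (by simp) (orderOf_pos _).ne' h ⟨0, by simp⟩
      rwa [mul_one] at this
    change z (pr p g) - z g = 0
    rw [e, sub_self]
  -- the section part
  have hyG : ∀ u v : G, u * v = v * u → (∃ n : ℕ, v ^ p ^ n = 1) → y (u * v) = y u := by
    intro u v huv hv
    obtain ⟨n, hn⟩ := hv
    exact hyS ⊤ ⟨u, mem_top _⟩ ⟨v, mem_top _⟩ (Subtype.ext huv) ⟨n, Subtype.ext hn⟩
  have h1 : ((Nat.card G * p : ℕ) : ℤ) ∣ FF p y - nTr y :=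
    FF_dvd_aux y hy p fun s hs hne =>
      sec_normal p (not_opTrivial_stab hs hne) _ (isCF_res _ hy) (hyS (stab s))
  have h2 := FF_sing_good h𝒢 w hw hwab hws
  have h3 := hsec y hy hyG
  have h4 := hsing w hw hws
  have hyw : z = fun g => y g - w g := by
    funext g
    change z g = y g - (y g - z g)
    ring
  have h5 : FF p z = (FF p y - nTr y) - FF p w + nTr y := by
    conv_lhs => rw [hyw]
    rw [FF_sub]; ring
  have h6 : dz p z = dz p y - dz p w := by
    conv_lhs => rw [hyw]
    rw [dz_sub]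
  change Cong O (Nat.card G) ((FF p z : ℤ) : ℂ) (Nat.card G * dz p z)
  have h7 : ((Nat.card G * p : ℕ) : ℤ) ∣ (FF p y - nTr y) - FF p w := dvd_sub h1 h2
  have h8 := valuation_of_dvd O hG0 h7
  unfold Cong at h3 h4 ⊢
  rw [Nat.cast_one, div_one, sub_zero] at h4
  have h9 : (((FF p z : ℤ) : ℂ) - Nat.card G * dz p z) / Nat.card G =
      ((((FF p y - nTr y) - FF p w : ℤ) : ℂ) / Nat.card G +
        ((nTr y : ℂ) - Nat.card G * dz p y) / Nat.card G) + dz p w := by
    rw [h5, h6]
    push_cast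
    field_simp
    ring
  rw [h9]
  exact O.valuation.map_add_lt (O.valuation.map_add_lt h8 h3) h4

end

/-- (C4) as a hypothesis -/
def Step1G (p : ℕ) (𝒢 : ∀ (G : Type) [Group G], Subgroup G → Prop) (O : ValuationSubring ℂ) : Prop :=
  ∀ (G : Type) [Group G] [Finite G] (z : G → ℤ), IsCF z → ZG p 𝒢 z →
    Cong O (Nat.card G) ((∑ s ∈ chains p G, (-1) ^ s.card * nTr (res (stab s) z) : ℤ) : ℂ)
      (Nat.card G * dz p z)

/-- (C7) as a hypothesis -/
def StepQG (p : ℕ) (𝒢 : ∀ (G : Type) [Group G], Subgroup G → Prop) : Prop :=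
  ∀ (G : Type) [Group G] [Finite G] (R : Subgroup G) [R.Normal], IsPGroup p R →
    ∀ (z : G → ℤ), IsCF z →
      nL p z = Nat.card R * nL p (push (QuotientGroup.mk' R) z) ∧
      nW p z = Nat.card R * nW p (push (QuotientGroup.mk' R) z) ∧
      (ZG p 𝒢 z → ZG p 𝒢 (push (QuotientGroup.mk' R) z))

/-- (C8) from (C4), (C5), (C7). -/
theorem main_fun_good_of (p : ℕ) [hp : Fact p.Prime] {𝒢 : ∀ (G : Type) [Group G], Subgroup G → Prop} (h𝒢 : GoodClass p 𝒢) (O : ValuationSubring ℂ)
    [CharP (IsLocalRing.ResidueField O) p] (h1 : Step1G p 𝒢 O) (hL : StepL.{0} p)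
    (hQ : StepQG p 𝒢) : ∀ (n : ℕ) (G : Type) [Group G] [Finite G], Nat.card G = n →
    ∀ (z : G → ℤ), IsCF z → ZG p 𝒢 z → Cong O (Nat.card G) (nL p z) (nW p z) := by
  intro n
  induction n using Nat.strong_induction_on with
  | _ n ih =>
  intro G _ _ hn z hz hab
  have := Fintype.ofFinite G
  have hG0 : (Nat.card G : ℂ) ≠ 0 := by exact_mod_cast Nat.card_pos.ne'
  by_cases hO : OpTrivial p G
  · have := Fintype.ofFinite (neChains p G)
    have hA := h1 G z hz hab
    have hB := hL G z hz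
    have hC := KR_W p z hz
    -- the alternating sum of `nL - nW`
    have hD : O.valuation ((∑ s ∈ chains p G, (-1 : ℂ) ^ s.card *
        ((nL p (res (stab s) z) : ℂ) - nW p (res (stab s) z))) / Nat.card G) < 1 := by
      have h2 : (∑ s ∈ chains p G, (-1 : ℂ) ^ s.card *
          ((nL p (res (stab s) z) : ℂ) - nW p (res (stab s) z))) / Nat.card G =
          ((((∑ s ∈ chains p G, (-1) ^ s.card * nTr (res (stab s) z) : ℤ) : ℂ) -
            (Nat.card G * dz p z)) / Nat.card G) -
          ((∑ s ∈ chains p G, (-1) ^ s.card *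
            (nTr (res (stab s) z) - nL p (res (stab s) z)) : ℤ) : ℂ) / Nat.card G := by
        rw [← hC, ← sub_div]
        congr 1
        push_cast
        simp only [← Finset.sum_sub_distrib]
        exact Finset.sum_congr rfl fun s _ => by ring
      rw [h2]
      exact O.valuation.map_sub_lt hA (valuation_of_dvd O Nat.card_pos.ne' hB)
    rw [sum_chains_eq'] at hD
    have hF : O.valuation ((∑ s : neChains p G, (-1 : ℂ) ^ s.1.card *
        ((nL p (res (stab s.1) z) : ℂ) - nW p (res (stab s.1) z))) / Nat.card G) < 1 := by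
      refine orb_sum_val O (fun s : neChains p G => (-1 : ℂ) ^ s.1.card *
        ((nL p (res (stab s.1) z) : ℂ) - nW p (res (stab s.1) z))) ?_ ?_
      · intro g s
        have key : ∀ t : Finset (Subgroup G), (-1 : ℂ) ^ (g • t).card *
            ((nL p (res (stab (g • t)) z) : ℂ) - nW p (res (stab (g • t)) z)) =
            (-1 : ℂ) ^ t.card * ((nL p (res (stab t) z) : ℂ) - nW p (res (stab t) z)) := by
          intro t
          rw [card_smul, ← nL_comp (stabEquiv g t), ← nW_comp (stabEquiv g t),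
            res_stab_smul hz g t]
        exact key s.1
      · intro s
        rw [stabilizer_neChains, mul_div_assoc, map_mul, map_pow]
        have h3 : O.valuation (-1 : ℂ) = 1 := by rw [Valuation.map_neg, map_one]
        rw [h3, one_pow, one_mul]
        exact ih (Nat.card (stab s.1)) (hn ▸ card_stab_lt p hO s.2.1 s.2.2) (stab s.1) rfl
          (res (stab s.1) z) (isCF_res _ hz) (zg_res h𝒢 _ hab)
    rw [add_div] at hD
    have hG := O.valuation.map_sub_lt hD hF
    rw [add_sub_cancel_right] at hG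
    have e : stab (∅ : Finset (Subgroup G)) ≃* G := by
      rw [P179K.stab_empty]; exact topEquiv
    have e' : ∃ e : G ≃* stab (∅ : Finset (Subgroup G)), ∀ x, (e x : G) = x := by
      rw [P179K.stab_empty]; exact ⟨topEquiv.symm, fun _ => rfl⟩
    obtain ⟨e, he⟩ := e'
    have h4 : (fun x => res (stab (∅ : Finset (Subgroup G))) z (e x)) = z := by
      ext x
      exact congrArg z (he x)
    rw [Finset.card_empty, pow_zero, one_mul, ← nL_comp e, ← nW_comp e, h4] at hG
    exact hG
  · simp only [OpTrivial, not_forall] at hO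
    obtain ⟨R, hR, hRp, hR1⟩ := hO
    obtain ⟨hq1, hq2, hq3⟩ := hQ G R hRp z hz
    have h2 : Nat.card G = Nat.card (G ⧸ R) * Nat.card R :=
      card_eq_card_quotient_mul_card_subgroup R
    have h3 : 1 < Nat.card R := by
      rw [Subgroup.one_lt_card_iff_ne_bot]; exact hR1
    have h4 : 0 < Nat.card (G ⧸ R) := Nat.card_pos
    have h5 := ih (Nat.card (G ⧸ R)) (by rw [← hn, h2]; nlinarith) (G ⧸ R) rfl
      (push (QuotientGroup.mk' R) z) (isCF_push _ (QuotientGroup.mk'_surjective R) hz) (hq3 hab)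
    unfold Cong at h5 ⊢
    rw [hq1, hq2, h2]
    have h6 : (Nat.card R : ℂ) ≠ 0 := by exact_mod_cast Nat.card_pos.ne'
    have h7 : (Nat.card (G ⧸ R) : ℂ) ≠ 0 := by exact_mod_cast h4.ne'
    convert h5 using 2
    push_cast
    field_simp

/-! ### The class of Theorem C+ -/

/-- Abelian, or `p = 2` and exponent dividing `4`, or `p = 3` and exponent dividing `3`. -/
def SmallExp (p : ℕ) (G : Type) [Group G] (P : Subgroup G) : Prop :=
  (∀ a ∈ P, ∀ b ∈ P, a * b = b * a) ∨ (p = 2 ∧ ∀ a ∈ P, a ^ 4 = 1) ∨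
    (p = 3 ∧ ∀ a ∈ P, a ^ 3 = 1)

theorem SmallExp.goodClass (p : ℕ) [hp : Fact p.Prime] : GoodClass p (SmallExp p) := by
  refine ⟨?_, ?_, ?_⟩
  · intro G _ _ H P h
    rcases h with h | ⟨h2, h⟩ | ⟨h3, h⟩
    · exact Or.inl fun a ha b hb => Subtype.ext (h a ⟨a, ha, rfl⟩ b ⟨b, hb, rfl⟩)
    · exact Or.inr (Or.inl ⟨h2, fun a ha => Subtype.ext (h a ⟨a, ha, rfl⟩)⟩)
    · exact Or.inr (Or.inr ⟨h3, fun a ha => Subtype.ext (h a ⟨a, ha, rfl⟩)⟩)
  · intro G _ _ R _ P h
    have hs : Function.Surjective (QuotientGroup.mk' R) := QuotientGroup.mk'_surjective R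
    rcases h with h | ⟨h2, h⟩ | ⟨h3, h⟩
    · refine Or.inl fun a ha b hb => ?_
      obtain ⟨x, rfl⟩ := hs a
      obtain ⟨y, rfl⟩ := hs b
      rw [← map_mul, ← map_mul, h x ha y hb]
    · refine Or.inr (Or.inl ⟨h2, fun a ha => ?_⟩)
      obtain ⟨x, rfl⟩ := hs a
      rw [← map_pow, h x ha, map_one]
    · refine Or.inr (Or.inr ⟨h3, fun a ha => ?_⟩)
      obtain ⟨x, rfl⟩ := hs a
      rw [← map_pow, h x ha, map_one]
  · intro G _ _ _ g q hq h0 P hP hg hgP h
    rcases h with h | ⟨h2, h⟩ | ⟨h3, h⟩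
    · have h1 := main_lemma p g q hq P hP h hg hgP
      refine dvd_trans ?_ h1
      have h2 : p ∣ orderOf (g ^ q) := by
        obtain ⟨n, hn⟩ := hq g
        obtain ⟨m, -, hm⟩ := (Nat.dvd_prime_pow hp.out).mp (orderOf_dvd_of_pow_eq_one hn)
        rw [hm]
        refine dvd_pow_self p ?_
        rintro rfl
        rw [pow_zero, orderOf_eq_one_iff] at hm
        exact h0 hm
      exact_mod_cast Nat.mul_dvd_mul_left _ h2
    · exact main_plus p g q P hP hg hgP (Or.inl ⟨h2, fun k hk => by rw [h k hk]; exact h0.symm⟩)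
    · exact main_plus p g q P hP hg hgP (Or.inr ⟨h3, fun k hk => by rw [h k hk]; exact h0.symm⟩)

/-- Subgroups of conjugates. -/
theorem SmallExp.of_conj {p : ℕ} {G : Type} [Group G] {D P : Subgroup G} (hD : SmallExp p G D)
    (c : G) (hc : ∀ x ∈ P, c⁻¹ * x * c ∈ D) : SmallExp p G P := by
  have hpow : ∀ (x : G) (n : ℕ), (c⁻¹ * x * c) ^ n = 1 → x ^ n = 1 := by
    intro x n h
    have h1 : (c⁻¹ * x * c) ^ n = c⁻¹ * x ^ n * c := by
      have := conj_pow (i := n) (a := c⁻¹) (b := x)
      rwa [inv_inv] at this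
    rw [h1] at h
    have h2 : x ^ n = c * (c⁻¹ * x ^ n * c) * c⁻¹ := by group
    rw [h2, h, mul_one, mul_inv_cancel]
  rcases hD with h | ⟨h2, h⟩ | ⟨h3, h⟩
  · refine Or.inl fun a ha b hb => ?_
    have h := h _ (hc a ha) _ (hc b hb)
    have h1 : c * ((c⁻¹ * a * c) * (c⁻¹ * b * c)) * c⁻¹
        = c * ((c⁻¹ * b * c) * (c⁻¹ * a * c)) * c⁻¹ := by rw [h]
    have e1 : c * ((c⁻¹ * a * c) * (c⁻¹ * b * c)) * c⁻¹ = a * b := by group
    have e2 : c * ((c⁻¹ * b * c) * (c⁻¹ * a * c)) * c⁻¹ = b * a := by group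
    rwa [e1, e2] at h1
  · exact Or.inr (Or.inl ⟨h2, fun a ha => hpow a 4 (h _ (hc a ha))⟩)
  · exact Or.inr (Or.inr ⟨h3, fun a ha => hpow a 3 (h _ (hc a ha))⟩)

theorem main_fun_good (p : ℕ) [hp : Fact p.Prime] {𝒢 : ∀ (G : Type) [Group G], Subgroup G → Prop}
    (h𝒢 : GoodClass p 𝒢) (O : ValuationSubring ℂ)
    [hO : CharP (IsLocalRing.ResidueField O) p] {G : Type} [Group G] [Finite G] (z : G → ℤ)
    (hz : IsCF z) (hab : ZG p 𝒢 z) : Cong O (Nat.card G) (nL p z) (nW p z) :=
  main_fun_good_of p h𝒢 O (fun _ _ _ z hz hab => step1_good h𝒢 O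
      (fun z hz hz' => sec_cong p O z hz hz') (fun z hz hz' => dz_sing p O z hz hz') z hz hab)
    (stepL p)
    (fun _ _ _ R _ hR z hz => ⟨nL_quot p R hR z hz, nW_quot p R hR z hz, zg_quot h𝒢 R hR z hz⟩)
    (Nat.card G) G rfl z hz hab

universe u

/-- Theorem C for a class of subgroups. -/
theorem theoremC_good (p : ℕ) [hp : Fact p.Prime] {𝒢 : ∀ (G : Type) [Group G], Subgroup G → Prop}
    (h𝒢 : GoodClass p 𝒢) {k : Type u} [Field k] [IsAlgClosed k] [CharP k p]
    (red : integralClosure ℤ ℂ →+* k) {G : Type} [Group G] [Finite G]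
    (B : MonoidAlgebra k G) (hB : IsBlock B) (D : Subgroup G)
    (hD : IsDefectGroup B D)
    (hDP : ∀ (P : Subgroup G) (c : G), (∀ x ∈ P, c⁻¹ * x * c ∈ D) → 𝒢 G P) :
    numSimpleIn B ≡ numWeightsIn p red B [MOD p] := by
  have := Fintype.ofFinite (ConjClasses G)
  obtain ⟨O, hO, hred⟩ := exists_O p red
  have hG : (Nat.card G : ℂ) ≠ 0 := by exact_mod_cast Nat.card_pos.ne'
  have hW : (numWeightsIn p red B : k) =
      ∑ᶠ C : ConjClasses G, B.coeff C.out * redC red (nW p (ind C) / Nat.card G) :=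
    numWeightsIn_eq_of p red B fun w =>
      weightInBlock_iff_of red w blockHomStmt homBlockStmt homBlockStmt charBlockStmt B hB
  have hS := numSimpleIn_eq p B hB.1 hB.2.1
  have key : (numSimpleIn B : k) = (numWeightsIn p red B : k) := by
    rw [hS, hW, finsum_eq_sum_of_fintype, finsum_eq_sum_of_fintype]
    refine Finset.sum_congr rfl fun C _ => ?_
    by_cases hC : B.coeff C.out = 0
    · rw [hC, zero_mul, zero_mul]
    · congr 1
      have hz : ZG p 𝒢 (ind C) := by
        intro g hg P hP hPg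
        have hgC : ConjClasses.mk g = C := by
          by_contra hne
          refine hg ?_
          unfold ind
          rw [if_neg hne]
          exact dvd_zero _
        have hBg : B.coeff g ≠ 0 := by
          have h4 := C2.coeff_out B hB.1 g
          rw [hgC] at h4
          rwa [← h4]
        obtain ⟨c, hc⟩ := zab_of_relTrace p B D hD.1 g hBg P hP hPg
        exact hDP P c hc
      have hmain := main_fun_good p h𝒢 O (ind C) (isCF_ind C) hz
      obtain ⟨t, ht⟩ := dvd_nL p (ind C) (isCF_ind C)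
      have hint := isIntegral_nW p (G := G) C
      have hGZ : (Nat.card G : ℤ) ≠ 0 := by exact_mod_cast Nat.card_pos.ne'
      rw [ht, Int.mul_ediv_cancel_left _ hGZ]
      unfold Cong at hmain
      rw [ht] at hmain
      have h5 : (((Nat.card G : ℤ) * t : ℤ) - nW p (ind C)) / (Nat.card G : ℂ) =
          (t : ℂ) - nW p (ind C) / Nat.card G := by
        push_cast
        rw [sub_div, mul_div_cancel_left₀ _ hG]
      rw [h5] at hmain
      have h6 : (t : ℂ) ∈ integralClosure ℤ ℂ := intCast_mem _ t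
      have h7 := (hred _ (sub_mem h6 hint)).mp hmain
      have h8 : (⟨(t : ℂ) - nW p (ind C) / Nat.card G, sub_mem h6 hint⟩ : integralClosure ℤ ℂ) =
          ((t : ℤ) : integralClosure ℤ ℂ) - ⟨nW p (ind C) / Nat.card G, hint⟩ := rfl
      rw [h8, map_sub, map_intCast, sub_eq_zero] at h7
      rw [h7, redC_of_mem red hint]
  exact (CharP.natCast_eq_natCast k p).mp key

/-- **Theorem C+.** The blockwise Alperin weight conjecture modulo `p` for blocks with defect
group abelian, or (`p = 2`) of exponent dividing `4`, or (`p = 3`) of exponent `3`. -/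
theorem theoremCplus (p : ℕ) [hp : Fact p.Prime] {k : Type u} [Field k] [IsAlgClosed k] [CharP k p]
    (red : integralClosure ℤ ℂ →+* k) {G : Type} [Group G] [Finite G]
    (B : MonoidAlgebra k G) (hB : IsBlock B) (D : Subgroup G)
    (hD : IsDefectGroup B D)
    (h : (∀ a ∈ D, ∀ b ∈ D, a * b = b * a) ∨ (p = 2 ∧ ∀ a ∈ D, a ^ 4 = 1) ∨
      (p = 3 ∧ ∀ a ∈ D, a ^ 3 = 1)) :
    numSimpleIn B ≡ numWeightsIn p red B [MOD p] :=
  theoremC_good p (SmallExp.goodClass p) red B hB D hD fun _ c hc => SmallExp.of_conj h c hc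

end P179C
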