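import Vale.Agent.P179.H143.TranspT
import Vale.Agent.P179.H526.InertDefs

/-!
# T6, piece (C): blocks with defect group `D` elementary abelian of order `9` and a central element
of `D` of order `3`
-/

namespace P179T

open Subgroup Finset P179H524 P179C P179A P179P P179Y P179N

open P179X (pp)

open scoped Classical

section Eis

theorem conj_aeval (P : Polynomial ℤ) (z : ℂ) :
    (starRingEnd ℂ) (Polynomial.aeval z P) = Polynomial.aeval ((starRingEnd ℂ) z) P := by
  rw [Polynomial.aeval_def, Polynomial.aeval_def, Polynomial.hom_eval₂]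
  congr 1
  exact RingHom.ext_int _ _

/-- nonzero elements of `ℤ[ω]` have norm at least one -/
theorem one_le_normSq {ζ : ℂ} (hζ : IsPrimitiveRoot ζ 3) (P : Polynomial ℤ)
    (h : Polynomial.aeval ζ P ≠ 0) : 1 ≤ Complex.normSq (Polynomial.aeval ζ P) := by
  have h1 := (P179H234.ag (by norm_num) hζ P h).1
  have hf : (range 3).filter (fun j => j.Coprime 3) = {1, 2} := by decide
  rw [hf, Finset.sum_insert (by decide), Finset.sum_singleton, pow_one] at h1
  have ht : (Nat.totient 3 : ℝ) = 2 := by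
    have : Nat.totient 3 = 2 := by decide
    rw [this]; norm_num
  rw [ht] at h1
  have hn : ‖ζ‖ = 1 := hζ.norm'_eq_one (by norm_num)
  have hc : (starRingEnd ℂ) ζ = ζ ^ 2 := by
    have h2 : ζ * (starRingEnd ℂ) ζ = 1 := by
      rw [Complex.mul_conj, Complex.normSq_eq_norm_sq, hn]
      simp
    have h3 : ζ * ζ ^ 2 = 1 := by
      rw [← pow_succ', hζ.pow_eq_one]
    exact mul_left_cancel₀ (hζ.ne_zero (by norm_num)) (h2.trans h3.symm)
  have h4 : ‖Polynomial.aeval (ζ ^ 2) P‖ = ‖Polynomial.aeval ζ P‖ := by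
    rw [← hc, ← conj_aeval, Complex.norm_conj]
  rw [h4, ← Complex.normSq_eq_norm_sq] at h1
  linarith

end Eis

section Grp

variable {G : Type} [Group G] [Finite G] {D : Subgroup G}

/-- `C_G(w) = C_G(D)` for `w ∈ D` not central -/
theorem mem_cent_of (hcard : Nat.card D = 9) {u : G} (huD : u ∈ D) (hu1 : u ≠ 1)
    (huZ : u ∈ center G) (hu3 : u ^ 3 = 1) {w : G} (hw : w ∈ D) (hwZ : w ∉ center G) {x : G}
    (hx : x * w = w * x) : x ∈ centralizer (D : Set G) := by
  let K : Subgroup G := D ⊓ centralizer {x}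
  have huK : u ∈ K := by
    exact ⟨huD, mem_centralizer_singleton_iff.2 ((Subgroup.mem_center_iff.1 huZ) x).symm⟩
  have hwK : w ∈ K := ⟨hw, mem_centralizer_singleton_iff.2 hx.symm⟩
  have hou : orderOf u = 3 := by
    exact orderOf_eq_prime hu3 hu1
  have hzK : zpowers u ≤ K := by rwa [zpowers_le]
  have hcz : Nat.card (zpowers u) = 3 := by rw [Nat.card_zpowers, hou]
  have hd : Nat.card K ∣ 9 := by
    rw [← hcard]
    exact Subgroup.card_dvd_of_le inf_le_left
  have h3 : 3 ∣ Nat.card K := by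
    rw [← hcz]; exact Subgroup.card_dvd_of_le hzK
  have hne : Nat.card K ≠ 3 := by
    intro h
    have h1 : zpowers u = K := Subgroup.eq_of_le_of_card_ge hzK (by rw [h, hcz])
    rw [← h1] at hwK
    apply hwZ
    have h2 : zpowers u ≤ center G := by rwa [zpowers_le]
    exact h2 hwK
  have h9 : Nat.card K = 9 := by
    obtain ⟨m, hm⟩ := h3
    rw [hm] at hd hne
    have h1 : m ∣ 3 := by
      have : 3 * m ∣ 3 * 3 := hd
      exact Nat.dvd_of_mul_dvd_mul_left (by norm_num) this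
    rcases (Nat.dvd_prime Nat.prime_three).1 h1 with h | h
    · subst h; omega
    · subst h; omega
  have hKD : K = D := Subgroup.eq_of_le_of_card_ge inf_le_left (by rw [h9, hcard])
  rw [mem_centralizer_iff]
  intro d hd'
  have h1 : d ∈ K := by rw [hKD]; exact hd'
  exact mem_centralizer_singleton_iff.1 h1.2

end Grp

section Main

variable {k : Type*} [Field k] [IsAlgClosed k] [hp : Fact (Nat.Prime 3)] [CharP k 3]
  (red : AA →+* k) {G : Type} [Group G] [Fintype G] {D : Subgroup G} {l : (G → k) → k}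

omit [IsAlgClosed k] [CharP k 3] hp in
/-- elements of `D` which are not central are regular -/
theorem regT_of (hcard : Nat.card D = 9) {u : G} (huD : u ∈ D) (hu1 : u ≠ 1)
    (huZ : u ∈ center G) (hu3 : u ^ 3 = 1) {w : G} (hw : w ∈ D) (hwZ : w ∉ center G) :
    RegT D l w :=
  ⟨hw, fun _ _ hn => mem_cent_of hcard huD hu1 huZ hu3 hw hwZ (mul_inv_eq_iff_eq_mul.1 hn)⟩

theorem ND_of (hl : BP 3 D l) (hD : IsPGroup 3 D) (hab : D ≤ centralizer (D : Set G))
    (hcard : Nat.card D = 9) {u : G} (huD : u ∈ D) (hu1 : u ≠ 1)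
    (huZ : u ∈ center G) (hu3 : u ^ 3 = 1) {w : G} (hw : w ∈ D) (hwZ : w ∉ center G) :
    ND red 3 (lres (centralizer {w}) l) (Nat.card D) (Ph 3 red D l (centralizer {w})) := by
  have hDH : D ≤ centralizer {w} := le_cent_of_mem hw hab
  have hCH : centralizer (D : Set G) ≤ centralizer {w} := cent_le_of_mem hw
  have h1 := thmN_central red (hl.restrict hDH hCH)
    (hD.comap_subtype : IsPGroup 3 (D.subgroupOf (centralizer {w}))) (by
      intro d hd x
      have h2 : (x : G) ∈ centralizer (D : Set G) :=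
        mem_cent_of hcard huD hu1 huZ hu3 hw hwZ (mem_centralizer_singleton_iff.1 x.2)
      exact Subtype.ext (mem_centralizer_iff.1 h2 _ (Subgroup.mem_subgroupOf.1 hd)).symm)
  rw [card_subgroupOf hDH] at h1
  unfold Ph
  rw [dif_pos h1]
  exact h1.choose_spec

/-- orthogonality of the vectors of `w` and `w z`, `z` central -/
theorem orth_of (hl : BP 3 D l) (hD : IsPGroup 3 D) (hab : D ≤ centralizer (D : Set G))
    (hT : ¬ 3 ∣ (centralizer (D : Set G)).relIndex (stabT D l))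
    (hcard : Nat.card D = 9) {u : G} (huD : u ∈ D) (hu1 : u ≠ 1)
    (huZ : u ∈ center G) (hu3 : u ^ 3 = 1) {w z : G} (hw : w ∈ D) (hwZ : w ∉ center G)
    (hz : z ∈ D) (hzZ : z ∈ center G) (hz1 : z ≠ 1) (hz3 : z ^ 3 = 1) :
    ∑ χ : Irr G, dd 3 red D l w χ * (starRingEnd ℂ) (dd 3 red D l (w * z) χ) = 0 := by
  have hq : Nat.card D ≠ 0 := Nat.card_pos.ne'
  have hw' : w * z ∈ D := mul_mem hw hz
  have hwZ' : w * z ∉ center G := by
    intro h
    apply hwZ
    have := mul_mem h (inv_mem hzZ)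
    rwa [mul_inv_cancel_right] at this
  rcases gram 3 red (centralizer {w}) (centralizer {w * z}) hq
    (ND_of red hl hD hab hcard huD hu1 huZ hu3 hw hwZ)
    (ND_of red hl hD hab hcard huD hu1 huZ hu3 hw' hwZ')
    w (w * z) (isPel hD hw) (isPel hD hw') (fun x => mem_cs) (fun x => mem_cs) with h | ⟨-, g, hg, hz'⟩
  · exact h
  · exfalso
    have hreg := regT_of (l := l) hcard huD hu1 huZ hu3 hw' hwZ'
    rw [← hg] at hreg
    obtain ⟨n, hn, hn2⟩ := fusionT hl hD hab hw hreg (fun y hy => by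
        rw [hg] at hy
        have := hz' y hy
        unfold P179Y.cj
        simpa only [inv_inv] using this)
    rw [hg] at hn2
    have hzc : ∀ x : G, x * z = z * x := fun x => (Subgroup.mem_center_iff.1 hzZ) x
    have hpow : ∀ i : ℕ, n ^ i * w * (n ^ i)⁻¹ = w * z ^ i := by
      intro i
      induction i with
      | zero => simp
      | succ i ih =>
        have h1 : n ^ (i + 1) * w * (n ^ (i + 1))⁻¹ = n * (n ^ i * w * (n ^ i)⁻¹) * n⁻¹ := by
          rw [pow_succ']; group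
        rw [h1, ih]
        calc n * (w * z ^ i) * n⁻¹ = n * w * (z ^ i * n⁻¹) := by group
          _ = n * w * (n⁻¹ * z ^ i) := by
            have h3 : Commute n⁻¹ z := hzc n⁻¹
            rw [(h3.pow_right i).eq]
          _ = (n * w * n⁻¹) * z ^ i := by group
          _ = w * z ^ (i + 1) := by rw [hn2, pow_succ']; group
    let T := stabT D l
    let C' : Subgroup T := (centralizer (D : Set G)).subgroupOf T
    have hC'n : C'.Normal := by
      refine ⟨fun c hc x => ?_⟩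
      rw [mem_subgroupOf] at hc ⊢
      exact P179B.conj_mem_centralizer_of_mem_normalizer (stabT_le_norm D l x.2) hc
    have hcardT : Nat.card (T ⧸ C') = (centralizer (D : Set G)).relIndex T := rfl
    set e := (centralizer (D : Set G)).relIndex T with hee
    have h3 : (QuotientGroup.mk' C' (⟨n, hn⟩ : T)) ^ e = 1 := by
      rw [← hcardT]; exact pow_card_eq_one'
    rw [← map_pow] at h3
    have h4 : (⟨n, hn⟩ : T) ^ e ∈ C' := (QuotientGroup.eq_one_iff _).1 h3
    rw [mem_subgroupOf, mem_centralizer_iff] at h4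
    have h5 := h4 w hw
    have h6 : w * z ^ e = w := by
      rw [← hpow, mul_inv_eq_iff_eq_mul]
      exact h5.symm
    have h7 : z ^ e = 1 := mul_left_cancel (a := w) (by rw [h6, mul_one])
    have h8 : orderOf z = 3 := orderOf_eq_prime hz3 hz1
    exact hT (h8 ▸ orderOf_dvd_of_pow_eq_one h7)

/-- the generalised decomposition numbers at noncentral elements have norm at least `1` -/
theorem one_le_dd (hl : BP 3 D l) (hD : IsPGroup 3 D) (hab : D ≤ centralizer (D : Set G))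
    (hT : ¬ 3 ∣ (centralizer (D : Set G)).relIndex (stabT D l))
    (hcard : Nat.card D = 9) {u : G} (huD : u ∈ D) (hu1 : u ≠ 1)
    (huZ : u ∈ center G) (hu3 : u ^ 3 = 1) {w : G} (hw : w ∈ D) (hw3 : w ^ 3 = 1)
    (hwZ : w ∉ center G) (ψ : LL red l) :
    1 ≤ Complex.normSq (dd 3 red D l w ψ.1) := by
  have hq : Nat.card D ≠ 0 := Nat.card_pos.ne'
  have hND := ND_of red hl hD hab hcard huD hu1 huZ hu3 hw hwZ
  obtain ⟨a, b, -, hb, hab'⟩ := hND.unit
  have hne := dn_ne_zero 3 red (centralizer {w}) hq hND hb hab' w (fun x => mem_cs)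
    hl.smul (κ := ((centralizer (D : Set G)).relIndex (stabT D l) : k)) (by
      rw [Ne, CharP.cast_eq_zero_iff k 3]; exact hT)
    (K5P_ofT 3 red hl hD hab (regT_of hcard huD hu1 huZ hu3 hw hwZ)) ψ.1 ψ.2
  have hζ := Complex.isPrimitiveRoot_exp 3 (by norm_num)
  obtain ⟨P, hP⟩ := dn_poly 3 red (centralizer {w}) hq hND w hw3 (by norm_num)
    (fun x => mem_cs) ψ.1 hζ
  have h1 := hP 1
  rw [pow_one, pow_one] at h1
  change 1 ≤ Complex.normSq (dn 3 (centralizer {w}) (Nat.card D)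
    (Ph 3 red D l (centralizer {w})) w ψ.1.1)
  rw [h1] at hne ⊢
  exact one_le_normSq hζ P hne

/-- the sum over the characters of the block -/
theorem sum_dd (hl : BP 3 D l) (hD : IsPGroup 3 D) (hab : D ≤ centralizer (D : Set G))
    (hcard : Nat.card D = 9) {u : G} (huD : u ∈ D) (hu1 : u ≠ 1)
    (huZ : u ∈ center G) (hu3 : u ^ 3 = 1) {w : G} (hw : w ∈ D) (hwZ : w ∉ center G) :
    ∑ ψ : LL red l, Complex.normSq (dd 3 red D l w ψ.1) = 9 := by
  have hq : Nat.card D ≠ 0 := Nat.card_pos.ne'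
  have hND := ND_of red hl hD hab hcard huD hu1 huZ hu3 hw hwZ
  have h3 : ∑ χ : Irr G, Complex.normSq (dd 3 red D l w χ) = Nat.card D := by
    have h1 := gram_self 3 red (centralizer {w}) hq hND w (isPel hD hw) (fun x => mem_cs)
    apply Complex.ofReal_injective
    push_cast
    rw [← h1]
    exact Finset.sum_congr rfl fun χ _ => (Complex.mul_conj _).symm
  rw [hcard] at h3
  have h9 : ((9 : ℕ) : ℝ) = 9 := by norm_num
  rw [h9] at h3
  rw [← h3, ← Finset.sum_subtype (p := fun χ : Irr G => InL red l χ.1)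
    (univ.filter fun χ : Irr G => InL red l χ.1) (fun χ => by simp)
    (fun χ => Complex.normSq (dd 3 red D l w χ)), Finset.sum_filter]
  refine Finset.sum_congr rfl fun χ _ => ?_
  split_ifs with h
  · rfl
  · have h4 : dd 3 red D l w χ = 0 :=
      dn_eq_zero 3 red (centralizer {w})
        (hl.lres_coe (cent_le_of_mem hw)) hND w (isPel hD hw)
        (fun x => mem_cs) χ h
    rw [h4, map_zero]

theorem rz_pos (ψ : Irr G) : 0 < rz 3 1 ψ.1 := by
  unfold rz
  refine mul_pos (by positivity) ?_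
  refine Finset.sum_pos' (fun g _ => Complex.normSq_nonneg _) ⟨1, mem_univ _, ?_⟩
  rw [Complex.normSq_pos]
  unfold fz
  rw [if_pos]
  · exact ψ.one_ne_zero
  · rw [P179P.pp_eq_one_iff, orderOf_one]
    norm_num

/-- Bessel's inequality -/
theorem bessel_of (hl : BP 3 D l) (hD : IsPGroup 3 D) (hab : D ≤ centralizer (D : Set G))
    (hT : ¬ 3 ∣ (centralizer (D : Set G)).relIndex (stabT D l))
    (hcard : Nat.card D = 9) {u : G} (huD : u ∈ D) (hu1 : u ≠ 1)
    (huZ : u ∈ center G) (hu3 : u ^ 3 = 1) {w : G} (hw : w ∈ D) (hwZ : w ∉ center G)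
    (ψ : Irr G) :
    3 * rz 3 1 ψ.1 + ∑ i : Fin 3, Complex.normSq (dd 3 red D l (w * u ^ (i : ℕ)) ψ) / 9 ≤ 1 := by
  have hq : Nat.card D ≠ 0 := Nat.card_pos.ne'
  have hou : orderOf u = 3 := orderOf_eq_prime hu3 hu1
  have hui : ∀ i j : Fin 3, u ^ (i : ℕ) = u ^ (j : ℕ) → i = j := by
    intro i j h
    rw [pow_inj_mod, hou, Nat.mod_eq_of_lt i.2, Nat.mod_eq_of_lt j.2] at h
    exact Fin.ext h
  have huZ' : ∀ i : ℕ, u ^ i ∈ center G := fun i => pow_mem huZ i
  have hwD' : ∀ i : ℕ, w * u ^ i ∈ D := fun i => mul_mem hw (pow_mem huD i)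
  have hwZ' : ∀ i : ℕ, w * u ^ i ∉ center G := by
    intro i h
    apply hwZ
    have := mul_mem h (inv_mem (huZ' i))
    rwa [mul_inv_cancel_right] at this
  have hcen : ∀ z ∈ center G, ∀ x : G, x * z = z * x := fun z hz x =>
    (Subgroup.mem_center_iff.1 hz) x
  have hup : ∀ i : ℕ, ∃ n : ℕ, (u ^ i) ^ 3 ^ n = 1 := fun i => isPel hD (pow_mem huD i)
  have hrz1 : ∀ i : ℕ, rz 3 (u ^ i) ψ.1 = rz 3 1 ψ.1 := by
    intro i
    apply Complex.ofReal_injective
    rw [rz_central (hcen _ (huZ' i)) (hup i),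
      rz_central (fun x => by rw [mul_one, one_mul]) ⟨0, by simp⟩]
  let W : Fin 3 ⊕ Fin 3 → Irr G → ℂ := fun x χ =>
    Sum.elim (fun i : Fin 3 => vz 3 (u ^ (i : ℕ)) ψ.1 χ)
      (fun i : Fin 3 => dd 3 red D l (w * u ^ (i : ℕ)) χ) x
  let n : Fin 3 ⊕ Fin 3 → ℝ := fun x =>
    Sum.elim (fun _ => rz 3 1 ψ.1) (fun _ => 9) x
  have hvd : ∀ i j : Fin 3, ∑ χ : Irr G, dd 3 red D l (w * u ^ (j : ℕ)) χ *
      (starRingEnd ℂ) (vz 3 (u ^ (i : ℕ)) ψ.1 χ) = 0 := by
    intro i j
    exact dn_vz (hcen _ (huZ' i)) (isPel hD (hwD' j)) (fun h => hwZ' j (h ▸ huZ' i))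
      (centralizer {w * u ^ (j : ℕ)}) (fun x => mem_cs) (Nat.card D)
      (Ph 3 red D l (centralizer {w * u ^ (j : ℕ)})) ψ
  have h := bessel W n (fun x => by
      rcases x with i | i
      · exact rz_pos ψ
      · change (0 : ℝ) < 9; norm_num) (fun x => by
      rcases x with i | i
      · change ∑ χ : Irr G, vz 3 (u ^ (i : ℕ)) ψ.1 χ *
          (starRingEnd ℂ) (vz 3 (u ^ (i : ℕ)) ψ.1 χ) = ((rz 3 1 ψ.1 : ℝ) : ℂ)
        rw [vz_gram (hcen _ (huZ' i)), if_pos rfl, hrz1]
      · have h1 := gram_self 3 red (centralizer {w * u ^ (i : ℕ)}) hq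
          (ND_of red hl hD hab hcard huD hu1 huZ hu3 (hwD' i) (hwZ' i)) (w * u ^ (i : ℕ))
          (isPel hD (hwD' i)) (fun x => mem_cs)
        change ∑ χ : Irr G, dd 3 red D l (w * u ^ (i : ℕ)) χ *
          (starRingEnd ℂ) (dd 3 red D l (w * u ^ (i : ℕ)) χ) = ((9 : ℝ) : ℂ)
        have h9 : ((9 : ℝ) : ℂ) = ((Nat.card D : ℕ) : ℂ) := by rw [hcard]; norm_num
        rw [h9, ← h1]
        rfl) (fun x y hxy => by
      rcases x with i | i <;> rcases y with j | j
      · change ∑ χ : Irr G, vz 3 (u ^ (i : ℕ)) ψ.1 χ *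
          (starRingEnd ℂ) (vz 3 (u ^ (j : ℕ)) ψ.1 χ) = 0
        rw [vz_gram (hcen _ (huZ' j)), if_neg]
        intro h
        exact hxy (by rw [hui i j h])
      · have h2 := congrArg (starRingEnd ℂ) (hvd i j)
        rw [map_zero, map_sum] at h2
        change ∑ χ : Irr G, vz 3 (u ^ (i : ℕ)) ψ.1 χ *
          (starRingEnd ℂ) (dd 3 red D l (w * u ^ (j : ℕ)) χ) = 0
        rw [← h2]
        refine Finset.sum_congr rfl fun χ _ => ?_
        rw [map_mul, Complex.conj_conj, mul_comm]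
      · exact hvd j i
      · change ∑ χ : Irr G, dd 3 red D l (w * u ^ (i : ℕ)) χ *
          (starRingEnd ℂ) (dd 3 red D l (w * u ^ (j : ℕ)) χ) = 0
        have hij : i ≠ j := fun h => hxy (by rw [h])
        have e1 : w * u ^ (j : ℕ) = w * u ^ (i : ℕ) * (u ^ (i : ℕ))⁻¹ * u ^ (j : ℕ) := by group
        have e2 : w * u ^ (j : ℕ) = w * u ^ (i : ℕ) * ((u ^ (i : ℕ))⁻¹ * u ^ (j : ℕ)) := by group
        rw [e2]
        refine orth_of red hl hD hab hT hcard huD hu1 huZ hu3 (hwD' i) (hwZ' i)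
          (mul_mem (inv_mem (pow_mem huD _)) (pow_mem huD _))
          (mul_mem (inv_mem (huZ' _)) (huZ' _)) ?_ ?_
        · intro h
          rw [inv_mul_eq_one] at h
          exact hij (hui i j h)
        · have hc : Commute (u ^ (i : ℕ))⁻¹ (u ^ (j : ℕ)) :=
            ((Commute.refl u).pow_pow i j).inv_left
          rw [hc.mul_pow, inv_pow, ← pow_mul, ← pow_mul, mul_comm (i : ℕ), mul_comm (j : ℕ),
            pow_mul, pow_mul, hu3, one_pow, one_pow, inv_one, mul_one]) ψ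
  rw [Fintype.sum_sum_type] at h
  refine le_trans (le_of_eq ?_) h
  congr 1
  · have h1 : ∀ i : Fin 3, Complex.normSq (W (Sum.inl i) ψ) / n (Sum.inl i) = rz 3 1 ψ.1 := by
      intro i
      change Complex.normSq (vz 3 (u ^ (i : ℕ)) ψ.1 ψ) / rz 3 1 ψ.1 = rz 3 1 ψ.1
      rw [vz_self, hrz1, Complex.normSq_ofReal]
      have := (rz_pos ψ).ne'
      field_simp
    rw [Finset.sum_congr rfl fun i _ => h1 i, Finset.sum_const, Finset.card_univ,
      Fintype.card_fin, nsmul_eq_mul]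
    norm_num

/-- **T6 (C)** -/
theorem t6C (hl : BP 3 D l) (hD : IsPGroup 3 D) (hab : ∀ a ∈ D, ∀ b ∈ D, a * b = b * a)
    (hT : ¬ 3 ∣ (centralizer (D : Set G)).relIndex (stabT D l))
    (hcard : Nat.card D = 9) (hexp : ∀ d ∈ D, d ^ 3 = 1) {u : G} (huD : u ∈ D) (hu1 : u ≠ 1)
    (huZ : u ∈ center G) :
    Nat.card (LL red l) ≤ 9 ∧ (∀ ψ : LL red l, 9 * rz 3 1 ψ.1.1 ≤ 2) ∧
      ∑ ψ : LL red l, rz 3 1 ψ.1.1 ≤ 2 := by
  have hab' : D ≤ centralizer (D : Set G) := by
    intro x hx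
    rw [mem_centralizer_iff]
    intro y hy
    exact hab y hy x hx
  have hu3 := hexp u huD
  by_cases hDZ : ∀ d ∈ D, d ∈ center G
  · obtain ⟨φ, hφ⟩ := thmN_central red hl hD
      fun d hd x => (Subgroup.mem_center_iff.1 (hDZ d hd)) x
    have h1 : Nat.card (LL red l) = 9 := by
      rw [← hcard]; exact hφ.card
    have h2 : ∀ ψ : LL red l, rz 3 1 ψ.1.1 = 1 / 9 := by
      intro ψ
      apply Complex.ofReal_injective
      rw [rz_central (fun x => by rw [mul_one, one_mul]) ⟨0, by simp⟩]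
      have h3 : rsum 3 (fun s => ψ.1.1 s * ψ.1.1 s⁻¹) = rsum 3 (fun s => φ s * φ s⁻¹) := by
        refine rsum_congr 3 fun t ht => ?_
        rw [hφ.eq ψ.1 ψ.2 t ht, hφ.eq ψ.1 ψ.2 t⁻¹ (by rwa [orderOf_inv])]
      have h4 := hφ.nrm
      rw [← h3, hcard] at h4
      unfold Pm
      have hG0 : (Fintype.card G : ℂ) ≠ 0 := by exact_mod_cast Fintype.card_ne_zero
      rw [Nat.card_eq_fintype_card] at h4
      rw [inv_mul_eq_iff_eq_mul₀ hG0, ← h4]
      push_cast
      ring
    refine ⟨h1.le, fun ψ => ?_, ?_⟩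
    · rw [h2 ψ]; norm_num
    · rw [Finset.sum_congr rfl fun ψ _ => h2 ψ, Finset.sum_const, Finset.card_univ,
        ← Nat.card_eq_fintype_card, h1]
      norm_num
  · push Not at hDZ
    obtain ⟨w, hw, hwZ⟩ := hDZ
    have hwD' : ∀ i : ℕ, w * u ^ i ∈ D := fun i => mul_mem hw (pow_mem huD i)
    have hwZ' : ∀ i : ℕ, w * u ^ i ∉ center G := by
      intro i h
      apply hwZ
      have := mul_mem h (inv_mem (pow_mem huZ i))
      rwa [mul_inv_cancel_right] at this
    have h1 : ∀ (i : ℕ) (ψ : LL red l), 1 ≤ Complex.normSq (dd 3 red D l (w * u ^ i) ψ.1) :=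
      fun i ψ => one_le_dd red hl hD hab' hT hcard huD hu1 huZ hu3 (hwD' i) (hexp _ (hwD' i))
        (hwZ' i) ψ
    have h2 : ∀ i : ℕ, ∑ ψ : LL red l, Complex.normSq (dd 3 red D l (w * u ^ i) ψ.1) = 9 :=
      fun i => sum_dd red hl hD hab' hcard huD hu1 huZ hu3 (hwD' i) (hwZ' i)
    have h3 := fun ψ : LL red l => bessel_of red hl hD hab' hT hcard huD hu1 huZ hu3 hw hwZ ψ.1
    have hk : (Nat.card (LL red l) : ℝ) ≤ 9 := by
      rw [← h2 0, Nat.card_eq_fintype_card, ← Finset.card_univ, ← nsmul_one,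
        ← Finset.sum_const]
      exact Finset.sum_le_sum fun ψ _ => h1 0 ψ
    refine ⟨by exact_mod_cast hk, fun ψ => ?_, ?_⟩
    · have h4 := h3 ψ
      have h5 : (1 : ℝ) / 3 ≤ ∑ i : Fin 3,
          Complex.normSq (dd 3 red D l (w * u ^ (i : ℕ)) ψ.1) / 9 := by
        rw [← Finset.sum_div]
        have h6 : (3 : ℝ) ≤ ∑ i : Fin 3, Complex.normSq (dd 3 red D l (w * u ^ (i : ℕ)) ψ.1) := by
          have h7 : (3 : ℝ) = ∑ _i : Fin 3, (1 : ℝ) := by simp
          rw [h7]
          exact Finset.sum_le_sum fun i _ => h1 i ψ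
        linarith
      linarith
    · have h4 : ∑ ψ : LL red l, (3 * rz 3 1 ψ.1.1 +
          ∑ i : Fin 3, Complex.normSq (dd 3 red D l (w * u ^ (i : ℕ)) ψ.1) / 9) ≤
          ∑ _ψ : LL red l, (1 : ℝ) := Finset.sum_le_sum fun ψ _ => h3 ψ
      rw [Finset.sum_add_distrib, ← Finset.mul_sum, Finset.sum_comm] at h4
      have h5 : ∑ i : Fin 3, ∑ ψ : LL red l,
          Complex.normSq (dd 3 red D l (w * u ^ (i : ℕ)) ψ.1) / 9 = 3 := by
        have h6 : ∀ i : Fin 3, ∑ ψ : LL red l,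
            Complex.normSq (dd 3 red D l (w * u ^ (i : ℕ)) ψ.1) / 9 = 1 := by
          intro i
          rw [← Finset.sum_div, h2]
          norm_num
        rw [Finset.sum_congr rfl fun i _ => h6 i]
        simp
      rw [h5, Finset.sum_const, Finset.card_univ, ← Nat.card_eq_fintype_card, nsmul_eq_mul,
        mul_one] at h4
      linarith

end Main

end P179T
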