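import Vale.Agent.P179.H166.Orb
import Vale.Agent.P179.H525.Quot
import Vale.Agent.P179.H525.QuotS

/-!
# Step 2: the sum of `W` over pairs whose commutator is a `p`-element, and the final induction
-/

namespace P179K

open Subgroup P179H524 P179A

open scoped Classical Pointwise

universe u

/-- the commutator of a pair -/
def cm {G : Type*} [Group G] (t : G × G) : G := t.1 * t.2 * t.1⁻¹ * t.2⁻¹

/-- being a `p`-element -/
def PEl (p : ℕ) {G : Type*} [Group G] (g : G) : Prop := ∃ n : ℕ, g ^ p ^ n = 1

theorem cm_eq_one_iff {G : Type*} [Group G] (t : G × G) : cm t = 1 ↔ t.1 * t.2 = t.2 * t.1 := by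
  unfold cm
  rw [mul_inv_eq_one, mul_inv_eq_iff_eq_mul]

theorem cm_conj {G : Type*} [Group G] (g x y : G) :
    cm (g * x * g⁻¹, g * y * g⁻¹) = g * cm (x, y) * g⁻¹ := by
  simp [cm, mul_assoc]

theorem pEl_conj {p : ℕ} {G : Type*} [Group G] (g x : G) : PEl p (g * x * g⁻¹) ↔ PEl p x := by
  unfold PEl
  refine exists_congr fun n => ?_
  rw [conj_pow, mul_inv_eq_one]
  constructor
  · intro h
    exact mul_left_cancel (a := g) (by rw [h, mul_one])
  · intro h; rw [h, mul_one]

/-- `c(K)`: the number of pairs whose commutator is a `p`-element -/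
noncomputable def cPE (p : ℕ) (K : Type*) [Group K] : ℕ := Nat.card {t : K × K // PEl p (cm t)}

/-- The congruence of Step 1 (character theory). -/
def Step1Stmt (p : ℕ) : Prop :=
  ∀ (K : Type) [Group K] [Finite K],
    cPE p K ≡ Nat.card K * numDZ p K [MOD p ^ ((Nat.card K).factorization p + 1)]

theorem card_filter_stab {G : Type*} [Group G] [Fintype G] (p : ℕ) (s : Finset (Subgroup G)) :
    (((Finset.univ : Finset (G × G)).filter fun t => PEl p (cm t)).filter
      fun t => t.1 ∈ stab s ∧ t.2 ∈ stab s).card = cPE p (stab s) := by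
  unfold cPE
  rw [Finset.filter_filter, ← Fintype.card_subtype, ← Nat.card_eq_fintype_card]
  refine Nat.card_congr ?_
  exact
    { toFun := fun t => ⟨(⟨t.1.1, t.2.2.1⟩, ⟨t.1.2, t.2.2.2⟩), by
        obtain ⟨n, hn⟩ := t.2.1
        exact ⟨n, Subtype.ext hn⟩⟩
      invFun := fun t => ⟨(t.1.1.1, t.1.2.1), by
        refine ⟨?_, t.1.1.2, t.1.2.2⟩
        obtain ⟨n, hn⟩ := t.2
        exact ⟨n, congrArg Subtype.val hn⟩⟩
      left_inv := fun _ => rfl
      right_inv := fun _ => rfl }

theorem cPE_congr (p : ℕ) {K K' : Type*} [Group K] [Group K'] (e : K ≃* K') :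
    cPE p K = cPE p K' := by
  refine Nat.card_congr ((Equiv.prodCongr e.toEquiv e.toEquiv).subtypeEquiv fun t => ?_)
  have h : cm ((Equiv.prodCongr e.toEquiv e.toEquiv) t) = e (cm t) := by
    simp [cm]
  rw [h]
  unfold PEl
  refine exists_congr fun n => ?_
  rw [← map_pow, map_eq_one_iff e e.injective]

/-- **Step 2.** -/
theorem sum_W_pElem (p : ℕ) [hp : Fact p.Prime] (h1 : Step1Stmt p) (G : Type) [Group G]
    [Fintype G] :
    (p : ℤ) ^ ((Nat.card G).factorization p + 1) ∣
      (∑ t ∈ (Finset.univ : Finset (G × G)).filter (fun t => PEl p (cm t)), W p t.1 t.2) -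
        Nat.card G * numDZ p G := by
  have := Fintype.ofFinite (neChains p G)
  rw [sum_W_eq, sum_chains_eq]
  simp only [card_filter_stab]
  have h2 : (p : ℤ) ^ ((Nat.card G).factorization p + 1) ∣
      (cPE p (stab (∅ : Finset (Subgroup G))) : ℤ) - Nat.card G * numDZ p G := by
    have e : stab (∅ : Finset (Subgroup G)) ≃* G := by
      rw [stab_empty]; exact topEquiv
    rw [cPE_congr p e]
    have := (Nat.modEq_iff_dvd.mp (h1 G).symm)
    push_cast at this
    exact this
  have h3 : (p : ℤ) ^ ((Nat.card G).factorization p + 1) ∣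
      ∑ s : neChains p G, (-1 : ℤ) ^ s.1.card * (cPE p (stab s.1) : ℤ) := by
    refine orb_sum_dvd p (fun s : neChains p G => (-1 : ℤ) ^ s.1.card * (cPE p (stab s.1) : ℤ))
      ?_ ?_
    · intro g s
      have key : ∀ t : Finset (Subgroup G), (-1 : ℤ) ^ (g • t).card * (cPE p (stab (g • t)) : ℤ) =
          (-1 : ℤ) ^ t.card * (cPE p (stab t) : ℤ) := by
        intro t
        rw [card_smul, cPE_congr p (stabEquiv g t)]
      exact key s.1
    · intro s
      rw [stabilizer_neChains]
      refine Dvd.dvd.mul_left ?_ _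
      have h4 := h1 (stab s.1)
      rw [numDZ_eq_zero p _ (not_opTrivial_stab s.2.1 s.2.2), mul_zero] at h4
      exact_mod_cast (Nat.modEq_zero_iff_dvd.mp h4)
  have h5 : (-1 : ℤ) ^ (∅ : Finset (Subgroup G)).card * (cPE p (stab (∅ : Finset (Subgroup G))) : ℤ) +
      ∑ s : neChains p G, (-1 : ℤ) ^ s.1.card * (cPE p (stab s.1) : ℤ) -
      Nat.card G * numDZ p G =
      ((cPE p (stab (∅ : Finset (Subgroup G))) : ℤ) - Nat.card G * numDZ p G) +
      ∑ s : neChains p G, (-1 : ℤ) ^ s.1.card * (cPE p (stab s.1) : ℤ) := by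
    rw [Finset.card_empty, pow_zero]; ring
  rw [h5]
  exact dvd_add h2 h3

/-- The Main Lemma (statement). -/
def MainStmt (p : ℕ) : Prop :=
  ∀ (G : Type) [Group G] [Fintype G] (g : G) (P : Subgroup G), IsPGroup p P →
    (∀ a ∈ P, ∀ b ∈ P, a * b = b * a) → g ∈ P → (∀ a ∈ P, a * g = g * a) →
    ((Nat.card P * orderOf g : ℕ) : ℤ) ∣
      ∑ t ∈ (Finset.univ : Finset (G × G)).filter (fun t => cm t = g), W p t.1 t.2

/-- in a group with abelian `p`-subgroups, a Sylow `p`-subgroup of the centraliser of a
`p`-element -/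
theorem exists_sylow_centralizer (p : ℕ) [hp : Fact p.Prime] {G : Type*} [Group G] [Finite G]
    (g : G) (hg : PEl p g) : ∃ P : Subgroup G, IsPGroup p P ∧ g ∈ P ∧ (∀ a ∈ P, a * g = g * a) ∧
      Nat.card P = p ^ ((Nat.card (centralizer ({g} : Set G))).factorization p) := by
  set C := centralizer ({g} : Set G)
  have hgC : g ∈ C := mem_centralizer_singleton_iff.mpr rfl
  have h1 : IsPGroup p (zpowers (⟨g, hgC⟩ : C)) := by
    obtain ⟨n, hn⟩ := hg
    have h2 : orderOf (⟨g, hgC⟩ : C) ∣ p ^ n := by
      apply orderOf_dvd_of_pow_eq_one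
      exact Subtype.ext hn
    obtain ⟨m, -, hm⟩ := (Nat.dvd_prime_pow hp.out).mp h2
    rw [IsPGroup.iff_card]
    exact ⟨m, by rw [Nat.card_zpowers, hm]⟩
  obtain ⟨P₀, hP₀⟩ := h1.exists_le_sylow
  refine ⟨(P₀ : Subgroup C).map C.subtype, P₀.2.map _, ?_, ?_, ?_⟩
  · exact ⟨⟨g, hgC⟩, hP₀ (mem_zpowers _), rfl⟩
  · rintro _ ⟨a, -, rfl⟩
    have := mem_centralizer_singleton_iff.mp a.2
    exact this
  · rw [← P₀.card_eq_multiplicity]
    exact Nat.card_congr ((P₀ : Subgroup C).equivMapOfInjective C.subtype
      C.subtype_injective).toEquiv.symm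

/-- The pairs with nontrivial `p`-element commutator contribute `0` modulo `p |G|_p`. -/
theorem sum_W_nontrivial (p : ℕ) [hp : Fact p.Prime] (hM : MainStmt p) (G : Type) [Group G]
    [Fintype G] (hab : ∀ Q : Subgroup G, IsPGroup p Q → ∀ a ∈ Q, ∀ b ∈ Q, a * b = b * a) :
    (p : ℤ) ^ ((Nat.card G).factorization p + 1) ∣
      (∑ t ∈ (Finset.univ : Finset (G × G)).filter (fun t => PEl p (cm t)), W p t.1 t.2) -
      ∑ t ∈ (Finset.univ : Finset (G × G)).filter (fun t => t.1 * t.2 = t.2 * t.1),
        W p t.1 t.2 := by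
  let F : G → ℤ := fun g => if PEl p g ∧ g ≠ 1 then
    ∑ t ∈ (Finset.univ : Finset (G × G)).filter (fun t => cm t = g), W p t.1 t.2 else 0
  have hsum : (∑ t ∈ (Finset.univ : Finset (G × G)).filter (fun t => PEl p (cm t)), W p t.1 t.2) -
      ∑ t ∈ (Finset.univ : Finset (G × G)).filter (fun t => t.1 * t.2 = t.2 * t.1),
        W p t.1 t.2 = ∑ g : G, F g := by
    have h1 : ∑ g : G, F g = ∑ t ∈ (Finset.univ : Finset (G × G)).filter
        (fun t => PEl p (cm t) ∧ cm t ≠ 1), W p t.1 t.2 := by
      have h2 : ∀ g : G, F g = ∑ t : G × G,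
          if cm t = g then (if PEl p (cm t) ∧ cm t ≠ 1 then W p t.1 t.2 else 0) else 0 := by
        intro g
        simp only [F]
        split_ifs with h
        · rw [Finset.sum_filter]
          refine Finset.sum_congr rfl fun t _ => ?_
          split_ifs with h3 h4
          · rfl
          · exact absurd (h3 ▸ h) h4
          · rfl
        · symm
          refine Finset.sum_eq_zero fun t _ => ?_
          split_ifs with h3 h4
          · exact absurd (h3 ▸ h4) h
          · rfl
          · rfl
      rw [Finset.sum_congr rfl fun g _ => h2 g, Finset.sum_comm, Finset.sum_filter]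
      refine Finset.sum_congr rfl fun t _ => ?_
      rw [Finset.sum_ite_eq]
      simp
    rw [h1, sub_eq_iff_eq_add]
    rw [← Finset.sum_filter_add_sum_filter_not
      ((Finset.univ : Finset (G × G)).filter (fun t => PEl p (cm t))) (fun t => cm t ≠ 1)]
    rw [Finset.filter_filter, Finset.filter_filter]
    congr 1
    refine Finset.sum_congr ?_ fun _ _ => rfl
    ext t
    simp only [Finset.mem_filter, Finset.mem_univ, true_and, ne_eq, not_not]
    rw [← cm_eq_one_iff]
    constructor
    · exact fun h => h.2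
    · intro h
      refine ⟨⟨0, ?_⟩, h⟩
      rw [h]; simp
  rw [hsum]
  have hcard : Nat.card (ConjAct G) = Nat.card G := rfl
  rw [← hcard]
  have : Finite (ConjAct G) := inferInstanceAs (Finite G)
  refine orb_sum_dvd (G := ConjAct G) (X := G) p F ?_ ?_
  · intro g x
    obtain ⟨g, rfl⟩ := ConjAct.toConjAct.surjective g
    rw [ConjAct.toConjAct_smul]
    simp only [F]
    have hne : g * x * g⁻¹ ≠ 1 ↔ x ≠ 1 := by
      rw [not_iff_not, mul_inv_eq_one]
      constructor
      · intro h
        exact mul_left_cancel (a := g) (by rw [h, mul_one])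
      · intro h; rw [h, mul_one]
    simp only [pEl_conj, hne]
    split_ifs with h
    · symm
      refine Finset.sum_bij (fun t _ => (g * t.1 * g⁻¹, g * t.2 * g⁻¹)) ?_ ?_ ?_ ?_
      · intro t ht
        rw [Finset.mem_filter] at ht ⊢
        refine ⟨Finset.mem_univ _, ?_⟩
        rw [cm_conj]
        have : cm (t.1, t.2) = x := ht.2
        rw [this]
      · intro t _ t' _ h
        have h3 := Prod.ext_iff.mp h
        refine Prod.ext ?_ ?_
        · have := h3.1
          simpa using this
        · have := h3.2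
          simpa using this
      · intro t ht
        rw [Finset.mem_filter] at ht
        refine ⟨(g⁻¹ * t.1 * g, g⁻¹ * t.2 * g), ?_, ?_⟩
        · rw [Finset.mem_filter]
          refine ⟨Finset.mem_univ _, ?_⟩
          have h4 := cm_conj g⁻¹ t.1 t.2
          rw [inv_inv] at h4
          rw [h4]
          have : cm (t.1, t.2) = g * x * g⁻¹ := ht.2
          rw [this]; group
        · refine Prod.ext ?_ ?_
          · change g * (g⁻¹ * t.1 * g) * g⁻¹ = t.1; group
          · change g * (g⁻¹ * t.2 * g) * g⁻¹ = t.2; group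
      · intro t _
        exact (W_conj p g t.1 t.2).symm
    · rfl
  · intro g
    simp only [F]
    split_ifs with h
    · obtain ⟨P, hP, hgP, hPg, hcardP⟩ := exists_sylow_centralizer p g h.1
      have h2 := hM G g P hP (hab P hP) hgP hPg
      have h3 : Nat.card (MulAction.stabilizer (ConjAct G) g) =
          Nat.card (centralizer ({g} : Set G)) := by
        refine Nat.card_congr ?_
        refine (ConjAct.ofConjAct (G := G)).toEquiv.subtypeEquiv fun c => ?_
        rw [MulAction.mem_stabilizer_iff, ConjAct.smul_def, mul_inv_eq_iff_eq_mul,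
          mem_centralizer_singleton_iff]
        rfl
      rw [h3]
      refine dvd_trans ?_ h2
      have h4 : p ∣ orderOf g := by
        obtain ⟨n, hn⟩ := h.1
        have h5 : orderOf g ∣ p ^ n := orderOf_dvd_of_pow_eq_one hn
        obtain ⟨m, -, hm⟩ := (Nat.dvd_prime_pow hp.out).mp h5
        rw [hm]
        rcases Nat.eq_zero_or_pos m with h0 | h0
        · rw [h0, pow_zero, orderOf_eq_one_iff] at hm
          exact absurd hm h.2
        · exact dvd_pow_self p h0.ne'
      rw [hcardP, pow_succ]
      push_cast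
      exact mul_dvd_mul_left _ (by exact_mod_cast h4)
    · exact dvd_zero _

/-- **Theorem A** from the Main Lemma and the character congruence: if all `p`-subgroups of `G` are
abelian then the number of simple `kG`-modules is congruent modulo `p` to the number of classes of
`p`-weights. -/
theorem thmA_of (p : ℕ) [hp : Fact p.Prime] (h1 : Step1Stmt p) (hM : MainStmt p)
    (k : Type u) [Field k] [IsAlgClosed k] [CharP k p] :
    ∀ (n : ℕ) (G : Type) [Group G] [Finite G], Nat.card G = n →
      (∀ Q : Subgroup G, IsPGroup p Q → ∀ a ∈ Q, ∀ b ∈ Q, a * b = b * a) →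
      (p : ℤ) ∣ (numSimple k G : ℤ) - numWeights p G := by
  intro n
  induction n using Nat.strong_induction_on with
  | _ n ih =>
  intro G _ _ hn hab
  have := Fintype.ofFinite G
  by_cases hO : OpTrivial p G
  · have := Fintype.ofFinite (neChains p G)
    have hA := KR_simple p k G
    have hB := KR_weights p G
    have hC := sum_W_pElem p h1 G
    have hD := sum_W_nontrivial p hM G hab
    have hE : (p : ℤ) ^ ((Nat.card G).factorization p + 1) ∣
        ∑ s ∈ chains p G, ((-1 : ℤ) ^ s.card * (Nat.card (stab s) *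
          ((numSimple k (stab s) : ℤ) - numWeights p (stab s)))) := by
      have h2 : ∑ s ∈ chains p G, ((-1 : ℤ) ^ s.card * (Nat.card (stab s) *
          ((numSimple k (stab s) : ℤ) - numWeights p (stab s)))) =
          (∑ s ∈ chains p G, (-1 : ℤ) ^ s.card * (Nat.card (stab s) * numSimple k (stab s))) -
          ∑ s ∈ chains p G, (-1 : ℤ) ^ s.card * (Nat.card (stab s) * numWeights p (stab s)) := by
        rw [← Finset.sum_sub_distrib]
        exact Finset.sum_congr rfl fun s _ => by ring
      rw [h2, hA, hB]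
      have := dvd_sub hC hD
      have h3 : ∀ a b c : ℤ, (a - b) - (a - c) = c - b := fun a b c => by ring
      rwa [h3] at this
    rw [sum_chains_eq] at hE
    have hF : (p : ℤ) ^ ((Nat.card G).factorization p + 1) ∣
        ∑ s : neChains p G, ((-1 : ℤ) ^ s.1.card * (Nat.card (stab s.1) *
          ((numSimple k (stab s.1) : ℤ) - numWeights p (stab s.1)))) := by
      refine orb_sum_dvd p (fun s : neChains p G => ((-1 : ℤ) ^ s.1.card * (Nat.card (stab s.1) *
          ((numSimple k (stab s.1) : ℤ) - numWeights p (stab s.1))))) ?_ ?_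
      · intro g s
        have key : ∀ t : Finset (Subgroup G), (-1 : ℤ) ^ (g • t).card * (Nat.card (stab (g • t)) *
            ((numSimple k (stab (g • t)) : ℤ) - numWeights p (stab (g • t)))) =
            (-1 : ℤ) ^ t.card * (Nat.card (stab t) *
            ((numSimple k (stab t) : ℤ) - numWeights p (stab t))) := by
          intro t
          rw [card_smul, numSimple_congr p k (stabEquiv g t), numWeights_congr p (stabEquiv g t),
            Nat.card_congr (stabEquiv g t).toEquiv]
        exact key s.1
      · intro s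
        rw [stabilizer_neChains]
        refine Dvd.dvd.mul_left ?_ _
        rw [pow_succ]
        refine mul_dvd_mul ?_ ?_
        · exact_mod_cast Nat.ordProj_dvd _ p
        · refine ih (Nat.card (stab s.1)) ?_ (stab s.1) rfl ?_
          · rw [← hn]
            refine lt_of_le_of_ne (Subgroup.card_le_card_group _) ?_
            intro h4
            have h5 : stab s.1 = ⊤ := Subgroup.eq_top_of_card_eq _ h4
            refine not_opTrivial_stab s.2.1 s.2.2 ?_
            intro R hR hRp
            have h6 : (R.map (stab s.1).subtype).Normal := by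
              refine ⟨fun m hm g => ?_⟩
              obtain ⟨m', hm', rfl⟩ := mem_map.mp hm
              have hg : g ∈ stab s.1 := h5 ▸ mem_top g
              exact mem_map.mpr ⟨⟨g, hg⟩ * m' * ⟨g, hg⟩⁻¹, hR.conj_mem _ hm' _, rfl⟩
            have h7 := hO _ h6 (hRp.map _)
            rwa [map_eq_bot_iff_of_injective _ (stab s.1).subtype_injective] at h7
          · intro Q hQ a ha b hb
            have := hab (Q.map (stab s.1).subtype) (hQ.map _) a ⟨a, ha, rfl⟩ b ⟨b, hb, rfl⟩
            exact Subtype.ext this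
    have hG := (Int.dvd_add_left hF).mp hE
    have e : stab (∅ : Finset (Subgroup G)) ≃* G := by
      rw [stab_empty]; exact topEquiv
    rw [Finset.card_empty, pow_zero, one_mul, numSimple_congr p k e, numWeights_congr p e,
      Nat.card_congr e.toEquiv, pow_succ] at hG
    set c := Nat.card G / p ^ (Nat.card G).factorization p with hcdef
    have hc' : ¬ p ∣ c := Nat.not_dvd_ordCompl hp.out Nat.card_pos.ne'
    have hc : Nat.card G = p ^ (Nat.card G).factorization p * c :=
      (Nat.ordProj_mul_ordCompl_eq_self (Nat.card G) p).symm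
    have h9 : (p : ℤ) ∣ (c : ℤ) * ((numSimple k G : ℤ) - numWeights p G) := by
      have h10 : (Nat.card G : ℤ) = (p : ℤ) ^ (Nat.card G).factorization p * c := by
        exact_mod_cast hc
      rw [h10, mul_assoc] at hG
      have h11 : ((p : ℤ) ^ (Nat.card G).factorization p) ≠ 0 :=
        pow_ne_zero _ (by exact_mod_cast hp.out.ne_zero)
      exact (mul_dvd_mul_iff_left h11).mp (by
        convert hG using 2)
    have hpZ : Prime (p : ℤ) := Nat.prime_iff_prime_int.mp hp.out
    rcases hpZ.dvd_or_dvd h9 with h | h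
    · exact absurd (by exact_mod_cast h) hc'
    · exact h
  · simp only [OpTrivial, not_forall] at hO
    obtain ⟨R, hR, hRp, hR1⟩ := hO
    rw [← numSimple_quotient p k G R hRp, ← numWeights_quotient p G R hRp]
    refine ih (Nat.card (G ⧸ R)) ?_ (G ⧸ R) rfl ?_
    · rw [← hn]
      have h2 : Nat.card G = Nat.card (G ⧸ R) * Nat.card R :=
        card_eq_card_quotient_mul_card_subgroup R
      have h3 : 1 < Nat.card R := by
        rw [Subgroup.one_lt_card_iff_ne_bot]; exact hR1
      rw [h2]
      have h4 : 0 < Nat.card (G ⧸ R) := Nat.card_pos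
      nlinarith
    · intro Q hQ a ha b hb
      have hQ' : IsPGroup p (Q.comap (QuotientGroup.mk' R)) :=
        hQ.comap_of_ker_isPGroup _ (by rw [QuotientGroup.ker_mk']; exact hRp)
      obtain ⟨a, rfl⟩ := QuotientGroup.mk'_surjective R a
      obtain ⟨b, rfl⟩ := QuotientGroup.mk'_surjective R b
      rw [← map_mul, hab _ hQ' a ha b hb, map_mul]

end P179K
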