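import Mathlib

/-!
# The transfer of an equivariant permutation of a free `P`-set, `P` not necessarily abelian

`S` is a finite `P`-stable subset of a `P`-set `Ω`, `c : Ω → P` a trivialisation of `S`
(`c (e • w) = e * c w` on `S`, so `P` acts freely on `S`), `a : Ω → Ω` a map which restricts to a
`P`-equivariant permutation of `S`, `L` a homomorphism from `P` to a commutative group.  Then
`del L c a S` is the product over the `P`-orbits in `S` of `L (c (a w)) / L (c w)`.
-/

namespace P179V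

variable {P Ω A : Type*} [Group P] [MulAction P Ω] [CommGroup A]

/-- `c` is a trivialisation of the `P`-stable finite set `S`. -/
structure Tv (S : Finset Ω) (c : Ω → P) : Prop where
  stable : ∀ w ∈ S, ∀ e : P, e • w ∈ S
  map : ∀ w ∈ S, ∀ e : P, c (e • w) = e * c w

/-- `a` restricts to a `P`-equivariant bijection `S → S'`. -/
structure Ev (P : Type*) {Ω : Type*} [Group P] [MulAction P Ω] (S S' : Finset Ω)
    (a : Ω → Ω) : Prop where
  maps : ∀ w ∈ S, a w ∈ S'
  comm : ∀ w ∈ S, ∀ e : P, a (e • w) = e • a w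
  inj : ∀ w ∈ S, ∀ w' ∈ S, a w = a w' → w = w'
  surj : ∀ w' ∈ S', ∃ w ∈ S, a w = w'

open Classical in
/-- Representatives of the orbits. -/
noncomputable def rps (c : Ω → P) (S : Finset Ω) : Finset Ω := S.filter (fun w => c w = 1)

/-- The transfer. -/
noncomputable def del (L : P →* A) (c : Ω → P) (a : Ω → Ω) (S : Finset Ω) : A :=
  ∏ w ∈ rps c S, L (c (a w))

omit [MulAction P Ω] in
theorem mem_rps {c : Ω → P} {S : Finset Ω} {w : Ω} : w ∈ rps c S ↔ w ∈ S ∧ c w = 1 := by
  classical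
  simp [rps]

theorem Tv.free {S : Finset Ω} {c : Ω → P} (h : Tv S c) {w : Ω} (hw : w ∈ S) {e : P}
    (he : e • w = w) : e = 1 := by
  have := h.map w hw e
  rw [he] at this
  exact mul_eq_right.1 this.symm

theorem Tv.rep_mem {S : Finset Ω} {c : Ω → P} (h : Tv S c) {w : Ω} (hw : w ∈ S) :
    (c w)⁻¹ • w ∈ rps c S := by
  rw [mem_rps]
  refine ⟨h.stable w hw _, ?_⟩
  rw [h.map w hw, inv_mul_cancel]

theorem Tv.rep_eq {S : Finset Ω} {c : Ω → P} (h : Tv S c) {w : Ω} (hw : w ∈ rps c S)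
    (e : P) : (c (e • w))⁻¹ • (e • w) = w := by
  rw [mem_rps] at hw
  rw [h.map w hw.1, hw.2, mul_one, inv_smul_smul]

/-- Invariant functions have the same product over the representatives. -/
theorem prod_reindex {M : Type*} [CommMonoid M] {S S' : Finset Ω} {c c' : Ω → P} (hc : Tv S c)
    (hc' : Tv S' c')
    {b : Ω → Ω} (hb : Ev P S S' b) {F : Ω → M} (hF : ∀ w ∈ S', ∀ e : P, F (e • w) = F w) :
    ∏ w ∈ rps c S, F (b w) = ∏ w ∈ rps c' S', F w := by
  refine Finset.prod_bij (fun w _ => (c' (b w))⁻¹ • b w) ?_ ?_ ?_ ?_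
  · intro w hw
    exact hc'.rep_mem (hb.maps w (mem_rps.1 hw).1)
  · intro w hw w' hw' h
    have h1 := (mem_rps.1 hw).1
    have h2 := (mem_rps.1 hw').1
    rw [← hb.comm w h1, ← hb.comm w' h2] at h
    have h3 := hb.inj _ (hc.stable w h1 _) _ (hc.stable w' h2 _) h
    have h4 := congrArg (fun z => (c z)⁻¹ • z) h3
    beta_reduce at h4
    rwa [hc.rep_eq hw, hc.rep_eq hw'] at h4
  · intro w' hw'
    have hw1 := mem_rps.1 hw'
    obtain ⟨w, hw, rfl⟩ := hb.surj w' hw1.1
    refine ⟨(c w)⁻¹ • w, hc.rep_mem hw, ?_⟩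
    rw [hb.comm w hw]
    exact hc'.rep_eq hw' _
  · intro w hw
    have h1 := (mem_rps.1 hw).1
    rw [hF _ (hb.maps w h1)]

theorem Ev.id_ (S : Finset Ω) : Ev P S S (fun w => w) :=
  ⟨fun _ h => h, fun _ _ _ => rfl, fun _ _ _ _ h => h, fun w h => ⟨w, h, rfl⟩⟩

theorem prod_rps_eq {M : Type*} [CommMonoid M] {S : Finset Ω} {c c' : Ω → P} (hc : Tv S c)
    (hc' : Tv S c') {F : Ω → M} (hF : ∀ w ∈ S, ∀ e : P, F (e • w) = F w) :
    ∏ w ∈ rps c S, F w = ∏ w ∈ rps c' S, F w :=
  prod_reindex hc hc' (Ev.id_ S) hF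

theorem ratio_inv (L : P →* A) {S S' : Finset Ω} {c c' : Ω → P} (hc : Tv S c) (hc' : Tv S' c')
    {a : Ω → Ω} (ha : Ev P S S' a) : ∀ w ∈ S, ∀ e : P,
      L (c' (a (e • w))) * (L (c (e • w)))⁻¹ = L (c' (a w)) * (L (c w))⁻¹ := by
  intro w hw e
  rw [ha.comm w hw, hc'.map _ (ha.maps w hw), hc.map w hw, map_mul, map_mul]
  rw [mul_inv, mul_mul_mul_comm, mul_inv_cancel, one_mul]

omit [MulAction P Ω] in
theorem del_eq_ratio {L : P →* A} {S : Finset Ω} {c : Ω → P} {a : Ω → Ω} :
    del L c a S = ∏ w ∈ rps c S, (L (c (a w)) * (L (c w))⁻¹) := by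
  unfold del
  refine Finset.prod_congr rfl fun w hw => ?_
  rw [(mem_rps.1 hw).2, map_one, inv_one, mul_one]

/-- The transfer does not depend on the trivialisation. -/
theorem del_indep {L : P →* A} {S : Finset Ω} {c c' : Ω → P} (hc : Tv S c) (hc' : Tv S c')
    {a : Ω → Ω} (ha : Ev P S S a) : del L c a S = del L c' a S := by
  rw [del_eq_ratio, del_eq_ratio, prod_rps_eq hc hc' (ratio_inv L hc hc ha)]
  have hh : ∀ w ∈ S, ∀ e : P, L (c' (e • w)) * (L (c (e • w)))⁻¹ = L (c' w) * (L (c w))⁻¹ := by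
    intro w hw e
    rw [hc'.map w hw, hc.map w hw, map_mul, map_mul, mul_inv, mul_mul_mul_comm, mul_inv_cancel,
      one_mul]
  have key := prod_reindex (F := fun w => L (c' w) * (L (c w))⁻¹) hc' hc' ha hh
  have : ∀ w ∈ rps c' S, L (c' (a w)) * (L (c' w))⁻¹
      = (L (c (a w)) * (L (c w))⁻¹)
        * ((L (c' (a w)) * (L (c (a w)))⁻¹) * (L (c' w) * (L (c w))⁻¹)⁻¹) := by
    intro w _
    have aux : ∀ x y z t : A, x * y⁻¹ = z * t⁻¹ * ((x * z⁻¹) * (y * t⁻¹)⁻¹) := by
      intro x y z t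
      rw [mul_inv, inv_inv]
      have : z * t⁻¹ * (x * z⁻¹ * (y⁻¹ * t)) = x * y⁻¹ * (z * z⁻¹) * (t⁻¹ * t) := by ac_rfl
      rw [this, mul_inv_cancel, inv_mul_cancel, mul_one, mul_one]
    exact aux _ _ _ _
  have h2 : ∏ w ∈ rps c' S,
      ((L (c' (a w)) * (L (c (a w)))⁻¹) * (L (c' w) * (L (c w))⁻¹)⁻¹) = 1 := by
    rw [Finset.prod_mul_distrib, Finset.prod_inv_distrib, key, mul_inv_cancel]
  rw [Finset.prod_congr rfl this]
  rw [Finset.prod_mul_distrib (f := fun w => L (c (a w)) * (L (c w))⁻¹), h2, mul_one]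

/-- The transfer is multiplicative. -/
theorem del_comp {L : P →* A} {S : Finset Ω} {c : Ω → P} (hc : Tv S c) {a b : Ω → Ω}
    (ha : Ev P S S a) (hb : Ev P S S b) :
    del L c (fun w => a (b w)) S = del L c a S * del L c b S := by
  have key := prod_reindex (F := fun w => L (c (a w)) * (L (c w))⁻¹) hc hc hb
    (ratio_inv L hc hc ha)
  rw [del_eq_ratio (a := a), ← key]
  unfold del
  rw [← Finset.prod_mul_distrib]
  refine Finset.prod_congr rfl fun w _ => ?_
  group

theorem Ev.comp {S S' S'' : Finset Ω} {a b : Ω → Ω} (ha : Ev P S' S'' a) (hb : Ev P S S' b) :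
    Ev P S S'' (fun w => a (b w)) where
  maps w hw := ha.maps _ (hb.maps w hw)
  comm w hw e := by rw [hb.comm w hw, ha.comm _ (hb.maps w hw)]
  inj w hw w' hw' h := hb.inj w hw w' hw' (ha.inj _ (hb.maps w hw) _ (hb.maps w' hw') h)
  surj w' hw' := by
    obtain ⟨v, hv, rfl⟩ := ha.surj w' hw'
    obtain ⟨w, hw, rfl⟩ := hb.surj v hv
    exact ⟨w, hw, rfl⟩

theorem Ev.iterate {S : Finset Ω} {a : Ω → Ω} (ha : Ev P S S a) (n : ℕ) :
    Ev P S S (a^[n]) := by
  induction n with
  | zero => exact Ev.id_ S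
  | succ n ih =>
    have := ha.comp ih
    rwa [Function.iterate_succ']

omit [MulAction P Ω] in
theorem del_id {L : P →* A} {S : Finset Ω} {c : Ω → P} : del L c (fun w => w) S = 1 := by
  unfold del
  refine Finset.prod_eq_one fun w hw => ?_
  rw [(mem_rps.1 hw).2, map_one]

theorem del_iterate {L : P →* A} {S : Finset Ω} {c : Ω → P} (hc : Tv S c) {a : Ω → Ω}
    (ha : Ev P S S a) (n : ℕ) : del L c (a^[n]) S = del L c a S ^ n := by
  induction n with
  | zero => rw [pow_zero]; exact del_id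
  | succ n ih =>
    rw [Function.iterate_succ', pow_succ', ← ih]
    exact del_comp hc ha (ha.iterate n)

omit [MulAction P Ω] in
theorem del_congr {L : P →* A} {S : Finset Ω} {c : Ω → P} {a a' : Ω → Ω}
    (h : ∀ w ∈ S, a w = a' w) : del L c a S = del L c a' S := by
  unfold del
  exact Finset.prod_congr rfl fun w hw => by rw [h w (mem_rps.1 hw).1]

/-- The transfer of an element of `P`. -/
theorem del_smul {L : P →* A} {S : Finset Ω} {c : Ω → P} (hc : Tv S c) (u : P) :
    del L c (fun w => u • w) S = L u ^ (rps c S).card := by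
  unfold del
  rw [Finset.prod_congr rfl (g := fun _ => L u), Finset.prod_const]
  intro w hw
  rw [hc.map w (mem_rps.1 hw).1, (mem_rps.1 hw).2, mul_one]

omit [MulAction P Ω] in
theorem del_union {L : P →* A} {S S' : Finset Ω} [DecidableEq Ω] {c : Ω → P} {a : Ω → Ω}
    (h : Disjoint S S') : del L c a (S ∪ S') = del L c a S * del L c a S' := by
  classical
  unfold del rps
  rw [Finset.filter_union, Finset.prod_union]
  exact Finset.disjoint_filter_filter h

/-- The cardinality of a free `P`-set. -/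
theorem card_eq {S : Finset Ω} {c : Ω → P} (hc : Tv S c) :
    S.card = Nat.card P * (rps c S).card := by
  classical
  by_cases hne : S.Nonempty
  · obtain ⟨w0, hw0⟩ := hne
    -- `P` is finite
    have hfin : Finite P := by
      refine Finite.of_injective (fun e : P => (⟨e • w0, hc.stable w0 hw0 e⟩ : {x // x ∈ S})) ?_
      intro e e' h
      have h1 : e • w0 = e' • w0 := congrArg Subtype.val h
      have h2 : (e'⁻¹ * e) • w0 = w0 := by rw [mul_smul, h1, inv_smul_smul]
      have h3 := hc.free hw0 h2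
      exact (inv_mul_eq_one.1 h3).symm
    have : Fintype P := Fintype.ofFinite P
    rw [Nat.card_eq_fintype_card, ← Finset.card_univ, ← Finset.card_product]
    refine (Finset.card_bij (fun (t : P × Ω) _ => t.1 • t.2) ?_ ?_ ?_).symm
    · intro t ht
      rw [Finset.mem_product] at ht
      exact hc.stable _ (mem_rps.1 ht.2).1 _
    · intro t ht t' ht' h
      rw [Finset.mem_product] at ht ht'
      have h1 := congrArg c h
      have m1 := mem_rps.1 ht.2
      have m2 := mem_rps.1 ht'.2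
      rw [hc.map _ m1.1, hc.map _ m2.1, m1.2, m2.2, mul_one, mul_one] at h1
      have h2 : t.2 = t'.2 := by
        simp only [h1] at h
        exact MulAction.injective _ h
      exact Prod.ext h1 h2
    · intro w hw
      refine ⟨(c w, (c w)⁻¹ • w), ?_, ?_⟩
      · rw [Finset.mem_product]
        exact ⟨Finset.mem_univ _, hc.rep_mem hw⟩
      · simp
  · rw [Finset.not_nonempty_iff_eq_empty] at hne
    subst hne
    simp [rps]

/-- A free stable set has a trivialisation. -/
theorem exists_tv (S : Finset Ω) (hst : ∀ w ∈ S, ∀ e : P, e • w ∈ S)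
    (hfree : ∀ w ∈ S, ∀ e : P, e • w = w → e = 1) : ∃ c : Ω → P, Tv S c := by
  classical
  let r : Ω → Ω := fun w => (Quotient.mk (MulAction.orbitRel P Ω) w).out
  have hr : ∀ w, ∃ e : P, e • r w = w := by
    intro w
    have h0 : Quotient.mk (MulAction.orbitRel P Ω) (r w) = Quotient.mk (MulAction.orbitRel P Ω) w :=
      Quotient.out_eq _
    have h1 : (MulAction.orbitRel P Ω) w (r w) := Quotient.exact h0.symm
    exact h1
  choose c hcw using hr
  have hr2 : ∀ w (e : P), r (e • w) = r w := by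
    intro w e
    have : Quotient.mk (MulAction.orbitRel P Ω) (e • w) = Quotient.mk (MulAction.orbitRel P Ω) w :=
      Quotient.sound ⟨e, rfl⟩
    simp only [r, this]
  refine ⟨c, hst, ?_⟩
  intro w hw e
  have h1 := hcw (e • w)
  rw [hr2] at h1
  have h2 := hcw w
  have hrS : r w ∈ S := by
    have : r w = (c w)⁻¹ • w := by rw [eq_inv_smul_iff]; exact h2
    rw [this]; exact hst w hw _
  have h3 : ((e * c w)⁻¹ * c (e • w)) • r w = r w := by
    rw [mul_smul, h1, mul_inv_rev, mul_smul, inv_smul_smul]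
    rw [inv_smul_eq_iff]; exact h2.symm
  have h4 := hfree _ hrS _ h3
  exact (inv_mul_eq_one.1 h4).symm

theorem Tv.mono {S S' : Finset Ω} {c : Ω → P} (h : Tv S c) (hS : S' ⊆ S)
    (hst : ∀ w ∈ S', ∀ e : P, e • w ∈ S') : Tv S' c :=
  ⟨hst, fun w hw e => h.map w (hS hw) e⟩

end P179V
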