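import Vale.Agent.P179.H166.V1

/-!
# The transfer of a permutation of `p`-power order: cycle formula and comparison
-/

set_option linter.unusedSectionVars false

namespace P179V

open scoped Classical

variable {P Ω A : Type*} [Group P] [MulAction P Ω] [CommGroup A]

section cycle

variable {S : Finset Ω} {c : Ω → P} {f : Ω → Ω}

theorem iter_mul (hf : Ev P S S f) {w : Ω} (hw : w ∈ S) {m : ℕ} {τ : P} (h : f^[m] w = τ • w)
    (l : ℕ) : f^[m * l] w = τ ^ l • w := by
  induction l with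
  | zero => simp
  | succ l ih =>
    rw [Nat.mul_succ, add_comm, Function.iterate_add_apply, ih, (hf.iterate m).comm w hw, h,
      smul_smul, pow_succ]

theorem iter_mod (hf : Ev P S S f) {w : Ω} (hw : w ∈ S) {m : ℕ} {τ : P} (h : f^[m] w = τ • w)
    (k : ℕ) : f^[k] w = τ ^ (k / m) • f^[k % m] w := by
  conv_lhs => rw [← Nat.mod_add_div k m, Function.iterate_add_apply, iter_mul hf hw h,
    (hf.iterate _).comm w hw]

variable (P) in
/-- The class of `w` under `P` and `f`. -/
noncomputable def cyc (f : Ω → Ω) (S : Finset Ω) (w : Ω) : Finset Ω :=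
  S.filter (fun w' => ∃ (e : P) (k : ℕ), w' = e • f^[k] w)

theorem mem_cyc (hc : Tv S c) (hf : Ev P S S f) {w : Ω} (hw : w ∈ S) {w' : Ω} :
    w' ∈ cyc P f S w ↔ ∃ (e : P) (k : ℕ), w' = e • f^[k] w := by
  rw [cyc, Finset.mem_filter]
  constructor
  · exact fun h => h.2
  · rintro ⟨e, k, rfl⟩
    exact ⟨hc.stable _ ((hf.iterate k).maps w hw) e, e, k, rfl⟩

theorem cyc_stable (hc : Tv S c) (hf : Ev P S S f) {w : Ω} (hw : w ∈ S) :
    ∀ w' ∈ cyc P f S w, ∀ e : P, e • w' ∈ cyc P f S w := by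
  intro w' hw' e
  rw [mem_cyc hc hf hw] at hw' ⊢
  obtain ⟨e', k, rfl⟩ := hw'
  exact ⟨e * e', k, (mul_smul _ _ _).symm⟩

theorem ev_of_maps {S' : Finset Ω} (hf : Ev P S S f) (hS : S' ⊆ S) (hm : ∀ w ∈ S', f w ∈ S') :
    Ev P S' S' f where
  maps := hm
  comm w hw e := hf.comm w (hS hw) e
  inj w hw w' hw' h := hf.inj w (hS hw) w' (hS hw') h
  surj w' hw' := by
    obtain ⟨w, hw, he⟩ := Finset.surj_on_of_inj_on_of_card_le (s := S') (t := S')
      (fun a _ => f a) (fun a ha => hm a ha)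
      (fun a b ha hb h => hf.inj a (hS ha) b (hS hb) h) le_rfl w' hw'
    exact ⟨w, hw, he.symm⟩

theorem ev_cyc (hc : Tv S c) (hf : Ev P S S f) {w : Ω} (hw : w ∈ S) :
    Ev P (cyc P f S w) (cyc P f S w) f := by
  refine ev_of_maps hf (Finset.filter_subset _ _) ?_
  intro w' hw'
  rw [mem_cyc hc hf hw] at hw' ⊢
  obtain ⟨e, k, rfl⟩ := hw'
  refine ⟨e, k + 1, ?_⟩
  rw [hf.comm _ ((hf.iterate k).maps w hw), Function.iterate_succ', Function.comp]

/-- **The transfer on a class.** -/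
theorem del_cyc (L : P →* A) (hc : Tv S c) (hf : Ev P S S f) {w : Ω} (hw : w ∈ S) {m : ℕ}
    (hm : 0 < m) {τ : P} (hτ : f^[m] w = τ • w)
    (hmin : ∀ k, 0 < k → k < m → ∀ e : P, f^[k] w ≠ e • w) :
    del L c f (cyc P f S w) = L τ ∧ (cyc P f S w).card = Nat.card P * m := by
  have hmem : ∀ k, f^[k] w ∈ S := fun k => (hf.iterate k).maps w hw
  let r : ℕ → Ω := fun k => (c (f^[k] w))⁻¹ • f^[k] w
  have hcC : Tv (cyc P f S w) c := hc.mono (Finset.filter_subset _ _) (cyc_stable hc hf hw)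
  have hinj : Set.InjOn r (Finset.range m) := by
    have key : ∀ k k' : ℕ, k ≤ k' → k' < m → r k = r k' → k = k' := by
      intro k k' hkk hk' h
      by_contra hne
      have h1 : f^[k] w = (c (f^[k] w) * (c (f^[k'] w))⁻¹) • f^[k'] w := by
        rw [mul_smul]
        change _ = c (f^[k] w) • r k'
        rw [← h]
        simp [r]
      have h2 : f^[k'] w = f^[k] (f^[k' - k] w) := by
        rw [← Function.iterate_add_apply]
        congr 2
        omega
      rw [h2, ← (hf.iterate k).comm _ (hmem _)] at h1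
      have h3 := (hf.iterate k).inj _ hw _ (hc.stable _ (hmem _) _) h1
      refine hmin (k' - k) (by omega) (by omega)
        (c (f^[k] w) * (c (f^[k'] w))⁻¹)⁻¹ ?_
      rw [eq_inv_smul_iff]
      rw [← h2] at h3
      exact h3.symm
    intro k hk k' hk' h
    rw [Finset.coe_range, Set.mem_Iio] at hk hk'
    rcases le_total k k' with hkk | hkk
    · exact key k k' hkk hk' h
    · exact (key k' k hkk hk h.symm).symm
  have himg : rps c (cyc P f S w) = (Finset.range m).image r := by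
    ext w'
    rw [Finset.mem_image]
    constructor
    · intro h
      have h1 := mem_rps.1 h
      obtain ⟨e, k, he⟩ := (mem_cyc hc hf hw).1 h1.1
      rw [iter_mod hf hw hτ k, smul_smul] at he
      refine ⟨k % m, Finset.mem_range.2 (Nat.mod_lt _ hm), ?_⟩
      have h2 := h1.2
      rw [he, hc.map _ (hmem _)] at h2
      rw [he]
      simp only [r]
      congr 1
      exact (eq_inv_of_mul_eq_one_left h2).symm
    · rintro ⟨k, _, rfl⟩
      refine hcC.rep_mem ?_
      rw [mem_cyc hc hf hw]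
      exact ⟨1, k, (one_smul _ _).symm⟩
  refine ⟨?_, ?_⟩
  · unfold del
    rw [himg, Finset.prod_image hinj]
    have h1 : ∀ k ∈ Finset.range m, L (c (f (r k))) = L (c (f^[k + 1] w)) / L (c (f^[k] w)) := by
      intro k _
      simp only [r]
      rw [hf.comm _ (hmem k), ← Function.comp_apply (f := f), ← Function.iterate_succ',
        hc.map _ (hmem _), map_mul, map_inv, div_eq_mul_inv, mul_comm]
    rw [Finset.prod_congr rfl h1, Finset.prod_range_div (fun k => L (c (f^[k] w)))]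
    rw [hτ, hc.map _ hw, map_mul]
    simp
  · rw [card_eq hcC, himg, Finset.card_image_of_injOn hinj, Finset.card_range]

end cycle

section pd

variable (p : ℕ) [hp : Fact p.Prime]

/-- `p ^ i` is the period of `w` modulo `P` and the value of `L` is `α`. -/
def Pd (L : P →* A) (f : Ω → Ω) (i : ℕ) (α : A) (w : Ω) : Prop :=
  (∃ e : P, L e = α ∧ f^[p ^ i] w = e • w) ∧ ∀ i' < i, ∀ e : P, f^[p ^ i'] w ≠ e • w

variable {p}

theorem Pd.min {L : P →* A} {S : Finset Ω} {f : Ω → Ω} (hf : Ev P S S f) {w : Ω} (hw : w ∈ S)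
    {i : ℕ} {α : A} (h : Pd p L f i α w) :
    ∀ k, 0 < k → k < p ^ i → ∀ e : P, f^[k] w ≠ e • w := by
  intro k hk hki e he
  have hex : ∃ m : ℕ, 0 < m ∧ ∃ e : P, f^[m] w = e • w := ⟨k, hk, e, he⟩
  obtain ⟨hm, τ, hτ⟩ := Nat.find_spec hex
  set m := Nat.find hex with hmdef
  have hmk : m ≤ k := Nat.find_min' hex ⟨hk, e, he⟩
  obtain ⟨⟨e', _, he'⟩, hno⟩ := h
  have h1 := iter_mod hf hw hτ (p ^ i)
  rw [he'] at h1
  have h2 : p ^ i % m = 0 := by
    by_contra hne
    have hlt := Nat.mod_lt (p ^ i) hm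
    refine Nat.find_min hex hlt ⟨Nat.pos_of_ne_zero hne, (τ ^ (p ^ i / m))⁻¹ * e', ?_⟩
    rw [mul_smul, h1, inv_smul_smul]
  obtain ⟨i', _, hi'⟩ := (Nat.dvd_prime_pow hp.out).1 (Nat.dvd_of_mod_eq_zero h2)
  have h3 : i' < i := by
    by_contra hge
    have := Nat.pow_le_pow_right hp.out.pos (not_lt.1 hge)
    omega
  refine hno i' h3 τ ?_
  rw [← hi']
  exact hτ

theorem Pd.smul_iff {L : P →* A} {S : Finset Ω} {c : Ω → P} (hc : Tv S c) {f : Ω → Ω}
    (hf : Ev P S S f) {w : Ω} (hw : w ∈ S) {i : ℕ} {α : A} (e : P) (k : ℕ) :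
    Pd p L f i α (e • f^[k] w) ↔ Pd p L f i α w := by
  have key : ∀ (n : ℕ) (d : P),
      f^[n] (e • f^[k] w) = (e * d * e⁻¹) • (e • f^[k] w) ↔ f^[n] w = d • w := by
    intro n d
    have h1 : f^[n] (e • f^[k] w) = e • f^[k] (f^[n] w) := by
      rw [(hf.iterate n).comm _ ((hf.iterate k).maps w hw), ← Function.iterate_add_apply,
        ← Function.iterate_add_apply, add_comm]
    have h2 : (e * d * e⁻¹) • (e • f^[k] w) = e • f^[k] (d • w) := by
      rw [(hf.iterate k).comm w hw, smul_smul, smul_smul]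
      congr 1
      group
    rw [h1, h2]
    constructor
    · intro h
      exact (hf.iterate k).inj _ ((hf.iterate n).maps w hw) _ (hc.stable w hw d)
        (MulAction.injective e h)
    · intro h
      rw [h]
  unfold Pd
  refine and_congr ?_ ?_
  · constructor
    · rintro ⟨d, h1, h2⟩
      refine ⟨e⁻¹ * d * e, ?_, ?_⟩
      · rw [map_mul, map_mul, map_inv, mul_comm, ← mul_assoc, mul_inv_cancel, one_mul, h1]
      · rw [← key]
        rw [h2]
        congr 1
        group
    · rintro ⟨d, h1, h2⟩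
      refine ⟨e * d * e⁻¹, ?_, (key _ _).2 h2⟩
      rw [map_mul, map_mul, map_inv, mul_comm, ← mul_assoc, inv_mul_cancel, one_mul, h1]
  · refine forall_congr' fun i' => forall_congr' fun _ => ?_
    constructor
    · intro h d hd
      exact h _ ((key _ d).2 hd)
    · intro h d hd
      refine h (e⁻¹ * d * e) ?_
      rw [← key, hd]
      congr 1
      group

/-- The transfer on a set of elements with the same `i` and `α`. -/
theorem del_pd {L : P →* A} {S : Finset Ω} {c : Ω → P} (hc : Tv S c) {f : Ω → Ω}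
    (hf : Ev P S S f) {i : ℕ} {α : A} :
    ∀ (n : ℕ) (B : Finset Ω), B.card ≤ n → B ⊆ S → (∀ w ∈ B, ∀ e : P, e • w ∈ B) →
      (∀ w ∈ B, f w ∈ B) → (∀ w ∈ B, Pd p L f i α w) →
      ∃ b : ℕ, B.card = p ^ i * Nat.card P * b ∧ del L c f B = α ^ b := by
  intro n
  induction n with
  | zero =>
    intro B hB _ _ _ _
    have : B = ∅ := Finset.card_eq_zero.1 (Nat.le_zero.1 hB)
    subst this
    exact ⟨0, by simp, by simp [del, rps]⟩
  | succ n ih =>
    intro B hB hBS hst hfB hPd
    rcases B.eq_empty_or_nonempty with rfl | ⟨w, hw⟩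
    · exact ⟨0, by simp, by simp [del, rps]⟩
    · have hcB : Tv B c := hc.mono hBS hst
      have hfB' : Ev P B B f := ev_of_maps hf hBS hfB
      obtain ⟨⟨τ, hτα, hτ⟩, hno⟩ := hPd w hw
      have hcy := del_cyc L hcB hfB' hw (pow_pos hp.out.pos i) hτ
        (Pd.min hf (hBS hw) (hPd w hw))
      have hwC : w ∈ cyc P f B w := (mem_cyc hcB hfB' hw).2 ⟨1, 0, by simp⟩
      have hsub : cyc P f B w ⊆ B := Finset.filter_subset _ _
      have hfC := ev_cyc hcB hfB' hw
      obtain ⟨b, hb1, hb2⟩ := ih (B \ cyc P f B w) (by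
          have : (B \ cyc P f B w).card < B.card := by
            refine Finset.card_lt_card ⟨Finset.sdiff_subset, fun h => ?_⟩
            exact (Finset.mem_sdiff.1 (h hw)).2 hwC
          omega) (Finset.sdiff_subset.trans hBS) (by
          intro w' hw' e
          rw [Finset.mem_sdiff] at hw' ⊢
          refine ⟨hst w' hw'.1 e, fun h => hw'.2 ?_⟩
          have := cyc_stable hcB hfB' hw _ h e⁻¹
          rwa [inv_smul_smul] at this) (by
          intro w' hw'
          rw [Finset.mem_sdiff] at hw' ⊢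
          refine ⟨hfB w' hw'.1, fun h => hw'.2 ?_⟩
          obtain ⟨w'', hw'', he⟩ := hfC.surj _ h
          have := hf.inj w'' (hBS (hsub hw'')) w' (hBS hw'.1) he
          rwa [← this]) (fun w' hw' => hPd w' (Finset.mem_sdiff.1 hw').1)
      refine ⟨b + 1, ?_, ?_⟩
      · rw [← Finset.card_sdiff_add_card_eq_card hsub, hb1, hcy.2]
        ring
      · have h1 : B = cyc P f B w ∪ (B \ cyc P f B w) := (Finset.union_sdiff_of_subset hsub).symm
        conv_lhs => rw [h1]
        rw [del_union Finset.disjoint_sdiff, hcy.1, hb2, hτα, pow_succ']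

theorem Pd.unique {L : P →* A} {S : Finset Ω} {c : Ω → P} (hc : Tv S c) {f : Ω → Ω} {w : Ω}
    (hw : w ∈ S) {i i' : ℕ} {α α' : A} (h : Pd p L f i α w) (h' : Pd p L f i' α' w) :
    i = i' ∧ α = α' := by
  obtain ⟨⟨e, h1, h2⟩, h3⟩ := h
  obtain ⟨⟨e', h1', h2'⟩, h3'⟩ := h'
  have hi : i = i' := by
    rcases lt_trichotomy i i' with hlt | heq | hgt
    · exact absurd h2 (h3' i hlt e)
    · exact heq
    · exact absurd h2' (h3 i' hgt e')
  subst hi
  refine ⟨rfl, ?_⟩
  rw [h2] at h2'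
  have h4 : (e'⁻¹ * e) • w = w := by rw [mul_smul, h2', inv_smul_smul]
  have h5 := hc.free hw h4
  rw [← h1, ← h1']
  congr 1
  exact (inv_mul_eq_one.1 h5).symm

theorem Pd.exists {L : P →* A} {f : Ω → Ω} {w : Ω} {N : ℕ} (hN : f^[p ^ N] w = w) :
    ∃ i ≤ N, ∃ α : A, Pd p L f i α w := by
  have hex : ∃ i : ℕ, ∃ e : P, f^[p ^ i] w = e • w := ⟨N, 1, by rw [hN, one_smul]⟩
  obtain ⟨e, he⟩ := Nat.find_spec hex
  refine ⟨Nat.find hex, Nat.find_min' hex ⟨1, by rw [hN, one_smul]⟩, L e, ⟨e, rfl, he⟩, ?_⟩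
  intro i' hi' e' h
  exact Nat.find_min hex hi' ⟨e', h⟩

/-- **Cycle formula.** -/
theorem del_formula [Fintype A] (L : P →* A) {S : Finset Ω} {c : Ω → P} (hc : Tv S c)
    {f : Ω → Ω} (hf : Ev P S S f) {N : ℕ} (hN : ∀ w ∈ S, f^[p ^ N] w = w) :
    ∃ b : ℕ → A → ℕ,
      (∀ i α, (S.filter (fun w => Pd p L f i α w)).card = p ^ i * Nat.card P * b i α) ∧
      del L c f S = ∏ i ∈ Finset.range (N + 1), ∏ α : A, α ^ b i α := by
  have hB : ∀ i α, ∃ b : ℕ, (S.filter (fun w => Pd p L f i α w)).card = p ^ i * Nat.card P * b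
      ∧ del L c f (S.filter (fun w => Pd p L f i α w)) = α ^ b := by
    intro i α
    refine del_pd hc hf _ _ le_rfl (Finset.filter_subset _ _) ?_ ?_ ?_
    · intro w hw e
      rw [Finset.mem_filter] at hw ⊢
      exact ⟨hc.stable w hw.1 e, (Pd.smul_iff hc hf hw.1 e 0).2 hw.2⟩
    · intro w hw
      rw [Finset.mem_filter] at hw ⊢
      refine ⟨hf.maps w hw.1, ?_⟩
      have := (Pd.smul_iff (p := p) (L := L) (i := i) (α := α) hc hf hw.1 1 1).2 hw.2
      rwa [one_smul] at this
    · intro w hw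
      exact (Finset.mem_filter.1 hw).2
  choose b hb1 hb2 using hB
  refine ⟨b, hb1, ?_⟩
  rw [← Finset.prod_product']
  have hkey : ∀ w ∈ S, ∃ k : ℕ × A, k ∈ Finset.range (N + 1) ×ˢ (Finset.univ : Finset A) ∧
      Pd p L f k.1 k.2 w := by
    intro w hw
    obtain ⟨i, hi, α, h⟩ := Pd.exists (L := L) (hN w hw)
    exact ⟨(i, α), Finset.mem_product.2 ⟨Finset.mem_range.2 (by omega), Finset.mem_univ _⟩, h⟩
  choose! key hk1 hk2 using hkey
  unfold del
  rw [← Finset.prod_fiberwise_of_maps_to (s := rps c S)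
    (t := Finset.range (N + 1) ×ˢ (Finset.univ : Finset A)) (g := key)
    (fun w hw => hk1 w (mem_rps.1 hw).1)]
  refine Finset.prod_congr rfl fun k _ => ?_
  rw [← hb2 k.1 k.2]
  unfold del
  refine Finset.prod_congr ?_ fun _ _ => rfl
  ext w
  rw [Finset.mem_filter, mem_rps, mem_rps, Finset.mem_filter]
  constructor
  · rintro ⟨⟨h1, h2⟩, rfl⟩
    exact ⟨⟨h1, hk2 w h1⟩, h2⟩
  · rintro ⟨⟨h1, h2⟩, h3⟩
    refine ⟨⟨h1, h3⟩, ?_⟩
    have := Pd.unique hc h1 (hk2 w h1) h2
    exact Prod.ext this.1 this.2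

/-- the number of `w` with `f^[p ^ j] w = e • w`, `L e = α` -/
noncomputable def cnt (p : ℕ) (L : P →* A) (f : Ω → Ω) (S : Finset Ω) (j : ℕ) (α : A) : ℕ :=
  (S.filter (fun w => ∃ e : P, L e = α ∧ f^[p ^ j] w = e • w)).card

theorem card_pd_zero (L : P →* A) (S : Finset Ω) (f : Ω → Ω) (α : A) :
    (S.filter (fun w => Pd p L f 0 α w)).card = cnt p L f S 0 α := by
  unfold cnt
  refine congrArg Finset.card (Finset.filter_congr fun w _ => ?_)
  unfold Pd
  simp

theorem card_pd_succ [Fintype A] (L : P →* A) {S : Finset Ω} {c : Ω → P} (hc : Tv S c)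
    {f : Ω → Ω} (hf : Ev P S S f) (i : ℕ) (α : A) :
    cnt p L f S (i + 1) α = (S.filter (fun w => Pd p L f (i + 1) α w)).card
      + ∑ β ∈ Finset.univ.filter (fun β : A => β ^ p = α), cnt p L f S i β := by
  have hstep : ∀ w ∈ S, ∀ (i : ℕ) (e : P), f^[p ^ i] w = e • w → f^[p ^ (i + 1)] w = e ^ p • w := by
    intro w hw i e h
    rw [pow_succ]
    exact iter_mul hf hw h p
  have hstep' : ∀ w ∈ S, ∀ (i k : ℕ) (e : P), f^[p ^ i] w = e • w →
      ∃ e' : P, f^[p ^ (i + k)] w = e' • w := by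
    intro w hw i k
    induction k with
    | zero => intro e h; exact ⟨e, h⟩
    | succ k ih =>
      intro e h
      obtain ⟨e', he'⟩ := ih e h
      exact ⟨e' ^ p, hstep w hw _ _ he'⟩
  unfold cnt
  rw [← Finset.card_biUnion]
  · rw [← Finset.card_union_of_disjoint]
    · congr 1
      ext w
      simp only [Finset.mem_union, Finset.mem_filter, Finset.mem_biUnion, Finset.mem_univ,
        true_and]
      constructor
      · rintro ⟨h1, e, h2, h3⟩
        by_cases hP : ∃ e' : P, f^[p ^ i] w = e' • w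
        · obtain ⟨e', he'⟩ := hP
          right
          refine ⟨L e', ?_, h1, e', rfl, he'⟩
          have h4 := hstep w h1 i e' he'
          rw [h3] at h4
          have h5 : (e⁻¹ * e' ^ p) • w = w := by rw [mul_smul, ← h4, inv_smul_smul]
          have h6 := inv_mul_eq_one.1 (hc.free h1 h5)
          rw [← map_pow, ← h6, h2]
        · left
          refine ⟨h1, ⟨e, h2, h3⟩, ?_⟩
          intro i' hi' e' he'
          apply hP
          obtain ⟨k, hk⟩ := Nat.exists_eq_add_of_le (Nat.lt_succ_iff.1 hi')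
          rw [hk]
          exact hstep' w h1 i' k e' he'
      · rintro (⟨h1, h2, _⟩ | ⟨β, hβ, h1, e, h2, h3⟩)
        · exact ⟨h1, h2⟩
        · exact ⟨h1, e ^ p, by rw [map_pow, h2, hβ], hstep w h1 i e h3⟩
    · rw [Finset.disjoint_left]
      intro w hw hw'
      simp only [Finset.mem_filter, Finset.mem_biUnion, Finset.mem_univ, true_and] at hw hw'
      obtain ⟨β, _, _, e, _, he⟩ := hw'
      exact hw.2.2 i (Nat.lt_succ_self i) e he
  · intro β _ β' _ hne
    rw [Function.onFun, Finset.disjoint_left]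
    intro w hw hw'
    rw [Finset.mem_filter] at hw hw'
    obtain ⟨h1, e, h2, h3⟩ := hw
    obtain ⟨_, e', h2', h3'⟩ := hw'
    apply hne
    rw [h3] at h3'
    have h5 : (e'⁻¹ * e) • w = w := by rw [mul_smul, h3', inv_smul_smul]
    have h6 := inv_mul_eq_one.1 (hc.free h1 h5)
    rw [← h2, ← h2', h6]

/-- **Comparison of transfers.** -/
theorem del_eq_of_dvd [Fintype A] (L : P →* A) {S S' : Finset Ω} {c c' : Ω → P}
    (hc : Tv S c) (hc' : Tv S' c') {f : Ω → Ω} (hf : Ev P S S f) (hf' : Ev P S' S' f) {N : ℕ}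
    (hP : 0 < Nat.card P) (hA : ∀ α : A, ∃ n : ℕ, α ^ p ^ n = 1)
    (hN : ∀ w ∈ S, f^[p ^ N] w = w) (hN' : ∀ w ∈ S', f^[p ^ N] w = w)
    (h : ∀ (j : ℕ) (α : A), α ≠ 1 → ((p ^ j * orderOf α * Nat.card P : ℕ) : ℤ) ∣
      (cnt p L f S j α : ℤ) - cnt p L f S' j α) :
    del L c f S = del L c' f S' := by
  obtain ⟨b, hb1, hb2⟩ := del_formula (p := p) L hc hf hN
  obtain ⟨b', hb1', hb2'⟩ := del_formula (p := p) L hc' hf' hN'
  rw [hb2, hb2']
  refine Finset.prod_congr rfl fun i _ => Finset.prod_congr rfl fun α _ => ?_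
  by_cases hα : α = 1
  · rw [hα, one_pow, one_pow]
  have hdvd : ((p ^ i * orderOf α * Nat.card P : ℕ) : ℤ) ∣
      ((S.filter (fun w => Pd p L f i α w)).card : ℤ)
        - (S'.filter (fun w => Pd p L f i α w)).card := by
    cases i with
    | zero =>
      rw [card_pd_zero, card_pd_zero]
      exact h 0 α hα
    | succ i =>
      have e1 := card_pd_succ (p := p) L hc hf i α
      have e2 := card_pd_succ (p := p) L hc' hf' i α
      have e3 : ((S.filter (fun w => Pd p L f (i + 1) α w)).card : ℤ)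
          - (S'.filter (fun w => Pd p L f (i + 1) α w)).card
          = ((cnt p L f S (i + 1) α : ℤ) - cnt p L f S' (i + 1) α)
            - ∑ β ∈ Finset.univ.filter (fun β : A => β ^ p = α),
              ((cnt p L f S i β : ℤ) - cnt p L f S' i β) := by
        rw [e1, e2, Finset.sum_sub_distrib]
        push_cast
        ring
      rw [e3]
      refine dvd_sub (h (i + 1) α hα) (Finset.dvd_sum fun β hβ => ?_)
      rw [Finset.mem_filter] at hβ
      have hβ1 : β ≠ 1 := by
        rintro rfl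
        rw [one_pow] at hβ
        exact hα hβ.2.symm
      have hord : orderOf β = p * orderOf α := by
        have h1 : orderOf α = orderOf β / p := by
          rw [← hβ.2]
          refine orderOf_pow_of_dvd hp.out.ne_zero ?_
          obtain ⟨n, hn⟩ := hA β
          obtain ⟨k, _, hk⟩ := (Nat.dvd_prime_pow hp.out).1 (orderOf_dvd_of_pow_eq_one hn)
          rw [hk]
          refine dvd_pow_self p ?_
          rintro rfl
          rw [pow_zero, orderOf_eq_one_iff] at hk
          exact hβ1 hk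
        rw [h1, Nat.mul_div_cancel']
        obtain ⟨n, hn⟩ := hA β
        obtain ⟨k, _, hk⟩ := (Nat.dvd_prime_pow hp.out).1 (orderOf_dvd_of_pow_eq_one hn)
        rw [hk]
        refine dvd_pow_self p ?_
        rintro rfl
        rw [pow_zero, orderOf_eq_one_iff] at hk
        exact hβ1 hk
      have h2 := h i β hβ1
      rw [hord] at h2
      rwa [show p ^ (i + 1) * orderOf α * Nat.card P = p ^ i * (p * orderOf α) * Nat.card P by ring]
  rw [hb1, hb1'] at hdvd
  have h3 : ((orderOf α : ℕ) : ℤ) ∣ (b i α : ℤ) - b' i α := by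
    have hpos : ((p ^ i * Nat.card P : ℕ) : ℤ) ≠ 0 := by
      have : 0 < p ^ i * Nat.card P := Nat.mul_pos (pow_pos hp.out.pos i) hP
      exact_mod_cast this.ne'
    have e1 : ((p ^ i * orderOf α * Nat.card P : ℕ) : ℤ)
        = ((p ^ i * Nat.card P : ℕ) : ℤ) * ((orderOf α : ℕ) : ℤ) := by push_cast; ring
    have e2 : (((p ^ i * Nat.card P * b i α : ℕ) : ℤ) - ((p ^ i * Nat.card P * b' i α : ℕ) : ℤ))
        = ((p ^ i * Nat.card P : ℕ) : ℤ) * ((b i α : ℤ) - b' i α) := by push_cast; ring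
    rw [e1, e2] at hdvd
    exact (mul_dvd_mul_iff_left hpos).1 hdvd
  rw [pow_eq_pow_iff_modEq]
  exact (Int.natCast_modEq_iff.1 (Int.modEq_iff_dvd.2 h3)).symm

end pd

end P179V
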