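import Vale.Agent.P179.H166.V2
import Vale.Agent.P179.H166.MainPlus

/-!
# The main lemma for nonabelian `p`-subgroups: transfer half
-/

set_option linter.unusedSectionVars false

namespace P179V

open Subgroup P179A

open scoped Classical Pointwise

/-! ### sums over orbits -/

/-- **Orbit sum lemma.** -/
theorem dvd_sum_orbit {H Y : Type*} [Group H] [MulAction H Y] [Fintype Y] (N : Y → ℤ)
    (hN : ∀ (h : H) (y : Y), N (h • y) = N y) (m : ℤ)
    (hm : ∀ y, m ∣ (Nat.card (MulAction.orbit H y) : ℤ) * N y) : m ∣ ∑ y, N y := by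
  let _ : Fintype (Quotient (MulAction.orbitRel H Y)) := Fintype.ofFinite _
  rw [← Finset.sum_fiberwise (s := Finset.univ)
    (g := fun y : Y => (Quotient.mk (MulAction.orbitRel H Y) y))]
  refine Finset.dvd_sum fun j _ => ?_
  induction j using Quotient.inductionOn with
  | _ y0 =>
    have h1 : ∀ y ∈ Finset.univ.filter (fun y : Y =>
        Quotient.mk (MulAction.orbitRel H Y) y = Quotient.mk (MulAction.orbitRel H Y) y0),
        N y = N y0 := by
      intro y hy
      obtain ⟨h, rfl⟩ := (Quotient.exact (Finset.mem_filter.1 hy).2 : MulAction.orbitRel H Y y y0)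
      exact hN h y0
    rw [Finset.sum_congr rfl h1, Finset.sum_const, nsmul_eq_mul]
    have h2 : (Finset.univ.filter (fun y : Y =>
        Quotient.mk (MulAction.orbitRel H Y) y = Quotient.mk (MulAction.orbitRel H Y) y0)).card
        = Nat.card (MulAction.orbit H y0) := by
      rw [Nat.card_eq_card_toFinset]
      congr 1
      ext y
      rw [Finset.mem_filter, Set.mem_toFinset]
      constructor
      · rintro ⟨_, h⟩
        exact (Quotient.exact h : MulAction.orbitRel H Y y y0)
      · intro h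
        exact ⟨Finset.mem_univ _, Quotient.sound h⟩
    rw [h2]
    exact hm y0

variable {G : Type*} [Group G] [Finite G]

/-! ### the free triples -/

section free

variable {P : Subgroup G} {A : Type*} [CommGroup A] {p : ℕ} {g : G}

theorem FPs_stable (hg : ∀ a ∈ P, a * g = g * a) {ε : ℤ} {w : Tri G} (hw : w ∈ FP p g P ε)
    (e : P) : e • w ∈ FP p g P ε := by
  rw [mem_FP] at hw ⊢
  refine ⟨hw.1.smul (hg e e.2), U_smul_gen e.2 w hw.2.1, ?_⟩
  change (-1 : ℤ) ^ ((e : G) • w).s.card = ε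
  rw [smul_s, card_smul_chain]
  exact hw.2.2

theorem FPs_free {ε : ℤ} {w : Tri G} (hw : w ∈ FP p g P ε) {e : P} (he : e • w = w) : e = 1 := by
  rw [mem_FP] at hw
  have h1 := (smul_eq_iff (p := p) hw.1.chain e.2).1 he
  rw [hw.2.1, mem_bot] at h1
  exact Subtype.ext h1

theorem ev_mk {P Ω : Type*} [Group P] [MulAction P Ω] {S : Finset Ω} {f : Ω → Ω}
    (h1 : ∀ w ∈ S, f w ∈ S) (h2 : ∀ w ∈ S, ∀ e : P, f (e • w) = e • f w)
    (h3 : Function.Injective f) : Ev P S S f where
  maps := h1
  comm := h2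
  inj _ _ _ _ h := h3 h
  surj w' hw' := by
    obtain ⟨w, hw, he⟩ := Finset.surj_on_of_inj_on_of_card_le (s := S) (t := S)
      (fun a _ => f a) (fun a ha => h1 a ha) (fun a b _ _ h => h3 h) le_rfl w' hw'
    exact ⟨w, hw, he.symm⟩

theorem ev_s1 (p : ℕ) (g : G) (P : Subgroup G) (ε : ℤ) : Ev P (FP p g P ε) (FP p g P ε) s1 :=
  ev_mk (good_s1 p g P ε).maps (fun w _ e => s1_smul (e : G) w) (fun _ _ h => s1_inj h)

theorem ev_s2 (p : ℕ) (g : G) (P : Subgroup G) (ε : ℤ) : Ev P (FP p g P ε) (FP p g P ε) s2 :=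
  ev_mk (good_s2 p g P ε).maps (fun w _ e => s2_smul (e : G) w) (fun _ _ h => s2_inj h)

/-- The transfers of the braid generator and of the full twist. -/
theorem twist (L : P →* A) {ε : ℤ} {c : Tri G → P} (hcT : Tv (FP p g P ε) c) {q : ℕ}
    (hu : g ^ q ∈ P) :
    (L ⟨g ^ q, hu⟩)⁻¹ ^ (rps c (FP p g P ε)).card
      = (del L c (s1^[q]) (FP p g P ε)) ^ 12 := by
  have e1 := ev_s1 p g P ε
  have e2 := ev_s2 p g P ε
  set S := FP p g P ε with hS
  have d1 : del L c (fun w => s1 (s2 (s1 w))) S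
      = del L c s1 S * (del L c s2 S * del L c s1 S) := by
    rw [del_comp hcT e1 (e2.comp e1), del_comp hcT e2 e1]
  have d2 : del L c (fun w => s2 (s1 (s2 w))) S
      = del L c s2 S * (del L c s1 S * del L c s2 S) := by
    rw [del_comp hcT e2 (e1.comp e2), del_comp hcT e1 e2]
  have d3 : del L c (fun w : Tri G => s1 (s2 (s1 w))) S = del L c (fun w => s2 (s1 (s2 w))) S :=
    del_congr fun w _ => braid w
  have d4 : del L c s1 S = del L c s2 S := by
    rw [d1, d2] at d3
    have h1 : del L c s1 S * (del L c s1 S * del L c s2 S)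
        = del L c s2 S * (del L c s1 S * del L c s2 S) := by
      rw [← d3]; congr 1; exact mul_comm _ _
    exact mul_right_cancel h1
  have d5 : del L c (fun w : Tri G => s1 (s2 (s1 w))) S = del L c s1 S ^ 3 := by
    rw [d1, ← d4]; rw [pow_succ', pow_succ', pow_one]
  have e3 : Ev P S S (fun w => s1 (s2 (s1 w))) := e1.comp (e2.comp e1)
  have e4 : Ev P S S ((fun w : Tri G => s1 (s2 (s1 w)))^[4]) := e3.iterate 4
  have d6 := del_iterate (L := L) hcT e4 q
  rw [del_iterate hcT e3 4, d5] at d6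
  have d7 : del L c (((fun w : Tri G => s1 (s2 (s1 w)))^[4])^[q]) S
      = del L c (fun w => (⟨g ^ q, hu⟩ : P)⁻¹ • w) S := by
    have key : ∀ n : ℕ, ∀ w ∈ S, ((fun w : Tri G => s1 (s2 (s1 w)))^[4])^[n] w = (g⁻¹) ^ n • w := by
      intro n
      induction n with
      | zero => intro w _; simp
      | succ n ih =>
        intro w hw
        rw [Function.iterate_succ', Function.comp, ih w hw, pow_succ', mul_smul]
        refine delta_four (p := p) (g := g) ?_
        have hw' := (mem_FP.1 hw).1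
        refine hw'.smul ?_
        exact (Commute.pow_left (Commute.inv_left (Commute.refl g)) n)
    refine del_congr fun w hw => ?_
    rw [key q w hw, inv_pow]
    rfl
  rw [d7, del_smul hcT, map_inv] at d6
  rw [d6, del_iterate hcT e1 q, ← pow_mul, ← pow_mul, ← pow_mul]
  congr 1
  ring

/-- Signed count of the free triples with a property. -/
theorem card_sub_card (p : ℕ) (g : G) (P : Subgroup G) (C : Tri G → Prop) :
    (((FP p g P 1).filter C).card : ℤ) - ((FP p g P (-1)).filter C).card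
      = ∑ w ∈ (OF p g).filter (fun w => U P w = ⊥ ∧ C w), (-1 : ℤ) ^ w.s.card := by
  unfold FP
  rw [Finset.filter_filter, Finset.filter_filter, Finset.card_filter, Finset.card_filter,
    Finset.sum_filter]
  push_cast
  rw [← Finset.sum_sub_distrib]
  refine Finset.sum_congr rfl fun w _ => ?_
  rcases neg_one_pow_eq_or ℤ w.s.card with h | h
  · simp only [h]
    by_cases h1 : U P w = ⊥ <;> by_cases h2 : C w <;> simp [h1, h2]
  · simp only [h]
    by_cases h1 : U P w = ⊥ <;> by_cases h2 : C w <;> simp [h1, h2]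

end free

/-- The signed number of the triples with `s1^[n] w = τ • w`. -/
noncomputable def sN (p : ℕ) (g : G) (n : ℕ) (τ : G) : ℤ :=
  ∑ w ∈ (OF p g).filter (fun w => s1^[n] w = τ • w), (-1 : ℤ) ^ w.s.card

theorem s1_iter_smul (n : ℕ) (e : G) (w : Tri G) : s1^[n] (e • w) = e • s1^[n] w := by
  induction n with
  | zero => rfl
  | succ n ih => rw [Function.iterate_succ', Function.comp, ih, s1_smul]; rfl

theorem sN_conj {p : ℕ} {g e : G} (he : e * g = g * e) (n : ℕ) (τ : G) :
    sN p g n (e * τ * e⁻¹) = sN p g n τ := by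
  unfold sN
  symm
  have he' : e⁻¹ * g = g * e⁻¹ := by
    rw [inv_mul_eq_iff_eq_mul, ← mul_assoc, he, mul_inv_cancel_right]
  refine Finset.sum_nbij' (fun w => e • w) (fun w => e⁻¹ • w) ?_ ?_ ?_ ?_ ?_
  · intro w hw
    rw [Finset.mem_filter, mem_OF] at hw ⊢
    refine ⟨hw.1.smul he, ?_⟩
    rw [s1_iter_smul, hw.2, smul_smul, smul_smul]
    congr 1
    group
  · intro w hw
    rw [Finset.mem_filter, mem_OF] at hw ⊢
    refine ⟨hw.1.smul he', ?_⟩
    rw [s1_iter_smul, hw.2, smul_smul, smul_smul]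
    congr 1
    group
  · intro w _
    exact inv_smul_smul _ _
  · intro w _
    exact smul_inv_smul _ _
  · intro w _
    rw [smul_s, card_smul_chain]

/-- The nonfree triples do not contribute to `sN`. -/
theorem sN_nonfree {p : ℕ} [hp : Fact p.Prime] {P : Subgroup G} (hP : IsPGroup p P) {g τ : G}
    (hτ : τ ∈ P) (n : ℕ) :
    ∑ w ∈ (OF p g).filter (fun w => U P w ≠ ⊥ ∧ s1^[n] w = τ • w), (-1 : ℤ) ^ w.s.card = 0 := by
  have hUs : ∀ (m : ℕ) (w : Tri G), U P (s1^[m] w) = U P w := by
    intro m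
    induction m with
    | zero => intro w; rfl
    | succ m ih => intro w; rw [Function.iterate_succ', Function.comp, U_s1, ih]
  have hUsm : ∀ w : Tri G, ∀ a : G, a ∈ U P (τ • w) ↔ τ⁻¹ * a * τ ∈ U P w := by
    have hone : ∀ (e : G) (he : e ∈ P) (w : Tri G) (a : G), a ∈ U P w → e * a * e⁻¹ ∈ U P (e • w) := by
      intro e he w a ha
      rw [mem_U] at ha ⊢
      obtain ⟨h1, h2, h3, h4⟩ := ha
      refine ⟨mul_mem (mul_mem he h1) (inv_mem he), ?_, ?_, ?_⟩
      · rw [smul_x]
        calc e * a * e⁻¹ * (e * w.x * e⁻¹) = e * (a * w.x) * e⁻¹ := by group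
          _ = e * (w.x * a) * e⁻¹ := by rw [h2]
          _ = _ := by group
      · rw [smul_y]
        calc e * a * e⁻¹ * (e * w.y * e⁻¹) = e * (a * w.y) * e⁻¹ := by group
          _ = e * (w.y * a) * e⁻¹ := by rw [h3]
          _ = _ := by group
      · rw [smul_s, ← MulAut.conj_apply, smul_mem_stab_iff]
        exact h4
    intro w a
    constructor
    · intro h
      have := hone τ⁻¹ (inv_mem hτ) _ _ h
      rwa [inv_smul_smul, inv_inv] at this
    · intro h
      have := hone τ hτ _ _ h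
      have e1 : τ * (τ⁻¹ * a * τ) * τ⁻¹ = a := by group
      rwa [e1] at this
  refine Finset.sum_involution (fun w _ => tg (U P w) w) ?_ ?_ ?_ ?_
  · intro w hw
    simp only [tg]
    rw [neg_one_pow_card_tog]; ring
  · intro w hw _ h
    have := congrArg Tri.s h
    exact tog_ne _ _ this
  · intro w hw
    rw [Finset.mem_filter, mem_OF] at hw ⊢
    have hle : U P w ≤ T P w := inf_le_left
    refine ⟨hw.1.tg hP hle hw.2.1 (mem_normalizer_of_comm fun v hv => (mem_U.1 hv).2.2.1.symm),
      ?_, ?_⟩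
    · rw [U_tg_self hP hw.1.chain hw.2.1]
      exact hw.2.1
    · have h1 : U P (τ • w) = U P w := by rw [← hw.2.2, hUs]
      have h2 : MulAut.conj τ • U P w = U P w := by
        ext a
        rw [Subgroup.mem_pointwise_smul_iff_inv_smul_mem]
        have h3 : (MulAut.conj τ)⁻¹ • a = τ⁻¹ * a * τ := by simp [MulAut.smul_def]
        rw [h3, ← hUsm, h1]
      have h4 : s1^[n] (tg (U P w) w) = tg (U P w) (s1^[n] w) := by
        rw [s1_iterate, s1_iterate]
        rfl
      rw [h4, hw.2.2]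
      apply Tri.ext
      · rfl
      · rfl
      · simp only [tg, smul_s]
        rw [smul_tog, h2]
  · intro w hw
    rw [Finset.mem_filter, mem_OF] at hw
    rw [U_tg_self hP hw.1.chain hw.2.1, tg_tg]

/-- The statement to be proved for the signed numbers `sN`. -/
def CLStat (p : ℕ) (g : G) (q : ℕ) : Prop :=
  ∀ Q : Subgroup G, IsPGroup p Q → (∀ a ∈ Q, a * g = g * a) → ∀ τ ∈ Q,
    (∀ a ∈ Q, a * τ = τ * a) → τ ≠ 1 → ∀ j : ℕ,
      ((p ^ j * orderOf τ * Nat.card Q : ℕ) : ℤ) ∣ sN p g (q * p ^ j) τ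

section main

variable {p : ℕ} [hp : Fact p.Prime] {g : G} {q : ℕ} {P : Subgroup G} (hP : IsPGroup p P)
  (hg : ∀ a ∈ P, a * g = g * a) {A : Type*} [CommGroup A]

include hP hg in
/-- The sum of `sN` over a fibre of `L`. -/
theorem dvd_sum_sN (hCL : CLStat p g q) (L : P →* A) (j : ℕ) {α : A} (hα : α ≠ 1)
    [Fintype P] :
    ((p ^ j * orderOf α * Nat.card P : ℕ) : ℤ) ∣
      ∑ τ ∈ (Finset.univ : Finset P).filter (fun τ => L τ = α), sN p g (q * p ^ j) τ := by
  rw [Finset.sum_filter]
  refine dvd_sum_orbit (H := ConjAct P) (Y := P)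
    (fun τ => if L τ = α then sN p g (q * p ^ j) τ else 0) ?_ _ ?_
  · intro e τ
    have h1 : L (e • τ) = L τ := by
      rw [ConjAct.smul_def, map_mul, map_mul, map_inv, mul_comm, ← mul_assoc, inv_mul_cancel,
        one_mul]
    rw [h1]
    have h2 : sN p g (q * p ^ j) ((e • τ : P) : G) = sN p g (q * p ^ j) τ := by
      rw [ConjAct.smul_def]
      push_cast
      exact sN_conj (hg _ (ConjAct.ofConjAct e).2) _ _
    rw [h2]
  · intro τ
    by_cases hLτ : L τ = α
    · rw [if_pos hLτ]
      have hτ1 : (τ : G) ≠ 1 := by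
        intro h
        apply hα
        have : τ = 1 := Subtype.ext h
        rw [← hLτ, this, map_one]
      -- the centraliser of `τ` in `P`
      let Q : Subgroup G := P ⊓ centralizer {(τ : G)}
      have hQ := hCL Q (hP.to_le inf_le_left) (fun a ha => hg a ha.1) τ
        ⟨τ.2, mem_centralizer_singleton_iff.2 rfl⟩
        (fun a ha => mem_centralizer_singleton_iff.1 ha.2) hτ1 j
      have hcard : Nat.card (MulAction.orbit (ConjAct P) τ) * Nat.card Q = Nat.card P := by
        have h1 : Nat.card (MulAction.orbit (ConjAct P) τ)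
            * Nat.card (MulAction.stabilizer (ConjAct P) τ) = Nat.card (ConjAct P) := by
          rw [Nat.card_congr (MulAction.orbitEquivQuotientStabilizer (ConjAct P) τ)]
          exact (Subgroup.card_eq_card_quotient_mul_card_subgroup _).symm
        have h2 : Nat.card (MulAction.stabilizer (ConjAct P) τ) = Nat.card Q := by
          refine Nat.card_congr ⟨fun a => ⟨(ConjAct.ofConjAct a.1 : P), ?_⟩,
            fun b => ⟨ConjAct.toConjAct ⟨b.1, b.2.1⟩, ?_⟩, ?_, ?_⟩
          · refine ⟨(ConjAct.ofConjAct a.1 : P).2, mem_centralizer_singleton_iff.2 ?_⟩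
            have := a.2
            rw [MulAction.mem_stabilizer_iff, ConjAct.smul_def, mul_inv_eq_iff_eq_mul] at this
            exact congrArg Subtype.val this
          · rw [MulAction.mem_stabilizer_iff, ConjAct.smul_def, mul_inv_eq_iff_eq_mul]
            exact Subtype.ext (mem_centralizer_singleton_iff.1 b.2.2)
          · intro a; rfl
          · intro b; rfl
        rw [h2] at h1
        exact h1
      have h3 : orderOf α ∣ orderOf (τ : G) := by
        rw [← hLτ, Subgroup.orderOf_coe]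
        exact orderOf_map_dvd L τ
      obtain ⟨k, hk⟩ := hQ
      obtain ⟨l, hl⟩ := h3
      rw [hk, ← hcard, hl]
      refine ⟨(l : ℤ) * k, ?_⟩
      push_cast
      ring
    · rw [if_neg hLτ, mul_zero]
      exact dvd_zero _

theorem exists_exponent (p q : ℕ) (hq : ∀ x : G, ∃ n : ℕ, (x ^ q) ^ (p ^ n) = 1) :
    ∃ N : ℕ, ∀ x : G, (x ^ q) ^ (p ^ N) = 1 := by
  have : Fintype G := Fintype.ofFinite G
  choose n hn using hq
  refine ⟨∑ x : G, n x, fun x => ?_⟩
  rw [← Finset.add_sum_erase _ _ (Finset.mem_univ x), pow_add, pow_mul, hn, one_pow]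

include hP hg in
/-- The transfers of `s1^q` on the two sets of free triples agree. -/
theorem del_s1_eq [Finite A] (hq : ∀ x : G, ∃ n : ℕ, (x ^ q) ^ (p ^ n) = 1)
    (hCL : CLStat p g q) (L : P →* A) (hA : ∀ α : A, ∃ n : ℕ, α ^ p ^ n = 1)
    {c1 c2 : Tri G → P} (hc1 : Tv (FP p g P 1) c1) (hc2 : Tv (FP p g P (-1)) c2) :
    del L c1 (s1^[q]) (FP p g P 1) = del L c2 (s1^[q]) (FP p g P (-1)) := by
  have : Fintype A := Fintype.ofFinite A
  have : Fintype P := Fintype.ofFinite P
  -- a common exponent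
  obtain ⟨N, hN⟩ := exists_exponent p q hq
  have hf1 : ∀ ε : ℤ, Ev P (FP p g P ε) (FP p g P ε) s1^[q] := fun ε => (ev_s1 p g P ε).iterate q
  have hid : ∀ w : Tri G, (s1^[q])^[p ^ N] w = w := by
    intro w
    rw [← Function.iterate_mul, s1_iterate, pow_mul, hN]
    apply Tri.ext
    · rfl
    · simp [rm]
    · rfl
  have hcnt : ∀ (j : ℕ) (α : A), (cnt p L (s1^[q]) (FP p g P 1) j α : ℤ)
      - cnt p L (s1^[q]) (FP p g P (-1)) j α
      = ∑ τ ∈ (Finset.univ : Finset P).filter (fun τ => L τ = α), sN p g (q * p ^ j) τ := by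
    intro j α
    have h1 : ∀ (ε : ℤ), (cnt p L (s1^[q]) (FP p g P ε) j α)
        = ∑ τ ∈ (Finset.univ : Finset P).filter (fun τ => L τ = α),
          ((FP p g P ε).filter (fun w => s1^[q * p ^ j] w = (τ : G) • w)).card := by
      intro ε
      rw [cnt, ← Finset.card_biUnion]
      · congr 1
        ext w
        simp only [Finset.mem_filter, Finset.mem_biUnion, Finset.mem_univ, true_and]
        constructor
        · rintro ⟨h1, e, h2, h3⟩
          refine ⟨e, h2, h1, ?_⟩
          rw [Function.iterate_mul]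
          exact h3
        · rintro ⟨e, h2, h1, h3⟩
          refine ⟨h1, e, h2, ?_⟩
          rw [Function.iterate_mul] at h3
          exact h3
      · intro τ _ τ' _ hne
        rw [Function.onFun, Finset.disjoint_left]
        intro w hw hw'
        rw [Finset.mem_filter] at hw hw'
        apply hne
        have h4 : (τ : G) • w = (τ' : G) • w := by rw [← hw.2, ← hw'.2]
        have h5 : (τ'⁻¹ * τ : P) • w = w := by
          rw [mul_smul]
          change (τ' : P)⁻¹ • ((τ : G) • w) = w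
          rw [h4]
          exact inv_smul_smul τ' w
        exact (inv_mul_eq_one.1 (FPs_free hw.1 h5)).symm
    rw [h1, h1]
    push_cast
    rw [← Finset.sum_sub_distrib]
    refine Finset.sum_congr rfl fun τ _ => ?_
    rw [card_sub_card]
    unfold sN
    have h0 := sN_nonfree hP (g := g) τ.2 (q * p ^ j)
    rw [← Finset.sum_filter_add_sum_filter_not
      ((OF p g).filter (fun w => s1^[q * p ^ j] w = (τ : G) • w)) (fun w => U P w = ⊥),
      Finset.filter_filter (fun w => s1^[q * p ^ j] w = (τ : G) • w),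
      Finset.filter_filter (fun w => s1^[q * p ^ j] w = (τ : G) • w)]
    have e1 : (OF p g).filter (fun w => s1^[q * p ^ j] w = (τ : G) • w ∧ U P w = ⊥)
        = (OF p g).filter (fun w => U P w = ⊥ ∧ s1^[q * p ^ j] w = (τ : G) • w) :=
      Finset.filter_congr fun w _ => and_comm
    have e2 : (OF p g).filter (fun w => s1^[q * p ^ j] w = (τ : G) • w ∧ ¬ U P w = ⊥)
        = (OF p g).filter (fun w => U P w ≠ ⊥ ∧ s1^[q * p ^ j] w = (τ : G) • w) :=
      Finset.filter_congr fun w _ => and_comm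
    rw [e1, e2, h0, add_zero]
  refine del_eq_of_dvd (p := p) (N := N) L hc1 hc2 (hf1 1) (hf1 (-1)) Nat.card_pos hA
    (fun w _ => hid w) (fun w _ => hid w) ?_
  intro j α hα
  rw [hcnt]
  exact dvd_sum_sN hP hg hCL L j hα

include hg in
theorem exists_tv_FP (ε : ℤ) : ∃ c : Tri G → P, Tv (FP p g P ε) c :=
  exists_tv (FP p g P ε) (fun _ hw e => FPs_stable hg hw e) (fun _ hw _ he => FPs_free hw he)

include hP hg in
/-- Transfer half of the main lemma. -/
theorem main_V [Finite A] (hq : ∀ x : G, ∃ n : ℕ, (x ^ q) ^ (p ^ n) = 1)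
    (hCL : CLStat p g q) (hu : g ^ q ∈ P) (L : P →* A) (hA : ∀ α : A, ∃ n : ℕ, α ^ p ^ n = 1) :
    ((Nat.card P * orderOf (L ⟨g ^ q, hu⟩) : ℕ) : ℤ) ∣ ∑ w ∈ OF p g, (-1 : ℤ) ^ w.s.card := by
  obtain ⟨c1, hc1⟩ := exists_tv_FP (p := p) hg 1
  obtain ⟨c2, hc2⟩ := exists_tv_FP (p := p) hg (-1)
  have hdel := del_s1_eq hP hg hq hCL L hA hc1 hc2
  have t1 := twist L hc1 hu
  have t2 := twist L hc2 hu
  have key : (L ⟨g ^ q, hu⟩)⁻¹ ^ (rps c1 (FP p g P 1)).card
      = (L ⟨g ^ q, hu⟩)⁻¹ ^ (rps c2 (FP p g P (-1))).card := by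
    rw [t1, t2, hdel]
  rw [sum_OF_eq_gen hP, card_eq hc1, card_eq hc2]
  have hdiv : ((orderOf (L ⟨g ^ q, hu⟩) : ℕ) : ℤ) ∣ ((rps c1 (FP p g P 1)).card : ℤ)
      - (rps c2 (FP p g P (-1))).card := by
    rw [← orderOf_inv (L ⟨g ^ q, hu⟩)]
    rw [pow_eq_pow_iff_modEq] at key
    exact (Int.natCast_modEq_iff.2 key).symm.dvd
  push_cast
  rw [← mul_sub]
  exact mul_dvd_mul_left _ hdiv

end main

/-- **Theorem M**, from the statement on the signed numbers: `|P| · ord(g^q mod P')` divides the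
signed number of the solutions of `[x, y] = g`. -/
theorem theoremM_of_CL [Fintype G] (p : ℕ) [hp : Fact p.Prime] (g : G) (q : ℕ)
    (hq : ∀ x : G, ∃ n : ℕ, (x ^ q) ^ (p ^ n) = 1) (hCL : CLStat p g q)
    (P : Subgroup G) (hP : IsPGroup p P) (hg : ∀ a ∈ P, a * g = g * a) (hu : g ^ q ∈ P) :
    ((Nat.card P * orderOf (Abelianization.of (⟨g ^ q, hu⟩ : P)) : ℕ) : ℤ) ∣
      ∑ t ∈ (Finset.univ : Finset (G × G)).filter (fun t => t.1 * t.2 * t.1⁻¹ * t.2⁻¹ = g),
        W p t.1 t.2 := by
  rw [sum_W_eq]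
  refine main_V hP hg hq hCL hu Abelianization.of ?_
  intro α
  obtain ⟨a, rfl⟩ := QuotientGroup.mk_surjective α
  obtain ⟨n, hn⟩ := hP a
  refine ⟨n, ?_⟩
  have := congrArg Abelianization.of hn
  rw [map_pow, map_one] at this
  exact this

end P179V
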