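import Vale.Agent.P179.H166.V3
import Vale.Agent.P179.H524.MC5

/-!
# Theorem M
-/

namespace P179V

open Subgroup P179A

open scoped Classical

variable {G : Type*} [Group G] [Finite G]

theorem clStat (p : ℕ) [Fact p.Prime] (g : G) (q : ℕ)
    (hq : ∀ x : G, ∃ n : ℕ, (x ^ q) ^ (p ^ n) = 1) : CLStat p g q :=
  fun Q hQ hg τ hτ hc h1 j => P179M.CL p g q hq Q hQ hg τ hτ hc h1 j

/-- **Theorem M.** `P` a `p`-subgroup of `C_G(g)` which contains the `p`-part `g ^ q` of `g`: the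
signed number of the triples `(x, y, s)` with `[x, y] = g` is divisible by `|P|` times the order
of `g ^ q` in the abelianisation of `P`. -/
theorem theoremM [Fintype G] (p : ℕ) [hp : Fact p.Prime] (g : G) (q : ℕ)
    (hq : ∀ x : G, ∃ n : ℕ, (x ^ q) ^ (p ^ n) = 1)
    (P : Subgroup G) (hP : IsPGroup p P) (hg : ∀ a ∈ P, a * g = g * a) (hu : g ^ q ∈ P) :
    ((Nat.card P * orderOf (Abelianization.of (⟨g ^ q, hu⟩ : P)) : ℕ) : ℤ) ∣
      ∑ t ∈ (Finset.univ : Finset (G × G)).filter (fun t => t.1 * t.2 * t.1⁻¹ * t.2⁻¹ = g),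
        W p t.1 t.2 :=
  theoremM_of_CL p g q hq (clStat p g q hq) P hP hg hu

end P179V
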