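import Vale.Agent.P179.H905.WP6

/-!
# Theorem R, weights of `G ≀ C_p` of type B, I: the subgroup `R ≀ C_p` and its normalizer
-/

namespace P179R

open P179H524 P179C P179A P179P Finset Subgroup RegularWreathProduct

section BR

variable {G : Type} [Group G] {Q : Type} [Group Q]

theorem mul_left' (a b : G ≀ᵣ Q) (q : Q) : (a * b).left q = a.left q * b.left (a.right⁻¹ * q) :=
  rfl

theorem inv_left' (a : G ≀ᵣ Q) (q : Q) : (a⁻¹).left q = (a.left (a.right * q))⁻¹ := rfl

theorem conj_left' (x y : G ≀ᵣ Q) (q : Q) : (x * y * x⁻¹).left q =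
    x.left q * y.left (x.right⁻¹ * q) * (x.left (x.right * ((x.right * y.right)⁻¹ * q)))⁻¹ := rfl

/-- the subgroup `R ≀ Q` -/
def bR (Q : Type) [Group Q] (R : Subgroup G) : Subgroup (G ≀ᵣ Q) where
  carrier := {x | ∀ q, x.left q ∈ R}
  mul_mem' := by
    intro a b ha hb q
    exact mul_mem (ha q) (hb _)
  one_mem' := fun q => one_mem R
  inv_mem' := by
    intro a ha q
    exact inv_mem (ha _)

theorem mem_bR {R : Subgroup G} {x : G ≀ᵣ Q} : x ∈ bR Q R ↔ ∀ q, x.left q ∈ R := Iff.rfl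

/-- the normalizer of `R ≀ Q` -/
theorem mem_norm_bR {R : Subgroup G} {x : G ≀ᵣ Q} :
    x ∈ normalizer (bR Q R : Set (G ≀ᵣ Q)) ↔
      ∀ q, x.left q ∈ normalizer (R : Set G) ∧ (x.left 1)⁻¹ * x.left q ∈ R := by
  constructor
  · intro hx
    have key1 : ∀ x ∈ normalizer (bR Q R : Set (G ≀ᵣ Q)), ∀ q, ∀ r ∈ R,
        x.left q * r * (x.left q)⁻¹ ∈ R := by
      intro x hx q r hr
      have h1 : incl G Q (fun _ => r) ∈ bR Q R := fun _ => hr
      have h2 := (mem_normalizer_iff.1 hx _).1 h1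
      rw [wr_conj] at h2
      exact h2 q
    have key2 : ∀ q, x.left q ∈ normalizer (R : Set G) := by
      intro q
      rw [mem_normalizer_iff]
      intro r
      refine ⟨key1 x hx q r, fun h => ?_⟩
      have h1 := key1 x⁻¹ (inv_mem hx) (x.right⁻¹ * q) _ h
      rw [inv_left', mul_inv_cancel_left] at h1
      have h2 : (x.left q)⁻¹ * (x.left q * r * (x.left q)⁻¹) * ((x.left q)⁻¹)⁻¹ = r := by group
      rwa [h2] at h1
    have key3 : ∀ q q', x.left q * (x.left q')⁻¹ ∈ R := by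
      intro q q'
      have h1 : (inl (x.right⁻¹ * (q * q'⁻¹) * x.right) : G ≀ᵣ Q) ∈ bR Q R := by
        intro s
        rw [left_inl]
        exact one_mem R
      have h2 := (mem_normalizer_iff.1 hx _).1 h1 q
      rw [conj_left', left_inl, right_inl, Pi.one_apply, mul_one] at h2
      have h3 : x.right * ((x.right * (x.right⁻¹ * (q * q'⁻¹) * x.right))⁻¹ * q) = q' := by group
      rwa [h3] at h2
    intro q
    refine ⟨key2 q, ?_⟩
    have h1 := key3 q 1
    have h2 := (mem_normalizer_iff.1 (inv_mem (key2 1)) _).1 h1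
    have h3 : (x.left 1)⁻¹ * (x.left q * (x.left 1)⁻¹) * ((x.left 1)⁻¹)⁻¹ =
        (x.left 1)⁻¹ * x.left q := by group
    rwa [h3] at h2
  · intro hx
    -- quotients of values
    have h0 : ∀ q q', x.left q * (x.left q')⁻¹ ∈ R := by
      intro q q'
      have h1 : (x.left q')⁻¹ * x.left q ∈ R := by
        have h2 := mul_mem (inv_mem (hx q').2) (hx q).2
        have h3 : ((x.left 1)⁻¹ * x.left q')⁻¹ * ((x.left 1)⁻¹ * x.left q) =
          (x.left q')⁻¹ * x.left q := by group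
        rwa [h3] at h2
      have h2 := (mem_normalizer_iff.1 (hx q').1 _).1 h1
      have h3 : x.left q' * ((x.left q')⁻¹ * x.left q) * (x.left q')⁻¹ =
          x.left q * (x.left q')⁻¹ := by group
      rwa [h3] at h2
    rw [mem_normalizer_iff]
    intro y
    have key : ∀ q, (x * y * x⁻¹).left q ∈ R ↔ y.left (x.right⁻¹ * q) ∈ R := by
      intro q
      rw [conj_left']
      set q' := x.right * ((x.right * y.right)⁻¹ * q)
      have h1 : x.left q * y.left (x.right⁻¹ * q) * (x.left q')⁻¹ =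
          (x.left q * y.left (x.right⁻¹ * q) * (x.left q)⁻¹) * (x.left q * (x.left q')⁻¹) := by
        group
      rw [h1]
      rw [mul_mem_cancel_right (h0 q q')]
      exact (mem_normalizer_iff.1 (hx q).1 _).symm
    constructor
    · intro h q
      rw [key]
      exact h _
    · intro h q
      have h1 := (key (x.right * q)).1 (h _)
      rwa [inv_mul_cancel_left] at h1

/-- the constant functions -/
def dg (G Q : Type) [Group G] [Group Q] : G →* G ≀ᵣ Q where
  toFun g := ⟨fun _ => g, 1⟩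
  map_one' := rfl
  map_mul' a b := by ext <;> simp

@[simp] theorem dg_left (g : G) (q : Q) : (dg G Q g).left q = g := rfl

@[simp] theorem dg_right (g : G) : (dg G Q g).right = 1 := rfl

theorem dg_mem_norm {R : Subgroup G} {g : G} :
    dg G Q g ∈ normalizer (bR Q R : Set (G ≀ᵣ Q)) ↔ g ∈ normalizer (R : Set G) := by
  rw [mem_norm_bR]
  simp only [dg_left, inv_mul_cancel]
  exact ⟨fun h => (h 1).1, fun h q => ⟨h, one_mem R⟩⟩

/-- every element of the normalizer is a constant modulo `R ≀ Q` -/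
theorem norm_mod {R : Subgroup G} {x : G ≀ᵣ Q} (hx : x ∈ normalizer (bR Q R : Set (G ≀ᵣ Q))) :
    (dg G Q (x.left 1))⁻¹ * x ∈ bR Q R := by
  intro q
  rw [mul_left', inv_left', dg_left]
  simp only [inv_right, dg_right, inv_one, one_mul]
  exact ((mem_norm_bR.1 hx) q).2

/-- the projection of the normalizer of `R ≀ Q` on `N_G(R)/R` -/
noncomputable def bπ (Q : Type) [Group Q] (R : Subgroup G) :
    normalizer (bR Q R : Set (G ≀ᵣ Q)) →* NQ R where
  toFun x := QuotientGroup.mk ⟨x.1.left 1, (mem_norm_bR.1 x.2 1).1⟩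
  map_one' := rfl
  map_mul' x y := by
    rw [← QuotientGroup.mk_mul, QuotientGroup.eq, mem_subgroupOf]
    change ((x.1.left 1) * y.1.left (x.1.right⁻¹ * 1))⁻¹ * (x.1.left 1 * y.1.left 1) ∈ R
    have h1 := mul_mem (inv_mem (mem_norm_bR.1 y.2 (x.1.right⁻¹ * 1)).2) (mem_norm_bR.1 y.2 1).2
    have h2 : ((y.1.left 1)⁻¹ * y.1.left (x.1.right⁻¹ * 1))⁻¹ * ((y.1.left 1)⁻¹ * y.1.left 1) =
        ((x.1.left 1) * y.1.left (x.1.right⁻¹ * 1))⁻¹ * (x.1.left 1 * y.1.left 1) := by group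
    rwa [h2] at h1

theorem bπ_apply {R : Subgroup G} (x : normalizer (bR Q R : Set (G ≀ᵣ Q))) :
    bπ Q R x = QuotientGroup.mk ⟨x.1.left 1, (mem_norm_bR.1 x.2 1).1⟩ := rfl

theorem bπ_surjective (R : Subgroup G) : Function.Surjective (bπ Q R) := by
  intro m
  obtain ⟨n, rfl⟩ := QuotientGroup.mk_surjective m
  exact ⟨⟨dg G Q n, dg_mem_norm.2 n.2⟩, rfl⟩

theorem bπ_ker (R : Subgroup G) : (bπ Q R).ker =
    (bR Q R).subgroupOf (normalizer (bR Q R : Set (G ≀ᵣ Q))) := by
  ext x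
  rw [MonoidHom.mem_ker, bπ_apply, QuotientGroup.eq_one_iff, mem_subgroupOf, mem_subgroupOf]
  change x.1.left 1 ∈ R ↔ ∀ q, x.1.left q ∈ R
  constructor
  · intro h q
    have h1 := mul_mem h (mem_norm_bR.1 x.2 q).2
    rwa [mul_inv_cancel_left] at h1
  · intro h
    exact h 1

/-- the order of the normalizer -/
theorem card_norm_bR [Finite G] [Finite Q] (R : Subgroup G) :
    Nat.card (normalizer (bR Q R : Set (G ≀ᵣ Q))) = Nat.card (NQ R) * Nat.card (bR Q R) := by
  rw [card_eq_card_quotient_mul_card_subgroup (bπ Q R).ker,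
    Nat.card_congr (QuotientGroup.quotientKerEquivOfSurjective _ (bπ_surjective R)).toEquiv,
    bπ_ker, Nat.card_congr (subgroupOfEquivOfLe
      (le_normalizer : bR Q R ≤ normalizer (bR Q R : Set (G ≀ᵣ Q)))).toEquiv]

theorem card_norm [Finite G] (R : Subgroup G) :
    Nat.card (normalizer (R : Set G)) = Nat.card (NQ R) * Nat.card R := by
  rw [card_eq_card_quotient_mul_card_subgroup (R.subgroupOf (normalizer (R : Set G))),
    Nat.card_congr (subgroupOfEquivOfLe (le_normalizer : R ≤ normalizer (R : Set G))).toEquiv]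

variable {p : ℕ}

theorem bR_pgroup [Fintype Q] (hQ : Nat.card Q = p) {R : Subgroup G} (hR : IsPGroup p R) :
    IsPGroup p (bR Q R) := by
  intro x
  have h1 : ((x : G ≀ᵣ Q) ^ p).right = 1 := by
    have h2 : ((x : G ≀ᵣ Q) ^ p).right = (x : G ≀ᵣ Q).right ^ p :=
      map_pow (rightHom : G ≀ᵣ Q →* Q) _ _
    rw [h2, ← hQ, pow_card_eq_one']
  have h2 : ((x : G ≀ᵣ Q) ^ p).left ∈ (Subgroup.pi Set.univ fun _ : Q => R : Subgroup (Q → G)) := by
    rw [Subgroup.mem_pi]
    intro q _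
    exact (x ^ p : bR Q R).2 q
  obtain ⟨n, hn⟩ := isPGroup_pi (fun _ : Q => R) (fun _ => hR) ⟨_, h2⟩
  refine ⟨n + 1, Subtype.ext ?_⟩
  rw [pow_succ', pow_mul]
  have h3 : ((x : G ≀ᵣ Q) ^ p) = incl G Q ((x : G ≀ᵣ Q) ^ p).left := eq_incl h1
  change ((x : G ≀ᵣ Q) ^ p) ^ p ^ n = 1
  rw [h3, ← map_pow]
  have h4 := congrArg Subtype.val hn
  change ((x : G ≀ᵣ Q) ^ p).left ^ p ^ n = 1 at h4
  rw [h4, map_one]

end BR

end P179R
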