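import Vale.Agent.P179.H166.WB1

/-!
# Theorem R, weights of `G ≀ C_p` of type B, II: the weight of `G ≀ C_p` attached to a weight of `G`
-/

namespace P179R

open P179H524 P179C P179A P179P Finset Subgroup RegularWreathProduct

open scoped Classical

section

variable {p : ℕ} {G : Type} [Group G] {Q : Type} [Group Q]

theorem WF.χ_eq (v : WF p G) {a b : G} (h : a⁻¹ * b ∈ v.R) : v.χ a = v.χ b := by
  have h1 := v.triv _ h a
  rw [mul_inv_cancel_left] at h1
  exact h1.symm

theorem WF.χ_of_norm [Finite G] (v : WF p G) {ψ : NQ v.R → ℂ}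
    (h : ∀ x : normalizer (v.R : Set G), v.χ x = ψ (QuotientGroup.mk x))
    (x : normalizer (bR Q v.R : Set (G ≀ᵣ Q))) : v.χ (x.1.left 1) = ψ (bπ Q v.R x) := by
  rw [bπ_apply]
  exact h ⟨_, (mem_norm_bR.1 x.2 1).1⟩

variable [Finite G] [Fintype Q]

/-- the weight of `G ≀ C_p` attached to a weight of `G` -/
noncomputable def bWF (hQ : Nat.card Q = p) (v : WF p G) : WF p (G ≀ᵣ Q) where
  R := bR Q v.R
  χ x := if x ∈ normalizer (bR Q v.R : Set (G ≀ᵣ Q)) then v.χ (x.left 1) else 0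
  pgp := bR_pgroup hQ v.pgp
  supp x hx := if_neg hx
  irr := by
    obtain ⟨ψ, hψ, h⟩ := v.exists_dz
    have h1 : (fun n : normalizer (bR Q v.R : Set (G ≀ᵣ Q)) =>
        if (n : G ≀ᵣ Q) ∈ normalizer (bR Q v.R : Set (G ≀ᵣ Q)) then v.χ ((n : G ≀ᵣ Q).left 1)
          else 0) = fun n => ψ (bπ Q v.R n) := by
      funext n
      rw [if_pos n.2]
      exact v.χ_of_norm h n
    rw [h1]
    exact hψ.1.comp (bπ Q v.R) (bπ_surjective _)
  triv r hr x := by
    have h1 : x * r ∈ normalizer (bR Q v.R : Set (G ≀ᵣ Q)) ↔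
        x ∈ normalizer (bR Q v.R : Set (G ≀ᵣ Q)) := mul_mem_cancel_right (le_normalizer hr)
    simp only [h1]
    split_ifs with h2
    · symm
      apply v.χ_eq
      rw [mul_left', inv_mul_cancel_left]
      exact hr _
    · rfl
  dz := by
    obtain ⟨ψ, hψ, h⟩ := v.exists_dz
    obtain ⟨d, hd, hdp⟩ := hψ.2
    refine ⟨d, ?_, ?_⟩
    · rw [if_pos (one_mem _), one_left, Pi.one_apply, ← hd]
      exact h 1
    · have hd0 : d ≠ 0 := by
        rintro rfl
        exact Irr.one_ne_zero (⟨ψ, hψ.1⟩ : Irr _) (by change ψ 1 = 0; rw [hd]; simp)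
      rw [card_norm_bR, Nat.factorization_mul hd0 Nat.card_pos.ne',
        Nat.factorization_mul Nat.card_pos.ne' Nat.card_pos.ne', Finsupp.add_apply,
        Finsupp.add_apply, hdp]

@[simp] theorem bWF_R (hQ : Nat.card Q = p) (v : WF p G) : (bWF hQ v).R = bR Q v.R := rfl

theorem bWF_χ (hQ : Nat.card Q = p) (v : WF p G) {x : G ≀ᵣ Q}
    (hx : x ∈ normalizer (bR Q v.R : Set (G ≀ᵣ Q))) : (bWF hQ v).χ x = v.χ (x.left 1) :=
  if_pos hx

/-- conjugacy of the weights of type B -/
theorem rel_bWF_iff (hQ : Nat.card Q = p) (v v' : WF p G) :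
    WF.Rel (bWF hQ v) (bWF hQ v') ↔ WF.Rel v v' := by
  constructor
  · rintro ⟨h, h1, h2⟩
    refine ⟨h.left h.right, ?_⟩
    have e1 : ∀ y : Q → G, (h⁻¹ * incl G Q y * h) =
        incl G Q (fun q => (h.left (h.right * q))⁻¹ * y (h.right * q) * h.left (h.right * q)) := by
      intro y
      have h3 := wr_conj h⁻¹ y
      rw [inv_inv] at h3
      rw [h3]
      congr 1
      funext q
      rw [inv_left', inv_right, inv_inv, inv_inv]
    have hR : ∀ x, x ∈ v'.R ↔ (h.left h.right)⁻¹ * x * h.left h.right ∈ v.R := by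
      intro x
      have h3 := h1 (incl G Q (fun q => if q = h.right then x else 1))
      rw [e1, bWF_R, bWF_R, mem_bR, mem_bR] at h3
      simp only [incl_left] at h3
      constructor
      · intro hx
        have h4 := h3.1 (fun q => by split_ifs <;> [exact hx; exact one_mem _]) 1
        rw [mul_one, if_pos rfl] at h4
        exact h4
      · intro hx
        have h4 := h3.2 (fun q => by
          by_cases hq : h.right * q = h.right
          · rw [if_pos hq, hq]
            exact hx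
          · rw [if_neg hq, mul_one, inv_mul_cancel]
            exact one_mem _) h.right
        rw [if_pos rfl] at h4
        exact h4
    refine ⟨hR, fun x => ?_⟩
    by_cases hx : x ∈ normalizer (v'.R : Set G)
    · have h3 : dg G Q x ∈ normalizer (bR Q v'.R : Set (G ≀ᵣ Q)) := dg_mem_norm.2 hx
      have h4 := h2 (dg G Q x)
      have h5 : h⁻¹ * dg G Q x * h ∈ normalizer (bR Q v.R : Set (G ≀ᵣ Q)) :=
        (WF.Rel.card (a := bWF hQ v) (b := bWF hQ v') h h1 _).1 h3
      rw [bWF_χ hQ v' h3, bWF_χ hQ v h5, dg_left] at h4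
      rw [h4]
      have h6 : dg G Q x = incl G Q (fun _ => x) := rfl
      rw [h6, e1, incl_left, mul_one]
    · rw [v'.supp x hx, v.supp _ (fun h3 => hx ((WF.Rel.card _ hR x).2 h3))]
  · rintro ⟨g, h1, h2⟩
    have e1 : ∀ (x : G ≀ᵣ Q) q, ((dg G Q g)⁻¹ * x * dg G Q g).left q = g⁻¹ * x.left q * g := by
      intro x q
      rw [mul_left', mul_left', inv_left', dg_left, dg_left]
      simp
    have hR : ∀ x, x ∈ (bWF hQ v').R ↔ (dg G Q g)⁻¹ * x * dg G Q g ∈ (bWF hQ v).R := by
      intro x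
      rw [bWF_R, bWF_R, mem_bR, mem_bR]
      simp only [e1]
      exact forall_congr' fun q => h1 _
    refine ⟨dg G Q g, hR, fun x => ?_⟩
    by_cases hx : x ∈ normalizer (bR Q v'.R : Set (G ≀ᵣ Q))
    · have h5 : (dg G Q g)⁻¹ * x * dg G Q g ∈ normalizer (bR Q v.R : Set (G ≀ᵣ Q)) :=
        (WF.Rel.card (a := bWF hQ v) (b := bWF hQ v') _ hR _).1 hx
      rw [bWF_χ hQ v' hx, bWF_χ hQ v h5, e1, h2]
    · rw [(bWF hQ v').supp x hx, (bWF hQ v).supp _ (fun h3 => hx
        ((WF.Rel.card (a := bWF hQ v) (b := bWF hQ v') _ hR x).2 h3))]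

end

end P179R
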