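import Vale.Agent.P179.H166.WB2

/-!
# Theorem R, weights of `G ≀ C_p` of type B, III: central characters
-/

namespace P179R

open P179H524 P179C P179A P179P Finset Subgroup RegularWreathProduct

open scoped Classical

section Frob

variable {p : ℕ} [hp : Fact p.Prime] {k : Type*} [Field k] [CharP k p]
  {red red2 : integralClosure ℤ ℂ →+* k}

omit [CharP k p] in
theorem redC_frob (h : ∀ x, red2 x ^ p = red x) (x : ℂ) : redC red x = redC red2 x ^ p := by
  unfold redC
  split_ifs with hx
  · exact (h _).symm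
  · rw [zero_pow hp.out.ne_zero]

theorem lam_frob (h : ∀ x, red2 x ^ p = red x) {H : Type*} [Group H] [Fintype H] (χ : H → ℂ)
    (b : H → k) : lam red χ (fun m => b m ^ p) = lam red2 χ b ^ p := by
  have := Fintype.ofFinite (ConjClasses H)
  unfold lam
  rw [finsum_eq_sum_of_fintype, finsum_eq_sum_of_fintype, sum_pow_char p]
  refine Finset.sum_congr rfl fun D _ => ?_
  rw [mul_pow, ← redC_frob h]

end Frob

section Push

variable {k : Type*} [Field k] {G : Type} [Group G] [Finite G] {Q : Type} [Group Q] [Fintype Q]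

omit [Finite G] [Fintype Q] in
theorem sum_ite_bij {α β : Type*} [Fintype α] [Fintype β] (P : α → Prop) (instP : DecidablePred P)
    (P' : β → Prop) (instP' : DecidablePred P') (f : α → k) (f' : β → k) (i : ∀ a, P a → β)
    (hi : ∀ a h, P' (i a h)) (hinj : ∀ a ha b hb, i a ha = i b hb → a = b)
    (hsurj : ∀ b, P' b → ∃ a h, i a h = b) (hf : ∀ a h, f a = f' (i a h)) :
    (∑ a, @ite _ (P a) (instP a) (f a) 0) = ∑ b, @ite _ (P' b) (instP' b) (f' b) 0 := by
  rw [← Finset.sum_filter, ← Finset.sum_filter]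
  refine Finset.sum_bij (fun a h => i a (Finset.mem_filter.1 h).2) ?_ ?_ ?_ ?_
  · intro a h
    rw [Finset.mem_filter]
    exact ⟨Finset.mem_univ _, hi _ _⟩
  · intro a ha b hb h
    exact hinj _ _ _ _ h
  · intro b hb
    obtain ⟨a, h, rfl⟩ := hsurj b (Finset.mem_filter.1 hb).2
    exact ⟨a, Finset.mem_filter.2 ⟨Finset.mem_univ _, h⟩, rfl⟩
  · intro a h
    exact hf _ _

theorem push_ehat (e : MonoidAlgebra k G) (R : Subgroup G)
    [Fintype (normalizer (bR Q R : Set (G ≀ᵣ Q)))] [Fintype (normalizer (R : Set G))]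
    (m : NQ R) :
    pushR (bπ Q R) (fun n : normalizer (bR Q R : Set (G ≀ᵣ Q)) => (ehat Q e).coeff n) m =
      pushR (QuotientGroup.mk' (R.subgroupOf (normalizer (R : Set G))))
        (fun n : normalizer (R : Set G) => e.coeff n) m ^ Fintype.card Q := by
  have := Fintype.ofFinite G
  unfold pushR
  rw [← Finset.card_univ, ← Finset.prod_const, Finset.prod_univ_sum, Fintype.piFinset_univ]
  beta_reduce
  have h1 : ∀ (F : Q → Prop) [∀ q, Decidable (F q)] (c : Q → k),
      (∏ q, if F q then c q else 0) = if ∀ q, F q then ∏ q, c q else 0 := by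
    intro F _ c
    split_ifs with h
    · exact Finset.prod_congr rfl fun q _ => if_pos (h q)
    · push Not at h
      obtain ⟨q, hq⟩ := h
      exact Finset.prod_eq_zero (Finset.mem_univ q) (if_neg hq)
  refine Eq.trans ?_ (Finset.sum_congr rfl fun y _ =>
    (@h1 _ (fun _ => Classical.propDecidable _) _).symm)
  have h2 : ∀ (x : normalizer (bR Q R : Set (G ≀ᵣ Q))) (F : Prop) [Decidable F],
      (if F then (ehat Q e).coeff (x : G ≀ᵣ Q) else 0) =
      if (x : G ≀ᵣ Q).right = 1 ∧ F then ∏ q, e.coeff ((x : G ≀ᵣ Q).left q) else 0 := by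
    intro x F _
    rw [coeff_ehat, wcoef]
    by_cases h3 : F <;> by_cases h4 : (x : G ≀ᵣ Q).right = 1 <;> simp [h3, h4]
  refine Eq.trans (Finset.sum_congr rfl fun x _ => @h2 x _ (Classical.propDecidable _)) ?_
  refine sum_ite_bij _ _ _ _ _ _ (fun x _ => fun q => (⟨(x : G ≀ᵣ Q).left q,
    (mem_norm_bR.1 x.2 q).1⟩ : normalizer (R : Set G))) ?_ ?_ ?_ ?_
  · intro x hx q
    rw [← hx.2, bπ_apply, QuotientGroup.mk'_apply, QuotientGroup.eq, mem_subgroupOf]
    have h3 := inv_mem (mem_norm_bR.1 x.2 q).2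
    rw [mul_inv_rev, inv_inv] at h3
    exact h3
  · intro x hx x' hx' h
    apply Subtype.ext
    apply RegularWreathProduct.ext
    · funext q
      exact congrArg Subtype.val (congrFun h q)
    · rw [hx.1, hx'.1]
  · intro y hy
    have h3 : ∀ q q', (y q : G)⁻¹ * y q' ∈ R := by
      intro q q'
      have h4 := (hy q).trans (hy q').symm
      rw [QuotientGroup.mk'_apply, QuotientGroup.mk'_apply, QuotientGroup.eq, mem_subgroupOf] at h4
      exact h4
    have h4 : incl G Q (fun q => y q) ∈ normalizer (bR Q R : Set (G ≀ᵣ Q)) := by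
      rw [mem_norm_bR]
      exact fun q => ⟨(y q).2, h3 _ _⟩
    exact ⟨⟨_, h4⟩, ⟨rfl, hy 1⟩, rfl⟩
  · intro x hx
    rfl

end Push

section In

variable {p : ℕ} [hp : Fact p.Prime] {k : Type*} [Field k] [CharP k p]
  {red red2 : integralClosure ℤ ℂ →+* k} {G : Type} [Group G] [Finite G] {Q : Type} [Group Q]
  [Fintype Q]

/-- **(L4)** the central character of a weight of type B on `e ⊗ ... ⊗ e` -/
theorem lam_bWF (h : ∀ x, red2 x ^ p = red x) (hQ : Nat.card Q = p) (v : WF p G)
    {e : MonoidAlgebra k G} (he : e ∈ Subalgebra.center k (MonoidAlgebra k G)) :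
    lam red (fun n : normalizer ((bWF hQ v).R : Set (G ≀ᵣ Q)) => (bWF hQ v).χ n)
      (fun n : normalizer ((bWF hQ v).R : Set (G ≀ᵣ Q)) => (ehat Q e).coeff n) =
      lam red2 (fun n : normalizer (v.R : Set G) => v.χ n)
        (fun n : normalizer (v.R : Set G) => e.coeff n) ^ p := by
  have := Fintype.ofFinite G
  have hQ' : Fintype.card Q = p := by
    rw [← Nat.card_eq_fintype_card]
    exact hQ
  obtain ⟨ψ, hψ, hv⟩ := v.exists_dz
  have hf : Fintype (normalizer (bR Q v.R : Set (G ≀ᵣ Q))) := Fintype.ofFinite _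
  have hf2 : Fintype (normalizer (v.R : Set G)) := Fintype.ofFinite _
  have hf3 : Fintype (NQ v.R) := Fintype.ofFinite _
  have h1 : (fun n : normalizer ((bWF hQ v).R : Set (G ≀ᵣ Q)) => (bWF hQ v).χ n) =
      fun n => ψ (bπ Q v.R n) := by
    funext n
    rw [bWF_χ hQ v n.2]
    exact v.χ_of_norm hv n
  have h2 : (fun n : normalizer (v.R : Set G) => v.χ n) = fun n =>
      ψ (QuotientGroup.mk' (v.R.subgroupOf (normalizer (v.R : Set G))) n) := by
    funext n
    exact hv n
  have hcf1 : IsCF (fun n : normalizer (bR Q v.R : Set (G ≀ᵣ Q)) => (ehat Q e).coeff (n : G ≀ᵣ Q)) := by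
    intro x y
    exact (P179C.mem_center_iff _).1 (ehat_mem (Q := Q) e he) (x : G ≀ᵣ Q) (y : G ≀ᵣ Q)
  have hcf2 : IsCF (fun n : normalizer (v.R : Set G) => e.coeff (n : G)) := by
    intro x y
    exact (P179C.mem_center_iff _).1 he x y
  rw [h1, h2]
  have h3 := lam_push red (bπ Q v.R) (bπ_surjective _) hψ.1 hcf1
  have h4 := lam_push red2 (QuotientGroup.mk' (v.R.subgroupOf (normalizer (v.R : Set G))))
    (QuotientGroup.mk'_surjective _) hψ.1 hcf2
  have h5 : pushR (bπ Q v.R) (fun n : normalizer (bR Q v.R : Set (G ≀ᵣ Q)) =>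
      (ehat Q e).coeff (n : G ≀ᵣ Q)) = fun m =>
      pushR (QuotientGroup.mk' (v.R.subgroupOf (normalizer (v.R : Set G))))
        (fun n : normalizer (v.R : Set G) => e.coeff (n : G)) m ^ p := by
    funext m
    rw [push_ehat, hQ']
  rw [h5, lam_frob h] at h3
  exact h3.symm.trans (congrArg (· ^ p) h4)

/-- **(L4)** the weight of type B attached to `v` lies in `e ⊗ ... ⊗ e` iff `v` lies in `e` -/
theorem in_bWF_iff (h : ∀ x, red2 x ^ p = red x) (hQ : Nat.card Q = p) (v : WF p G)
    {e : MonoidAlgebra k G} (he : e ∈ Subalgebra.center k (MonoidAlgebra k G)) (hee : e * e = e) :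
    (bWF hQ v).In red (ehat Q e) ↔ v.In red2 e := by
  have h1 := lam_bWF h hQ v he
  unfold WF.In at *
  rw [h1]
  constructor
  · intro h2
    rcases v.lam_cases red2 he hee with h3 | h3
    · rw [h3, zero_pow hp.out.ne_zero] at h2
      exact absurd h2 zero_ne_one
    · exact h3
  · intro h2
    rw [h2, one_pow]

end In

end P179R
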