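import Vale.Agent.P179.H166.WB3

/-!
# Theorem R, weights of `G ≀ C_p` of type B, IV: every weight of type B comes from `G`
-/

namespace P179R

open P179H524 P179C P179A P179P Finset Subgroup RegularWreathProduct

section Conj

variable {p : ℕ} {G : Type} [Group G]

/-- the conjugate weight -/
def WF.cj (w : WF p G) (g : G) : WF p G where
  R := w.R.comap (MulAut.conj g).toMonoidHom
  χ x := w.χ (g * x * g⁻¹)
  pgp := w.pgp.comap_of_injective _ (MulAut.conj g).injective
  supp x hx := by
    apply w.supp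
    intro h
    apply hx
    rw [mem_normalizer_iff] at h ⊢
    intro y
    have h1 := h (g * y * g⁻¹)
    have h2 : g * x * g⁻¹ * (g * y * g⁻¹) * (g * x * g⁻¹)⁻¹ = g * (x * y * x⁻¹) * g⁻¹ := by group
    rw [h2] at h1
    exact h1
  irr := by
    have hN : ∀ x, x ∈ normalizer (w.R.comap (MulAut.conj g).toMonoidHom : Set G) →
        g * x * g⁻¹ ∈ normalizer (w.R : Set G) := by
      intro x h
      rw [mem_normalizer_iff] at h ⊢
      intro y
      have h1 := h (g⁻¹ * y * g)
      change g * (g⁻¹ * y * g) * g⁻¹ ∈ w.R ↔ g * (x * (g⁻¹ * y * g) * x⁻¹) * g⁻¹ ∈ w.R at h1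
      have h2 : g * (g⁻¹ * y * g) * g⁻¹ = y := by group
      have h3 : g * (x * (g⁻¹ * y * g) * x⁻¹) * g⁻¹ = g * x * g⁻¹ * y * (g * x * g⁻¹)⁻¹ := by group
      rw [h2, h3] at h1
      exact h1
    let f : normalizer (w.R.comap (MulAut.conj g).toMonoidHom : Set G) →*
        normalizer (w.R : Set G) :=
      { toFun := fun x => ⟨g * x * g⁻¹, hN x x.2⟩
        map_one' := Subtype.ext (by simp)
        map_mul' := fun x y => Subtype.ext (by
          change g * ((x : G) * y) * g⁻¹ = (g * x * g⁻¹) * (g * y * g⁻¹)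
          group) }
    have hf : Function.Surjective f := by
      intro y
      refine ⟨⟨g⁻¹ * y * g, ?_⟩, Subtype.ext ?_⟩
      · have h := y.2
        rw [mem_normalizer_iff] at h ⊢
        intro z
        change g * z * g⁻¹ ∈ w.R ↔ g * (g⁻¹ * y * g * z * (g⁻¹ * y * g)⁻¹) * g⁻¹ ∈ w.R
        rw [h]
        have h2 : (y : G) * (g * z * g⁻¹) * (y : G)⁻¹ =
          g * (g⁻¹ * y * g * z * (g⁻¹ * y * g)⁻¹) * g⁻¹ := by group
        rw [h2]
      · change g * (g⁻¹ * (y : G) * g) * g⁻¹ = y
        group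
    exact w.irr.comp f hf
  triv r hr x := by
    have h1 : g * r * g⁻¹ ∈ w.R := hr
    have h2 := w.triv _ h1 (g * x * g⁻¹)
    have h3 : g * x * g⁻¹ * (g * r * g⁻¹) = g * (x * r) * g⁻¹ := by group
    rw [h3] at h2
    exact h2
  dz := by
    obtain ⟨d, hd, hdp⟩ := w.dz
    refine ⟨d, ?_, ?_⟩
    · rw [mul_one, mul_inv_cancel, hd]
    · have e1 : Nat.card (w.R.comap (MulAut.conj g).toMonoidHom) = Nat.card w.R :=
        Nat.card_congr
          { toFun := fun x => ⟨g * x * g⁻¹, x.2⟩
            invFun := fun x => ⟨g⁻¹ * x * g, by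
              change g * (g⁻¹ * x * g) * g⁻¹ ∈ w.R
              have : g * (g⁻¹ * (x : G) * g) * g⁻¹ = x := by group
              rw [this]; exact x.2⟩
            left_inv := fun x => Subtype.ext (by
              change g⁻¹ * (g * (x : G) * g⁻¹) * g = x
              group)
            right_inv := fun x => Subtype.ext (by
              change g * (g⁻¹ * (x : G) * g) * g⁻¹ = x
              group) }
      have hN : ∀ x, x ∈ normalizer (w.R.comap (MulAut.conj g).toMonoidHom : Set G) ↔
          g * x * g⁻¹ ∈ normalizer (w.R : Set G) := by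
        intro x
        constructor
        · intro h
          rw [mem_normalizer_iff] at h ⊢
          intro y
          have h1 := h (g⁻¹ * y * g)
          change g * (g⁻¹ * y * g) * g⁻¹ ∈ w.R ↔ g * (x * (g⁻¹ * y * g) * x⁻¹) * g⁻¹ ∈ w.R at h1
          have h2 : g * (g⁻¹ * y * g) * g⁻¹ = y := by group
          have h3 : g * (x * (g⁻¹ * y * g) * x⁻¹) * g⁻¹ = g * x * g⁻¹ * y * (g * x * g⁻¹)⁻¹ := by
            group
          rw [h2, h3] at h1
          exact h1
        · intro h
          rw [mem_normalizer_iff] at h ⊢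
          intro y
          have h1 := h (g * y * g⁻¹)
          have h2 : g * x * g⁻¹ * (g * y * g⁻¹) * (g * x * g⁻¹)⁻¹ = g * (x * y * x⁻¹) * g⁻¹ := by
            group
          rw [h2] at h1
          exact h1
      have e2 : Nat.card (normalizer (w.R.comap (MulAut.conj g).toMonoidHom : Set G)) =
          Nat.card (normalizer (w.R : Set G)) :=
        Nat.card_congr
          { toFun := fun x => ⟨g * x * g⁻¹, (hN x).1 x.2⟩
            invFun := fun x => ⟨g⁻¹ * x * g, (hN _).2 (by
              have : g * (g⁻¹ * (x : G) * g) * g⁻¹ = x := by group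
              rw [this]; exact x.2)⟩
            left_inv := fun x => Subtype.ext (by
              change g⁻¹ * (g * (x : G) * g⁻¹) * g = x
              group)
            right_inv := fun x => Subtype.ext (by
              change g * (g⁻¹ * (x : G) * g) * g⁻¹ = x
              group) }
      rw [e1, e2]
      exact hdp

theorem WF.mem_cj (w : WF p G) (g x : G) : x ∈ (w.cj g).R ↔ g * x * g⁻¹ ∈ w.R := Iff.rfl

theorem WF.cj_rel (w : WF p G) (g : G) : WF.Rel (w.cj g) w := by
  refine ⟨g, fun x => ?_, fun x => ?_⟩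
  · rw [WF.mem_cj]
    have : g * (g⁻¹ * x * g) * g⁻¹ = x := by group
    rw [this]
  · change w.χ x = w.χ (g * (g⁻¹ * x * g) * g⁻¹)
    have : g * (g⁻¹ * x * g) * g⁻¹ = x := by group
    rw [this]

end Conj

section Surj

variable {p : ℕ} {G : Type} [Group G] {Q : Type} [Group Q] [Finite G] [Fintype Q]

/-- weights with vertex `R ≀ Q` -/
theorem exists_bWF_of_eq (hQ : Nat.card Q = p) (w : WF p (G ≀ᵣ Q)) (R : Subgroup G)
    (hR : w.R = bR Q R) : ∃ v : WF p G, bWF hQ v = w := by
  obtain ⟨ψ, hψ, hw⟩ := w.exists_dz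
  obtain ⟨wR, wχ, wp, ws, wi, wt, wd⟩ := w
  dsimp only at *
  subst hR
  have hdg : R = (bR Q R).comap (dg G Q) := by
    ext x
    rw [mem_comap, mem_bR]
    exact ⟨fun h _ => h, fun h => h 1⟩
  have hinj : Function.Injective (dg G Q) := by
    intro a b h
    exact congrArg (fun x : G ≀ᵣ Q => x.left 1) h
  let f : normalizer (R : Set G) →* NQ (bR Q R) :=
    { toFun := fun n => QuotientGroup.mk ⟨dg G Q n, dg_mem_norm.2 n.2⟩
      map_one' := rfl
      map_mul' := fun a b => by
        rw [← QuotientGroup.mk_mul]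
        congr 1
        exact Subtype.ext (map_mul (dg G Q) (a : G) b) }
  have hf : Function.Surjective f := by
    intro m
    obtain ⟨n, rfl⟩ := QuotientGroup.mk_surjective m
    refine ⟨⟨n.1.left 1, (mem_norm_bR.1 n.2 1).1⟩, ?_⟩
    change (QuotientGroup.mk _ : NQ (bR Q R)) = QuotientGroup.mk _
    rw [QuotientGroup.eq, mem_subgroupOf]
    exact norm_mod n.2
  let v : WF p G :=
    { R := R
      χ := fun n => wχ (dg G Q n)
      pgp := by
        rw [hdg]
        exact wp.comap_of_injective _ hinj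
      supp := fun x hx => ws _ (fun h => hx (dg_mem_norm.1 h))
      irr := by
        have h1 : (fun n : normalizer (R : Set G) => wχ (dg G Q n)) = fun n => ψ (f n) := by
          funext n
          exact hw ⟨dg G Q n, dg_mem_norm.2 n.2⟩
        rw [h1]
        exact hψ.1.comp f hf
      triv := fun r hr x => by
        rw [map_mul]
        exact wt _ (fun _ => hr) _
      dz := by
        obtain ⟨d, hd, hdp⟩ := wd
        have hd0 : d ≠ 0 := by
          rintro rfl
          exact Irr.one_ne_zero (⟨_, wi⟩ : Irr _) (by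
            change wχ 1 = 0
            rw [hd]; simp)
        refine ⟨d, by rw [map_one, hd], ?_⟩
        rw [card_norm_bR, Nat.factorization_mul hd0 Nat.card_pos.ne',
          Nat.factorization_mul Nat.card_pos.ne' Nat.card_pos.ne', Finsupp.add_apply,
          Finsupp.add_apply, Nat.add_right_cancel_iff] at hdp
        rw [card_norm, Nat.factorization_mul hd0 Nat.card_pos.ne',
          Nat.factorization_mul Nat.card_pos.ne' Nat.card_pos.ne', Finsupp.add_apply,
          Finsupp.add_apply, hdp] }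
  refine ⟨v, WF.ext' rfl (funext fun x => ?_)⟩
  by_cases hx : x ∈ normalizer (bR Q R : Set (G ≀ᵣ Q))
  · rw [bWF_χ hQ v hx]
    change wχ (dg G Q (x.left 1)) = wχ x
    have h1 := wt _ (norm_mod hx) (dg G Q (x.left 1))
    rw [mul_inv_cancel_left] at h1
    exact h1.symm
  · rw [(bWF hQ v).supp x hx]
    exact (ws x hx).symm

variable [hp : Fact p.Prime]

/-- **(L4)** every weight of `G ≀ C_p` whose subgroup is not contained in the base group comes
from a weight of `G` -/
theorem exists_bWF (hQ : Nat.card Q = p) (w : WF p (G ≀ᵣ Q)) (hw : ¬ w.R ≤ (incl G Q).range) :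
    ∃ v : WF p G, WF.Rel (bWF hQ v) w := by
  classical
  -- the projections of the intersection with the base group
  let P : Q → Subgroup G := fun q =>
    (w.R.comap (incl G Q)).map (Pi.evalMonoidHom (fun _ : Q => G) q)
  have hPmem : ∀ q r, r ∈ P q ↔ ∃ f : Q → G, incl G Q f ∈ w.R ∧ f q = r := fun q r => Iff.rfl
  have hconj : ∀ n ∈ normalizer (w.R : Set (G ≀ᵣ Q)), ∀ q, ∀ r ∈ P (n.right⁻¹ * q),
      n.left q * r * (n.left q)⁻¹ ∈ P q := by
    intro n hn q r hr
    obtain ⟨f, hf, rfl⟩ := (hPmem _ _).1 hr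
    have h1 := (mem_normalizer_iff.1 hn _).1 hf
    rw [wr_conj] at h1
    exact (hPmem _ _).2 ⟨_, h1, rfl⟩
  have hS : IsPGroup p ((Subgroup.pi Set.univ P).map (incl G Q)) :=
    (isPGroup_pi P fun q => (w.pgp.comap_of_injective _ incl_injective).map _).map _
  have hSmem : ∀ y : Q → G, incl G Q y ∈ (Subgroup.pi Set.univ P).map (incl G Q) ↔
      ∀ q, y q ∈ P q := by
    intro y
    rw [Subgroup.mem_map]
    constructor
    · rintro ⟨z, hz, hzy⟩ q
      rw [← incl_injective hzy]
      exact Subgroup.mem_pi _ |>.1 hz q trivial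
    · intro h
      exact ⟨y, Subgroup.mem_pi _ |>.2 fun q _ => h q, rfl⟩
  have hnorm : normalizer (w.R : Set (G ≀ᵣ Q)) ≤
      normalizer ((Subgroup.pi Set.univ P).map (incl G Q) : Set (G ≀ᵣ Q)) := by
    have key : ∀ n ∈ normalizer (w.R : Set (G ≀ᵣ Q)),
        ∀ x ∈ (Subgroup.pi Set.univ P).map (incl G Q),
          n * x * n⁻¹ ∈ (Subgroup.pi Set.univ P).map (incl G Q) := by
      rintro n hn x ⟨y, hy, rfl⟩
      rw [wr_conj, hSmem]
      intro q
      exact hconj n hn q _ (Subgroup.mem_pi _ |>.1 hy _ trivial)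
    intro n hn
    rw [mem_normalizer_iff]
    intro x
    refine ⟨key n hn x, fun h => ?_⟩
    have h1 := key n⁻¹ (inv_mem hn) _ h
    have h2 : n⁻¹ * (n * x * n⁻¹) * n⁻¹⁻¹ = x := by group
    rwa [h2] at h1
  have hle := w.le_of_norm hS hnorm
  have hbase : ∀ y : Q → G, incl G Q y ∈ w.R ↔ ∀ q, y q ∈ P q := by
    intro y
    constructor
    · intro h q
      exact (hPmem _ _).2 ⟨y, h, rfl⟩
    · intro h
      exact hle ((hSmem y).2 h)
  -- the projection to `Q` is surjective
  have hsurj : ∀ q : Q, ∃ s ∈ w.R, s.right = q := by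
    have h1 : w.R.map (rightHom : G ≀ᵣ Q →* Q) ≠ ⊥ := by
      intro h
      apply hw
      intro x hx
      have h2 : rightHom x ∈ w.R.map (rightHom : G ≀ᵣ Q →* Q) := ⟨x, hx, rfl⟩
      rw [h, mem_bot] at h2
      exact ⟨x.left, (eq_incl h2).symm⟩
    have h2 : w.R.map (rightHom : G ≀ᵣ Q →* Q) = ⊤ := by
      have : Fact (Nat.card Q).Prime := ⟨hQ ▸ hp.out⟩
      exact ((w.R.map (rightHom : G ≀ᵣ Q →* Q)).eq_bot_or_eq_top_of_prime_card).resolve_left h1
    intro q
    have h3 : q ∈ w.R.map (rightHom : G ≀ᵣ Q →* Q) := h2 ▸ mem_top q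
    obtain ⟨s, hs, hsq⟩ := h3
    exact ⟨s, hs, hsq⟩
  choose s hs hsq using hsurj
  -- elements with the same projection
  have hdiff : ∀ a ∈ w.R, ∀ b ∈ w.R, a.right = b.right →
      (a.left a.right)⁻¹ * b.left b.right ∈ P 1 := by
    intro a ha b hb hab
    have h1 : (a⁻¹ * b).right = 1 := by
      rw [RegularWreathProduct.mul_right, inv_right, hab, inv_mul_cancel]
    have h2 := mul_mem (inv_mem ha) hb
    rw [eq_incl h1, hbase] at h2
    have h3 := h2 1
    rw [mul_left', inv_left', inv_right, inv_inv, mul_one] at h3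
    rw [← hab]
    exact h3
  let c : Q → G := fun q => (s q).left q
  have hc : ∀ t ∈ w.R, ∀ q, (c q)⁻¹ * t.left q * c (t.right⁻¹ * q) ∈ P 1 := by
    intro t ht q
    have h1 := hdiff (s q) (hs q) (t * s (t.right⁻¹ * q)) (mul_mem ht (hs _)) (by
      rw [RegularWreathProduct.mul_right, hsq, hsq, mul_inv_cancel_left])
    have h2 : (t * s (t.right⁻¹ * q)).right = q := by
      rw [RegularWreathProduct.mul_right, hsq, mul_inv_cancel_left]
    rw [hsq, h2, mul_left'] at h1
    rw [mul_assoc]
    exact h1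
  have e1 : ∀ (x : G ≀ᵣ Q) q, ((incl G Q c)⁻¹ * x * incl G Q c).left q =
      (c q)⁻¹ * x.left q * c (x.right⁻¹ * q) := by
    intro x q
    rw [mul_left', mul_left', inv_left']
    simp
  have key1 : ∀ t ∈ w.R, (incl G Q c)⁻¹ * t * incl G Q c ∈ bR Q (P 1) := by
    intro t ht q
    rw [e1]
    exact hc t ht q
  have key2 : ∀ x ∈ bR Q (P 1), incl G Q c * x * (incl G Q c)⁻¹ ∈ w.R := by
    intro x hx
    have h1 := mul_mem hx (inv_mem (key1 (s x.right) (hs _)))
    have h2 : (x * ((incl G Q c)⁻¹ * s x.right * incl G Q c)⁻¹).right = 1 := by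
      rw [RegularWreathProduct.mul_right, inv_right, RegularWreathProduct.mul_right,
        RegularWreathProduct.mul_right, inv_right, incl_right, inv_one, one_mul, mul_one, hsq,
        mul_inv_cancel]
    set y := (x * ((incl G Q c)⁻¹ * s x.right * incl G Q c)⁻¹).left with hy
    have h3 : x * ((incl G Q c)⁻¹ * s x.right * incl G Q c)⁻¹ = incl G Q y := eq_incl h2
    have h4 : incl G Q c * incl G Q y * (incl G Q c)⁻¹ ∈ w.R := by
      rw [wr_conj, hbase]
      intro q
      rw [incl_left, incl_right, inv_one, one_mul]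
      have h5 := hconj (s q) (le_normalizer (hs q)) q (y q) (by
        rw [hsq, inv_mul_cancel]
        exact h1 q)
      exact h5
    rw [← h3] at h4
    have h5 := mul_mem h4 (hs x.right)
    have h6 : incl G Q c * (x * ((incl G Q c)⁻¹ * s x.right * incl G Q c)⁻¹) * (incl G Q c)⁻¹ *
        s x.right = incl G Q c * x * (incl G Q c)⁻¹ := by group
    rwa [h6] at h5
  have hR : (w.cj (incl G Q c)).R = bR Q (P 1) := by
    ext x
    rw [WF.mem_cj]
    constructor
    · intro h
      have h1 := key1 _ h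
      have h2 : (incl G Q c)⁻¹ * (incl G Q c * x * (incl G Q c)⁻¹) * incl G Q c = x := by group
      rwa [h2] at h1
    · exact key2 x
  obtain ⟨v, hv⟩ := exists_bWF_of_eq hQ (w.cj (incl G Q c)) (P 1) hR
  exact ⟨v, hv ▸ w.cj_rel _⟩

/-- a weight of type B is not of type A -/
theorem bWF_not_le (hQ : Nat.card Q = p) (v : WF p G) : ¬ (bWF hQ v).R ≤ (incl G Q).range := by
  intro h
  have : Nontrivial Q := by
    rw [← Finite.one_lt_card_iff_nontrivial, hQ]
    exact hp.out.one_lt
  obtain ⟨τ, hτ⟩ := exists_ne (1 : Q)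
  obtain ⟨y, hy⟩ := h (show (inl τ : G ≀ᵣ Q) ∈ bR Q v.R from fun _ => one_mem _)
  exact hτ (congrArg RegularWreathProduct.right hy).symm

end Surj

end P179R
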