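import Vale.Agent.P179.H166.WB4

/-!
# Theorem R, weights of `G ≀ C_p` of type B, V: counting
-/

namespace P179R

open P179H524 P179C P179A P179P Finset Subgroup RegularWreathProduct

section Rel

variable {p : ℕ} {G : Type} [Group G]

theorem relB_refl (a : WF p G) : WF.Rel a a := ⟨1, fun x => by simp, fun x => by simp⟩

theorem relB_symm {a b : WF p G} (h : WF.Rel a b) : WF.Rel b a := by
  obtain ⟨g, h1, h2⟩ := h
  refine ⟨g⁻¹, fun x => ?_, fun x => ?_⟩
  · rw [h1, inv_inv]
    have : g⁻¹ * (g * x * g⁻¹) * g = x := by group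
    rw [this]
  · rw [h2, inv_inv]
    have : g⁻¹ * (g * x * g⁻¹) * g = x := by group
    rw [this]

theorem relB_trans {a b c : WF p G} (h : WF.Rel a b) (h' : WF.Rel b c) : WF.Rel a c := by
  obtain ⟨g, h1, h2⟩ := h
  obtain ⟨g', h1', h2'⟩ := h'
  refine ⟨g' * g, fun x => ?_, fun x => ?_⟩
  · rw [h1', h1]
    have : g⁻¹ * (g'⁻¹ * x * g') * g = (g' * g)⁻¹ * x * (g' * g) := by group
    rw [this]
  · rw [h2', h2]
    have : g⁻¹ * (g'⁻¹ * x * g') * g = (g' * g)⁻¹ * x * (g' * g) := by group
    rw [this]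

theorem relB_equivalence : Equivalence (WF.Rel (p := p) (G := G)) :=
  ⟨relB_refl, relB_symm, relB_trans⟩

variable [Finite G] {k : Type*} [Field k] (red : integralClosure ℤ ℂ →+* k)

/-- conjugate weights have the same central character -/
theorem lam_rel {a b : WF p G} (h : WF.Rel a b) {e : MonoidAlgebra k G}
    (he : e ∈ Subalgebra.center k (MonoidAlgebra k G)) :
    lam red (fun n : normalizer (b.R : Set G) => b.χ n)
      (fun n : normalizer (b.R : Set G) => e.coeff n) =
    lam red (fun n : normalizer (a.R : Set G) => a.χ n)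
      (fun n : normalizer (a.R : Set G) => e.coeff n) := by
  have := Fintype.ofFinite G
  obtain ⟨g, h1, h2⟩ := h
  have hN := WF.Rel.card (a := a) (b := b) g h1
  let f : normalizer (b.R : Set G) ≃* normalizer (a.R : Set G) :=
    { toFun := fun x => ⟨g⁻¹ * x * g, (hN x).1 x.2⟩
      invFun := fun x => ⟨g * x * g⁻¹, (hN _).2 (by
        have : g⁻¹ * (g * (x : G) * g⁻¹) * g = x := by group
        rw [this]; exact x.2)⟩
      left_inv := fun x => Subtype.ext (by
        change g * (g⁻¹ * (x : G) * g) * g⁻¹ = x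
        group)
      right_inv := fun x => Subtype.ext (by
        change g⁻¹ * (g * (x : G) * g⁻¹) * g = x
        group)
      map_mul' := fun x y => Subtype.ext (by
        change g⁻¹ * ((x : G) * y) * g = (g⁻¹ * x * g) * (g⁻¹ * y * g)
        group) }
  have hcf : IsCF (fun n : normalizer (a.R : Set G) => e.coeff (n : G)) := by
    intro x y
    exact (P179C.mem_center_iff _).1 he (x : G) (y : G)
  have h3 := P179Y.lam_comp red f a.irr hcf
  rw [← h3]
  congr 1
  · funext n
    exact h2 n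
  · funext n
    change e.coeff (n : G) = e.coeff (g⁻¹ * (n : G) * g)
    have h4 := (P179C.mem_center_iff _).1 he g⁻¹ (n : G)
    rw [inv_inv] at h4
    exact h4.symm

theorem in_rel_iff {a b : WF p G} (h : WF.Rel a b) {e : MonoidAlgebra k G}
    (he : e ∈ Subalgebra.center k (MonoidAlgebra k G)) : a.In red e ↔ b.In red e := by
  unfold WF.In
  rw [lam_rel red h he]

end Rel

section Count

variable {p : ℕ} [hp : Fact p.Prime] {k : Type*} [Field k] [CharP k p]
  {red red2 : integralClosure ℤ ℂ →+* k} {G : Type} [Group G] [Finite G] {Q : Type} [Group Q]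
  [Fintype Q]

/-- **(L4)** the number of classes of weights of `G ≀ C_p` of type B in `e ⊗ ... ⊗ e` -/
theorem card_typeB (h : ∀ x, red2 x ^ p = red x) (hQ : Nat.card Q = p) {e : MonoidAlgebra k G}
    (he : e ∈ Subalgebra.center k (MonoidAlgebra k G)) (hee : e * e = e) :
    Nat.card (Quot fun a b : {w : WF p (G ≀ᵣ Q) // w.In red (ehat Q e) ∧
      ¬ w.R ≤ (incl G Q).range} => WF.Rel a.1 b.1) = numW p red2 e := by
  have := Fintype.ofFinite G
  unfold numW
  symm
  have hE1 : Equivalence (fun a b : {w : WF p G // w.In red2 e} => WF.Rel a.1 b.1) :=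
    ⟨fun a => relB_refl a.1, fun h => relB_symm h, fun h h' => relB_trans h h'⟩
  have hE2 : Equivalence (fun a b : {w : WF p (G ≀ᵣ Q) // w.In red (ehat Q e) ∧
      ¬ w.R ≤ (incl G Q).range} => WF.Rel a.1 b.1) :=
    ⟨fun a => relB_refl a.1, fun h => relB_symm h, fun h h' => relB_trans h h'⟩
  let F : {w : WF p G // w.In red2 e} → {w : WF p (G ≀ᵣ Q) // w.In red (ehat Q e) ∧
      ¬ w.R ≤ (incl G Q).range} := fun v =>
    ⟨bWF hQ v.1, (in_bWF_iff h hQ v.1 he hee).2 v.2, bWF_not_le hQ v.1⟩
  refine Nat.card_congr (Equiv.ofBijective (Quot.map F fun a b hab =>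
    (rel_bWF_iff hQ a.1 b.1).2 hab) ⟨?_, ?_⟩)
  · intro a b
    induction a using Quot.ind with | mk a =>
    induction b using Quot.ind with | mk b =>
    intro hab
    have h1 : WF.Rel (bWF hQ a.1) (bWF hQ b.1) := (hE2.quot_mk_eq_iff _ _).1 hab
    exact Quot.sound ((rel_bWF_iff hQ a.1 b.1).1 h1)
  · intro w
    induction w using Quot.ind with | mk w =>
    obtain ⟨v, hv⟩ := exists_bWF hQ w.1 w.2.2
    have h1 : (bWF hQ v).In red (ehat Q e) :=
      (in_rel_iff red hv (ehat_mem (Q := Q) e he)).2 w.2.1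
    exact ⟨Quot.mk _ ⟨v, (in_bWF_iff h hQ v he hee).1 h1⟩, Quot.sound hv⟩

end Count

end P179R
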