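import Vale.Agent.P179.H166.PPMain5
import Vale.Agent.P179.H905.MainLem4

/-!
# The main lemma for `p = 3` and abelian subgroups: the divisibility by `9 |A|`
-/

set_option linter.unusedSectionVars false

namespace P179A

open Subgroup

open scoped Classical Pointwise

/-- **Triples.** `φ` is a permutation of order `3` of the finite set `S` without fixed points, the
product of `F` over each orbit is `z ^ d`, `d` an invariant integer-valued function. -/
theorem triples {X M : Type*} [CommGroup M] (φ : X → X) (d : X → ℤ) (F : X → M) (z : M) :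
    ∀ (n : ℕ) (S : Finset X), S.card ≤ n → (∀ w ∈ S, φ w ∈ S) → (∀ w ∈ S, φ (φ (φ w)) = w) →
      (∀ w ∈ S, φ w ≠ w) → (∀ w ∈ S, d (φ w) = d w) →
      (∀ w ∈ S, F w * F (φ w) * F (φ (φ w)) = z ^ (d w)) →
      ∃ D : ℤ, ∑ w ∈ S, d w = 3 * D ∧ ∏ w ∈ S, F w = z ^ D := by
  intro n
  induction n with
  | zero =>
    intro S hS _ _ _ _ _
    have : S = ∅ := Finset.card_eq_zero.1 (Nat.le_zero.1 hS)
    subst this
    exact ⟨0, by simp, by simp⟩
  | succ n ih =>
    intro S hS h1 h2 h3 h4 h5
    rcases S.eq_empty_or_nonempty with rfl | ⟨w, hw⟩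
    · exact ⟨0, by simp, by simp⟩
    · have hw1 := h1 w hw
      have hw2 := h1 _ hw1
      have n1 : φ w ≠ w := h3 w hw
      have n2 : φ (φ w) ≠ φ w := h3 _ hw1
      have n3 : φ (φ w) ≠ w := by
        intro h
        have := h2 w hw
        rw [h] at this
        exact n1 this
      set O : Finset X := {w, φ w, φ (φ w)} with hO
      have hOS : O ⊆ S := by
        intro v hv
        simp only [hO, Finset.mem_insert, Finset.mem_singleton] at hv
        rcases hv with rfl | rfl | rfl
        · exact hw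
        · exact hw1
        · exact hw2
      have hOφ : ∀ v ∈ S, φ v ∈ O → v ∈ O := by
        intro v hv h
        have h6 : φ (φ (φ v)) = v := h2 v hv
        simp only [hO, Finset.mem_insert, Finset.mem_singleton] at h ⊢
        rcases h with h | h | h
        · right; right; rw [← h6, h]
        · left; rw [← h6, h]; exact h2 w hw
        · right; left; rw [← h6, h, h2 _ hw1]
      have hcard : (S \ O).card < S.card := by
        refine Finset.card_lt_card ⟨Finset.sdiff_subset, fun h => ?_⟩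
        exact (Finset.mem_sdiff.1 (h hw)).2 (by simp [hO])
      obtain ⟨D, hD1, hD2⟩ := ih (S \ O) (by omega)
        (fun v hv => by
          rw [Finset.mem_sdiff] at hv ⊢
          exact ⟨h1 v hv.1, fun h => hv.2 (hOφ v hv.1 h)⟩)
        (fun v hv => h2 v (Finset.mem_sdiff.1 hv).1)
        (fun v hv => h3 v (Finset.mem_sdiff.1 hv).1)
        (fun v hv => h4 v (Finset.mem_sdiff.1 hv).1)
        (fun v hv => h5 v (Finset.mem_sdiff.1 hv).1)
      refine ⟨D + d w, ?_, ?_⟩
      · rw [← Finset.sum_sdiff hOS, hD1, hO, Finset.sum_insert, Finset.sum_insert,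
          Finset.sum_singleton, h4 _ hw1, h4 w hw]
        · ring
        · simpa using n2.symm
        · simp only [Finset.mem_insert, Finset.mem_singleton, not_or]
          exact ⟨n1.symm, n3.symm⟩
      · rw [← Finset.prod_sdiff hOS, hD2, hO, Finset.prod_insert, Finset.prod_insert,
          Finset.prod_singleton, zpow_add, ← h5 w hw]
        · congr 1
          rw [mul_assoc]
        · simpa using n2.symm
        · simp only [Finset.mem_insert, Finset.mem_singleton, not_or]
          exact ⟨n1.symm, n3.symm⟩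

/-! ### the transfer of a map whose cube is an element of the group -/

section cube

variable {P Ω : Type*} [CommGroup P] [Finite P] [MulAction P Ω]

/-- the number of orbits in `S` on which `f` acts as `h` -/
noncomputable def rr (c : Ω → P) (f : Ω → Ω) (S : Finset Ω) (h : P) : ℕ :=
  ((reps c S).filter (fun w => f w = h • w)).card

theorem Triv.f_eq {S : Finset Ω} {c : Ω → P} (hc : Triv S c) {f : Ω → Ω}
    {w : Ω} (hw : w ∈ reps c S) {h : P} (hf : f w = h • w) : c (f w) = h := by
  have h1 := mem_reps.1 hw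
  rw [hf, hc.map w h1.1, h1.2, mul_one]

/-- **cycle formula** for a map `f` with `f³ = v` -/
theorem cube_formula [Fintype P] {S : Finset Ω} {c : Ω → P} (hc : Triv S c) {f : Ω → Ω}
    (hf : Eqv P S S f) {v : P} (hv : ∀ w ∈ S, f (f (f w)) = v • w) :
    ∃ D : ℤ, ((reps c S).card : ℤ) =
        ∑ h ∈ (Finset.univ : Finset P).filter (fun h => h ^ 3 = v), (rr c f S h : ℤ) + 3 * D ∧
      delta c f S = (∏ h ∈ (Finset.univ : Finset P).filter (fun h => h ^ 3 = v),
        h ^ (rr c f S h)) * v ^ D := by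
  set X := (reps c S).filter (fun w => ¬ ∃ h : P, f w = h • w) with hX
  let φ : Ω → Ω := fun w => (c (f w))⁻¹ • f w
  have hφ : ∀ w ∈ reps c S, φ w ∈ reps c S := fun w hw =>
    hc.rep_mem (hf.maps w (mem_reps.1 hw).1)
  have hfφ : ∀ w ∈ S, f (φ w) = (c (f w))⁻¹ • f (f w) := fun w hw =>
    hf.comm _ (hf.maps w hw) _
  have hcomm3 : ∀ w ∈ S, φ (φ (φ w)) = (c (f w) * c (f (φ w)) * c (f (φ (φ w))))⁻¹ • f (f (f w)) := by
    intro w hw
    have e1 : φ (φ (φ w)) = (c (f (φ (φ w))))⁻¹ • f (φ (φ w)) := rfl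
    have hφw : φ w ∈ S := hc.stable _ (hf.maps w hw) _
    have e2 : f (φ (φ w)) = (c (f (φ w)))⁻¹ • f (f (φ w)) := hfφ _ hφw
    have e3 : f (f (φ w)) = (c (f w))⁻¹ • f (f (f w)) := by
      rw [hfφ w hw, hf.comm _ (hf.maps _ (hf.maps w hw))]
    rw [e1, e2, e3, smul_smul, smul_smul]
    congr 1
    rw [mul_inv, mul_inv]
    ac_rfl
  have key : ∀ w ∈ reps c S, φ (φ (φ w)) = w ∧ c (f w) * c (f (φ w)) * c (f (φ (φ w))) = v := by
    intro w hw
    have hw' := mem_reps.1 hw
    have h1 := hcomm3 w hw'.1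
    rw [hv w hw'.1, smul_smul] at h1
    have h2 := mem_reps.1 (hφ _ (hφ _ (hφ w hw)))
    rw [h1, hc.map w hw'.1, hw'.2, mul_one] at h2
    refine ⟨by rw [h1, h2.2, one_smul], ?_⟩
    exact (inv_mul_eq_one.1 h2.2)
  have hnot : ∀ w ∈ reps c S, (∃ h : P, f (φ w) = h • φ w) → ∃ h : P, f w = h • w := by
    rintro w hw ⟨h, hh⟩
    have hw' := mem_reps.1 hw
    have hφw : φ w ∈ S := (mem_reps.1 (hφ w hw)).1
    refine ⟨h, ?_⟩
    -- `f (c⁻¹ • f w) = h • c⁻¹ • f w`, so `f (f w) = h • f w = f (h • w)`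
    have h1 : f (f w) = h • f w := by
      rw [hfφ w hw'.1] at hh
      change (c (f w))⁻¹ • f (f w) = h • ((c (f w))⁻¹ • f w) at hh
      rw [smul_smul, mul_comm, ← smul_smul] at hh
      exact MulAction.injective (c (f w))⁻¹ hh
    have h2 : f (f w) = f (h • w) := by rw [hf.comm w hw'.1, h1]
    exact hf.inj _ (hf.maps w hw'.1) _ (hc.stable w hw'.1 h) h2
  have hXmem : ∀ w, w ∈ X ↔ w ∈ reps c S ∧ ¬ ∃ h : P, f w = h • w := fun w => Finset.mem_filter
  obtain ⟨D, hD1, hD2⟩ := triples φ (fun _ => (1 : ℤ)) (fun w => c (f w)) v X.card X le_rfl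
    (fun w hw => by
      rw [hXmem] at hw ⊢
      exact ⟨hφ w hw.1, fun h => hw.2 (hnot w hw.1 h)⟩)
    (fun w hw => (key w ((hXmem w).1 hw).1).1)
    (fun w hw h => by
      rw [hXmem] at hw
      exact hw.2 ⟨c (f w), inv_smul_eq_iff.1 h⟩)
    (fun w hw => rfl)
    (fun w hw => by rw [zpow_one]; exact (key w ((hXmem w).1 hw).1).2)
  -- the fixed orbits
  have hfix : ∀ w ∈ (reps c S).filter (fun w => ∃ h : P, f w = h • w),
      c (f w) ∈ (Finset.univ : Finset P).filter (fun h => h ^ 3 = v) := by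
    intro w hw
    rw [Finset.mem_filter] at hw ⊢
    obtain ⟨hw1, h, hh⟩ := hw
    have hw' := mem_reps.1 hw1
    refine ⟨Finset.mem_univ _, ?_⟩
    rw [hc.f_eq hw1 hh]
    have h1 : f (f (f w)) = h ^ 3 • w := by
      rw [hh, hf.comm w hw'.1, hh, hf.comm _ (hc.stable w hw'.1 _), hf.comm w hw'.1, hh,
        smul_smul, smul_smul, pow_succ, pow_two, mul_assoc]
    rw [hv w hw'.1] at h1
    have h2 : (v⁻¹ * h ^ 3) • w = w := by rw [mul_smul, ← h1, inv_smul_smul]
    have h3 := hc.free hw'.1 h2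
    exact (inv_mul_eq_one.1 h3).symm
  have hfib : ∀ h : P, ((reps c S).filter (fun w => ∃ h : P, f w = h • w)).filter
      (fun w => c (f w) = h) = (reps c S).filter (fun w => f w = h • w) := by
    intro h
    ext w
    simp only [Finset.mem_filter]
    constructor
    · rintro ⟨⟨hw, h', hh'⟩, h2⟩
      rw [hc.f_eq hw hh'] at h2
      subst h2
      exact ⟨hw, hh'⟩
    · rintro ⟨hw, hh⟩
      exact ⟨⟨hw, h, hh⟩, hc.f_eq hw hh⟩
  refine ⟨D, ?_, ?_⟩
  · rw [← Finset.card_filter_add_card_filter_not (s := reps c S) (fun w => ∃ h : P, f w = h • w)]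
    rw [Nat.cast_add]
    congr 1
    · rw [Finset.card_eq_sum_card_fiberwise hfix]
      push_cast
      refine Finset.sum_congr rfl fun h _ => ?_
      rw [hfib, rr]
    · rw [← hD1]
      simp [X]
  · unfold delta
    rw [← Finset.prod_filter_mul_prod_filter_not (reps c S) (fun w => ∃ h : P, f w = h • w)]
    congr 1
    rw [← Finset.prod_fiberwise_of_maps_to hfix]
    refine Finset.prod_congr rfl fun h _ => ?_
    rw [hfib]
    rw [Finset.prod_congr rfl (g := fun _ => h), Finset.prod_const, rr]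
    intro w hw
    rw [Finset.mem_filter] at hw
    exact hc.f_eq hw.1 hw.2

end cube

end P179A
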