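import Vale.Agent.P179.H166.Y1

/-!
# The main lemma for `p = 3` and abelian subgroups, conclusion
-/

set_option linter.unusedSectionVars false

namespace P179A

open Subgroup

open scoped Classical Pointwise

variable {G : Type*} [Group G] [Finite G]

section abstract

variable {P : Type*} [CommGroup P] [MulAction P (Tri G)] {ι : P →* G}
  (hι : Function.Injective ι) (hact : ∀ (e : P) (w : Tri G), e • w = ι e • w)
  {p : ℕ} {g : G} (hg : ∀ e : P, ι e * g = g * ι e)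

include hι hact hg in
/-- the transfers of `s1^q` on the free triples of the two signs agree -/
theorem cusp_eq [hp : Fact p.Prime] (hP : IsPGroup p ι.range) {q : ℕ}
    (hq : ∀ x : G, ∃ n : ℕ, (x ^ q) ^ (p ^ n) = 1) {c1 c2 : Tri G → P}
    (hc1 : Triv (FP p g ι.range 1) c1) (hc2 : Triv (FP p g ι.range (-1)) c2) :
    delta c1 (s1^[q]) (FP p g ι.range 1) = delta c2 (s1^[q]) (FP p g ι.range (-1)) := by
  have m1 : ∀ ε : ℤ, F1 p g ι.range ε ⊆ FP p g ι.range ε := fun ε => Finset.filter_subset _ _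
  have m2 : ∀ ε : ℤ, F2 p g ι.range ε ⊆ FP p g ι.range ε := fun ε => Finset.filter_subset _ _
  have d1 : delta c1 (s1^[q]) (FP p g ι.range 1) = delta c1 (s1^[q]) (F2 p g ι.range 1) := by
    rw [← F_union ι.range 1, delta_union (F_disjoint ι.range 1),
      delta_F1 hι hact hg hP hq (hc1.mono (m1 1) (F1_stable hact hg 1)), one_mul]
  have d2 : delta c2 (s1^[q]) (FP p g ι.range (-1)) = delta c2 (s1^[q]) (F2 p g ι.range (-1)) := by
    rw [← F_union ι.range (-1), delta_union (F_disjoint ι.range (-1)),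
      delta_F1 hι hact hg hP hq (hc2.mono (m1 (-1)) (F1_stable hact hg (-1))), one_mul]
  have d3 : delta c1 (s1^[q]) (F2 p g ι.range 1) = delta c2 (s1^[q]) (F2 p g ι.range (-1)) := by
    refine delta_iso (hc1.mono (m2 1) (F2_stable hact hg 1))
      (hc2.mono (m2 (-1)) (F2_stable hact hg (-1))) (eqv_sq_F2 hact hg 1 q) (eqv_tgL hact hP 1) ?_
    intro w hw
    rw [tgL, L_sq, sq_eq, tgL, sq_eq]
    rfl
  rw [d1, d2, d3]

include hact hg in
theorem delta_s2 {ε : ℤ} {c : Tri G → P} (hcT : Triv (FP p g ι.range ε) c) :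
    delta c s2 (FP p g ι.range ε) = delta c s1 (FP p g ι.range ε) := by
  have e1 := eqv_s1 (p := p) hact hg ε
  have e2 := eqv_s2 (p := p) hact hg ε
  set S := FP p g ι.range ε with hS
  have d1 : delta c (fun w => s1 (s2 (s1 w))) S
      = delta c s1 S * (delta c s2 S * delta c s1 S) := by
    rw [delta_comp hcT e1 (e2.comp e1), delta_comp hcT e2 e1]
  have d2 : delta c (fun w => s2 (s1 (s2 w))) S
      = delta c s2 S * (delta c s1 S * delta c s2 S) := by
    rw [delta_comp hcT e2 (e1.comp e2), delta_comp hcT e1 e2]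
  have d3 : delta c (fun w : Tri G => s1 (s2 (s1 w))) S = delta c (fun w => s2 (s1 (s2 w))) S :=
    delta_congr fun w _ => braid w
  rw [d1, d2] at d3
  have h1 : delta c s1 S * (delta c s1 S * delta c s2 S)
      = delta c s2 S * (delta c s1 S * delta c s2 S) := by
    rw [← d3]; congr 1; exact mul_comm _ _
  exact (mul_right_cancel h1).symm

/-- the map of order `3` modulo the centre -/
def h3 (w : Tri G) : Tri G := h12 (h12 w)

include hact hg in
theorem eqv_h3 (ε : ℤ) : Eqv P (FP p g ι.range ε) (FP p g ι.range ε) h3 := by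
  have e1 := eqv_s1 (p := p) hact hg ε
  have e2 := eqv_s2 (p := p) hact hg ε
  exact (e1.comp e2).comp (e1.comp e2)

include hact hg in
theorem delta_h3 {ε : ℤ} {c : Tri G → P} (hcT : Triv (FP p g ι.range ε) c) (m : ℕ) :
    delta c (h3^[m]) (FP p g ι.range ε) = delta c (s1^[m]) (FP p g ι.range ε) ^ 4 := by
  have e1 := eqv_s1 (p := p) hact hg ε
  have e2 := eqv_s2 (p := p) hact hg ε
  have e12 : Eqv P (FP p g ι.range ε) (FP p g ι.range ε) h12 := e1.comp e2
  have d1 : delta c h12 (FP p g ι.range ε) = delta c s1 (FP p g ι.range ε) ^ 2 := by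
    have : delta c h12 (FP p g ι.range ε) =
        delta c s1 (FP p g ι.range ε) * delta c s2 (FP p g ι.range ε) := delta_comp hcT e1 e2
    rw [this, delta_s2 hact hg hcT, pow_two]
  have d2 : delta c h3 (FP p g ι.range ε) = delta c s1 (FP p g ι.range ε) ^ 4 := by
    have : delta c h3 (FP p g ι.range ε) =
        delta c h12 (FP p g ι.range ε) * delta c h12 (FP p g ι.range ε) := delta_comp hcT e12 e12
    rw [this, d1, ← pow_add]
  rw [delta_iterate hcT (eqv_h3 hact hg ε), d2, delta_iterate hcT e1, ← pow_mul, ← pow_mul,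
    mul_comm]

end abstract

theorem tw_h3 : Tw G 3 3 3 h3 := tw_h12

/-- the signed number of twisted free triples is invariant under Adams operations -/
theorem DD_pow {p : ℕ} [hp : Fact p.Prime] {q n i j : ℕ} (hqn : q = p ^ n)
    {τ : Tri G → Tri G} (hT : Tw G q i j τ) (g : G) (m : ℕ)
    (P : Subgroup G) (hP : IsPGroup p P) (hg : ∀ a ∈ P, a * g = g * a)
    (hu1 : g ^ m ≠ 1) (hup : (g ^ m) ^ p = 1) (hm : ∀ x : G, (∃ n, x ^ p ^ n = 1) → x ^ m = x)
    {k : G} (hk : k ∈ P) (hkq : k ^ q = g ^ m) {v : ℕ} (hv : v ≡ 1 [MOD p]) :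
    DD p g P (τ^[m]) (k ^ v) = DD p g P (τ^[m]) k := by
  set u := g ^ m with hu
  have hup1 : ∃ n, u ^ p ^ n = 1 := ⟨1, by rw [pow_one]; exact hup⟩
  have huo : orderOf u = p := orderOf_eq_prime hup hu1
  have hm0 : m ≠ 0 := by rintro rfl; exact hu1 (by rw [hu, pow_zero])
  have hpm : ¬ p ∣ m := by
    intro hd
    obtain ⟨t, ht⟩ := hd
    have := hm u hup1
    rw [ht, pow_mul, hup, one_pow] at this
    exact hu1 this.symm
  have hσU : ∀ w, U P (τ^[m] w) = U P w := fun w => hT.iter_U P w m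
  have hσtg : ∀ V w, τ^[m] (tg V w) = tg V (τ^[m] w) := fun V w => hT.iter_tg V w m
  have hQ : ∀ k ∈ P, DD p g P (τ^[m]) k =
      ∑ w ∈ (OF p g).filter (fun w => k • τ^[m] w = w), (-1 : ℤ) ^ w.s.card := by
    intro k hk
    symm
    refine sum_OF_eq_rel hP (fun w => k • τ^[m] w = w) ?_
    intro w _ _ hkw
    have hV : MulAut.conj k • U P w = U P w := by
      conv_rhs => rw [← hkw, U_smul_eq hk, hσU]
    change k • τ^[m] (tg (U P w) w) = tg (U P w) w
    rw [hσtg, smul_tg, hV, hkw]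
  have hkN : k ^ (p ^ (n + 1)) = 1 := by
    rw [pow_succ, pow_mul, ← hqn, hkq, hup]
  have hko : orderOf k = p ^ (n + 1) := by
    refine orderOf_eq_prime_pow (by rw [← hqn, hkq]; exact hu1) hkN
  have hkm : k ^ m = k := hm k ⟨n + 1, hkN⟩
  have hqm : ∃ b, m = 1 + q * b := by
    have h1 : m ≡ 1 [MOD orderOf k] := by
      rw [← pow_eq_pow_iff_modEq, pow_one]; exact hkm
    rw [hko] at h1
    have h2 : q ∣ m - 1 := by
      refine (dvd_trans ?_ ((Nat.modEq_iff_dvd' (Nat.one_le_iff_ne_zero.mpr hm0)).mp h1.symm))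
      rw [hqn]
      exact pow_dvd_pow p (Nat.le_succ n)
    obtain ⟨b, hb⟩ := h2
    exact ⟨b, by omega⟩
  obtain ⟨b, hb⟩ := hqm
  obtain ⟨e, he1, he2, he3⟩ := exists_exp (g := g) (k := k) (m := m) (v := v)
    hu1 hup hpm (by rw [← hqn]; exact hkq) hv
  have hcg : Commute k g := hg k hk
  have hκ : (k * (g ^ b)⁻¹) ^ q = g := by
    rw [((hcg.pow_right b).inv_right).mul_pow, hkq, hu, inv_pow, ← pow_mul, mul_inv_eq_iff_eq_mul,
      mul_comm b q, ← pow_succ', add_comm (q * b) 1, ← hb]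
  have hκe : (k * (g ^ b)⁻¹) ^ e = k ^ v * (g ^ b)⁻¹ := by
    rw [((hcg.pow_right b).inv_right).mul_pow, he3, inv_pow, ← pow_mul, mul_comm b e, pow_mul,
      he2]
  have hfil : ∀ k' : G, (OF p g).filter (fun w => k' • τ^[m] w = w) =
      (OF p g).filter (fun w => (k' * (g ^ b)⁻¹) • τ w = w) := by
    intro k'
    refine Finset.filter_congr fun w hw => ?_
    rw [hb, hT.iter_eq (mem_OF.1 hw), mul_smul]
  rw [hQ _ (pow_mem hk v), hQ _ hk, hfil, hfil, ← hκe]
  exact count_fix_pow hT hκ he1 he2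

section three

variable {P : Type*} [CommGroup P] [MulAction P (Tri G)] {ι : P →* G}
  (hι : Function.Injective ι) (hact : ∀ (e : P) (w : Tri G), e • w = ι e • w)
  {g : G} (hg : ∀ e : P, ι e * g = g * ι e)

include hι hact hg in
/-- The abstract main lemma for `p = 3`. -/
theorem main_three_abstract (hP : IsPGroup 3 ι.range) {m : ℕ}
    (hq : ∀ x : G, ∃ n : ℕ, (x ^ m) ^ (3 ^ n) = 1) {u : P} (hu : ι u = g ^ m)
    (hu1 : u ≠ 1) (hu3 : u ^ 3 = 1) (hm : ∀ x : G, (∃ n, x ^ 3 ^ n = 1) → x ^ m = x) :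
    ((9 * Nat.card P : ℕ) : ℤ) ∣ ∑ w ∈ OF 3 g, (-1 : ℤ) ^ w.s.card := by
  have hp3 : Fact (Nat.Prime 3) := ⟨Nat.prime_three⟩
  have hfinP : Finite P := Finite.of_injective ι hι
  have : Fintype P := Fintype.ofFinite P
  have hu1' : g ^ m ≠ 1 := by
    rw [← hu]
    intro h
    exact hu1 (hι (by rw [h, map_one]))
  have hup' : (g ^ m) ^ 3 = 1 := by rw [← hu, ← map_pow, hu3, map_one]
  rw [sum_OF_eq hP (range_comm ι)]
  obtain ⟨c1, hc1⟩ := exists_triv (FP 3 g ι.range 1) (fun w hw e => FP_stable hact hg hw e)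
    (fun w hw e he => FP_free hι hact hw he)
  obtain ⟨c2, hc2⟩ := exists_triv (FP 3 g ι.range (-1)) (fun w hw e => FP_stable hact hg hw e)
    (fun w hw e he => FP_free hι hact hw he)
  have hcusp := cusp_eq hι hact hg hP hq hc1 hc2
  have hd1 := delta_h3 hact hg hc1 m
  have hd2 := delta_h3 hact hg hc2 m
  have hcube : ∀ ε : ℤ, ∀ w ∈ FP 3 g ι.range ε, h3^[m] (h3^[m] (h3^[m] w)) = u⁻¹ • w := by
    intro ε w hw
    have h1 : h3^[m] (h3^[m] (h3^[m] w)) = (h3^[m])^[3] w := rfl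
    rw [h1, ← Function.iterate_mul, mul_comm, Function.iterate_mul,
      tw_h3.full_iterate (mem_FP.1 hw).1, hact, map_inv, hu]
  have hE : ∀ ε : ℤ, Eqv P (FP 3 g ι.range ε) (FP 3 g ι.range ε) (h3^[m]) := fun ε =>
    (eqv_h3 hact hg ε).iterate m
  obtain ⟨D1, hD1, hD1'⟩ := cube_formula hc1 (hE 1) (hcube 1)
  obtain ⟨D2, hD2, hD2'⟩ := cube_formula hc2 (hE (-1)) (hcube (-1))
  set H : Finset P := (Finset.univ : Finset P).filter (fun h => h ^ 3 = u⁻¹) with hH
  set d : P → ℤ := fun h => (rr c1 (h3^[m]) (FP 3 g ι.range 1) h : ℤ) -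
    rr c2 (h3^[m]) (FP 3 g ι.range (-1)) h with hd
  -- the numbers of twisted free triples
  have hrr : ∀ (ε : ℤ) (c : Tri G → P), Triv (FP 3 g ι.range ε) c → ∀ h : P,
      ((FP 3 g ι.range ε).filter (fun w => (ι h)⁻¹ • h3^[m] w = w)).card =
        Nat.card P * rr c (h3^[m]) (FP 3 g ι.range ε) h := by
    intro ε c hc h
    have hc' : Triv ((FP 3 g ι.range ε).filter (fun w => (ι h)⁻¹ • h3^[m] w = w)) c := by
      refine hc.mono (Finset.filter_subset _ _) ?_
      intro w hw e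
      rw [Finset.mem_filter] at hw ⊢
      refine ⟨hc.stable w hw.1 e, ?_⟩
      rw [(hE ε).comm w hw.1, hact e, smul_smul, ← map_inv, ← map_mul, mul_comm, map_mul,
        mul_smul, map_inv, hw.2, hact e]
    rw [card_eq hc', rr]
    congr 2
    ext w
    rw [mem_reps, Finset.mem_filter, Finset.mem_filter, mem_reps]
    have h1 : (ι h)⁻¹ • h3^[m] w = w ↔ h3^[m] w = h • w := by
      rw [inv_smul_eq_iff, hact]
    rw [h1]
    tauto
  have hPpos : (Nat.card P : ℤ) ≠ 0 := by exact_mod_cast Nat.card_pos.ne'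
  have hDD : ∀ h : P, DD 3 g ι.range (h3^[m]) (ι h)⁻¹ = Nat.card P * d h := by
    intro h
    rw [DD, hrr 1 c1 hc1 h, hrr (-1) c2 hc2 h, hd]
    push_cast
    ring
  have hinv : ∀ h ∈ H, d (h * u⁻¹) = d h := by
    intro h hh
    have hh3 : h ^ 3 = u⁻¹ := (Finset.mem_filter.1 hh).2
    apply mul_left_cancel₀ hPpos
    rw [← hDD, ← hDD]
    have e1 : (ι (h * u⁻¹))⁻¹ = ((ι h)⁻¹) ^ 4 := by
      rw [← map_inv, ← map_inv, ← map_pow]
      congr 1
      rw [inv_pow, inv_inj, pow_succ, hh3, mul_comm]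
    rw [e1]
    refine DD_pow (p := 3) (q := 3) (n := 1) (by norm_num) tw_h3 g m ι.range hP ?_ hu1' hup' hm
      (inv_mem ⟨h, rfl⟩) ?_ (by decide)
    · rintro _ ⟨a, rfl⟩
      exact hg a
    · rw [← map_inv, ← map_pow, inv_pow, hh3, inv_inv, hu]
  obtain ⟨D3, hD3, hD3'⟩ := triples (fun h : P => h * u⁻¹) d (fun h => h ^ d h) u⁻¹ H.card H le_rfl
    (fun h hh => by
      rw [hH, Finset.mem_filter] at hh ⊢
      refine ⟨Finset.mem_univ _, ?_⟩
      rw [mul_pow, hh.2, inv_pow, hu3, inv_one, mul_one])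
    (fun h hh => by
      have h1 : h * u⁻¹ * u⁻¹ * u⁻¹ = h * (u ^ 3)⁻¹ := by
        rw [pow_succ, pow_two, mul_inv, mul_inv, mul_assoc, mul_assoc, mul_assoc]
      rw [h1, hu3, inv_one, mul_one])
    (fun h hh heq => hu1 (by
      rw [mul_eq_left, inv_eq_one] at heq
      exact heq))
    hinv
    (fun h hh => by
      have hh' : h * u⁻¹ ∈ H := by
        rw [hH, Finset.mem_filter] at hh ⊢
        refine ⟨Finset.mem_univ _, ?_⟩
        rw [mul_pow, hh.2, inv_pow, hu3, inv_one, mul_one]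
      have hh3 : h ^ 3 = u⁻¹ := (Finset.mem_filter.1 hh).2
      rw [hinv _ hh', hinv _ hh, ← mul_zpow, ← mul_zpow]
      congr 1
      have : h * (h * u⁻¹) * (h * u⁻¹ * u⁻¹) = h ^ 3 * (u ^ 3)⁻¹ := by
        rw [pow_succ, pow_two, pow_succ, pow_two, mul_inv, mul_inv]
        ac_rfl
      rw [this, hu3, inv_one, mul_one, hh3])
  -- the relation
  have hrel : (u⁻¹) ^ (D3 + D1 - D2) = 1 := by
    have h1 : (∏ h ∈ H, h ^ (rr c1 (h3^[m]) (FP 3 g ι.range 1) h)) * (u⁻¹) ^ D1 =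
        (∏ h ∈ H, h ^ (rr c2 (h3^[m]) (FP 3 g ι.range (-1)) h)) * (u⁻¹) ^ D2 := by
      rw [← hD1', ← hD2', hd1, hd2, hcusp]
    have h2 : ∏ h ∈ H, h ^ d h = (∏ h ∈ H, h ^ (rr c1 (h3^[m]) (FP 3 g ι.range 1) h)) *
        (∏ h ∈ H, h ^ (rr c2 (h3^[m]) (FP 3 g ι.range (-1)) h))⁻¹ := by
      rw [← Finset.prod_inv_distrib, ← Finset.prod_mul_distrib]
      refine Finset.prod_congr rfl fun h _ => ?_
      rw [hd]
      simp only
      rw [zpow_sub, zpow_natCast, zpow_natCast]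
    rw [zpow_sub, zpow_add, ← hD3', h2]
    have h3 : ∀ a b c e : P, a * c = b * e → a * b⁻¹ * c * e⁻¹ = 1 := by
      intro a b c e h
      have : a * b⁻¹ * c * e⁻¹ = (a * c) * (b * e)⁻¹ := by
        rw [mul_inv]; ac_rfl
      rw [this, h, mul_inv_cancel]
    exact h3 _ _ _ _ h1
  have h3D : (3 : ℤ) ∣ D3 + D1 - D2 := by
    have h1 := orderOf_dvd_iff_zpow_eq_one.2 hrel
    have h2 : orderOf u⁻¹ = 3 := by
      rw [orderOf_inv]
      exact orderOf_eq_prime hu3 hu1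
    rw [h2] at h1
    exact_mod_cast h1
  have hcardd : ((reps c1 (FP 3 g ι.range 1)).card : ℤ) - (reps c2 (FP 3 g ι.range (-1))).card =
      3 * (D3 + D1 - D2) := by
    rw [hD1, hD2]
    have h1 : ∑ h ∈ H, d h = ∑ h ∈ H, (rr c1 (h3^[m]) (FP 3 g ι.range 1) h : ℤ) -
        ∑ h ∈ H, (rr c2 (h3^[m]) (FP 3 g ι.range (-1)) h : ℤ) := by
      rw [← Finset.sum_sub_distrib]
    rw [hD3] at h1
    linarith
  rw [card_eq hc1, card_eq hc2]
  obtain ⟨t, ht⟩ := h3D
  refine ⟨t, ?_⟩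
  push_cast
  rw [← mul_sub, hcardd, ht]
  ring

end three

/-- **Main lemma, `p = 3`.** -/
theorem main_three [Fintype G] (g : G) (m : ℕ)
    (A : Subgroup G) (hA : IsPGroup 3 A) (hc : ∀ a ∈ A, ∀ b ∈ A, a * b = b * a)
    (hg : ∀ a ∈ A, a * g = g * a) (hgA : g ^ m ∈ A) (hu1 : g ^ m ≠ 1) (hup : (g ^ m) ^ 3 = 1)
    (hq : ∀ x : G, ∃ n : ℕ, (x ^ m) ^ (3 ^ n) = 1)
    (hm : ∀ x : G, (∃ n, x ^ 3 ^ n = 1) → x ^ m = x) :
    ((9 * Nat.card A : ℕ) : ℤ) ∣
      ∑ t ∈ (Finset.univ : Finset (G × G)).filter (fun t => t.1 * t.2 * t.1⁻¹ * t.2⁻¹ = g),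
        W 3 t.1 t.2 := by
  let _ : CommGroup A := { (inferInstance : Group A) with
    mul_comm := fun a b => Subtype.ext (hc a.1 a.2 b.1 b.2) }
  let ι : A →* G := A.subtype
  let _ : MulAction A (Tri G) := MulAction.compHom (Tri G) ι
  have hr : ι.range = A := A.range_subtype
  rw [sum_W_eq]
  exact main_three_abstract (ι := ι) (g := g) A.subtype_injective (fun _ _ => rfl)
    (fun e => hg e.1 e.2) (by rw [hr]; exact hA) hq (u := ⟨g ^ m, hgA⟩) rfl
    (fun h => hu1 (congrArg Subtype.val h)) (Subtype.ext hup) hm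

end P179A
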