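import Vale.Agent.P179.H143.R4
import Vale.Agent.P179.H166.Y2

/-!
# Theorem C for `p = 3` and defect groups with an abelian subgroup of index `3`;
# Theorem C for central idempotents
-/

namespace P179C

open Subgroup P179H524 P179A P179K P179R MonoidAlgebra

open scoped Classical Pointwise

/-- `P` has an abelian subgroup of index at most `3`. -/
def AbThree (G : Type) [Group G] (P : Subgroup G) : Prop :=
  ∃ A : Subgroup G, (∀ a ∈ A, ∀ b ∈ A, a * b = b * a) ∧ A.relIndex P ≤ 3

theorem AbThree.res {G : Type} [Group G] (H : Subgroup G) (P : Subgroup H)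
    (h : AbThree G (P.map H.subtype)) : AbThree H P := by
  obtain ⟨A, hA, hi⟩ := h
  refine ⟨A.comap H.subtype, fun a ha b hb => Subtype.ext (hA a ha b hb), ?_⟩
  rw [relIndex_comap]
  exact hi

theorem AbThree.quot {G : Type} [Group G] [Finite G] (R : Subgroup G) [R.Normal]
    (P : Subgroup (G ⧸ R)) (h : AbThree G (P.comap (QuotientGroup.mk' R))) :
    AbThree (G ⧸ R) P := by
  obtain ⟨A, hA, hi⟩ := h
  refine ⟨A.map (QuotientGroup.mk' R), ?_, ?_⟩
  · rintro _ ⟨a, ha, rfl⟩ _ ⟨b, hb, rfl⟩
    rw [← map_mul, ← map_mul, hA a ha b hb]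
  · have hs : Function.Surjective (QuotientGroup.mk' R) := QuotientGroup.mk'_surjective R
    have h1 := relIndex_map_map (QuotientGroup.mk' R) A (P.comap (QuotientGroup.mk' R))
    rw [map_comap_eq_self_of_surjective hs] at h1
    rw [h1]
    have h2 : P.comap (QuotientGroup.mk' R) ⊔ (QuotientGroup.mk' R).ker =
        P.comap (QuotientGroup.mk' R) := by
      rw [sup_eq_left]
      intro x hx
      rw [mem_comap, MonoidHom.mem_ker.1 hx]
      exact P.one_mem
    rw [h2]
    refine (relIndex_le_of_le_left le_sup_left ?_).trans hi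
    exact index_ne_zero_of_finite (H := A.subgroupOf (P.comap (QuotientGroup.mk' R)))

theorem AbThree.of_conj {G : Type} [Group G] [Finite G] {D P : Subgroup G} (hD : AbThree G D)
    (c : G) (hc : ∀ x ∈ P, c⁻¹ * x * c ∈ D) : AbThree G P := by
  obtain ⟨A, hA, hi⟩ := hD
  let f : G →* G := (MulAut.conj c⁻¹).toMonoidHom
  have hf : ∀ x, f x = c⁻¹ * x * c := fun x => by simp [f]
  refine ⟨A.comap f, ?_, ?_⟩
  · intro a ha b hb
    have h1 := hA _ ha _ hb
    rw [← map_mul, ← map_mul] at h1
    exact (MulAut.conj c⁻¹).injective h1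
  · rw [relIndex_comap]
    have hle : P.map f ≤ D := by
      rintro _ ⟨x, hx, rfl⟩
      rw [hf]
      exact hc x hx
    refine (relIndex_le_of_le_right hle ?_).trans hi
    exact index_ne_zero_of_finite (H := A.subgroupOf D)

theorem AbThree.dvd {G : Type} [Group G] [Finite G] [Fintype G] (g : G) (q : ℕ)
    (hq : ∀ x : G, ∃ n : ℕ, (x ^ q) ^ (3 ^ n) = 1) (hq' : ∀ x : G, (∃ n, x ^ 3 ^ n = 1) → x ^ q = x)
    (h0 : g ^ q ≠ 1) (h0' : (g ^ q) ^ 3 = 1) (P : Subgroup G) (hP : IsPGroup 3 P)
    (hPg : ∀ a ∈ P, a * g = g * a) (hgP : g ^ q ∈ P) (h : AbThree G P) :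
    ((Nat.card P * 3 : ℕ) : ℤ) ∣ SS 3 g := by
  have hp3 : Fact (Nat.Prime 3) := ⟨Nat.prime_three⟩
  obtain ⟨A, hA, hi⟩ := h
  set u := g ^ q with hu
  have huP : ∀ a ∈ P, a * u = u * a := by
    intro a ha
    have : Commute a (g ^ q) := Commute.pow_right (hPg a ha) q
    exact this
  set A1 : Subgroup G := (A ⊓ P) ⊔ zpowers u with hA1
  have hle : A1 ≤ P := by
    refine sup_le inf_le_right ?_
    rw [zpowers_le]; exact hgP
  have hab : A1 ≤ centralizer (A1 : Set G) := by
    have k1 : A ⊓ P ≤ centralizer ((A ⊓ P : Subgroup G) : Set G) := by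
      intro a ha
      rw [mem_centralizer_iff]
      intro b hb
      exact hA b hb.1 a ha.1
    have k2 : zpowers u ≤ centralizer ((A ⊓ P : Subgroup G) : Set G) := by
      rw [zpowers_le, mem_centralizer_iff]
      intro b hb
      exact huP b hb.2
    have k3 : zpowers u ≤ centralizer ((zpowers u : Subgroup G) : Set G) := by
      rw [zpowers_le, mem_centralizer_iff]
      rintro _ ⟨n, rfl⟩
      exact (Commute.refl u).zpow_left n
    have k4 : A ⊓ P ≤ centralizer (A1 : Set G) := by
      rw [le_centralizer_iff]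
      exact sup_le k1 k2
    have k5 : zpowers u ≤ centralizer (A1 : Set G) := by
      rw [le_centralizer_iff]
      refine sup_le ?_ k3
      rw [le_centralizer_iff]
      exact k2
    exact sup_le k4 k5
  have huA : u ∈ A1 := le_sup_right (a := A ⊓ P) (mem_zpowers u)
  have hmain := main_three g q A1 (hP.to_le hle)
    (fun a ha b hb => (mem_centralizer_iff.1 (hab hb)) a ha)
    (fun a ha => hPg a (hle ha)) huA h0 h0' hq hq'
  -- the index
  have hcard : Nat.card A1 * A1.relIndex P = Nat.card P := by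
    have h1 := relIndex_mul_relIndex ⊥ A1 P bot_le hle
    rwa [relIndex_bot_left, relIndex_bot_left] at h1
  have hne : A.relIndex P ≠ 0 := index_ne_zero_of_finite (H := A.subgroupOf P)
  have hi1 : A1.relIndex P ≤ 3 := by
    have h1 : (A ⊓ P).relIndex P = A.relIndex P := inf_relIndex_right _ _
    refine (relIndex_le_of_le_left (H := A ⊓ P) le_sup_left ?_).trans ?_
    · rw [h1]; exact hne
    · rw [h1]; exact hi
  obtain ⟨n, hn⟩ := (IsPGroup.iff_card).mp hP
  have h2 : A1.relIndex P ∣ 3 ^ n := by
    rw [← hn]; exact ⟨Nat.card A1, by rw [mul_comm]; exact hcard.symm⟩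
  obtain ⟨m, -, hm⟩ := (Nat.dvd_prime_pow hp3.out).mp h2
  have h3 : A1.relIndex P ∣ 3 := by
    rw [hm] at hi1 ⊢
    rcases m with - | m
    · simp
    · rcases m with - | m
      · simp
      · exfalso
        have : 3 ^ 2 ≤ 3 ^ (m + 1 + 1) := Nat.pow_le_pow_right (by norm_num) (by omega)
        omega
  have h4 : Nat.card P * 3 ∣ 9 * Nat.card A1 := by
    rw [← hcard]
    obtain ⟨j, hj⟩ := h3
    refine ⟨j, ?_⟩
    calc 9 * Nat.card A1 = 3 * Nat.card A1 * 3 := by ring
      _ = 3 * Nat.card A1 * (A1.relIndex P * j) := by rw [← hj]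
      _ = _ := by ring
  exact (Int.natCast_dvd_natCast.mpr h4).trans hmain

/-- The class of subgroups of Theorem C, `p = 3` extended. -/
def TwClass3 (p : ℕ) (G : Type) [Group G] (P : Subgroup G) : Prop :=
  TwClass p G P ∨ (p = 3 ∧ AbThree G P)

theorem TwClass3.goodClass (p : ℕ) [hp : Fact p.Prime] : GoodClass2 p (TwClass3 p) := by
  refine ⟨?_, ?_, ?_⟩
  · intro G _ _ H P h
    rcases h with h | ⟨h3, h⟩
    · exact Or.inl ((TwClass.goodClass p).res G H P h)
    · exact Or.inr ⟨h3, h.res H P⟩
  · intro G _ _ R _ P h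
    rcases h with h | ⟨h3, h⟩
    · exact Or.inl ((TwClass.goodClass p).quot G R P h)
    · exact Or.inr ⟨h3, h.quot R P⟩
  · intro G _ _ _ g q hq hq' h0 h0' P hP hg hgP h
    rcases h with h | ⟨h3, h⟩
    · exact (TwClass.goodClass p).dvd G g q hq hq' h0 h0' P hP hg hgP h
    · subst h3
      exact h.dvd g q hq hq' h0 h0' P hP hg hgP

theorem TwClass3.of_conj {p : ℕ} {G : Type} [Group G] [Finite G] {D P : Subgroup G}
    (hD : TwClass3 p G D) (c : G) (hc : ∀ x ∈ P, c⁻¹ * x * c ∈ D) : TwClass3 p G P := by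
  rcases hD with h | ⟨h3, h⟩
  · exact Or.inl (TwClass.of_conj h c hc)
  · exact Or.inr ⟨h3, h.of_conj c hc⟩

universe u

/-- **Theorem C3.** -/
theorem theoremC3 (p : ℕ) [hp : Fact p.Prime] {k : Type u} [Field k] [IsAlgClosed k] [CharP k p]
    (red : integralClosure ℤ ℂ →+* k) {G : Type} [Group G] [Finite G]
    (B : MonoidAlgebra k G) (hB : IsBlock B) (D : Subgroup G)
    (hD : IsDefectGroup B D) (h : TwClass3 p G D) :
    numSimpleIn B ≡ numWeightsIn p red B [MOD p] :=
  theoremC_good2 p (TwClass3.goodClass p) red B hB D hD fun _ c hc => TwClass3.of_conj h c hc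

section Idem

variable (p : ℕ) [hp : Fact p.Prime] {k : Type u} [Field k] [IsAlgClosed k] [CharP k p]
  (red : integralClosure ℤ ℂ →+* k) {G : Type} [Group G] [Finite G]

/-- the number of weights in a central idempotent, modulo `p` -/
theorem numW_cast (e : MonoidAlgebra k G)
    (he : e ∈ Subalgebra.center k (MonoidAlgebra k G)) (hee : e * e = e) :
    (numW p red e : k) =
      ∑ᶠ C : ConjClasses G, e.coeff C.out * redC red (nW p (ind C) / Nat.card G) := by
  have := Fintype.ofFinite (ConjClasses G)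
  have := Fintype.ofFinite (Quot (P179H524.Weight.Conj (p := p) (G := G)))
  have hee' : (⟨e, he⟩ : Subalgebra.center k (MonoidAlgebra k G)) * ⟨e, he⟩ = ⟨e, he⟩ :=
    Subtype.ext hee
  have h1 := sum_homs_card (fun q : Quot (P179H524.Weight.Conj (p := p) (G := G)) =>
      mu p red q.out) hee'
  rw [← numWc_eq_card p red he, ← numW_eq_numWc red e he] at h1
  rw [← h1, finsum_eq_sum_of_fintype]
  have h2 : (⟨e, he⟩ : Subalgebra.center k (MonoidAlgebra k G)) = ∑ C : ConjClasses G,
      e.coeff C.out • (⟨classSum k C.out, classSum_mem_center _⟩ :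
        Subalgebra.center k (MonoidAlgebra k G)) := by
    apply Subtype.ext
    push_cast
    exact eq_sum_classSum e he
  rw [h2]
  simp only [map_sum, map_smul, smul_eq_mul]
  rw [Finset.sum_comm]
  refine Finset.sum_congr rfl fun C _ => ?_
  rw [← Finset.mul_sum]
  congr 1
  have h3 : ∀ g, (⟨classSum k C.out, classSum_mem_center _⟩ :
      Subalgebra.center k (MonoidAlgebra k G)).1.coeff g = ((ind C g : ℤ) : k) := by
    intro g
    have h4 : ConjClasses.mk C.out = C := Quotient.out_eq C
    have h5 := coeff_classSum (k := k) C.out g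
    rw [h4] at h5
    exact h5
  exact (redC_nW p red (isCF_ind C) _ h3).symm

/-- Theorem C for central idempotents. -/
theorem theoremC_idem {𝒢 : ∀ (G : Type) [Group G], Subgroup G → Prop}
    (h𝒢 : GoodClass2 p 𝒢) (e : MonoidAlgebra k G)
    (he : e ∈ Subalgebra.center k (MonoidAlgebra k G)) (hee : e * e = e)
    (hsupp : ∀ g : G, e.coeff g ≠ 0 → ∀ P : Subgroup G, IsPGroup p P →
      P ≤ centralizer ({g} : Set G) → 𝒢 G P) :
    numSimpleIn e ≡ numW p red e [MOD p] := by
  have := Fintype.ofFinite (ConjClasses G)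
  obtain ⟨O, hO, hred⟩ := exists_O p red
  have hG : (Nat.card G : ℂ) ≠ 0 := by exact_mod_cast Nat.card_pos.ne'
  have hW := numW_cast p red e he hee
  have hS := numSimpleIn_eq p e he hee
  have key : (numSimpleIn e : k) = (numW p red e : k) := by
    rw [hS, hW, finsum_eq_sum_of_fintype, finsum_eq_sum_of_fintype]
    refine Finset.sum_congr rfl fun C _ => ?_
    by_cases hC : e.coeff C.out = 0
    · rw [hC, zero_mul, zero_mul]
    · congr 1
      have hz : ZG p 𝒢 (ind C) := by
        intro g hg P hP hPg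
        have hgC : ConjClasses.mk g = C := by
          by_contra hne
          refine hg ?_
          unfold ind
          rw [if_neg hne]
          exact dvd_zero _
        have hBg : e.coeff g ≠ 0 := by
          have h4 := C2.coeff_out e he g
          rw [hgC] at h4
          rwa [← h4]
        exact hsupp g hBg P hP hPg
      have hreg : RegSupp p (ind C) := by
        intro g hg hpg
        have hgC : ConjClasses.mk g = C := by
          by_contra hne
          refine hg ?_
          unfold ind
          rw [if_neg hne]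
        have h4 := C2.coeff_out e he g
        rw [hgC] at h4
        rw [osima_g p e he hee g hpg] at h4
        exact hC h4
      have hmain := main_fun_good_of2 p h𝒢 O (stepL p) (Nat.card G) G rfl (ind C) (isCF_ind C)
        hreg hz
      obtain ⟨t, ht⟩ := dvd_nL p (ind C) (isCF_ind C)
      have hint := isIntegral_nW p (G := G) C
      have hGZ : (Nat.card G : ℤ) ≠ 0 := by exact_mod_cast Nat.card_pos.ne'
      rw [ht, Int.mul_ediv_cancel_left _ hGZ]
      unfold Cong at hmain
      rw [ht] at hmain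
      have h5 : (((Nat.card G : ℤ) * t : ℤ) - nW p (ind C)) / (Nat.card G : ℂ) =
          (t : ℂ) - nW p (ind C) / Nat.card G := by
        push_cast
        rw [sub_div, mul_div_cancel_left₀ _ hG]
      rw [h5] at hmain
      have h6 : (t : ℂ) ∈ integralClosure ℤ ℂ := intCast_mem _ t
      have h7 := (hred _ (sub_mem h6 hint)).mp hmain
      have h8 : (⟨(t : ℂ) - nW p (ind C) / Nat.card G, sub_mem h6 hint⟩ : integralClosure ℤ ℂ) =
          ((t : ℤ) : integralClosure ℤ ℂ) - ⟨nW p (ind C) / Nat.card G, hint⟩ := rfl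
      rw [h8, map_sub, map_intCast, sub_eq_zero] at h7
      rw [h7, redC_of_mem red hint]
  exact (CharP.natCast_eq_natCast k p).mp key

end Idem

end P179C
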