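import Vale.Agent.P179.H166.WG
import Vale.Agent.P179.H166.Y3

/-!
# `p = 3`: the congruence modulo `9` for abelian defect groups
-/

namespace P179C

open Subgroup P179H524 P179A P179K P179R MonoidAlgebra

open scoped Classical Pointwise

universe u

/-- the `p`-subgroups of the centralisers of the elements of the support of `e` are abelian -/
def AbSupp (p : ℕ) {k : Type*} [Field k] {G : Type} [Group G] (e : MonoidAlgebra k G) : Prop :=
  ∀ g : G, e.coeff g ≠ 0 → ∀ P : Subgroup G, IsPGroup p P → P ≤ centralizer ({g} : Set G) →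
    ∀ a ∈ P, ∀ b ∈ P, a * b = b * a

section

variable {k : Type u} [Field k] {G : Type} [Group G] [Finite G] {Q : Type} [Group Q] [Fintype Q]

theorem abThree_ehat {p : ℕ} {e : MonoidAlgebra k G} (he : AbSupp p e) (hQ : Nat.card Q ≤ 3)
    (x : G ≀ᵣ Q) (hx : (ehat Q e).coeff x ≠ 0) (P : Subgroup (G ≀ᵣ Q)) (hP : IsPGroup p P)
    (hPx : P ≤ centralizer ({x} : Set (G ≀ᵣ Q))) : AbThree (G ≀ᵣ Q) P := by
  have := Fintype.ofFinite G
  let r : G ≀ᵣ Q →* Q :=
    { toFun := fun x => x.right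
      map_one' := rfl
      map_mul' := fun _ _ => rfl }
  rw [coeff_ehat] at hx
  have hx1 : x.right = 1 := by
    by_contra h
    apply hx
    rw [wcoef, if_neg h]
  obtain ⟨z, rfl⟩ : ∃ z, x = incl G Q z := ⟨_, eq_incl hx1⟩
  rw [wcoef_incl] at hx
  have hz : ∀ q, e.coeff (z q) ≠ 0 := fun q h => hx (Finset.prod_eq_zero (Finset.mem_univ q) h)
  refine ⟨P ⊓ r.ker, ?_, ?_⟩
  · intro a ha b hb
    have ha1 : a.right = 1 := ha.2
    have hb1 : b.right = 1 := hb.2
    obtain ⟨a', rfl⟩ : ∃ z, a = incl G Q z := ⟨_, eq_incl ha1⟩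
    obtain ⟨b', rfl⟩ : ∃ z, b = incl G Q z := ⟨_, eq_incl hb1⟩
    rw [← map_mul, ← map_mul]
    congr 1
    funext q
    -- the projection to the `q`-th coordinate
    let P0 : Subgroup (Q → G) := P.comap (incl G Q)
    have hP0 : IsPGroup p P0 := hP.comap_of_injective _ incl_injective
    let Pq : Subgroup G := P0.map (Pi.evalMonoidHom (fun _ : Q => G) q)
    have hPq : IsPGroup p Pq := hP0.map _
    have hPc : Pq ≤ centralizer ({z q} : Set G) := by
      rintro _ ⟨c, hc, rfl⟩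
      rw [mem_centralizer_singleton_iff]
      have h1 := mem_centralizer_singleton_iff.1 (hPx hc)
      rw [← map_mul, ← map_mul] at h1
      exact congrFun (incl_injective h1) q
    exact he (z q) (hz q) Pq hPq hPc _ ⟨a', ha.1, rfl⟩ _ ⟨b', hb.1, rfl⟩
  · rw [inf_relIndex_left, relIndex_ker]
    exact (Nat.card_le_card_of_injective _ Subtype.val_injective).trans hQ

end

section

variable {k : Type u} [Field k] [IsAlgClosed k] [CharP k 3]

/-- **the congruence modulo `9`**, for central idempotents -/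
theorem nine_dvd (red : integralClosure ℤ ℂ →+* k) {G : Type} [Group G] [Finite G]
    (e : MonoidAlgebra k G) (he : e ∈ Subalgebra.center k (MonoidAlgebra k G)) (hee : e * e = e)
    (hs : AbSupp 3 e) :
    letI : Fact (Nat.Prime 3) := ⟨Nat.prime_three⟩
    (9 : ℤ) ∣ (numSimpleIn e : ℤ) - numW 3 red e := by
  have : Fact (Nat.Prime 3) := ⟨Nat.prime_three⟩
  have := Fintype.ofFinite G
  obtain ⟨Q, hQg, hQf, hQ⟩ := exists_group_card 3
  have hfin : Finite (G ≀ᵣ Q) := inferInstance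
  have h0 : ∀ red : integralClosure ℤ ℂ →+* k, numSimpleIn e ≡ numW 3 red e [MOD 3] := fun red =>
    theoremC_idem 3 red (TwClass3.goodClass 3) e he hee fun g hg P hP hPg =>
      Or.inl (Or.inl (hs g hg P hP hPg))
  have h3 : numSimpleIn (ehat Q e) ≡ numW 3 red (ehat Q e) [MOD 3] :=
    theoremC_idem 3 red (TwClass3.goodClass 3) (ehat Q e) (ehat_mem e he) (ehat_idem e hee)
      fun x hx P hP hPx => Or.inr ⟨rfl, abThree_ehat hs hQ.le x hx P hP hPx⟩
  have h1 := numSimpleIn_ehat (p := 3) (Q := Q) hQ e he hee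
  have h2 := numW_wr red hQ he hee
  have h4 := h0 red
  have h5 := h0 (((frobeniusEquiv k 3).symm : k →+* k).comp red)
  obtain ⟨x3, hx3⟩ := (Nat.modEq_iff_dvd.1 h3.symm)
  obtain ⟨x4, hx4⟩ := (Nat.modEq_iff_dvd.1 h4.symm)
  obtain ⟨x5, hx5⟩ := (Nat.modEq_iff_dvd.1 h5.symm)
  set l : ℤ := (numSimpleIn e : ℤ)
  set w : ℤ := (numW 3 red e : ℤ)
  set w2 : ℤ := (numW 3 (((frobeniusEquiv k 3).symm : k →+* k).comp red) e : ℤ)
  set lh : ℤ := (numSimpleIn (ehat Q e) : ℤ)
  set wh : ℤ := (numW 3 red (ehat Q e) : ℤ)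
  have h1' : 3 * lh = l ^ 3 + 2 * l := by
    have h6 := congrArg (fun n : ℕ => (n : ℤ)) h1
    simp only [Nat.cast_mul, Nat.cast_add, Nat.cast_pow] at h6
    exact h6
  have h2' : 3 * wh + w = w ^ 3 + 3 * w2 := by
    have h6 := congrArg (fun n : ℕ => (n : ℤ)) h2
    simp only [Nat.cast_mul, Nat.cast_add, Nat.cast_pow] at h6
    exact h6
  have h6 : l - w = (l ^ 3 - w ^ 3) + 3 * (l - w2) - 3 * (lh - wh) := by
    linear_combination h1' - h2'
  rw [h6]
  have h7 : l ^ 3 - w ^ 3 = 9 * (x4 * (w ^ 2 + 3 * w * x4 + 3 * x4 ^ 2)) := by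
    have : l = w + 3 * x4 := by
      have : l - w = 3 * x4 := by exact_mod_cast hx4
      linarith
    rw [this]; ring
  have h8 : l - w2 = 3 * x5 := by exact_mod_cast hx5
  have h9 : lh - wh = 3 * x3 := by exact_mod_cast hx3
  rw [h7, h8, h9]
  exact ⟨x4 * (w ^ 2 + 3 * w * x4 + 3 * x4 ^ 2) + x5 - x3, by ring⟩

end

/-- **Theorem C9.** -/
theorem theoremC9 {k : Type u} [Field k] [IsAlgClosed k] [CharP k 3]
    (red : integralClosure ℤ ℂ →+* k) {G : Type} [Group G] [Finite G]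
    (B : MonoidAlgebra k G) (hB : IsBlock B) (D : Subgroup G) (hD : IsDefectGroup B D)
    (hab : ∀ a ∈ D, ∀ b ∈ D, a * b = b * a) :
    haveI : Fact (Nat.Prime 3) := ⟨Nat.prime_three⟩
    numSimpleIn B ≡ numWeightsIn 3 red B [MOD 9] := by
  have : Fact (Nat.Prime 3) := ⟨Nat.prime_three⟩
  have hs : AbSupp 3 B := by
    intro g hg P hP hPg a ha b hb
    obtain ⟨c, hc⟩ := zab_of_relTrace 3 B D hD.1 g hg P hP hPg
    have h := hab _ (hc a ha) _ (hc b hb)
    have h1 : c * ((c⁻¹ * a * c) * (c⁻¹ * b * c)) * c⁻¹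
        = c * ((c⁻¹ * b * c) * (c⁻¹ * a * c)) * c⁻¹ := by rw [h]
    have e1 : c * ((c⁻¹ * a * c) * (c⁻¹ * b * c)) * c⁻¹ = a * b := by group
    have e2 : c * ((c⁻¹ * b * c) * (c⁻¹ * a * c)) * c⁻¹ = b * a := by group
    rwa [e1, e2] at h1
  rw [numWeightsIn_eq_numWc 3 red hB, ← numW_eq_numWc red B hB.1]
  have h1 := nine_dvd red B hB.1 hB.2.1 hs
  exact (Nat.modEq_iff_dvd.2 (by exact_mod_cast h1)).symm

end P179C
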