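import Vale.Agent.P179.H166.Y4
import Vale.Agent.P179.H166.PPCrit

/-!
# The class of defect groups for `p = 3`
-/

namespace P179C

open Subgroup P179H524 P179A P179K P179R

open scoped Classical Pointwise

/-- Every section `K` of `Q` has an abelian subgroup of index at most `3` or has no element `k` of
order `9` with `k ^ 3 ∈ Z(K)` which is conjugate to `k ^ 4`. -/
def Mix3 (Q : Type) [Group Q] : Prop :=
  ∀ (H : Subgroup Q) (K : Type) [Group K] (f : H →* K), Function.Surjective f →
    (∃ A : Subgroup K, (∀ a ∈ A, ∀ b ∈ A, a * b = b * a) ∧ A.index ≤ 3) ∨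
      ∀ k c : K, orderOf k = 9 → k ^ 3 ∈ center K → c * k * c⁻¹ ≠ k ^ 4

theorem Mix3.of_surj {Q Q' : Type} [Group Q] [Group Q'] (h : Mix3 Q) (φ : Q →* Q')
    (hφ : Function.Surjective φ) : Mix3 Q' := by
  intro H K _ f hf
  let r : H.comap φ →* H := (φ.comp (H.comap φ).subtype).codRestrict H fun x => x.2
  have hr : Function.Surjective r := by
    rintro ⟨y, hy⟩
    obtain ⟨x, rfl⟩ := hφ y
    exact ⟨⟨x, hy⟩, rfl⟩
  exact h (H.comap φ) K (f.comp r) (hf.comp hr)

theorem Mix3.of_inj {Q Q' : Type} [Group Q] [Group Q'] (h : Mix3 Q) (φ : Q' →* Q)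
    (hφ : Function.Injective φ) : Mix3 Q' := by
  intro H K _ f hf
  let e := H.equivMapOfInjective φ hφ
  exact h (H.map φ) K (f.comp e.symm.toMonoidHom) (hf.comp e.symm.surjective)

/-- The class of subgroups. -/
def MixClass (p : ℕ) (G : Type) [Group G] (P : Subgroup G) : Prop :=
  TwClass p G P ∨ (p = 3 ∧ Mix3 P)

theorem MixClass.goodClass (p : ℕ) [hp : Fact p.Prime] : GoodClass2 p (MixClass p) := by
  refine ⟨?_, ?_, ?_⟩
  · intro G _ _ H P h
    rcases h with h | ⟨h3, h⟩
    · exact Or.inl ((TwClass.goodClass p).res G H P h)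
    · exact Or.inr ⟨h3, h.of_inj (P.equivMapOfInjective H.subtype H.subtype_injective).toMonoidHom
        (P.equivMapOfInjective H.subtype H.subtype_injective).injective⟩
  · intro G _ _ R _ P h
    rcases h with h | ⟨h3, h⟩
    · exact Or.inl ((TwClass.goodClass p).quot G R P h)
    · refine Or.inr ⟨h3, ?_⟩
      have hs : Function.Surjective (QuotientGroup.mk' R) := QuotientGroup.mk'_surjective R
      let r : P.comap (QuotientGroup.mk' R) →* P :=
        ((QuotientGroup.mk' R).comp (P.comap (QuotientGroup.mk' R)).subtype).codRestrict P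
          fun x => x.2
      have hr : Function.Surjective r := by
        rintro ⟨y, hy⟩
        obtain ⟨x, rfl⟩ := hs y
        exact ⟨⟨x, hy⟩, rfl⟩
      exact h.of_surj r hr
  · intro G _ _ _ g q hq hq' h0 h0' P hP hg hgP h
    rcases h with h | ⟨h3, h⟩
    · exact (TwClass.goodClass p).dvd G g q hq hq' h0 h0' P hP hg hgP h
    · subst h3
      have hsj : Function.Surjective ((topEquiv : (⊤ : Subgroup P) ≃* P).toMonoidHom) :=
        (topEquiv : (⊤ : Subgroup P) ≃* P).surjective
      rcases h ⊤ P (topEquiv : (⊤ : Subgroup P) ≃* P).toMonoidHom hsj with ⟨A, hA, hi⟩ | h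
      · refine AbThree.dvd g q hq hq' h0 h0' P hP hg hgP ⟨A.map P.subtype, ?_, ?_⟩
        · rintro _ ⟨a, ha, rfl⟩ _ ⟨b, hb, rfl⟩
          rw [← map_mul, ← map_mul, hA a ha b hb]
        · have h1 : (A.map P.subtype).relIndex P = A.index := by
            unfold relIndex
            congr 1
            exact comap_map_eq_self_of_injective P.subtype_injective A
          rw [h1]
          exact hi
      · refine main_pp 3 g q P hP hg hgP h0 h0' hq' (Or.inr ⟨rfl, ?_⟩)
        intro k hk hk3
        refine ⟨4, by decide, fun c hc hck => ?_⟩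
        refine h ⟨k, hk⟩ ⟨c, hc⟩ ?_ ?_ (Subtype.ext hck)
        · rw [orderOf_mk]
          have h9 : orderOf k = 3 ^ (1 + 1) := by
            refine orderOf_eq_prime_pow ?_ ?_
            · rw [pow_one, hk3]; exact h0
            · rw [pow_succ, pow_mul, pow_one, hk3, h0']
          rw [h9]; norm_num
        · rw [Subgroup.mem_center_iff]
          intro a
          apply Subtype.ext
          change (a : G) * k ^ 3 = k ^ 3 * a
          rw [hk3]
          have : Commute (a : G) (g ^ q) := Commute.pow_right (hg a a.2) q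
          exact this

/-- Subgroups of conjugates. -/
theorem MixClass.of_conj {p : ℕ} {G : Type} [Group G] {D P : Subgroup G} (hD : MixClass p G D)
    (c : G) (hc : ∀ x ∈ P, c⁻¹ * x * c ∈ D) : MixClass p G P := by
  rcases hD with h | ⟨h3, h⟩
  · exact Or.inl (h.of_conj c hc)
  · refine Or.inr ⟨h3, ?_⟩
    let φ : P →* D :=
      { toFun := fun x => ⟨c⁻¹ * x * c, hc x x.2⟩
        map_one' := Subtype.ext (by
          change c⁻¹ * (1 : G) * c = 1
          group)
        map_mul' := fun x y => Subtype.ext (by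
          change c⁻¹ * ((x : G) * y) * c = (c⁻¹ * x * c) * (c⁻¹ * y * c)
          group) }
    refine h.of_inj φ ?_
    intro x y hxy
    have h1 : c⁻¹ * (x : G) * c = c⁻¹ * (y : G) * c := congrArg Subtype.val hxy
    exact Subtype.ext (mul_left_cancel (mul_right_cancel h1))

universe u

/-- **Theorem C, extended.** -/
theorem theoremMix (p : ℕ) [hp : Fact p.Prime] {k : Type u} [Field k] [IsAlgClosed k] [CharP k p]
    (red : integralClosure ℤ ℂ →+* k) {G : Type} [Group G] [Finite G]
    (B : MonoidAlgebra k G) (hB : IsBlock B) (D : Subgroup G)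
    (hD : IsDefectGroup B D) (h : MixClass p G D) :
    numSimpleIn B ≡ numWeightsIn p red B [MOD p] :=
  theoremC_good2 p (MixClass.goodClass p) red B hB D hD fun _ c hc => MixClass.of_conj h c hc

/-! ### Sufficient conditions -/

theorem mix3_of_noTw {D : Type} [Group D] (h : NoTw 3 D) : Mix3 D := by
  intro H K _ f hf
  right
  intro k c hk _ hc
  obtain ⟨e, he, hec⟩ := h H K f hf k (by rw [hk]; rfl)
  -- `k ~ k ^ 4`, hence `k ~ k ^ e`
  apply hec
  have hconj : ∀ n : ℕ, IsConj k (k ^ 4 ^ n) := by
    intro n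
    induction n with
    | zero => rw [pow_zero, pow_one]
    | succ n ih =>
      refine ih.trans ?_
      rw [isConj_iff]
      refine ⟨c, ?_⟩
      rw [← conj_pow, hc, ← pow_mul, pow_succ, mul_comm]
  have h9 : e % 9 = 1 ∨ e % 9 = 4 ∨ e % 9 = 7 := by
    have : e % 3 = 1 := he
    omega
  have hke : k ^ e = k ^ (e % 9) := by rw [← hk, pow_mod_orderOf]
  rw [hke]
  rcases h9 with h | h | h
  · rw [h, pow_one]
  · rw [h]; simpa using hconj 1
  · rw [h]
    have h2 := hconj 2
    have : k ^ 4 ^ 2 = k ^ 7 := by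
      rw [pow_eq_pow_iff_modEq, hk]
      decide
    rwa [this] at h2

theorem mix3_of_index {D : Type} [Group D] [Finite D] (A : Subgroup D)
    (hA : ∀ a ∈ A, ∀ b ∈ A, a * b = b * a) (hi : A.index ≤ 3) : Mix3 D := by
  intro H K _ f hf
  left
  refine ⟨(A.subgroupOf H).map f, ?_, ?_⟩
  · rintro _ ⟨a, ha, rfl⟩ _ ⟨b, hb, rfl⟩
    rw [← map_mul, ← map_mul]
    congr 1
    exact Subtype.ext (hA _ ha _ hb)
  · have h1 : (A.subgroupOf H).index ≤ 3 := by
      have h2 : A.relIndex H ≤ A.relIndex ⊤ := by
        refine relIndex_le_of_le_right le_top ?_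
        rw [relIndex_top_right]
        exact index_ne_zero_of_finite
      rw [relIndex_top_right] at h2
      exact h2.trans hi
    exact (Nat.le_of_dvd (Nat.pos_of_ne_zero index_ne_zero_of_finite)
      (index_map_dvd _ hf)).trans h1

/-- a group of order dividing `81` has an abelian subgroup of index at most `3` -/
theorem exists_abelian_index {K : Type} [Group K] [Finite K] (hK : IsPGroup 3 K)
    (hc : Nat.card K ≤ 81) :
    ∃ A : Subgroup K, (∀ a ∈ A, ∀ b ∈ A, a * b = b * a) ∧ A.index ≤ 3 := by
  have hp : Fact (Nat.Prime 3) := ⟨Nat.prime_three⟩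
  obtain ⟨n, hn⟩ := (IsPGroup.iff_card).mp hK
  have hn4 : n ≤ 4 := by
    by_contra h
    have : 3 ^ 5 ≤ 3 ^ n := Nat.pow_le_pow_right (by norm_num) (by omega)
    omega
  -- central extension of a cyclic group
  have key : ∀ (Z : Subgroup K) (a : K), Z ≤ center K →
      ∀ x ∈ Z ⊔ zpowers a, ∀ y ∈ Z ⊔ zpowers a, x * y = y * x := by
    intro Z a hZ
    have h1 : Z ⊔ zpowers a ≤ centralizer ((Z ⊔ zpowers a : Subgroup K) : Set K) := by
      refine sup_le ?_ ?_
      · intro z hz
        rw [mem_centralizer_iff]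
        intro y _
        exact (Subgroup.mem_center_iff.1 (hZ hz)) y
      · rw [le_centralizer_iff]
        refine sup_le ?_ ?_
        · intro z hz
          rw [mem_centralizer_iff]
          intro y _
          exact (Subgroup.mem_center_iff.1 (hZ hz)) y
        · rw [zpowers_le, mem_centralizer_iff]
          rintro _ ⟨m, rfl⟩
          exact (Commute.refl a).zpow_left m
    intro x hx y hy
    exact mem_centralizer_iff.1 (h1 hy) x hx
  have hidx : ∀ A : Subgroup K, ∀ m, 3 ^ m ≤ Nat.card A → n ≤ m + 1 → A.index ≤ 3 := by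
    intro A m hm hnm
    have h1 := A.card_mul_index
    rw [hn] at h1
    by_contra hlt
    push Not at hlt
    have h2 : 3 ^ m * 4 ≤ Nat.card A * A.index := Nat.mul_le_mul hm hlt
    have h3 : 3 ^ n ≤ 3 ^ (m + 1) := Nat.pow_le_pow_right (by norm_num) hnm
    rw [pow_succ] at h3
    have h4 : 0 < 3 ^ m := by positivity
    omega
  have hpow : ∀ A : Subgroup K, ∃ m, Nat.card A = 3 ^ m := by
    intro A
    obtain ⟨m, -, hm⟩ := (Nat.dvd_prime_pow hp.out).mp (hn ▸ card_subgroup_dvd_card A)
    exact ⟨m, hm⟩
  by_cases hab : ∀ a b : K, a * b = b * a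
  · exact ⟨⊤, fun a _ b _ => hab a b, by rw [index_top]; norm_num⟩
  -- nonabelian: `n ≥ 1`
  have hnt : Nontrivial K := by
    by_contra h
    rw [not_nontrivial_iff_subsingleton] at h
    exact hab fun a b => Subsingleton.elim _ _
  have hZnt : Nontrivial (center K) := hK.center_nontrivial
  obtain ⟨m, hm⟩ := hpow (center K)
  have hm1 : 1 ≤ m := by
    by_contra h
    have : m = 0 := by omega
    rw [this, pow_zero] at hm
    have h2 : 1 < Nat.card (center K) := Finite.one_lt_card
    omega
  have hcard_sup : ∀ (Z : Subgroup K) (a : K), a ∉ Z → ∀ j, Nat.card Z = 3 ^ j →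
      3 ^ (j + 1) ≤ Nat.card (Z ⊔ zpowers a : Subgroup K) := by
    intro Z a ha j hj
    obtain ⟨i, hi⟩ := hpow (Z ⊔ zpowers a)
    have hlt : Z < Z ⊔ zpowers a := by
      refine lt_of_le_of_ne le_sup_left fun h => ha ?_
      rw [h]
      exact le_sup_right (a := Z) (mem_zpowers a)
    have h1 : Nat.card Z < Nat.card (Z ⊔ zpowers a : Subgroup K) := by
      have h2 := Subgroup.card_le_of_le hlt.le
      refine lt_of_le_of_ne h2 fun h3 => ?_
      exact hlt.ne (Subgroup.eq_of_le_of_card_ge hlt.le h3.ge)
    rw [hi] at h1 ⊢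
    rw [hj] at h1
    have : j < i := (Nat.pow_lt_pow_iff_right (by norm_num)).1 h1
    exact Nat.pow_le_pow_right (by norm_num) this
  obtain ⟨a0, ha0⟩ : ∃ a : K, a ∉ center K := by
    by_contra h
    push Not at h
    exact hab fun a b => (Subgroup.mem_center_iff.1 (h b)) a
  by_cases hm2 : 2 ≤ m
  · refine ⟨center K ⊔ zpowers a0, key _ _ le_rfl, hidx _ (m + 1) (hcard_sup _ _ ha0 m hm) ?_⟩
    omega
  · have hm1' : m = 1 := by omega
    subst hm1'
    -- an element of the second centre
    have hQ : IsPGroup 3 (K ⧸ center K) := hK.to_quotient _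
    have hQnt : Nontrivial (K ⧸ center K) := by
      refine ⟨⟨QuotientGroup.mk a0, 1, fun h => ha0 ?_⟩⟩
      exact (QuotientGroup.eq_one_iff a0).1 h
    have hQZ : Nontrivial (center (K ⧸ center K)) := hQ.center_nontrivial
    obtain ⟨⟨b', hb'⟩, hb1⟩ := exists_ne (1 : center (K ⧸ center K))
    obtain ⟨b, rfl⟩ := QuotientGroup.mk_surjective b'
    have hb : b ∉ center K := by
      intro h
      apply hb1
      apply Subtype.ext
      exact (QuotientGroup.eq_one_iff b).2 h
    -- `x ↦ x b x⁻¹ b⁻¹` has image in the centre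
    have hcomm : ∀ x : K, x * b * x⁻¹ * b⁻¹ ∈ center K := by
      intro x
      rw [← QuotientGroup.eq_one_iff]
      have h1 := Subgroup.mem_center_iff.1 hb' (QuotientGroup.mk x)
      have h2 : ((x * b * x⁻¹ * b⁻¹ : K) : K ⧸ center K) =
          (x : K ⧸ center K) * b * (x : K ⧸ center K)⁻¹ * (b : K ⧸ center K)⁻¹ := rfl
      rw [h2, h1, mul_inv_cancel_right, mul_inv_cancel]
    let φ : K →* center K :=
      { toFun := fun x => ⟨x * b * x⁻¹ * b⁻¹, hcomm x⟩
        map_one' := Subtype.ext (by simp)
        map_mul' := fun x y => Subtype.ext (by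
          change x * y * b * (x * y)⁻¹ * b⁻¹ = (x * b * x⁻¹ * b⁻¹) * (y * b * y⁻¹ * b⁻¹)
          have h1 := Subgroup.mem_center_iff.1 (hcomm y) x
          have e1 : x * y * b * (x * y)⁻¹ * b⁻¹ = x * (y * b * y⁻¹ * b⁻¹) * b * x⁻¹ * b⁻¹ := by
            group
          rw [e1, h1]
          have h2 := Subgroup.mem_center_iff.1 (hcomm y) (x * b * x⁻¹ * b⁻¹)
          rw [h2]
          group) }
    have hker : ∀ x, x ∈ φ.ker ↔ x * b = b * x := by
      intro x
      rw [MonoidHom.mem_ker, Subtype.ext_iff]
      change x * b * x⁻¹ * b⁻¹ = 1 ↔ _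
      rw [mul_inv_eq_one, mul_inv_eq_iff_eq_mul]
    have hkidx : φ.ker.index ≤ 3 := by
      rw [index_ker]
      refine (Nat.card_le_card_of_injective _ Subtype.val_injective).trans ?_
      rw [hm]; norm_num
    -- `A = Z ⟨b⟩` is central in `C = C_K(b)`
    set A : Subgroup K := center K ⊔ zpowers b with hA
    have hAcard : 3 ^ 2 ≤ Nat.card A := hcard_sup _ _ hb 1 hm
    have hAC : ∀ x ∈ A, ∀ y ∈ φ.ker, x * y = y * x := by
      intro x hx y hy
      have h1 : A ≤ centralizer ((φ.ker : Subgroup K) : Set K) := by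
        refine sup_le ?_ ?_
        · intro z hz
          rw [mem_centralizer_iff]
          intro w _
          exact (Subgroup.mem_center_iff.1 hz) w
        · rw [zpowers_le, mem_centralizer_iff]
          intro w hw
          exact (hker w).1 hw
      exact (mem_centralizer_iff.1 (h1 hx) y hy).symm
    by_cases hCA : ∃ c ∈ φ.ker, c ∉ A
    · obtain ⟨c, hc, hcA⟩ := hCA
      obtain ⟨j, hj⟩ := hpow A
      have hj2 : 2 ≤ j := by
        by_contra h
        rw [hj] at hAcard
        have : 3 ^ j ≤ 3 ^ 1 := Nat.pow_le_pow_right (by norm_num) (by omega)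
        omega
      refine ⟨A ⊔ zpowers c, ?_, hidx _ (j + 1) (hcard_sup _ _ hcA j hj) (by omega)⟩
      have h1 : A ⊔ zpowers c ≤ centralizer ((A ⊔ zpowers c : Subgroup K) : Set K) := by
        refine sup_le ?_ ?_
        · rw [le_centralizer_iff]
          refine sup_le ?_ ?_
          · intro x hx
            rw [mem_centralizer_iff]
            intro y hy
            exact key _ b le_rfl y hy x hx
          · rw [zpowers_le, mem_centralizer_iff]
            intro y hy
            exact hAC y hy c hc
        · rw [le_centralizer_iff]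
          refine sup_le ?_ ?_
          · intro x hx
            rw [mem_centralizer_iff]
            rintro _ ⟨i, rfl⟩
            have h2 : Commute x c := hAC x hx c hc
            exact (h2.zpow_right i).symm
          · rw [zpowers_le, mem_centralizer_iff]
            rintro _ ⟨i, rfl⟩
            exact (Commute.refl c).zpow_left i
      intro x hx y hy
      exact mem_centralizer_iff.1 (h1 hy) x hx
    · push Not at hCA
      refine ⟨A, key _ _ le_rfl, ?_⟩
      have h1 : A.index ≤ φ.ker.index := index_antitone hCA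
      exact h1.trans hkidx

theorem mix3_of_card {D : Type} [Group D] [Finite D] (hD : IsPGroup 3 D)
    (h : Nat.card D ≤ 81) : Mix3 D := by
  obtain ⟨A, hA, hi⟩ := exists_abelian_index hD h
  exact mix3_of_index A hA hi

end P179C
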