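import Vale.Agent.P179.H905.I7
import Vale.Agent.P179.H234.K5
import Vale.Agent.P179.H143.R4

/-!
# The unit trick, 1: supports of products with central idempotents, and the value of the central
character of a block at the class of `x v`
-/

namespace P179C

open Subgroup Finset P179H524 P179A P179P P179Y

open scoped Classical

universe u

section Osima

variable {p : ℕ} [hp : Fact p.Prime] {k : Type u} [Field k] [CharP k p] {K : Type} [Group K]
  [Fintype K]

omit [CharP k p] hp in
theorem conv_eq_cv (b F : K → k) (y : K) : conv b F y = cv (fun g => b g⁻¹) F y := by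
  unfold conv cv
  rw [← Equiv.sum_comp (Equiv.inv K)]
  refine Finset.sum_congr rfl fun g _ => ?_
  simp only [Equiv.inv_apply, inv_inv]

omit [CharP k p] hp [Fintype K] [Field k] in
theorem isCF_inv {b : K → k} (hb : IsCF b) : IsCF (fun g => b g⁻¹) := by
  intro g x
  change b (g * x * g⁻¹)⁻¹ = b x⁻¹
  have : (g * x * g⁻¹)⁻¹ = g * x⁻¹ * g⁻¹ := by group
  rw [this, hb]

/-- the product of a central idempotent with a class function is determined on a `p`-section by the
values of the function on this `p`-section -/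
theorem conv_idem_sec {b F : K → k} (hb : IsCF b) (hF : IsCF F) (hbb : conv b b = b) (y : K)
    (h0 : ∀ q : K, q * (pr p q)⁻¹ = y * (pr p y)⁻¹ → F q = 0) : conv b F y = 0 := by
  set b' : K → k := fun g => b g⁻¹ with hb'
  have hcv : ∀ F : K → k, cv b' F = conv b F := fun F => by
    funext y
    exact (conv_eq_cv b F y).symm
  have hit : ∀ n : ℕ, (cv b')^[n + 1] F = conv b F := by
    intro n
    induction n with
    | zero =>
      rw [zero_add, Function.iterate_one]
      exact hcv F
    | succ n ih =>
      rw [Function.iterate_succ', Function.comp_apply, ih, hcv, ← P179I.conv_assoc', hbb]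
  obtain ⟨n, hn⟩ : ∃ n, p ^ (Nat.card K).factorization p = n + 1 :=
    ⟨p ^ (Nat.card K).factorization p - 1, by
      have := pow_pos hp.out.pos ((Nat.card K).factorization p); omega⟩
  have h1 := lemW p b' F (isCF_inv hb) hF y h0 _ le_rfl
  rw [hn, hit, CharP.cast_eq_zero, zero_pow (Nat.succ_ne_zero _)] at h1
  exact zero_dvd_iff.1 h1

/-- the same with a `p`-subgroup `Q` centralising `y` -/
theorem exists_sec_of_conv_ne {b F : K → k} (hb : IsCF b) (hF : IsCF F) (hbb : conv b b = b)
    (Q : Subgroup K) (hQ : IsPGroup p Q) (y : K) (hy : y ∈ centralizer (Q : Set K))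
    (hne : conv b F y ≠ 0) :
    ∃ q ∈ centralizer (Q : Set K), F q ≠ 0 ∧ q * (pr p q)⁻¹ = y * (pr p y)⁻¹ := by
  set C : Subgroup K := centralizer (Q : Set K) with hC
  let bC : C → k := fun c => b c
  let FC : C → k := fun c => F c
  have hbC : IsCF bC := fun g y => hb g y
  have hFC : IsCF FC := fun g y => hF g y
  have hext : ∀ a : K → k, P179Y.ext C (fun c : C => a c) = cutC Q a := by
    intro a
    funext y
    by_cases hy : y ∈ C
    · rw [ext_of_mem C _ hy, cutC, if_pos hy]
    · rw [ext_of_not_mem C _ hy, cutC, if_neg hy]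
  have hconv : ∀ a a' : K → k, IsCF a → IsCF a' → ∀ c : C,
      conv a a' c = conv (fun c : C => a c) (fun c : C => a' c) c := by
    intro a a' ha ha' c
    rw [conv_cut p Q hQ (fun d _ => ha d) (fun d _ => ha' d) c.2, ← hext, ← hext, ← ext_conv,
      P179Y.ext_coe]
  have hbbC : conv bC bC = bC := by
    funext c
    rw [← hconv b b hb hb c, hbb]
  have h1 : conv bC FC ⟨y, hy⟩ ≠ 0 := by
    rw [← hconv b F hb hF ⟨y, hy⟩]
    exact hne
  by_contra hcon
  push Not at hcon
  apply h1
  refine conv_idem_sec (p := p) hbC hFC hbbC ⟨y, hy⟩ ?_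
  intro q hq
  by_contra hq0
  refine hcon q q.2 hq0 ?_
  have h2 := congrArg (fun z : C => (z : K)) hq
  simpa only [Subgroup.coe_mul, Subgroup.coe_inv, pr_coe] using h2

end Osima

section Value

variable {p : ℕ} [hp : Fact p.Prime] {k : Type u} [Field k] [CharP k p] {G : Type} [Group G]
  [Fintype G] {R : Subgroup G} {l : (G → k) → k}

/-- the central elements of `R` -/
noncomputable def ZR (R : Subgroup G) : Finset G :=
  Finset.univ.filter fun v => v ∈ R ∧ ∀ a ∈ R, a * v = v * a

omit hp [CharP k p] in
theorem mem_ZR {v : G} : v ∈ ZR R ↔ v ∈ R ∧ ∀ a ∈ R, a * v = v * a := by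
  unfold ZR
  simp

/-- `l` takes the value `1` at the central elements of `R` -/
theorem BP.dl_central (hl : BP p R l) (hR : IsPGroup p R) {v : G} (hv : v ∈ R)
    (hvc : ∀ a ∈ R, a * v = v * a) : l (dl v) = 1 := by
  have hmem : ∀ n : ℕ, v ^ n ∈ centralizer (R : Set G) := fun n => by
    refine pow_mem ?_ n
    rw [mem_centralizer_iff]
    exact hvc
  have hinv : ∀ n : ℕ, InvOn (centralizer (R : Set G)) (dl (v ^ n) : G → k) := by
    intro n
    constructor
    · intro c hc x
      have h1 : c * v ^ n * c⁻¹ = v ^ n := by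
        have := mem_centralizer_iff.1 hc (v ^ n) (pow_mem hv n)
        rw [← this]; group
      have h2 : c * x * c⁻¹ = v ^ n ↔ x = v ^ n := by
        constructor
        · intro h
          have h3 : c⁻¹ * (c * x * c⁻¹) * c = c⁻¹ * (c * v ^ n * c⁻¹) * c := by rw [h, h1]
          have e1 : c⁻¹ * (c * x * c⁻¹) * c = x := by group
          have e2 : c⁻¹ * (c * v ^ n * c⁻¹) * c = v ^ n := by group
          rwa [e1, e2] at h3
        · rintro rfl; exact h1
      simp only [dl, h2]
    · intro x hx
      unfold dl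
      rw [if_neg]
      rintro rfl
      exact hx (hmem n)
  have hpow : ∀ n : ℕ, l (dl (v ^ n)) = l (dl v) ^ n := by
    intro n
    induction n with
    | zero =>
      rw [pow_zero, pow_zero]
      exact hl.one
    | succ n ih =>
      have h1 : (dl (v ^ (n + 1)) : G → k) = conv (dl (v ^ n)) (dl v) := by
        rw [conv_dl]
        funext x
        simp only [dl, pow_succ]
        congr 1
        rw [eq_iff_iff]
        constructor
        · rintro rfl; group
        · intro h
          calc x = v ^ n * ((v ^ n)⁻¹ * x) := by group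
            _ = v ^ n * v := by rw [h]
      have h2 := hinv 1
      rw [pow_one] at h2
      rw [h1, hl.mul _ _ (hinv n) h2, ih, pow_succ]
  obtain ⟨a, ha⟩ : ∃ a : ℕ, v ^ p ^ a = 1 := by
    obtain ⟨a, ha⟩ := hR ⟨v, hv⟩
    exact ⟨a, congrArg Subtype.val ha⟩
  have h1 := hpow (p ^ a)
  rw [ha] at h1
  have h2 : l (dl (1 : G)) = 1 := hl.one
  rw [h2] at h1
  have h3 : (l (dl v) - 1) ^ p ^ a = 0 := by
    rw [sub_pow_char_pow, one_pow, ← h1, sub_self]
  exact sub_eq_zero.1 (pow_eq_zero_iff (pow_ne_zero _ hp.out.ne_zero) |>.1 h3)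

omit [CharP k p] in
/-- counting the elements of the class of `x v` with `p`-regular part `y` -/
theorem card_sec {x v y : G} (hx : ¬ p ∣ orderOf x) (hv : ∃ n : ℕ, v ^ p ^ n = 1)
    (hxv : Commute x v) (hxy : IsConj x y) :
    (univ.filter fun w : G => IsConj (x * v) w ∧ pr p w = y).card *
      Nat.card (centralizer {x * v} : Subgroup G) = Nat.card (centralizer {x} : Subgroup G) := by
  have h1 := card_conj x y
  rw [if_pos hxy] at h1
  rw [← h1]
  have hpr : ∀ t : G, pr p (t * (x * v) * t⁻¹) = t * x * t⁻¹ := by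
    intro t
    rw [pr_conj, pr_eq hxv hx hv]
  have hmaps : ∀ t ∈ univ.filter (fun t : G => t * x * t⁻¹ = y),
      t * (x * v) * t⁻¹ ∈ univ.filter fun w : G => IsConj (x * v) w ∧ pr p w = y := by
    intro t ht
    rw [mem_filter] at ht ⊢
    exact ⟨mem_univ _, isConj_iff.2 ⟨t, rfl⟩, by rw [hpr, ht.2]⟩
  rw [Finset.card_eq_sum_card_fiberwise (s := univ.filter (fun t : G => t * x * t⁻¹ = y))
    (f := fun t : G => t * (x * v) * t⁻¹)
    (t := univ.filter fun w : G => IsConj (x * v) w ∧ pr p w = y) hmaps]
  rw [Finset.sum_congr rfl (g := fun _ => Nat.card (centralizer {x * v} : Subgroup G))]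
  · rw [Finset.sum_const, smul_eq_mul]
  · intro w hw
    obtain ⟨hw1, hw2⟩ := (mem_filter.1 hw).2
    have h2 := card_conj (x * v) w
    rw [if_pos hw1] at h2
    rw [← h2]
    congr 1
    ext t
    simp only [mem_filter, mem_univ, true_and]
    constructor
    · exact fun h => h.2
    · intro h
      refine ⟨?_, h⟩
      rw [← hpr t, h, hw2]

omit [CharP k p] hp in
/-- a `p`-group centralising `R` and `y` is contained in `R` -/
theorem SylCent.le_of_norm' {x y : G} (hR : SylCent p x R) (hxy : IsConj x y)
    (hRy : R ≤ centralizer {y}) {P : Subgroup G} (hP : IsPGroup p P) (hPy : P ≤ centralizer {y})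
    (hPR : P ≤ normalizer (R : Set G)) : P ≤ R := by
  obtain ⟨c, rfl⟩ := isConj_iff.1 hxy
  have h1 := hR.conj c
  have h2 : IsPGroup p (P ⊔ R : Subgroup G) := IsPGroup.to_sup_of_normal_right' hP hR.pgp hPR
  have h3 := h1.card_le h2 (sup_le hPy hRy)
  rw [Subgroup.card_map_of_injective (MulAut.conj c).injective] at h3
  have h4 : R = P ⊔ R := Subgroup.eq_of_le_of_card_ge le_sup_right h3
  rw [h4]
  exact le_sup_left

omit [CharP k p] in
/-- the elements with `p`-regular part `y ~ x` in `C_G(R)` -/
theorem exists_ZR {x w : G} (hR : SylCent p x R) (hxw : IsConj x (pr p w))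
    (hw : w ∈ centralizer (R : Set G)) : ∃ v ∈ ZR R, w = pr p w * v := by
  have hprC : pr p w ∈ centralizer (R : Set G) := pow_mem hw _
  have hcomm : Commute w (pr p w) := pr_commute w
  set v : G := w * (pr p w)⁻¹ with hv
  have hvC : v ∈ centralizer (R : Set G) := mul_mem hw (inv_mem hprC)
  have hvR : v ∈ R := by
    have hRy : R ≤ centralizer {pr p w} := by
      intro r hr
      rw [mem_centralizer_singleton_iff]
      exact mem_centralizer_iff.1 hprC r hr
    have h1 : zpowers v ≤ R := by
      refine SylCent.le_of_norm' hR hxw hRy ?_ ?_ ?_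
      · obtain ⟨n, hn⟩ := pr_sing (p := p) w
        rintro ⟨_, i, rfl⟩
        refine ⟨n, Subtype.ext ?_⟩
        change (v ^ i) ^ p ^ n = 1
        rw [← zpow_natCast, ← zpow_mul, mul_comm, zpow_mul, zpow_natCast, hn, one_zpow]
      · rw [zpowers_le, mem_centralizer_singleton_iff]
        exact (hcomm.mul_left (Commute.refl (pr p w)).inv_left).eq
      · rw [zpowers_le]
        exact cent_le_norm R hvC
    exact h1 (mem_zpowers v)
  refine ⟨v, mem_ZR.2 ⟨hvR, mem_centralizer_iff.1 hvC⟩, ?_⟩
  rw [hv, ← mul_assoc, ← hcomm.eq, mul_assoc, mul_inv_cancel, mul_one]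

/-- the number of the central elements `v'` of `R` with `y v' ~ x v`, modulo `p` -/
theorem card_ZR {x v y : G} (hR : SylCent p x R) (hx : ¬ p ∣ orderOf x)
    (hxy : IsConj x y) (hy : y ∈ centralizer (R : Set G)) :
    (((ZR R).filter fun v' => IsConj (x * v) (y * v')).card : k) =
      ((univ.filter fun w : G => IsConj (x * v) w ∧ pr p w = y).card : k) := by
  have hyreg : ¬ p ∣ orderOf y := by
    obtain ⟨c, rfl⟩ := isConj_iff.1 hxy
    rwa [orderOf_conj]
  have hfin : Finite R := inferInstance
  have h1 : ∑ w : G, ((if IsConj (x * v) w ∧ pr p w = y then (1 : k) else 0) -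
      (if (IsConj (x * v) w ∧ pr p w = y) ∧ w ∈ centralizer (R : Set G) then (1 : k) else 0)) = 0 := by
    refine sum_eq_zero_of_perm p hR.pgp (conjPerm R) _ ?_ ?_
    · intro d w
      have hdy : (d : G) * y * (d : G)⁻¹ = y := (mem_cent_iff R y).1 hy d d.2
      have e1 : IsConj (x * v) ((d : G) * w * (d : G)⁻¹) ↔ IsConj (x * v) w :=
        ⟨fun h => h.trans (isConj_iff.2 ⟨(d : G)⁻¹, by group⟩),
          fun h => h.trans (isConj_iff.2 ⟨d, rfl⟩)⟩
      have e2 : pr p ((d : G) * w * (d : G)⁻¹) = y ↔ pr p w = y := by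
        rw [pr_conj]
        constructor
        · intro h
          rw [← hdy] at h
          exact mul_left_cancel (mul_right_cancel h)
        · intro h
          rw [h, hdy]
      have e3 : ((d : G) * w * (d : G)⁻¹ ∈ centralizer (R : Set G)) ↔
          (w ∈ centralizer (R : Set G)) := by
        constructor
        · intro h1
          have h2 : (d : G)⁻¹ * ((d : G) * w * (d : G)⁻¹) * ((d : G)⁻¹)⁻¹ = _ :=
            (mem_cent_iff R _).1 h1 _ (inv_mem d.2)
          have h3 : (d : G)⁻¹ * ((d : G) * w * (d : G)⁻¹) * ((d : G)⁻¹)⁻¹ = w := by group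
          rw [h3] at h2
          rw [h2]; exact h1
        · intro h1
          rw [(mem_cent_iff R w).1 h1 d d.2]; exact h1
      simp only [conjPerm_apply, e1, e2, e3]
    · intro w hw
      have hwC : w ∈ centralizer (R : Set G) := (mem_cent_iff R w).2 fun d hd => hw ⟨d, hd⟩
      simp only [hwC, and_true, sub_self]
  rw [Finset.sum_sub_distrib, sub_eq_zero, Finset.sum_boole, Finset.sum_boole] at h1
  rw [h1]
  congr 1
  refine Finset.card_bij (fun v' _ => y * v') ?_ ?_ ?_
  · intro v' hv'
    rw [mem_filter] at hv' ⊢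
    obtain ⟨h2, h3⟩ := mem_ZR.1 hv'.1
    obtain ⟨a, ha⟩ := hR.pgp ⟨v', h2⟩
    have hcomm : Commute y v' := (mem_centralizer_iff.1 hy v' h2).symm
    refine ⟨mem_univ _, ⟨hv'.2, pr_eq hcomm hyreg ⟨a, congrArg Subtype.val ha⟩⟩, mul_mem hy ?_⟩
    rw [mem_centralizer_iff]
    exact h3
  · intro a _ b _ hab
    exact mul_left_cancel hab
  · intro w hw
    obtain ⟨-, ⟨hw1, hw2⟩, hwC⟩ := mem_filter.1 hw
    obtain ⟨v', hv', hwv⟩ := exists_ZR hR (by rw [hw2]; exact hxy) hwC
    rw [hw2] at hwv
    exact ⟨v', mem_filter.2 ⟨hv', by rw [← hwv]; exact hw1⟩, hwv.symm⟩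

/-- **the value at the class of `x v`** -/
theorem BP.cls_mul (hl : BP p R l) {x v : G} (hR : SylCent p x R) (hx : ¬ p ∣ orderOf x)
    (hv : v ∈ R) (hvc : ∀ a ∈ R, a * v = v * a) :
    ∃ n : ℕ, ¬ p ∣ n ∧ l (cls k (x * v)) = n * l (cls k x) := by
  have hvp : ∃ n : ℕ, v ^ p ^ n = 1 := by
    obtain ⟨a, ha⟩ := hR.pgp ⟨v, hv⟩
    exact ⟨a, congrArg Subtype.val ha⟩
  have hxv : Commute x v := (mem_centralizer_singleton_iff.1 (hR.le hv)).symm
  have hcv0 : Nat.card (centralizer {x * v} : Subgroup G) ≠ 0 := Nat.card_pos.ne'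
  set n := (univ.filter fun w : G => IsConj (x * v) w ∧ pr p w = x).card with hn
  have hn1 := card_sec (p := p) (y := x) hx hvp hxv (IsConj.refl x)
  have hny : ∀ y, IsConj x y →
      (univ.filter fun w : G => IsConj (x * v) w ∧ pr p w = y).card = n := by
    intro y hy
    have h1 := card_sec (p := p) (y := y) hx hvp hxv hy
    rw [← hn1] at h1
    exact Nat.eq_of_mul_eq_mul_right (Nat.pos_of_ne_zero hcv0) h1
  refine ⟨n, ?_, ?_⟩
  · obtain ⟨m, hm, hcard⟩ := hR.ndvd
    have h1 : R ≤ centralizer {x * v} := by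
      intro r hr
      rw [mem_centralizer_singleton_iff]
      have h2 := mem_centralizer_singleton_iff.1 (hR.le hr)
      rw [← mul_assoc, h2, mul_assoc, hvc r hr, mul_assoc]
    obtain ⟨j, hj⟩ := Subgroup.card_dvd_of_le h1
    rw [hcard, hj] at hn1
    have hR0 : 0 < Nat.card R := Nat.card_pos
    have h2 : n * j = m := by
      apply Nat.eq_of_mul_eq_mul_left hR0
      rw [← hn1]; ring
    intro hpn
    exact hm (h2 ▸ hpn.mul_right j)
  · set a : G → G → k := fun v' y =>
      if y ∈ centralizer (R : Set G) ∧ IsConj x y ∧ IsConj (x * v) (y * v') then 1 else 0 with ha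
    have hRC : ∀ v' ∈ ZR R, v' ∈ centralizer (R : Set G) := fun v' hv' => by
      rw [mem_centralizer_iff]
      exact (mem_ZR.1 hv').2
    have hcc : ∀ c ∈ centralizer (R : Set G), ∀ y : G, c * y * c⁻¹ ∈ centralizer (R : Set G) ↔
        y ∈ centralizer (R : Set G) := by
      intro c hc y
      constructor
      · intro h
        have := mul_mem (mul_mem (inv_mem hc) h) hc
        have e1 : c⁻¹ * (c * y * c⁻¹) * c = y := by group
        rwa [e1] at this
      · intro h
        exact mul_mem (mul_mem hc h) (inv_mem hc)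
    have hainv : ∀ v' ∈ ZR R, InvOn (centralizer (R : Set G)) (a v') := by
      intro v' hv'
      constructor
      · intro c hc y
        have e1 : c * y * c⁻¹ * v' = c * (y * v') * c⁻¹ := by
          have h2 := mem_centralizer_iff.1 hc v' (mem_ZR.1 hv').1
          have h3 : c⁻¹ * v' = v' * c⁻¹ := by
            calc c⁻¹ * v' = c⁻¹ * (v' * c) * c⁻¹ := by group
              _ = c⁻¹ * (c * v') * c⁻¹ := by rw [h2]
              _ = v' * c⁻¹ := by group
          rw [mul_assoc, h3]; group
        have e2 : ∀ z w : G, IsConj z (c * w * c⁻¹) ↔ IsConj z w := fun z w =>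
          ⟨fun h => h.trans (isConj_iff.2 ⟨c⁻¹, by group⟩),
            fun h => h.trans (isConj_iff.2 ⟨c, rfl⟩)⟩
        simp only [ha, hcc c hc, e1, e2]
      · intro y hy
        simp only [ha]
        rw [if_neg fun h => hy h.1]
    have hdinv : ∀ v' ∈ ZR R, InvOn (centralizer (R : Set G)) (dl v' : G → k) := by
      intro v' hv'
      constructor
      · intro c hc y
        have h1 : c * v' * c⁻¹ = v' := by
          have := mem_centralizer_iff.1 hc v' (mem_ZR.1 hv').1
          rw [← this]; group
        have h2 : c * y * c⁻¹ = v' ↔ y = v' := by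
          constructor
          · intro h
            rw [← h1] at h
            exact mul_left_cancel (mul_right_cancel h)
          · rintro rfl; exact h1
        simp only [dl, h2]
      · intro y hy
        unfold dl
        rw [if_neg]
        rintro rfl
        exact hy (hRC _ hv')
    -- the decomposition of the class of `x v` on `C_G(R)`
    have h1 : l (cls k (x * v)) = l (∑ v' ∈ ZR R, conv (dl v') (a v')) := by
      refine hl.congr fun g hg => ?_
      rw [Finset.sum_apply]
      simp only [conv_dl]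
      have hcg : ∀ v' ∈ ZR R, v'⁻¹ * g * v' = g := by
        intro v' hv'
        have := mem_centralizer_iff.1 hg v' (mem_ZR.1 hv').1
        rw [mul_assoc, ← this, inv_mul_cancel_left]
      by_cases hgc : IsConj (x * v) g
      · have hprg : IsConj x (pr p g) := by
          obtain ⟨t, rfl⟩ := isConj_iff.1 hgc
          rw [pr_conj, pr_eq hxv hx hvp]
          exact isConj_iff.2 ⟨t, rfl⟩
        obtain ⟨v0, hv0, hgv⟩ := exists_ZR hR hprg hg
        have hpc : pr p g ∈ centralizer (R : Set G) := pow_mem hg _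
        have hyc : ∀ v' ∈ ZR R, v'⁻¹ * g = g * v'⁻¹ := fun v' hv' =>
          eq_mul_inv_iff_mul_eq.2 (hcg v' hv')
        have e1 : v0⁻¹ * g = pr p g := by
          rw [hyc v0 hv0]
          conv_lhs => rw [hgv]
          rw [mul_inv_cancel_right]
        have h3 : cls k (x * v) g = 1 := if_pos hgc
        rw [h3, Finset.sum_eq_single v0]
        · have h4 : v0⁻¹ * g ∈ centralizer (R : Set G) ∧ IsConj x (v0⁻¹ * g) ∧
              IsConj (x * v) (v0⁻¹ * g * v0) := by
            refine ⟨by rw [e1]; exact hpc, by rw [e1]; exact hprg, ?_⟩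
            rw [hcg v0 hv0]; exact hgc
          simp only [ha]
          rw [if_pos h4]
        · intro v' hv' hne
          simp only [ha]
          rw [if_neg]
          rintro ⟨h5, h6, -⟩
          apply hne
          have h7 : g = v'⁻¹ * g * v' := (hcg v' hv').symm
          have hreg : ¬ p ∣ orderOf (v'⁻¹ * g) := by
            obtain ⟨c, hc⟩ := isConj_iff.1 h6
            rw [← hc, orderOf_conj]
            exact hx
          have hcomm : Commute (v'⁻¹ * g) v' := (mem_centralizer_iff.1 h5 v' (mem_ZR.1 hv').1).symm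
          obtain ⟨j, hj⟩ := hR.pgp ⟨v', (mem_ZR.1 hv').1⟩
          have h8 : pr p g = v'⁻¹ * g := by
            conv_lhs => rw [h7]
            exact pr_eq hcomm hreg ⟨j, congrArg Subtype.val hj⟩
          have h9 : pr p g * v' = pr p g * v0 := by
            rw [← hgv, h8]; exact h7.symm
          exact mul_left_cancel h9
        · intro h; exact absurd hv0 h
      · have h3 : cls k (x * v) g = 0 := if_neg hgc
        rw [h3]
        symm
        refine Finset.sum_eq_zero fun v' hv' => ?_
        simp only [ha]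
        rw [if_neg]
        rintro ⟨-, -, h6⟩
        rw [hcg v' hv'] at h6
        exact hgc h6
    rw [h1, hl.sum]
    have h2 : ∀ v' ∈ ZR R, l (conv (dl v') (a v')) = l (a v') := by
      intro v' hv'
      rw [hl.mul _ _ (hdinv v' hv') (hainv v' hv'),
        BP.dl_central hl hR.pgp (mem_ZR.1 hv').1 (mem_ZR.1 hv').2, one_mul]
    rw [Finset.sum_congr rfl h2, ← hl.sum, ← hl.smul]
    refine hl.congr fun y hy => ?_
    rw [Finset.sum_apply, Pi.smul_apply, smul_eq_mul]
    by_cases hxy : IsConj x y
    · have h3 : cls k x y = 1 := if_pos hxy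
      rw [h3, mul_one, ← hny y hxy, ← card_ZR hR hx hxy hy, ← Finset.sum_boole]
      refine Finset.sum_congr rfl fun v' _ => ?_
      simp only [ha, hy, hxy, true_and]
    · have h3 : cls k x y = 0 := if_neg hxy
      rw [h3, mul_zero]
      refine Finset.sum_eq_zero fun v' _ => ?_
      simp only [ha]
      rw [if_neg fun h => hxy h.2.1]

end Value

end P179C
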