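import Mathlib

/-!
# A family of `p`-groups all of whose sections `K ≠ 1` satisfy `Z(K) ⊄ K'`
-/

namespace P179B

open Subgroup

open scoped commutatorElement

/-- `D` has an abelian normal subgroup `A` with cyclic quotient such that each element of `D` acts
on `A` by `a ↦ a ^ r` with `r ≡ 1` modulo `p ^ s`, and `a ^ (p ^ (2 s - 1)) = 1` for all `a ∈ A`. -/
def PowerFamily (p : ℕ) (D : Type) [Group D] : Prop :=
  ∃ (s : ℕ) (A : Subgroup D) (_ : A.Normal), 0 < s ∧ (∀ a ∈ A, ∀ b ∈ A, a * b = b * a) ∧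
    IsCyclic (D ⧸ A) ∧ (∀ d : D, ∃ r, r ≡ 1 [MOD p ^ s] ∧ ∀ a ∈ A, d * a * d⁻¹ = a ^ r) ∧
    ∀ a ∈ A, a ^ p ^ (2 * s - 1) = 1

theorem PowerFamily.section {p : ℕ} {D : Type} [Group D] (h : PowerFamily p D) (H : Subgroup D)
    (K : Type) [Group K] (f : H →* K) (hf : Function.Surjective f) : PowerFamily p K := by
  obtain ⟨s, A, hAn, hs, hab, hcyc, hr, hexp⟩ := h
  have hn1 : (A.subgroupOf H).Normal := inferInstance
  have hn2 : ((A.subgroupOf H).map f).Normal := hn1.map f hf
  refine ⟨s, (A.subgroupOf H).map f, hn2, hs, ?_, ?_, ?_, ?_⟩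
  · rintro _ ⟨a, ha, rfl⟩ _ ⟨b, hb, rfl⟩
    rw [← map_mul, ← map_mul]
    congr 1
    exact Subtype.ext (hab _ ha _ hb)
  · let φ : H ⧸ (A.subgroupOf H) →* D ⧸ A :=
      QuotientGroup.map (A.subgroupOf H) A H.subtype (fun x hx => hx)
    have hφ : Function.Injective φ := by
      rw [injective_iff_map_eq_one]
      intro x hx
      obtain ⟨x, rfl⟩ := QuotientGroup.mk_surjective x
      have h1 : (QuotientGroup.mk (x : D) : D ⧸ A) = 1 := hx
      rw [QuotientGroup.eq_one_iff] at h1 ⊢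
      exact h1
    have hc1 : IsCyclic (H ⧸ (A.subgroupOf H)) := isCyclic_of_injective φ hφ
    let ψ : H ⧸ (A.subgroupOf H) →* K ⧸ ((A.subgroupOf H).map f) :=
      QuotientGroup.map (A.subgroupOf H) ((A.subgroupOf H).map f) f (le_comap_map _ _)
    refine isCyclic_of_surjective ψ ?_
    intro y
    obtain ⟨y, rfl⟩ := QuotientGroup.mk_surjective y
    obtain ⟨x, rfl⟩ := hf y
    exact ⟨QuotientGroup.mk x, rfl⟩
  · intro d
    obtain ⟨x, rfl⟩ := hf d
    obtain ⟨r, hr1, hr2⟩ := hr x
    refine ⟨r, hr1, ?_⟩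
    rintro _ ⟨a, ha, rfl⟩
    rw [← map_mul, ← map_inv, ← map_mul, ← map_pow]
    congr 1
    exact Subtype.ext (hr2 _ ha)
  · rintro _ ⟨a, ha, rfl⟩
    rw [← map_pow]
    have h1 : a ^ p ^ (2 * s - 1) = 1 := Subtype.ext (hexp _ ha)
    rw [h1, map_one]

theorem PowerFamily.notLe {p : ℕ} {K : Type} [Group K] [Nontrivial K]
    (h : PowerFamily p K) : ¬ center K ≤ commutator K := by
  classical
  obtain ⟨s, A, hAn, hs, hab, hcyc, hr, hexp⟩ := h
  intro hle
  have hex : ∃ m, ∀ a ∈ A, a ^ p ^ m = 1 := ⟨_, hexp⟩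
  have hm1 := Nat.find_spec hex
  have hm2 : Nat.find hex ≤ 2 * s - 1 := Nat.find_min' hex hexp
  set m := Nat.find hex with hm
  by_cases hms : m ≤ s
  · -- `K` is abelian
    have hcomm : ∀ a b : K, a * b = b * a := by
      refine (MonoidHom.isMulCommutative_of_isCyclic_of_ker_le_center
        (QuotientGroup.mk' A) ?_).is_comm.comm
      rw [QuotientGroup.ker_mk']
      intro a ha
      rw [Subgroup.mem_center_iff]
      intro d
      obtain ⟨r, hr1, hr2⟩ := hr d
      have h1 : a ^ r = a := by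
        conv_rhs => rw [← pow_one a]
        rw [pow_eq_pow_iff_modEq]
        refine hr1.of_dvd (orderOf_dvd_of_pow_eq_one ?_)
        obtain ⟨t, ht⟩ := Nat.exists_eq_add_of_le hms
        rw [ht, pow_add, pow_mul, hm1 a ha, one_pow]
      have h2 := hr2 a ha
      rw [h1, mul_inv_eq_iff_eq_mul] at h2
      exact h2
    have hbot : commutator K = ⊥ := by
      rw [_root_.commutator_def, Subgroup.commutator_eq_bot_iff_le_centralizer]
      intro x _
      rw [Subgroup.mem_centralizer_iff]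
      intro y _
      exact hcomm y x
    obtain ⟨x, hx⟩ := exists_ne (1 : K)
    have h1 : x ∈ center K := Subgroup.mem_center_iff.2 fun y => hcomm y x
    have h2 := hle h1
    rw [hbot, Subgroup.mem_bot] at h2
    exact hx h2
  · push Not at hms
    -- an element of `A` of order `p ^ m`
    have hnm : ¬ ∀ a ∈ A, a ^ p ^ (m - 1) = 1 := Nat.find_min hex (by omega)
    push Not at hnm
    obtain ⟨a, ha, ha1⟩ := hnm
    -- the elements of `A` of order dividing `p ^ (m - s)`
    let E : Subgroup K :=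
      { carrier := {x | x ∈ A ∧ x ^ p ^ (m - s) = 1}
        mul_mem' := by
          rintro x y ⟨hx, hx1⟩ ⟨hy, hy1⟩
          refine ⟨mul_mem hx hy, ?_⟩
          rw [(show Commute x y from hab x hx y hy).mul_pow, hx1, hy1, one_mul]
        one_mem' := ⟨one_mem _, one_pow _⟩
        inv_mem' := by
          rintro x ⟨hx, hx1⟩
          exact ⟨inv_mem hx, by rw [inv_pow, hx1, inv_one]⟩ }
    have hEn : E.Normal := by
      refine ⟨?_⟩
      rintro x ⟨hx, hx1⟩ y
      refine ⟨hAn.conj_mem x hx y, ?_⟩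
      rw [conj_pow, hx1, mul_one, mul_inv_cancel]
    have hEA : E ≤ A := fun x hx => hx.1
    have hcomm : ∀ x y : K ⧸ E, x * y = y * x := by
      refine (MonoidHom.isMulCommutative_of_isCyclic_of_ker_le_center
        (QuotientGroup.map E A (MonoidHom.id K) (fun x hx => hEA hx)) ?_).is_comm.comm
      intro x hx
      obtain ⟨x, rfl⟩ := QuotientGroup.mk_surjective x
      have hxA : x ∈ A := by
        have h1 : (QuotientGroup.mk x : K ⧸ A) = 1 := hx
        rwa [QuotientGroup.eq_one_iff] at h1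
      rw [Subgroup.mem_center_iff]
      intro y
      obtain ⟨y, rfl⟩ := QuotientGroup.mk_surjective y
      obtain ⟨r, hr1, hr2⟩ := hr y
      have h1 : y * x = x ^ r * y := by
        rw [← hr2 x hxA]; group
      change (QuotientGroup.mk (y * x) : K ⧸ E) = QuotientGroup.mk (x * y)
      rw [h1, QuotientGroup.eq]
      have h2 : (x ^ r * y)⁻¹ * (x * y) = y⁻¹ * (x ^ r)⁻¹ * x * y := by group
      rw [h2]
      have h3 : (x ^ r)⁻¹ * x ∈ E := by
        refine ⟨mul_mem (inv_mem (pow_mem hxA r)) hxA, ?_⟩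
        have h4 : Commute (x ^ r)⁻¹ x := ((Commute.refl x).pow_left r).inv_left
        rw [h4.mul_pow, inv_pow, inv_mul_eq_one, ← pow_mul]
        rw [pow_eq_pow_iff_modEq]
        have h5 : r * p ^ (m - s) ≡ 1 * p ^ (m - s) [MOD p ^ s * p ^ (m - s)] :=
          Nat.ModEq.mul_right' _ hr1
        rw [one_mul, ← pow_add, Nat.add_sub_cancel' hms.le] at h5
        exact h5.of_dvd (orderOf_dvd_of_pow_eq_one (hm1 x hxA))
      have h6 := hEn.conj_mem _ h3 y⁻¹
      have h7 : y⁻¹ * ((x ^ r)⁻¹ * x) * y⁻¹⁻¹ = y⁻¹ * (x ^ r)⁻¹ * x * y := by group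
      rwa [h7] at h6
    have hcE : commutator K ≤ E := by
      rw [← QuotientGroup.ker_mk' E]
      have h1 : ∀ x y : K, QuotientGroup.mk' E ⁅x, y⁆ = 1 := by
        intro x y
        rw [map_commutatorElement, commutatorElement_eq_one_iff_mul_comm]
        exact hcomm _ _
      rw [_root_.commutator_def, Subgroup.commutator_le]
      intro x _ y _
      exact h1 x y
    -- the central element
    have hzc : a ^ p ^ (m - s) ∈ Subgroup.center K := by
      rw [Subgroup.mem_center_iff]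
      intro d
      obtain ⟨r, hr1, hr2⟩ := hr d
      have h1 := hr2 _ (pow_mem ha (p ^ (m - s)))
      have h2 : (a ^ p ^ (m - s)) ^ r = a ^ p ^ (m - s) := by
        conv_rhs => rw [← pow_one (a ^ p ^ (m - s))]
        rw [pow_eq_pow_iff_modEq]
        refine hr1.of_dvd (orderOf_dvd_of_pow_eq_one ?_)
        rw [← pow_mul, ← pow_add, Nat.sub_add_cancel hms.le, hm1 a ha]
      rw [h2, mul_inv_eq_iff_eq_mul] at h1
      exact h1
    have hz := (hcE (hle hzc)).2
    apply ha1
    rw [← pow_mul, ← pow_add] at hz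
    obtain ⟨t, ht⟩ := Nat.exists_eq_add_of_le (show m - s + (m - s) ≤ m - 1 by omega)
    rw [ht, pow_add p, pow_mul, hz, one_pow]

end P179B
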