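import Vale.Agent.P179.H166.Z8
import Vale.Agent.P179.H166.Z11

/-!
# The unit trick, 10: defect groups all of whose sections are good
-/

namespace P179B

open Subgroup P179H524

universe u

theorem CharCrit.of_equiv {p : ℕ} {K K' : Type} [Group K] [Group K'] (e : K ≃* K') {v : K}
    (h : CharCrit p K v) : CharCrit p K' (e v) := by
  have key : ∀ (k : K') (n : ℕ), k ^ n = e v → e.symm k ^ n = v := by
    intro k n hk
    apply e.injective
    rw [map_pow, e.apply_symm_apply, hk]
  have key2 : ∀ (k : K') (n : ℕ), IsConj k (k ^ n) → IsConj (e.symm k) (e.symm k ^ n) := by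
    intro k n hk
    have := MonoidHom.map_isConj e.symm.toMonoidHom hk
    simpa using this
  rcases h with ⟨hp, χ, h0, h1⟩ | ⟨hp, χ, h0⟩
  · refine Or.inl ⟨hp, χ.comp e.symm.toMonoidHom, ?_, ?_⟩
    · intro k hk he
      exact h0 (e.symm k) (key k 4 hk) fun n hn => key2 k n (he n hn)
    · intro k hk
      exact h1 (e.symm k) (key k 2 hk)
  · refine Or.inr ⟨hp, χ.comp e.symm.toMonoidHom, ?_⟩
    intro k hk he
    exact h0 (e.symm k) (key k 3 hk) (key2 k 4 he)

theorem GoodCentre.of_equiv {p : ℕ} {K K' : Type} [Group K] [Group K'] (e : K ≃* K')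
    (h : GoodCentre p K) : GoodCentre p K' := by
  obtain ⟨v, hvZ, hv⟩ := h
  refine ⟨e v, ?_, ?_⟩
  · rw [Subgroup.mem_center_iff] at hvZ ⊢
    intro y
    obtain ⟨x, rfl⟩ := e.surjective y
    rw [← map_mul, ← map_mul, hvZ x]
  · rcases hv with hv | ⟨h1, h2⟩
    · left
      intro hc
      apply hv
      rw [← Abelianization.ker_of, MonoidHom.mem_ker] at hc ⊢
      have h1 := congrArg (Abelianization.map e.symm.toMonoidHom) hc
      rw [Abelianization.map_of, map_one] at h1
      simpa using h1
    · right
      exact ⟨by rw [MulEquiv.orderOf_eq, h1], h2.of_equiv e⟩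

theorem GoodSection.of_equiv {p : ℕ} {K K' : Type} [Group K] [Group K'] (e : K ≃* K')
    (h : GoodSection p K) : GoodSection p K' := by
  rcases h with h | h | ⟨hp, A, hi, hA⟩
  · exact Or.inl (e.symm.injective.subsingleton)
  · exact Or.inr (Or.inl (h.of_equiv e))
  · refine Or.inr (Or.inr ⟨hp, A.map e.toMonoidHom, ?_, ?_⟩)
    · have h1 : (A.map e.toMonoidHom).index = A.index := index_map_equiv A e
      rw [h1]
      exact hi
    · rintro _ ⟨a, ha, rfl⟩ _ ⟨b, hb, rfl⟩
      rw [← map_mul, ← map_mul, hA a ha b hb]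

/-- All sections of `D` are good. -/
def SectionsGood (p : ℕ) (D : Type) [Group D] : Prop :=
  ∀ (H : Subgroup D) (N : Subgroup H) [N.Normal], GoodSection p (H ⧸ N)

theorem secAll_of {p : ℕ} {D : Type} [Group D] (h : SectionsGood p D) :
    P179C.SecAll (GoodSection p) D := by
  intro H K _ f hf
  exact (h H f.ker).of_equiv (QuotientGroup.quotientKerEquivOfSurjective f hf)

theorem PowerFamily.good {p : ℕ} {D : Type} [Group D]
    (h : PowerFamily p D) : SectionsGood p D := by
  intro H N _
  by_cases hs : Subsingleton (H ⧸ N)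
  · exact Or.inl hs
  · rw [not_subsingleton_iff_nontrivial] at hs
    right; left
    obtain ⟨v, hv, hv'⟩ := SetLike.not_le_iff_exists.1
      (h.section H (H ⧸ N) (QuotientGroup.mk' N) (QuotientGroup.mk'_surjective N)).notLe
    exact ⟨v, hv, Or.inl hv'⟩

/-- The congruence modulo `p` for defect groups all of whose sections are good. -/
theorem theoremGood (p : ℕ) [hp : Fact p.Prime] {k : Type u} [Field k] [IsAlgClosed k] [CharP k p]
    (red : integralClosure ℤ ℂ →+* k) {G : Type} [Group G] [Finite G]
    (B : MonoidAlgebra k G) (hB : IsBlock B) (D : Subgroup G) (hD : IsDefectGroup B D)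
    (h : SectionsGood p D) :
    numSimpleIn B ≡ numWeightsIn p red B [MOD p] := by
  have hU : P179C.UnitClass p red (fun _ _ P => P179C.SecAll (GoodSection p) P) := by
    refine P179C.unitClass_of red (GoodSection p) ?_
    intro G _ _ _ R hO hR hS
    rcases crit_of_goodSection hS.self with h1 | h1
    · exact Or.inl h1
    · exact Or.inr (Or.inl h1)
  have := P179C.theoremU hU hB hD (secAll_of h)
  rw [numSimpleIn_eq, numWeightsIn_eq]
  exact this

end P179B
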