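import Vale.Agent.P179.H166.Z10

/-!
# The final form, with the unit trick and Theorem M
-/

namespace P179B

open Subgroup P179H524

universe u

/-- The defect groups of the theorem. -/
def GoodDefectGroup (p : ℕ) (D : Type) [Group D] : Prop :=
  SectionsGood p D ∨ PowerFamily p D ∨ (p = 2 ∧ Family2 D) ∨ (p = 3 ∧ Family3 D)

theorem theoremFinal2 (p : ℕ) [hp : Fact p.Prime] {k : Type u} [Field k] [IsAlgClosed k]
    [CharP k p] (red : integralClosure ℤ ℂ →+* k) {G : Type} [Group G] [Finite G]
    (B : MonoidAlgebra k G) (hB : IsBlock B) (D : Subgroup G) (hD : IsDefectGroup B D) :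
    (GoodDefectGroup p D → AgreeMod p (numSimpleIn B) (numWeightsIn p red B)) ∧
      (p = 3 → (∀ a b : D, a * b = b * a) →
        AgreeMod 9 (numSimpleIn B) (numWeightsIn p red B)) := by
  refine ⟨fun h => ?_, (theoremFinal p red B hB D hD).2⟩
  have h2 : 0 < numSimpleIn B := by
    rw [numSimpleIn_eq]
    exact P179C.numSimpleIn_pos B hB
  rcases h with h | h | h | h
  · exact agreeMod_of (theoremGood p red B hB D hD h) h2
  · exact agreeMod_of (theoremGood p red B hB D hD h.good) h2
  · exact (theoremFinal p red B hB D hD).1 (Or.inr (Or.inl ⟨h.1, Or.inr h.2⟩))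
  · exact (theoremFinal p red B hB D hD).1 (Or.inr (Or.inr ⟨h.1, Or.inr h.2⟩))

end P179B
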