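import Vale.Agent.P179.H166.Z12
import Vale.Agent.P179.H526.Z17

/-!
# The final form, also modulo a normal `p`-subgroup
-/

namespace P179B

open Subgroup P179H524

universe u

theorem theoremFinal3 (p : ℕ) [hp : Fact p.Prime] {k : Type u} [Field k] [IsAlgClosed k]
    [CharP k p] (red : integralClosure ℤ ℂ →+* k) {G : Type} [Group G] [Finite G]
    (B : MonoidAlgebra k G) (hB : IsBlock B) (R : Subgroup G) [R.Normal] (hR : IsPGroup p R) :
    ((∀ B' : MonoidAlgebra k (G ⧸ R), IsBlock B' →
        B' * MonoidAlgebra.mapDomainAlgHom k k (QuotientGroup.mk' R) B = B' →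
        ∃ D' : Subgroup (G ⧸ R), IsDefectGroup B' D' ∧ GoodDefectGroup p D') →
      AgreeMod p (numSimpleIn B) (numWeightsIn p red B)) ∧
    (p = 3 → (∀ B' : MonoidAlgebra k (G ⧸ R), IsBlock B' →
        B' * MonoidAlgebra.mapDomainAlgHom k k (QuotientGroup.mk' R) B = B' →
        ∃ D' : Subgroup (G ⧸ R), IsDefectGroup B' D' ∧ ∀ a b : D', a * b = b * a) →
      AgreeMod 9 (numSimpleIn B) (numWeightsIn p red B)) := by
  constructor
  · intro h
    refine agreeMod_quo red R hR hB fun B' hB' hBB' => ?_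
    obtain ⟨D', hD', hgood⟩ := h B' hB' hBB'
    exact (theoremFinal2 p red B' hB' D' hD').1 hgood
  · intro hp3 h
    refine agreeMod_quo red R hR hB fun B' hB' hBB' => ?_
    obtain ⟨D', hD', hab⟩ := h B' hB' hBB'
    exact (theoremFinal2 p red B' hB' D' hD').2 hp3 hab

end P179B
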