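import Vale.Agent.P179.H143.NI4

/-!
# The final form, with nice defect groups
-/

namespace P179B

open Subgroup P179H524

universe u

/-- The defect groups of the theorem. -/
def AdmissibleDefectGroup (p : ℕ) (D : Type) [Group D] : Prop :=
  P179L.Nice p D ∨ P179L.PowerCentre p D ∨ SmallGood p D ∨ PowerFamily p D ∨
    (p = 2 ∧ Family2 D) ∨ (p = 3 ∧ Family3 D)

theorem nice_main (p : ℕ) [hp : Fact p.Prime] {k : Type u} [Field k] [IsAlgClosed k]
    [CharP k p] (red : integralClosure ℤ ℂ →+* k) {G : Type} [Group G] [Finite G]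
    (B : MonoidAlgebra k G) (hB : IsBlock B) (D : Subgroup G) (hD : IsDefectGroup B D)
    (h : P179L.Nice p D) : numSimpleIn B ≡ numWeightsIn p red B [MOD p] := by
  rw [numSimpleIn_eq, numWeightsIn_eq]
  exact P179L.nice_main red (Nat.card G) G rfl B hB D hD h

theorem theoremFinal4 (p : ℕ) [hp : Fact p.Prime] {k : Type u} [Field k] [IsAlgClosed k]
    [CharP k p] (red : integralClosure ℤ ℂ →+* k) {G : Type} [Group G] [Finite G]
    (B : MonoidAlgebra k G) (hB : IsBlock B) (D : Subgroup G) (hD : IsDefectGroup B D) :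
    (AdmissibleDefectGroup p D → AgreeMod p (numSimpleIn B) (numWeightsIn p red B)) ∧
      (p = 3 → (∀ a b : D, a * b = b * a) →
        AgreeMod 9 (numSimpleIn B) (numWeightsIn p red B)) := by
  have := Fintype.ofFinite G
  refine ⟨fun h => ?_, (theoremFinal p red B hB D hD).2⟩
  have h2 : 0 < numSimpleIn B := by
    rw [numSimpleIn_eq]
    exact P179C.numSimpleIn_pos B hB
  have hD' : P179C.IsDefectGroup B D := hD
  have hDp : IsPGroup p D := (P179Y.exists_BP_of_block (p := p) B hB D hD').1
  rcases h with h | h | h | h | h | h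
  · exact agreeMod_of (nice_main p red B hB D hD h) h2
  · exact agreeMod_of (nice_main p red B hB D hD (h.nice hDp)) h2
  · exact agreeMod_of (theoremGood2 p red B hB D hD (h.quotientsGood hDp)) h2
  · exact agreeMod_of (theoremGood p red B hB D hD h.good) h2
  · exact (theoremFinal p red B hB D hD).1 (Or.inr (Or.inl ⟨h.1, Or.inr h.2⟩))
  · exact (theoremFinal p red B hB D hD).1 (Or.inr (Or.inr ⟨h.1, Or.inr h.2⟩))

theorem theoremFinal5 (p : ℕ) [hp : Fact p.Prime] {k : Type u} [Field k] [IsAlgClosed k]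
    [CharP k p] (red : integralClosure ℤ ℂ →+* k) {G : Type} [Group G] [Finite G]
    (B : MonoidAlgebra k G) (hB : IsBlock B) (R : Subgroup G) [R.Normal] (hR : IsPGroup p R) :
    ((∀ B' : MonoidAlgebra k (G ⧸ R), IsBlock B' →
        B' * MonoidAlgebra.mapDomainAlgHom k k (QuotientGroup.mk' R) B = B' →
        ∃ D' : Subgroup (G ⧸ R), IsDefectGroup B' D' ∧ AdmissibleDefectGroup p D') →
      AgreeMod p (numSimpleIn B) (numWeightsIn p red B)) ∧
    (p = 3 → (∀ B' : MonoidAlgebra k (G ⧸ R), IsBlock B' →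
        B' * MonoidAlgebra.mapDomainAlgHom k k (QuotientGroup.mk' R) B = B' →
        ∃ D' : Subgroup (G ⧸ R), IsDefectGroup B' D' ∧ ∀ a b : D', a * b = b * a) →
      AgreeMod 9 (numSimpleIn B) (numWeightsIn p red B)) := by
  constructor
  · intro h
    refine agreeMod_quo red R hR hB fun B' hB' hBB' => ?_
    obtain ⟨D', hD', hgood⟩ := h B' hB' hBB'
    exact (theoremFinal4 p red B' hB' D' hD').1 hgood
  · intro hp3 h
    refine agreeMod_quo red R hR hB fun B' hB' hBB' => ?_
    obtain ⟨D', hD', hab⟩ := h B' hB' hBB'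
    exact (theoremFinal4 p red B' hB' D' hD').2 hp3 hab

end P179B
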