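import Vale.Agent.P179.H166.Z16
import Vale.Agent.P179.H166.KN4

/-!
# The defect groups of the dominated blocks of `G / R`
-/

namespace P179R

open P179H524 P179C P179A P179P P179Y Finset Subgroup

universe u

theorem exists_relTrace_le {p : ℕ} [hp : Fact p.Prime] {k : Type u} [Field k] [IsAlgClosed k]
    [CharP k p] {G : Type} [Group G] [Finite G] (R : Subgroup G) [R.Normal] (hR : IsPGroup p R)
    {B : MonoidAlgebra k G} (hB : IsBlock B) {D : Subgroup G} (hD : IsRelTrace B D)
    {B' : MonoidAlgebra k (G ⧸ R)} (hB' : IsBlock B') (h : B' * quo R B = B') :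
    ∃ D' : Subgroup (G ⧸ R), D' ≤ D.map (QuotientGroup.mk' R) ∧ IsRelTrace B' D' := by
  classical
  have := Fintype.ofFinite G
  have := Fintype.ofFinite (G ⧸ R)
  have := Fintype.ofFinite (ConjClasses (G ⧸ R))
  have hq := quo_mem R hB.1
  obtain ⟨L, hL⟩ := blockHomStmt B' hB'
  have hLB : L ⟨B', hB'.1⟩ = 1 := by rw [hL]; exact centralChar_self B' hB'
  have hLq : L ⟨quo R B, hq⟩ = 1 := by
    have h1 : (⟨B', hB'.1⟩ : Subalgebra.center k (MonoidAlgebra k (G ⧸ R))) * ⟨quo R B, hq⟩ =
        ⟨B', hB'.1⟩ := Subtype.ext h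
    have h2 := congrArg L h1
    rwa [map_mul, hLB, one_mul] at h2
  obtain ⟨C, hC1, hC2⟩ : ∃ C : ConjClasses (G ⧸ R), (quo R B).coeff C.out ≠ 0 ∧
      L ⟨classSum k C.out, classSum_mem_center _⟩ ≠ 0 := by
    by_contra hcon
    push Not at hcon
    rw [P179N.eq_sum_center (⟨quo R B, hq⟩ : Subalgebra.center k (MonoidAlgebra k (G ⧸ R))),
      map_sum] at hLq
    refine one_ne_zero (hLq.symm.trans (Finset.sum_eq_zero fun C _ => ?_))
    rw [map_smul]
    change (quo R B).coeff C.out • _ = (0 : k)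
    by_cases h0 : (quo R B).coeff C.out = 0
    · rw [h0, zero_smul]
    · rw [hcon C h0, smul_zero]
  set y := C.out with hy
  have hcy : centralChar B' (classSum k y) ≠ 0 := by
    rw [hL] at hC2
    exact hC2
  obtain ⟨w, hw, hBw⟩ := exists_mul_of_centralChar_ne hB' (classSum_mem_center y) hcy
  obtain ⟨S, hS⟩ := exists_sylCent p y
  -- the preimage of `S` centralises an element of the coset
  set P : Subgroup G := S.comap (QuotientGroup.mk' R) with hP
  have hPp : IsPGroup p P := by
    refine IsPGroup.comap_of_ker_isPGroup hS.pgp _ ?_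
    rw [QuotientGroup.ker_mk']
    exact hR
  have hb : IsCF (fun g => B.coeff g) := (P179C.mem_center_iff _).1 hB.1
  let X := {g : G // (g : G ⧸ R) = y ∧ B.coeff g ≠ 0}
  have hact : ∀ (x : P) (g : X), (((x : G) * g.1 * (x : G)⁻¹ : G) : G ⧸ R) = y ∧
      B.coeff ((x : G) * g.1 * (x : G)⁻¹) ≠ 0 := by
    intro x g
    constructor
    · have h1 : ((x : G) : G ⧸ R) ∈ S := x.2
      have h2 := mem_centralizer_singleton_iff.1 (hS.le h1)
      rw [QuotientGroup.mk_mul, QuotientGroup.mk_mul, QuotientGroup.mk_inv, g.2.1, h2,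
        mul_inv_cancel_right]
    · have h1 := hb x g.1
      simp only at h1
      rw [h1]
      exact g.2.2
  let _ : MulAction P X :=
    { smul := fun x g => ⟨(x : G) * g.1 * (x : G)⁻¹, hact x g⟩
      one_smul := fun g => Subtype.ext (by
        change ((1 : P) : G) * g.1 * ((1 : P) : G)⁻¹ = g.1
        simp)
      mul_smul := fun x x' g => Subtype.ext (by
        change ((x * x' : P) : G) * g.1 * ((x * x' : P) : G)⁻¹ =
          (x : G) * ((x' : G) * g.1 * (x' : G)⁻¹) * (x : G)⁻¹
        push_cast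
        group) }
  have : Fintype X := Fintype.ofFinite X
  obtain ⟨g, hg⟩ := P179C.H905.exists_fixed p (P := P) hPp (fun g : X => B.coeff g.1)
    (fun x g => hb (x : G) g.1) (by
      have h1 : (quo R B).coeff y ≠ 0 := hC1
      rw [coeff_quo, ← Finset.sum_filter] at h1
      intro h2
      apply h1
      rw [← h2, ← Finset.sum_filter_ne_zero
        (s := Finset.univ.filter fun a : G => (a : G ⧸ R) = y), Finset.filter_filter]
      symm
      refine Finset.sum_bij (fun (g : X) _ => g.1) ?_ ?_ ?_ ?_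
      · intro g _
        rw [Finset.mem_filter]
        exact ⟨Finset.mem_univ _, g.2⟩
      · intro a _ b _ hab
        exact Subtype.ext hab
      · intro g hg
        rw [Finset.mem_filter] at hg
        exact ⟨⟨g, hg.2⟩, Finset.mem_univ _, rfl⟩
      · intro g _
        rfl)
  have hPg : P ≤ centralizer {g.1} := by
    intro x hx
    rw [mem_centralizer_singleton_iff]
    have h1 : x * g.1 * x⁻¹ = g.1 := congrArg Subtype.val (hg ⟨x, hx⟩)
    exact mul_inv_eq_iff_eq_mul.1 h1
  obtain ⟨c, hc⟩ := zab_of_relTrace p B D hD g.1 g.2.2 P hPp hPg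
  set d : G ⧸ R := (c : G ⧸ R)⁻¹ with hd
  refine ⟨S.map (MulAut.conj d).toMonoidHom, ?_, ?_⟩
  · rintro _ ⟨s, hs, rfl⟩
    obtain ⟨x, rfl⟩ := QuotientGroup.mk_surjective s
    refine ⟨c⁻¹ * x * c, hc x hs, ?_⟩
    change ((c⁻¹ * x * c : G) : G ⧸ R) = d * (x : G ⧸ R) * d⁻¹
    rw [hd, inv_inv]
    rfl
  · refine isRelTrace_of_syl (hS.conj d) hw ?_
    rw [hBw]
    congr 1
    ext z
    rw [coeff_classSum, coeff_classSum]
    have h1 : ConjClasses.mk (d * y * d⁻¹) = ConjClasses.mk y :=
      ConjClasses.mk_eq_mk_iff_isConj.2 (isConj_iff.2 ⟨d, rfl⟩).symm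
    rw [h1]

end P179R

namespace P179B

open Subgroup P179H524

universe u

/-- the blocks of `G / R` dominated by `B` have defect groups inside `D R / R` -/
theorem exists_defect_le {p : ℕ} [hp : Fact p.Prime] {k : Type u} [Field k] [IsAlgClosed k]
    [CharP k p] {G : Type} [Group G] [Finite G] (R : Subgroup G) [R.Normal] (hR : IsPGroup p R)
    {B : MonoidAlgebra k G} (hB : IsBlock B) {D : Subgroup G} (hD : IsDefectGroup B D)
    {B' : MonoidAlgebra k (G ⧸ R)} (hB' : IsBlock B')
    (h : B' * MonoidAlgebra.mapDomainAlgHom k k (QuotientGroup.mk' R) B = B') :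
    ∃ D' : Subgroup (G ⧸ R), D' ≤ D.map (QuotientGroup.mk' R) ∧ IsDefectGroup B' D' := by
  obtain ⟨D0, h0, h1⟩ := P179R.exists_relTrace_le (p := p) R hR (B := B) hB (D := D) hD.1
    (B' := B') hB' h
  obtain ⟨D', hD', h2⟩ := exists_minimal_le_of_wellFoundedLT (P179C.IsRelTrace B') D0 h1
  exact ⟨D', hD'.trans h0, h2⟩

/-- the theorem above a normal `p`-subgroup `R`, with a condition on the subgroups of `D R / R` -/
theorem theoremFinal6 (p : ℕ) [hp : Fact p.Prime] {k : Type u} [Field k] [IsAlgClosed k]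
    [CharP k p] (red : integralClosure ℤ ℂ →+* k) {G : Type} [Group G] [Finite G]
    (B : MonoidAlgebra k G) (hB : IsBlock B) (D : Subgroup G) (hD : IsDefectGroup B D)
    (R : Subgroup G) [R.Normal] (hR : IsPGroup p R) :
    ((∀ H : Subgroup (G ⧸ R), H ≤ D.map (QuotientGroup.mk' R) → AdmissibleDefectGroup p H) →
      AgreeMod p (numSimpleIn B) (numWeightsIn p red B)) ∧
    (p = 3 → (∀ a b : D.map (QuotientGroup.mk' R), a * b = b * a) →
      AgreeMod 9 (numSimpleIn B) (numWeightsIn p red B)) := by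
  constructor
  · intro h
    refine (theoremFinal5 p red B hB R hR).1 fun B' hB' hBB' => ?_
    obtain ⟨D', h1, h2⟩ := exists_defect_le (p := p) R hR hB hD hB' hBB'
    exact ⟨D', h2, h D' h1⟩
  · intro hp3 h
    refine (theoremFinal5 p red B hB R hR).2 hp3 fun B' hB' hBB' => ?_
    obtain ⟨D', h1, h2⟩ := exists_defect_le (p := p) R hR hB hD hB' hBB'
    refine ⟨D', h2, fun a b => Subtype.ext ?_⟩
    have h3 := congrArg Subtype.val (h ⟨a, h1 a.2⟩ ⟨b, h1 b.2⟩)
    exact h3

end P179B
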