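import Vale.Agent.P179.H166.Z17

/-!
# The theorem above a normal `p`-subgroup
-/

namespace P179B

open Subgroup P179H524

universe u

/-- `D` is abelian. -/
def AbelianDefectGroup (D : Type) [Group D] : Prop := ∀ a b : D, a * b = b * a

/-- Each block `B'` of `G / R` with `B' B̄ = B'`, `B̄` the image of `B`, has a defect group with the
property `C`; or all the subgroups of `D R / R` have the property `C`, `D` a defect group of
`B`. -/
def DefectAbove {k : Type*} [Field k] {G : Type} [Group G] (R : Subgroup G) [R.Normal]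
    (B : MonoidAlgebra k G) (C : ∀ (D : Type) [Group D], Prop) : Prop :=
  (∀ B' : MonoidAlgebra k (G ⧸ R), IsBlock B' →
      B' * MonoidAlgebra.mapDomainAlgHom k k (QuotientGroup.mk' R) B = B' →
      ∃ D' : Subgroup (G ⧸ R), IsDefectGroup B' D' ∧ C D') ∨
    ∃ D : Subgroup G, IsDefectGroup B D ∧
      ∀ H : Subgroup (G ⧸ R), H ≤ D.map (QuotientGroup.mk' R) → C H

theorem theoremFinal7 (p : ℕ) [hp : Fact p.Prime] {k : Type u} [Field k] [IsAlgClosed k]
    [CharP k p] (red : integralClosure ℤ ℂ →+* k) {G : Type} [Group G] [Finite G]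
    (B : MonoidAlgebra k G) (hB : IsBlock B) (R : Subgroup G) [R.Normal] (hR : IsPGroup p R) :
    (DefectAbove R B (AdmissibleDefectGroup p) →
      AgreeMod p (numSimpleIn B) (numWeightsIn p red B)) ∧
    (p = 3 → DefectAbove R B AbelianDefectGroup →
      AgreeMod 9 (numSimpleIn B) (numWeightsIn p red B)) := by
  constructor
  · rintro (h | ⟨D, hD, h⟩)
    · exact (theoremFinal5 p red B hB R hR).1 h
    · exact (theoremFinal6 p red B hB D hD R hR).1 h
  · rintro hp3 (h | ⟨D, hD, h⟩)
    · exact (theoremFinal5 p red B hB R hR).2 hp3 h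
    · exact (theoremFinal6 p red B hB D hD R hR).2 hp3 (h _ le_rfl)

end P179B
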