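import Vale.Agent.P179.H166.Z1
import Vale.Agent.P179.H526.Inert

/-!
# The unit trick, 2: blocks, their defect groups, and supports
-/

namespace P179C

open Subgroup Finset P179H524 P179A P179P P179Y

open scoped Classical

universe u

section Syl

variable {p : ℕ} [hp : Fact p.Prime] {G : Type} [Group G] [Fintype G]

omit hp in
theorem SylCent.of_card_le {y : G} {R D : Subgroup G} (hR : SylCent p y R) (hD : IsPGroup p D)
    (hDy : D ≤ centralizer {y}) (hc : Nat.card R ≤ Nat.card D) : SylCent p y D := by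
  obtain ⟨c, hc', h⟩ := hR.max D hD hDy
  have heq : D.map (MulAut.conj c⁻¹).toMonoidHom = R := by
    apply Subgroup.eq_of_le_of_card_ge
    · rintro _ ⟨a, ha, rfl⟩
      have := h a ha
      simpa using this
    · rw [Subgroup.card_map_of_injective (MulAut.conj c⁻¹).injective]
      exact hc
  refine ⟨hD, hDy, fun P hP hPy => ?_, ?_⟩
  · obtain ⟨c2, hc2, h2⟩ := hR.max P hP hPy
    refine ⟨c2 * c⁻¹, mul_mem hc2 (inv_mem hc'), fun a ha => ?_⟩
    have h3 := h2 a ha
    rw [← heq] at h3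
    obtain ⟨d, hd, he⟩ := h3
    have he' : c⁻¹ * d * c = c2⁻¹ * a * c2 := by simpa using he
    have h4 : (c2 * c⁻¹)⁻¹ * a * (c2 * c⁻¹) = d := by
      calc (c2 * c⁻¹)⁻¹ * a * (c2 * c⁻¹) = c * (c2⁻¹ * a * c2) * c⁻¹ := by group
        _ = d := by rw [← he']; group
    rw [h4]
    exact hd
  · obtain ⟨m, hm, hm'⟩ := hR.ndvd
    have h1 : Nat.card D ≤ Nat.card R := hR.card_le hD hDy
    have h2 : Nat.card R = Nat.card D := le_antisymm hc h1
    exact ⟨m, hm, by rw [hm', h2]⟩

theorem SylCent.mul_central {x v : G} {D : Subgroup G} (hD : SylCent p x D) (hv : v ∈ D)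
    (hvc : ∀ a ∈ D, a * v = v * a) (hx : ¬ p ∣ orderOf x) : SylCent p (x * v) D := by
  have hvp : ∃ n : ℕ, v ^ p ^ n = 1 := by
    obtain ⟨a, ha⟩ := hD.pgp ⟨v, hv⟩
    exact ⟨a, congrArg Subtype.val ha⟩
  have hxv : Commute x v := (mem_centralizer_singleton_iff.1 (hD.le hv)).symm
  obtain ⟨R, hR⟩ := exists_sylCent p (x * v)
  refine SylCent.of_card_le hR hD.pgp ?_ ?_
  · intro r hr
    rw [mem_centralizer_singleton_iff]
    have h2 := mem_centralizer_singleton_iff.1 (hD.le hr)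
    rw [← mul_assoc, h2, mul_assoc, hvc r hr, mul_assoc]
  · refine hD.card_le hR.pgp ?_
    intro r hr
    rw [mem_centralizer_singleton_iff]
    have h1 : Commute r (x * v) := mem_centralizer_singleton_iff.1 (hR.le hr)
    have h2 : pr p (x * v) = x := pr_eq hxv hx hvp
    have h3 : Commute r (pr p (x * v)) := h1.pow_right _
    rw [h2] at h3
    exact h3.eq

/-- the exponent `q` gives the `p`-part -/
theorem pow_eq_sing {q : ℕ} (hq : ∀ x : G, ∃ n : ℕ, (x ^ q) ^ (p ^ n) = 1)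
    (hq' : ∀ x : G, (∃ n, x ^ p ^ n = 1) → x ^ q = x) (y : G) : y ^ q = y * (pr p y)⁻¹ := by
  have hcomm : Commute (y * (pr p y)⁻¹) (pr p y) :=
    (pr_commute y).mul_left (Commute.refl (pr p y)).inv_left
  have hy : y = (y * (pr p y)⁻¹) * pr p y := by group
  have h1 : (pr p y) ^ q = 1 := by
    obtain ⟨n, hn⟩ := hq (pr p y)
    have h2 : orderOf ((pr p y) ^ q) ∣ p ^ n := orderOf_dvd_of_pow_eq_one hn
    have h3 : orderOf ((pr p y) ^ q) ∣ orderOf (pr p y) := orderOf_pow_dvd q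
    have h4 : Nat.Coprime (p ^ n) (orderOf (pr p y)) :=
      ((Nat.Prime.coprime_iff_not_dvd hp.out).2 (pr_regular y)).pow_left n
    have h5 := Nat.Coprime.eq_one_of_dvd (h4.coprime_dvd_left h2) h3
    exact orderOf_eq_one_iff.1 h5
  conv_lhs => rw [hy]
  rw [hcomm.mul_pow, h1, mul_one, hq' _ (pr_sing y)]

end Syl

section Blk

variable {p : ℕ} [hp : Fact p.Prime] {k : Type u} [Field k] [IsAlgClosed k] [CharP k p]
  {G : Type} [Group G] [Fintype G]

omit hp [CharP k p] in
/-- blocks lie in the ideals generated by the elements which do not annihilate them -/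
theorem exists_mul_of_centralChar_ne {B : MonoidAlgebra k G} (hB : IsBlock B)
    {z : MonoidAlgebra k G} (hz : z ∈ Subalgebra.center k (MonoidAlgebra k G))
    (h : centralChar B z ≠ 0) :
    ∃ w ∈ Subalgebra.center k (MonoidAlgebra k G), B = z * w := by
  have hprim := (isBlock_iff_prim ⟨B, hB.1⟩).1 hB
  obtain ⟨L, hL⟩ := blockHomStmt B hB
  have hLB : L ⟨B, hB.1⟩ = 1 := by rw [hL]; exact centralChar_self B hB
  obtain ⟨w, hw⟩ := exists_mul_eq_of_prim hprim L hLB (z := ⟨z, hz⟩) (by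
    rw [hL]; exact h)
  exact ⟨w.1, w.2, congrArg Subtype.val hw⟩

/-- a `p`-regular element attached to a block and its defect group -/
theorem exists_elt_of_block {B : MonoidAlgebra k G} (hB : IsBlock B) {D : Subgroup G}
    (hD : IsDefectGroup B D) : ∃ (x : G) (l : (G → k) → k), BP p D l ∧
      (∀ z : G → k, IsCF z → l z = centralChar B (mkF z)) ∧ B.coeff x ≠ 0 ∧ l (cls k x) ≠ 0 ∧
      SylCent p x D ∧ ¬ p ∣ orderOf x := by
  obtain ⟨hDp, l, hl, hlz⟩ := exists_BP_of_block (p := p) B hB D hD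
  have hb : IsCF (fun g => B.coeff g) := (P179C.mem_center_iff _).1 hB.1
  have hlb : l (fun g => B.coeff g) ≠ 0 := by
    rw [hlz _ hb, mkF_coeff, centralChar_self B hB]
    exact one_ne_zero
  obtain ⟨x0, hx0, hlx0⟩ := exists_cls_ne (hl.isHomCF' hDp) hb hlb
  obtain ⟨y, hy, hy0⟩ : ∃ y ∈ centralizer (D : Set G), cls k x0 y ≠ 0 := by
    by_contra hcon
    push Not at hcon
    exact hlx0 (hl.supp _ hcon)
  have hxy : IsConj x0 y := by
    by_contra h
    exact hy0 (if_neg h)
  have hcls : cls k y = cls k x0 := by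
    funext g
    unfold cls
    by_cases h : IsConj x0 g
    · rw [if_pos h, if_pos (hxy.symm.trans h)]
    · rw [if_neg h, if_neg (fun h2 => h (hxy.trans h2))]
  have hBy : B.coeff y ≠ 0 := by
    obtain ⟨c, rfl⟩ := isConj_iff.1 hxy
    have := hb c x0
    simp only at this
    rw [this]
    exact hx0
  refine ⟨y, l, hl, hlz, hBy, by rw [hcls]; exact hlx0, ?_, ?_⟩
  · obtain ⟨R, hR⟩ := exists_sylCent p y
    refine SylCent.of_card_le hR hDp ?_ ?_
    · intro r hr
      rw [mem_centralizer_singleton_iff]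
      exact mem_centralizer_iff.1 hy r hr
    · obtain ⟨c, hc⟩ := zab_of_relTrace p B D hD.1 y hBy R hR.pgp hR.le
      let f : R → D := fun y => ⟨c⁻¹ * y * c, hc y y.2⟩
      refine Nat.card_le_card_of_injective f fun a b hab => ?_
      have h1 : c⁻¹ * (a : G) * c = c⁻¹ * (b : G) * c := congrArg Subtype.val hab
      exact Subtype.ext (mul_left_cancel (mul_right_cancel h1))
  · intro hreg
    exact hBy (osima_g p B hB.1 hB.2.1 y hreg)

omit [IsAlgClosed k] in
/-- the support of the product of a central idempotent and the class of `x v` -/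
theorem supp_mul_cls {b : G → k} (hb : IsCF b) (hbb : conv b b = b) {x v : G}
    (hx : ¬ p ∣ orderOf x) (hv : ∃ n : ℕ, v ^ p ^ n = 1) (hxv : Commute x v) {D : Subgroup G}
    (hD : SylCent p (x * v) D) {y : G} (hy : conv b (cls k (x * v)) y ≠ 0) (Q : Subgroup G)
    (hQ : IsPGroup p Q) (hQy : Q ≤ centralizer {y}) :
    ∃ s : G, s⁻¹ * (y * (pr p y)⁻¹) * s = v ∧ ∀ a ∈ Q, s⁻¹ * a * s ∈ D := by
  have hyC : y ∈ centralizer (Q : Set G) := by
    rw [mem_centralizer_iff]
    intro a ha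
    exact mem_centralizer_singleton_iff.1 (hQy ha)
  obtain ⟨w, hwC, hw, hwy⟩ := exists_sec_of_conv_ne (p := p) hb (isCF_cls (x * v)) hbb Q hQ y hyC hy
  have hconj : IsConj (x * v) w := by
    by_contra h
    exact hw (if_neg h)
  obtain ⟨t, rfl⟩ := isConj_iff.1 hconj
  have hQ' : ∀ a ∈ Q, t⁻¹ * a * t ∈ centralizer {x * v} := by
    intro a ha
    rw [mem_centralizer_singleton_iff]
    have h1 := mem_centralizer_iff.1 hwC a ha
    calc t⁻¹ * a * t * (x * v) = t⁻¹ * (a * (t * (x * v) * t⁻¹)) * t := by group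
      _ = x * v * (t⁻¹ * a * t) := by rw [h1]; group
  obtain ⟨c, hc, h⟩ := hD.max (Q.map (MulAut.conj t⁻¹).toMonoidHom) (hQ.map _) (by
    rintro _ ⟨a, ha, rfl⟩
    simpa using hQ' a ha)
  refine ⟨t * c, ?_, ?_⟩
  · rw [← hwy, pr_conj, pr_eq hxv hx hv]
    have h1 : Commute c (x * v) := mem_centralizer_singleton_iff.1 hc
    have h2 : Commute c (pr p (x * v)) := h1.pow_right _
    rw [pr_eq hxv hx hv] at h2
    have h3 : Commute c (x⁻¹ * (x * v)) := h2.inv_right.mul_right h1
    rw [inv_mul_cancel_left] at h3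
    have h4 : (t * c)⁻¹ * (t * (x * v) * t⁻¹ * (t * x * t⁻¹)⁻¹) * (t * c) =
        c⁻¹ * (x * v * x⁻¹) * c := by group
    rw [h4, hxv.eq, mul_assoc v x, mul_inv_cancel, mul_one, mul_assoc, ← h3.eq,
      inv_mul_cancel_left]
  · intro a ha
    have h1 := h (t⁻¹ * a * t) ⟨a, ha, by simp⟩
    have h2 : (t * c)⁻¹ * a * (t * c) = c⁻¹ * (t⁻¹ * a * t) * c := by group
    rw [h2]
    exact h1

end Blk

end P179C
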