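import Vale.Agent.P179.H166.Z2
import Vale.Agent.P179.H166.PPFun

/-!
# The unit trick, 3: sums of homomorphisms of the centre of the group algebra
-/

namespace P179C

open Subgroup Finset P179H524 P179A P179K P179R MonoidAlgebra

open scoped Classical

universe u

section Homs

variable {k : Type u} [Field k] [IsAlgClosed k] {G : Type} [Group G] [Finite G]

/-- families of homomorphisms with the same multiplicities, at the blocks not annihilated by `z`,
have the same sum at `z` -/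
theorem sum_homs_eq' {ι κ : Type*} [Fintype ι] [Fintype κ]
    (μ : ι → (Subalgebra.center k (MonoidAlgebra k G) →ₐ[k] k))
    (ν : κ → (Subalgebra.center k (MonoidAlgebra k G) →ₐ[k] k))
    (z : Subalgebra.center k (MonoidAlgebra k G))
    (h : ∀ (B : MonoidAlgebra k G) (hB : IsBlock B), centralChar B z.1 ≠ 0 →
      (Nat.card {i // μ i ⟨B, hB.1⟩ = 1} : k) = (Nat.card {j // ν j ⟨B, hB.1⟩ = 1} : k)) :
    ∑ i, μ i z = ∑ j, ν j z := by
  have h1 : ∀ i, ∃ B : MonoidAlgebra k G, IsBlock B ∧ ∀ z, μ i z = centralChar B z := fun i =>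
    homBlockStmt (μ i)
  have h2 : ∀ j, ∃ B : MonoidAlgebra k G, IsBlock B ∧ ∀ z, ν j z = centralChar B z := fun j =>
    homBlockStmt (ν j)
  choose β hβ hμ using h1
  choose γ hγ hν using h2
  set F : Finset (MonoidAlgebra k G) := Finset.univ.image β ∪ Finset.univ.image γ with hF
  have hFB : ∀ B ∈ F, IsBlock B := by
    intro B hB
    rw [hF, Finset.mem_union, Finset.mem_image, Finset.mem_image] at hB
    rcases hB with ⟨i, -, rfl⟩ | ⟨j, -, rfl⟩
    · exact hβ i
    · exact hγ j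
  rw [sum_homs_aux μ β hβ hμ F hFB (fun i => Finset.mem_union_left _
      (Finset.mem_image_of_mem β (Finset.mem_univ i))),
    sum_homs_aux ν γ hγ hν F hFB (fun i => Finset.mem_union_right _
      (Finset.mem_image_of_mem γ (Finset.mem_univ i)))]
  refine Finset.sum_congr rfl fun B hB => ?_
  rw [dif_pos (hFB B hB).1, dif_pos (hFB B hB).1]
  by_cases h0 : centralChar B z.1 = 0
  · rw [h0, mul_zero, mul_zero]
  · rw [h B (hFB B hB) h0]

/-- the sum of homomorphisms at a multiple of a block -/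
theorem sum_homs_block {ι : Type*} [Fintype ι]
    (μ : ι → (Subalgebra.center k (MonoidAlgebra k G) →ₐ[k] k)) {B : MonoidAlgebra k G}
    (hB : IsBlock B) (c : Subalgebra.center k (MonoidAlgebra k G)) :
    ∑ i, μ i (⟨B, hB.1⟩ * c) = (Nat.card {i // μ i ⟨B, hB.1⟩ = 1} : k) * centralChar B c.1 := by
  have hBB : (⟨B, hB.1⟩ : Subalgebra.center k (MonoidAlgebra k G)) * ⟨B, hB.1⟩ = ⟨B, hB.1⟩ :=
    Subtype.ext hB.2.1
  rw [← sum_homs_card μ hBB, Finset.sum_mul]
  refine Finset.sum_congr rfl fun i _ => ?_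
  obtain ⟨B', hB', hl⟩ := homBlockStmt (μ i)
  have h5 : μ i ⟨B, hB.1⟩ = if B' = B then 1 else 0 := by
    rw [hl]
    exact charBlockStmt B' B hB' hB
  rw [map_mul, h5]
  by_cases h : B' = B
  · rw [if_pos h, one_mul, one_mul, hl, h]
  · rw [if_neg h, zero_mul, zero_mul]

end Homs

section Cong

variable (p : ℕ) [hp : Fact p.Prime] {k : Type u} [Field k] [IsAlgClosed k] [CharP k p]
  (red : integralClosure ℤ ℂ →+* k) {G : Type} [Group G] [Finite G]
  (O : ValuationSubring ℂ)

omit [IsAlgClosed k] in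
/-- the congruence of the functionals in terms of the homomorphisms -/
theorem cong_iff_sum [Fintype (Quot (P179H524.Weight.Conj (p := p) (G := G)))]
    (hred : ∀ (a : ℂ) (ha : a ∈ integralClosure ℤ ℂ), O.valuation a < 1 ↔ red ⟨a, ha⟩ = 0)
    {r : ℕ} (μ : Fin r → (Subalgebra.center k (MonoidAlgebra k G) →ₐ[k] k))
    (hμ2 : ∀ z : G → ℤ, ∀ Z : Subalgebra.center k (MonoidAlgebra k G),
      (∀ g, Z.1.coeff g = (z g : k)) → ((C2.tau p z : ℤ) : k) = ∑ i, μ i Z)
    {z : G → ℤ} (hz : IsCF z) (Z : Subalgebra.center k (MonoidAlgebra k G))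
    (hZ : ∀ g, Z.1.coeff g = (z g : k)) :
    Cong O (Nat.card G) (nL p z) (nW p z) ↔
      ∑ i, μ i Z = ∑ q : Quot (P179H524.Weight.Conj (p := p) (G := G)), mu p red q.out Z := by
  have hG : (Nat.card G : ℂ) ≠ 0 := by exact_mod_cast Nat.card_pos.ne'
  have hint : nW p z / Nat.card G ∈ integralClosure ℤ ℂ := isIntegral_nW' hz
  unfold Cong
  have h3 : ((nL p z : ℤ) - nW p z) / (Nat.card G : ℂ) =
      (C2.tau p z : ℂ) - nW p z / Nat.card G := by
    rw [C2.nL_eq_tau p z hz]
    push_cast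
    rw [sub_div, mul_div_cancel_left₀ _ hG]
  have h4 : ((C2.tau p z : ℤ) : ℂ) ∈ integralClosure ℤ ℂ := intCast_mem _ _
  rw [h3, hred _ (sub_mem h4 hint)]
  have h5 : (⟨(C2.tau p z : ℂ) - nW p z / Nat.card G, sub_mem h4 hint⟩ : integralClosure ℤ ℂ) =
      ((C2.tau p z : ℤ) : integralClosure ℤ ℂ) - ⟨nW p z / Nat.card G, hint⟩ := rfl
  rw [h5, map_sub, map_intCast, sub_eq_zero, hμ2 z Z hZ, ← redC_nW p red hz Z hZ,
    redC_of_mem red hint]

/-- the sums agree at a central element if the congruence holds at the classes of its support -/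
theorem sum_eq_of_supp [Fintype (Quot (P179H524.Weight.Conj (p := p) (G := G)))]
    (hred : ∀ (a : ℂ) (ha : a ∈ integralClosure ℤ ℂ), O.valuation a < 1 ↔ red ⟨a, ha⟩ = 0)
    {r : ℕ} (μ : Fin r → (Subalgebra.center k (MonoidAlgebra k G) →ₐ[k] k))
    (hμ2 : ∀ z : G → ℤ, ∀ Z : Subalgebra.center k (MonoidAlgebra k G),
      (∀ g, Z.1.coeff g = (z g : k)) → ((C2.tau p z : ℤ) : k) = ∑ i, μ i Z)
    (F : Subalgebra.center k (MonoidAlgebra k G))
    (h : ∀ C : ConjClasses G, F.1.coeff C.out ≠ 0 →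
      Cong O (Nat.card G) (nL p (ind C)) (nW p (ind C))) :
    ∑ i, μ i F = ∑ q : Quot (P179H524.Weight.Conj (p := p) (G := G)), mu p red q.out F := by
  have := Fintype.ofFinite (ConjClasses G)
  have h2 : F = ∑ C : ConjClasses G,
      F.1.coeff C.out • (⟨classSum k C.out, classSum_mem_center _⟩ :
        Subalgebra.center k (MonoidAlgebra k G)) := by
    apply Subtype.ext
    push_cast
    exact eq_sum_classSum F.1 F.2
  rw [h2]
  simp only [map_sum, map_smul, smul_eq_mul]
  rw [Finset.sum_comm, Finset.sum_comm (s := (Finset.univ :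
    Finset (Quot (P179H524.Weight.Conj (p := p) (G := G)))))]
  refine Finset.sum_congr rfl fun C _ => ?_
  rw [← Finset.mul_sum, ← Finset.mul_sum]
  by_cases hC : F.1.coeff C.out = 0
  · rw [hC, zero_mul, zero_mul]
  · congr 1
    refine (cong_iff_sum p red O hred μ hμ2 (isCF_ind C) _ fun g => ?_).1 (h C hC)
    have h4 : ConjClasses.mk C.out = C := Quotient.out_eq C
    have h5 := coeff_classSum (k := k) C.out g
    rw [h4] at h5
    exact h5

/-- the congruence for a block, from a unit of its centre -/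
theorem block_modEq_of_supp
    (hred : ∀ (a : ℂ) (ha : a ∈ integralClosure ℤ ℂ), O.valuation a < 1 ↔ red ⟨a, ha⟩ = 0)
    {B : MonoidAlgebra k G} (hB : IsBlock B) {c : MonoidAlgebra k G}
    (hc : c ∈ Subalgebra.center k (MonoidAlgebra k G)) (hBc : centralChar B c ≠ 0)
    (h : ∀ C : ConjClasses G, (B * c).coeff C.out ≠ 0 →
      Cong O (Nat.card G) (nL p (ind C)) (nW p (ind C))) :
    numSimpleIn B ≡ numWeightsIn p red B [MOD p] := by
  have := Fintype.ofFinite (Quot (P179H524.Weight.Conj (p := p) (G := G)))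
  obtain ⟨r, μ, hμ1, hμ2⟩ := exists_L p (k := k) (G := G)
  let F : Subalgebra.center k (MonoidAlgebra k G) := ⟨B, hB.1⟩ * ⟨c, hc⟩
  have hF : ∀ x, F.1.coeff x = (B * c).coeff x := fun x => rfl
  have h1 := sum_eq_of_supp p red O hred μ hμ2 F fun C hC => h C (by rwa [← hF])
  have h2 := sum_homs_block μ hB ⟨c, hc⟩
  have h3 := sum_homs_block (fun q : Quot (P179H524.Weight.Conj (p := p) (G := G)) =>
      mu p red q.out) hB ⟨c, hc⟩
  have h4 : (Nat.card {i // μ i ⟨B, hB.1⟩ = 1} : k) * centralChar B c =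
      (Nat.card {q : Quot (P179H524.Weight.Conj (p := p) (G := G)) //
        mu p red q.out ⟨B, hB.1⟩ = 1} : k) * centralChar B c := h2.symm.trans (h1.trans h3)
  have h5 := mul_right_cancel₀ hBc h4
  rw [← hμ1 B hB.1, ← numWc_eq_card p red hB.1, ← numWeightsIn_eq_numWc p red hB] at h5
  exact (CharP.natCast_eq_natCast k p).1 h5

/-- the congruence for `z` from the blocks which `z` does not annihilate -/
theorem cong_of_blocks'
    (hred : ∀ (a : ℂ) (ha : a ∈ integralClosure ℤ ℂ), O.valuation a < 1 ↔ red ⟨a, ha⟩ = 0)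
    {z : G → ℤ} (hz : IsCF z) (Z : Subalgebra.center k (MonoidAlgebra k G))
    (hZ : ∀ g, Z.1.coeff g = (z g : k))
    (h : ∀ B : MonoidAlgebra k G, IsBlock B → centralChar B Z.1 ≠ 0 →
      numSimpleIn B ≡ numWeightsIn p red B [MOD p]) :
    Cong O (Nat.card G) (nL p z) (nW p z) := by
  have := Fintype.ofFinite (Quot (P179H524.Weight.Conj (p := p) (G := G)))
  obtain ⟨r, μ, hμ1, hμ2⟩ := exists_L p (k := k) (G := G)
  rw [cong_iff_sum p red O hred μ hμ2 hz Z hZ]
  refine sum_homs_eq' μ (fun q : Quot (P179H524.Weight.Conj (p := p) (G := G)) =>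
      mu p red q.out) Z fun B hB hBZ => ?_
  rw [← hμ1 B hB.1, ← numWc_eq_card p red hB.1, ← numWeightsIn_eq_numWc p red hB]
  exact (CharP.natCast_eq_natCast k p).mpr (h B hB hBZ)

end Cong

end P179C
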