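import Vale.Agent.P179.H166.Z3

/-!
# The unit trick, 4: the induction
-/

namespace P179C

open Subgroup Finset P179H524 P179A P179K P179R P179Y MonoidAlgebra

open scoped Classical

universe u

/-- The divisibility criterion for all elements with `p`-part of order `p`, at `R`. -/
def OldAt (p : ℕ) {G : Type} [Group G] [Finite G] [Fintype G] (R : Subgroup G) : Prop :=
  ∀ (g : G) (q : ℕ), (∀ x : G, ∃ n : ℕ, (x ^ q) ^ (p ^ n) = 1) →
    (∀ x : G, (∃ n, x ^ p ^ n = 1) → x ^ q = x) → g ^ q ≠ 1 → (g ^ q) ^ p = 1 →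
    ∀ P : Subgroup G, IsPGroup p P → (∀ a ∈ P, a * g = g * a) → g ^ q ∈ P →
      (∃ c : G, ∀ x ∈ P, c⁻¹ * x * c ∈ R) → ((Nat.card P * p : ℕ) : ℤ) ∣ SS p g

/-- The divisibility criterion for all elements with `p`-part `v`, for some central element `v` of
`R`. -/
def NewAt (p : ℕ) {G : Type} [Group G] [Finite G] [Fintype G] (R : Subgroup G) : Prop :=
  ∃ v ∈ R, v ≠ 1 ∧ (∀ a ∈ R, a * v = v * a) ∧
    ∀ (g : G) (q : ℕ), (∀ x : G, ∃ n : ℕ, (x ^ q) ^ (p ^ n) = 1) →
      (∀ x : G, (∃ n, x ^ p ^ n = 1) → x ^ q = x) → g ^ q = v →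
      ∀ P : Subgroup G, P ≤ R → IsPGroup p P → (∀ a ∈ P, a * g = g * a) → v ∈ P →
        ((Nat.card P * p : ℕ) : ℤ) ∣ SS p g

/-- The properties of a class of `p`-subgroups for which the proof works. -/
structure UnitClass (p : ℕ) {k : Type u} [Field k] (red : integralClosure ℤ ℂ →+* k)
    (𝒢 : ∀ (G : Type) [Group G], Subgroup G → Prop) : Prop where
  /-- subgroups -/
  hres : ∀ (G : Type) [Group G] [Finite G] (H : Subgroup G) (P : Subgroup H),
    𝒢 G (P.map H.subtype) → 𝒢 H P
  /-- quotients -/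
  hquot : ∀ (G : Type) [Group G] [Finite G] (R : Subgroup G) [R.Normal] (P : Subgroup (G ⧸ R)),
    IsPGroup p R → 𝒢 G (P.comap (QuotientGroup.mk' R)) → 𝒢 (G ⧸ R) P
  /-- subgroups of conjugates -/
  hconj : ∀ (G : Type) [Group G] [Finite G] (D P : Subgroup G) (c : G), 𝒢 G D →
    (∀ x ∈ P, c⁻¹ * x * c ∈ D) → 𝒢 G P
  /-- the criterion -/
  hkey : ∀ (G : Type) [Group G] [Finite G] [Fintype G] (R : Subgroup G), OpTrivial p G →
    IsPGroup p R → 𝒢 G R → OldAt p R ∨ NewAt p R ∨
      ∀ B : MonoidAlgebra k G, IsBlock B → IsDefectGroup B R →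
        numSimpleIn B ≡ numWeightsIn p red B [MOD p]

section Basic

variable {p : ℕ} {k : Type u} [Field k] {red : integralClosure ℤ ℂ →+* k}
  {𝒢 : ∀ (G : Type) [Group G], Subgroup G → Prop}

theorem UnitClass.zg_res (h𝒢 : UnitClass p red 𝒢) {G : Type} [Group G] [Finite G]
    (H : Subgroup G) {z : G → ℤ} (hz : ZG p 𝒢 z) : ZG p 𝒢 (res H z) := by
  intro g hg P hP hPg
  refine h𝒢.hres G H P (hz g.1 hg (P.map H.subtype) (hP.map _) ?_)
  rintro _ ⟨c, hc, rfl⟩
  have h2 := mem_centralizer_singleton_iff.mp (hPg hc)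
  exact mem_centralizer_singleton_iff.mpr (congrArg Subtype.val h2)

theorem UnitClass.zg_quot [hp : Fact p.Prime] (h𝒢 : UnitClass p red 𝒢) {G : Type} [Group G]
    [Finite G] (R : Subgroup G) [R.Normal] (hR : IsPGroup p R) (z : G → ℤ) (hz : IsCF z)
    (hab : ZG p 𝒢 z) : ZG p 𝒢 (push (QuotientGroup.mk' R) z) := by
  have := Fintype.ofFinite G
  intro c hc P' hP' hPc
  set π : G →* G ⧸ R := QuotientGroup.mk' R with hπ
  have hπs : Function.Surjective π := QuotientGroup.mk'_surjective R
  have hker : π.ker = R := QuotientGroup.ker_mk' R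
  set P : Subgroup G := P'.comap π with hPdef
  have hP : IsPGroup p P := hP'.comap_of_ker_isPGroup π (by rw [hker]; exact hR)
  let act : MulAction P {h : G // π h = c} :=
    { smul := fun g h => ⟨g.1 * h.1 * g.1⁻¹, by
        have h1 : π g.1 ∈ centralizer {c} := hPc g.2
        rw [mem_centralizer_singleton_iff] at h1
        rw [map_mul, map_mul, map_inv, h.2, h1, mul_inv_cancel_right]⟩
      one_smul := fun h => Subtype.ext (by
        change (1 : G) * h.1 * 1⁻¹ = h.1
        simp)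
      mul_smul := fun g g' h => Subtype.ext (by
        change (g.1 * g'.1) * h.1 * (g.1 * g'.1)⁻¹ = g.1 * (g'.1 * h.1 * g'.1⁻¹) * g.1⁻¹
        group) }
  rw [push, finsum_eq_sum_of_fintype] at hc
  obtain ⟨h, hh, hzh⟩ := Q7.sum_fixed p hP (fun h : {h : G // π h = c} => z h.1)
    (fun g x => hz g.1 x.1) hc
  have hPh : P ≤ centralizer {h.1} := by
    intro g hg
    rw [mem_centralizer_singleton_iff]
    have h1 := congrArg Subtype.val (hh ⟨g, hg⟩)
    have h2 : g * h.1 * g⁻¹ = h.1 := h1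
    exact mul_inv_eq_iff_eq_mul.1 h2
  exact h𝒢.hquot G R P' hR (hab h.1 hzh P hP hPh)

end Basic

section Local

variable {p : ℕ} [hp : Fact p.Prime] {G : Type} [Group G] [Finite G]

/-- divisibility of `FF` from divisibility of `SS` on the support -/
theorem FF_dvd_local [Fintype G] (z : G → ℤ) (hz : IsCF z)
    (h : ∀ g, z g ≠ 0 →
      (p : ℤ) ^ ((Nat.card (centralizer ({g} : Set G))).factorization p + 1) ∣ SS p g) :
    ((Nat.card G * p : ℕ) : ℤ) ∣ FF p z := by
  rw [FF_eq_SS]
  refine dvd_orbits (Γ := ConjAct G) (fun g => z g * SS p g) ?_ _ ?_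
  · intro g x
    obtain ⟨g, rfl⟩ := ConjAct.toConjAct.surjective g
    rw [ConjAct.toConjAct_smul]
    change z (g * x * g⁻¹) * SS p (g * x * g⁻¹) = z x * SS p x
    rw [hz, SS_conj]
  · intro g
    by_cases h0 : z g = 0
    · simp [h0]
    have h1 := card_dvd_SS (p := p) g
    have h3 := h g h0
    set o := Nat.card (MulAction.orbit (ConjAct G) g) with ho
    have h4 : o * Nat.card (centralizer ({g} : Set G)) = Nat.card G := card_orbit_conj g
    have ho0 : o ≠ 0 := by
      intro h; rw [h, zero_mul] at h4; exact Nat.card_pos.ne h4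
    have h5 : (Nat.card G).factorization p = o.factorization p +
        (Nat.card (centralizer ({g} : Set G))).factorization p := by
      rw [← h4, Nat.factorization_mul ho0 Nat.card_pos.ne', Finsupp.add_apply]
    have h6 : (p : ℤ) ^ ((Nat.card G).factorization p + 1) ∣ (o : ℤ) * SS p g := by
      rw [h5, add_assoc, pow_add]
      refine mul_dvd_mul ?_ h3
      exact_mod_cast Nat.ordProj_dvd _ p
    set m := ordCompl[p] (Nat.card G) with hm
    have h7 : Nat.card G = p ^ (Nat.card G).factorization p * m :=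
      (Nat.ordProj_mul_ordCompl_eq_self _ p).symm
    have h8 : (m : ℤ) ∣ (o : ℤ) * SS p g := by
      refine dvd_trans ?_ h1
      exact_mod_cast (Dvd.intro_left _ h7.symm)
    have hcop : IsCoprime ((p : ℤ) ^ ((Nat.card G).factorization p + 1)) (m : ℤ) := by
      have : Nat.Coprime (p ^ ((Nat.card G).factorization p + 1)) m :=
        Nat.Coprime.pow_left _ ((Nat.Prime.coprime_iff_not_dvd hp.out).mpr
          (Nat.not_dvd_ordCompl hp.out Nat.card_pos.ne'))
      have := Nat.isCoprime_iff_coprime.mpr this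
      push_cast at this
      exact this
    have h9 := hcop.mul_dvd h6 h8
    have h10 : ((Nat.card G * p : ℕ) : ℤ) = (p : ℤ) ^ ((Nat.card G).factorization p + 1) * m := by
      conv_lhs => rw [h7]
      push_cast
      ring
    rw [h10]
    have h11 : (o : ℤ) * (z g * SS p g) = z g * (o * SS p g) := by ring
    rw [h11]
    exact h9.mul_left _

/-- Step 1, with a local hypothesis -/
theorem step1_local [Fintype G] (O : ValuationSubring ℂ) [CharP (IsLocalRing.ResidueField O) p]
    (z : G → ℤ) (hz : IsCF z) (hzr : RegSupp p z)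
    (hdvd : ∀ g : G, p ∣ orderOf g → ¬ p ∣ orderOf (g ^ p) → (∃ e : ℕ, z ((g ^ p) ^ e) ≠ 0) →
      (p : ℤ) ^ ((Nat.card (centralizer ({g} : Set G))).factorization p + 1) ∣ SS p g) :
    Cong O (Nat.card G) ((FF p z : ℤ) : ℂ) (Nat.card G * dz p z) := by
  have hG0 : Nat.card G ≠ 0 := Nat.card_pos.ne'
  have hGC : (Nat.card G : ℂ) ≠ 0 := by exact_mod_cast hG0
  obtain ⟨e, he⟩ := exists_root p G
  let z1 : G → ℤ := fun g => if p ∣ orderOf g then 0 else z (g ^ e)
  let y : G → ℤ := fun g => z1 (g ^ p)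
  let w : G → ℤ := fun g => y g - z g
  have horder : ∀ g x : G, orderOf (g * x * g⁻¹) = orderOf x := fun g x =>
    MulEquiv.orderOf_eq (MulAut.conj g) x
  have hz1 : IsCF z1 := by
    intro g x
    simp only [z1]
    rw [horder, conj_pow, hz]
  have hy : IsCF y := isCF_powp hz1 p
  have hw : IsCF w := fun g x => by
    change y (g * x * g⁻¹) - z (g * x * g⁻¹) = y x - z x
    rw [hy, hz]
  have hyr : ∀ g, ¬ p ∣ orderOf g → y g = z g := by
    intro g hg
    change (if p ∣ orderOf (g ^ p) then 0 else z ((g ^ p) ^ e)) = z g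
    rw [if_neg, ← pow_mul, he g hg]
    exact fun h => hg (h.trans (orderOf_pow_dvd p))
  have hws : ∀ g, w g ≠ 0 → p ∣ orderOf g ∧ ¬ p ∣ orderOf (g ^ p) ∧ ∃ e : ℕ, z ((g ^ p) ^ e) ≠ 0 := by
    intro g hg
    have h1 : p ∣ orderOf g := by
      by_contra h
      apply hg
      change y g - z g = 0
      rw [hyr g h, sub_self]
    have h3 : z g = 0 := by
      by_contra h3
      exact hzr g h3 h1
    refine ⟨h1, ?_, ?_⟩
    · intro h2
      apply hg
      change (if p ∣ orderOf (g ^ p) then 0 else z ((g ^ p) ^ e)) - z g = 0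
      rw [if_pos h2, h3, sub_self]
    · refine ⟨e, fun h4 => hg ?_⟩
      change (if p ∣ orderOf (g ^ p) then 0 else z ((g ^ p) ^ e)) - z g = 0
      rw [h3, h4]
      simp
  have h1 : ((Nat.card G * p : ℕ) : ℤ) ∣ FF p y - nTr y :=
    FF_dvd_aux y hy p fun s hs hne =>
      pow_normal p (not_opTrivial_stab hs hne) (res (stab s) z1) (isCF_res _ hz1)
  have h2 := FF_dvd_local (p := p) w hw fun g hg =>
    hdvd g (hws g hg).1 (hws g hg).2.1 (hws g hg).2.2
  have h3 := pow_cong p O z1 hz1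
  have h4 := dz_sing p O w hw fun g hg => (hws g hg).1
  have hyw : z = fun g => y g - w g := by
    funext g
    change z g = y g - (y g - z g)
    ring
  have h5 : FF p z = (FF p y - nTr y) - FF p w + nTr y := by
    conv_lhs => rw [hyw]
    rw [FF_sub]; ring
  have h6 : dz p z = dz p y - dz p w := by
    conv_lhs => rw [hyw]
    rw [dz_sub]
  have h7 : ((Nat.card G * p : ℕ) : ℤ) ∣ (FF p y - nTr y) - FF p w := dvd_sub h1 h2
  have h8 := valuation_of_dvd O hG0 h7
  change Cong O (Nat.card G) (nTr y) (Nat.card G * dz p y) at h3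
  unfold Cong at h3 h4 ⊢
  rw [Nat.cast_one, div_one, sub_zero] at h4
  have h9 : (((FF p z : ℤ) : ℂ) - Nat.card G * dz p z) / Nat.card G =
      ((((FF p y - nTr y) - FF p w : ℤ) : ℂ) / Nat.card G +
        ((nTr y : ℂ) - Nat.card G * dz p y) / Nat.card G) + dz p w := by
    rw [h5, h6]
    push_cast
    field_simp
    ring
  rw [h9]
  exact O.valuation.map_add_lt (O.valuation.map_add_lt h8 h3) h4

/-- the alternating sum over the chains -/
theorem cong_of_FF (O : ValuationSubring ℂ) [CharP (IsLocalRing.ResidueField O) p]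
    (z : G → ℤ) (hz : IsCF z)
    (ih : ∀ s : Finset (Subgroup G), IsPChain p s → s.Nonempty →
      Cong O (Nat.card (stab s)) (nL p (res (stab s) z)) (nW p (res (stab s) z)))
    (hFF : Cong O (Nat.card G) ((FF p z : ℤ) : ℂ) (Nat.card G * dz p z)) :
    Cong O (Nat.card G) (nL p z) (nW p z) := by
  have := Fintype.ofFinite G
  have hG0 : (Nat.card G : ℂ) ≠ 0 := by exact_mod_cast Nat.card_pos.ne'
  have := Fintype.ofFinite (neChains p G)
  have hA : Cong O (Nat.card G) ((∑ s ∈ chains p G, (-1) ^ s.card * nTr (res (stab s) z) : ℤ) : ℂ)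
    (Nat.card G * dz p z) := hFF
  have hB := stepL p G z hz
  have hC := KR_W p z hz
  have hD : O.valuation ((∑ s ∈ chains p G, (-1 : ℂ) ^ s.card *
      ((nL p (res (stab s) z) : ℂ) - nW p (res (stab s) z))) / Nat.card G) < 1 := by
    have h2 : (∑ s ∈ chains p G, (-1 : ℂ) ^ s.card *
        ((nL p (res (stab s) z) : ℂ) - nW p (res (stab s) z))) / Nat.card G =
        ((((∑ s ∈ chains p G, (-1) ^ s.card * nTr (res (stab s) z) : ℤ) : ℂ) -
          (Nat.card G * dz p z)) / Nat.card G) -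
        ((∑ s ∈ chains p G, (-1) ^ s.card *
          (nTr (res (stab s) z) - nL p (res (stab s) z)) : ℤ) : ℂ) / Nat.card G := by
      rw [← hC, ← sub_div]
      congr 1
      push_cast
      simp only [← Finset.sum_sub_distrib]
      exact Finset.sum_congr rfl fun s _ => by ring
    rw [h2]
    exact O.valuation.map_sub_lt hA (valuation_of_dvd O Nat.card_pos.ne' hB)
  rw [sum_chains_eq'] at hD
  have hF : O.valuation ((∑ s : neChains p G, (-1 : ℂ) ^ s.1.card *
      ((nL p (res (stab s.1) z) : ℂ) - nW p (res (stab s.1) z))) / Nat.card G) < 1 := by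
    refine orb_sum_val O (fun s : neChains p G => (-1 : ℂ) ^ s.1.card *
      ((nL p (res (stab s.1) z) : ℂ) - nW p (res (stab s.1) z))) ?_ ?_
    · intro g s
      have key : ∀ t : Finset (Subgroup G), (-1 : ℂ) ^ (g • t).card *
          ((nL p (res (stab (g • t)) z) : ℂ) - nW p (res (stab (g • t)) z)) =
          (-1 : ℂ) ^ t.card * ((nL p (res (stab t) z) : ℂ) - nW p (res (stab t) z)) := by
        intro t
        rw [card_smul, ← nL_comp (stabEquiv g t), ← nW_comp (stabEquiv g t),
          res_stab_smul hz g t]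
      exact key s.1
    · intro s
      rw [stabilizer_neChains, mul_div_assoc, map_mul, map_pow]
      have h3 : O.valuation (-1 : ℂ) = 1 := by rw [Valuation.map_neg, map_one]
      rw [h3, one_pow, one_mul]
      exact ih s.1 s.2.1 s.2.2
  rw [add_div] at hD
  have hG := O.valuation.map_sub_lt hD hF
  rw [add_sub_cancel_right] at hG
  have e' : ∃ e : G ≃* stab (∅ : Finset (Subgroup G)), ∀ x, (e x : G) = x := by
    rw [P179K.stab_empty]; exact ⟨topEquiv.symm, fun _ => rfl⟩
  obtain ⟨e, he⟩ := e'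
  have h4 : (fun x => res (stab (∅ : Finset (Subgroup G))) z (e x)) = z := by
    ext x
    exact congrArg z (he x)
  rw [Finset.card_empty, pow_zero, one_mul, ← nL_comp e, ← nW_comp e, h4] at hG
  exact hG

/-- divisibility at the elements with `p`-part of order `p` -/
theorem OldAt.dvd [Fintype G] {R : Subgroup G} (hOld : OldAt p R) (g : G)
    (hg : p ∣ orderOf g) (hgp : ¬ p ∣ orderOf (g ^ p))
    (hab : ∀ P : Subgroup G, IsPGroup p P → P ≤ centralizer {g} →
      ∃ c : G, ∀ x ∈ P, c⁻¹ * x * c ∈ R) :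
    (p : ℤ) ^ ((Nat.card (centralizer ({g} : Set G))).factorization p + 1) ∣ SS p g := by
  obtain ⟨q, hq, hq'⟩ := exists_exponent p G
  obtain ⟨P, hP, hgP, hPC, hcard⟩ := exists_sylow_centralizer' (p := p) g q (hq g)
  have h0 : g ^ q ≠ 1 := by
    intro h1
    set x := g ^ (orderOf g / p) with hx
    have hx1 : x ^ p = 1 := by
      rw [hx, ← pow_mul, Nat.div_mul_cancel hg, pow_orderOf_eq_one]
    have hx2 : x ^ q = x := hq' x ⟨1, by rw [pow_one]; exact hx1⟩
    have hx3 : x ^ q = 1 := by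
      rw [hx, ← pow_mul, mul_comm, pow_mul, h1, one_pow]
    have hx4 : x = 1 := by rw [← hx2, hx3]
    have h5 : orderOf g ∣ orderOf g / p := by
      rw [orderOf_dvd_iff_pow_eq_one]; exact hx4
    have h6 : 0 < orderOf g := orderOf_pos g
    have h7 : 0 < orderOf g / p := Nat.div_pos (Nat.le_of_dvd h6 hg) hp.out.pos
    have h8 := Nat.le_of_dvd h7 h5
    have h9 : orderOf g / p < orderOf g := Nat.div_lt_self h6 hp.out.one_lt
    omega
  have h00 : (g ^ q) ^ p = 1 := by
    obtain ⟨n, hn⟩ := hq (g ^ p)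
    rw [← pow_mul, mul_comm, pow_mul]
    rw [← orderOf_eq_one_iff]
    have h1 : orderOf ((g ^ p) ^ q) ∣ p ^ n := orderOf_dvd_of_pow_eq_one hn
    have h2 : orderOf ((g ^ p) ^ q) ∣ orderOf (g ^ p) := orderOf_pow_dvd q
    obtain ⟨j, -, hj⟩ := (Nat.dvd_prime_pow hp.out).mp h1
    rcases Nat.eq_zero_or_pos j with h7 | h7
    · rw [hj, h7, pow_zero]
    · exact absurd ((dvd_pow_self p h7.ne').trans (hj ▸ h2)) hgp
  have h1 := hOld g q hq hq' h0 h00 P hP
    (fun a ha => mem_centralizer_singleton_iff.mp (hPC ha)) hgP (hab P hP hPC)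
  rw [hcard] at h1
  rw [pow_succ]
  exact_mod_cast h1

end Local

end P179C
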