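import Vale.Agent.P179.H166.Z4

/-!
# The unit trick, 5: the main theorem
-/

namespace P179C

open Subgroup Finset P179H524 P179A P179K P179R P179Y MonoidAlgebra

open scoped Classical

universe u

variable {p : ℕ} [hp : Fact p.Prime] {k : Type u} [Field k] [IsAlgClosed k] [CharP k p]
  {red : integralClosure ℤ ℂ →+* k} {𝒢 : ∀ (G : Type) [Group G], Subgroup G → Prop}

omit [IsAlgClosed k] [CharP k p] hp in
/-- a function on `G` as a function of the group algebra -/
theorem mul_coeff_eq {G : Type} [Group G] [Fintype G] (B c : MonoidAlgebra k G) (g : G) :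
    (B * c).coeff g = conv (fun h => B.coeff h) (fun h => c.coeff h) g := coeff_mul_eq_conv B c g

omit hp [IsAlgClosed k] [CharP k p] in
theorem out_of_ind {G : Type} [Group G] [Finite G] {F : MonoidAlgebra k G}
    (hF : F ∈ Subalgebra.center k (MonoidAlgebra k G)) {C : ConjClasses G}
    (hC : F.coeff C.out ≠ 0) {g : G} (hg : ind C g ≠ 0) : F.coeff g ≠ 0 := by
  have hgC : ConjClasses.mk g = C := by
    by_contra hne
    refine hg ?_
    unfold ind
    rw [if_neg hne]
  have h4 := C2.coeff_out F hF g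
  rw [hgC] at h4
  rwa [← h4]

omit [IsAlgClosed k] in
/-- the congruence at the classes with `p`-part conjugate to `v`, in the case `NewAt` -/
theorem NewAt.dvd {G : Type} [Group G] [Fintype G] {D : Subgroup G} {v x y : G}
    (hSyl : SylCent p x D) (hx : ¬ p ∣ orderOf x) (hv : v ∈ D) (hvc : ∀ a ∈ D, a * v = v * a)
    (hnew : ∀ (g : G) (q : ℕ), (∀ x : G, ∃ n : ℕ, (x ^ q) ^ (p ^ n) = 1) →
      (∀ x : G, (∃ n, x ^ p ^ n = 1) → x ^ q = x) → g ^ q = v →
      ∀ P : Subgroup G, P ≤ D → IsPGroup p P → (∀ a ∈ P, a * g = g * a) → v ∈ P →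
        ((Nat.card P * p : ℕ) : ℤ) ∣ SS p g)
    {b : G → k} (hb : IsCF b) (hbb : conv b b = b) (hy : conv b (cls k (x * v)) y ≠ 0) :
    (p : ℤ) ^ ((Nat.card (centralizer ({y} : Set G))).factorization p + 1) ∣ SS p y := by
  have hvp : ∃ n : ℕ, v ^ p ^ n = 1 := by
    obtain ⟨a, ha⟩ := hSyl.pgp ⟨v, hv⟩
    exact ⟨a, congrArg Subtype.val ha⟩
  have hxv : Commute x v := (mem_centralizer_singleton_iff.1 (hSyl.le hv)).symm
  obtain ⟨q, hq, hq'⟩ := exists_exponent p G
  obtain ⟨P, hP, hyP, hPC, hcard⟩ := exists_sylow_centralizer' (p := p) y q (hq y)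
  obtain ⟨s, hs1, hs2⟩ := supp_mul_cls (p := p) hb hbb hx hvp hxv
    (SylCent.mul_central hSyl hv hvc hx) hy P hP hPC
  have hyq : y ^ q = y * (pr p y)⁻¹ := pow_eq_sing hq hq' y
  rw [← hyq] at hs1
  have hconj : ∀ a : G, (MulAut.conj s⁻¹).toMonoidHom a = s⁻¹ * a * s := fun a => by simp
  have h1 := hnew (s⁻¹ * y * s⁻¹⁻¹) q hq hq' (by rw [conj_pow, inv_inv]; exact hs1)
    (P.map (MulAut.conj s⁻¹).toMonoidHom) (by
      rintro _ ⟨a, ha, rfl⟩
      rw [hconj]
      exact hs2 a ha) (hP.map _) (by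
      rintro _ ⟨a, ha, rfl⟩
      have h2 := mem_centralizer_singleton_iff.1 (hPC ha)
      rw [hconj, inv_inv]
      calc s⁻¹ * a * s * (s⁻¹ * y * s) = s⁻¹ * (a * y) * s := by group
        _ = s⁻¹ * y * s * (s⁻¹ * a * s) := by rw [h2]; group) (by
      refine ⟨y ^ q, hyP, ?_⟩
      rw [hconj]
      exact hs1)
  rw [SS_conj, Subgroup.card_map_of_injective (MulAut.conj s⁻¹).injective, hcard] at h1
  rw [pow_succ]
  exact_mod_cast h1

/-- **The main theorem, for functionals.** -/
theorem unit_main (h𝒢 : UnitClass p red 𝒢) (O : ValuationSubring ℂ)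
    [CharP (IsLocalRing.ResidueField O) p]
    (hred : ∀ (a : ℂ) (ha : a ∈ integralClosure ℤ ℂ), O.valuation a < 1 ↔ red ⟨a, ha⟩ = 0) :
    ∀ (n : ℕ) (G : Type) [Group G] [Finite G], Nat.card G = n → ∀ (z : G → ℤ), IsCF z →
      ZG p 𝒢 z → Cong O (Nat.card G) (nL p z) (nW p z) := by
  intro n
  induction n using Nat.strong_induction_on with
  | _ n ih =>
  intro G _ _ hn z hz hab
  have := Fintype.ofFinite G
  by_cases hO : OpTrivial p G
  · obtain ⟨Z, hZ⟩ := exists_central k hz
    refine cong_of_blocks' p red O hred hz Z hZ fun B hB hBZ => ?_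
    obtain ⟨D, hD⟩ := exists_defectGroup B hB.1
    obtain ⟨x, l, hl, hlz, hBx, hlx, hSyl, hxreg⟩ := exists_elt_of_block (p := p) hB hD
    have hDp : IsPGroup p D := hSyl.pgp
    have hb : IsCF (fun g => B.coeff g) := (P179C.mem_center_iff _).1 hB.1
    have hbb : conv (fun g => B.coeff g) (fun g => B.coeff g) = fun g => B.coeff g := by
      funext g
      rw [← coeff_mul_eq_conv, hB.2.1]
    -- the class of the defect group
    have h𝒢D : 𝒢 G D := by
      obtain ⟨w, hw, hBw⟩ := exists_mul_of_centralChar_ne hB Z.2 hBZ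
      have h1 : conv (fun g => Z.1.coeff g) (fun g => w.coeff g) x ≠ 0 := by
        rw [← coeff_mul_eq_conv, ← hBw]
        exact hBx
      have hZcf : IsCF (fun g => Z.1.coeff g) := (P179C.mem_center_iff _).1 Z.2
      have hwcf : IsCF (fun g => w.coeff g) := (P179C.mem_center_iff _).1 hw
      obtain ⟨y, hDy, hy⟩ := exists_of_conv_ne p D hDp hSyl.le (fun q _ => hZcf q)
        (fun q _ => hwcf q) h1
      refine hab y ?_ D hDp hDy
      intro hpz
      apply hy

      rw [hZ y]
      exact (CharP.intCast_eq_zero_iff k p (z y)).2 hpz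
    -- the supports of the multiples of `B`
    have hsupp : ∀ c : MonoidAlgebra k G, c ∈ Subalgebra.center k (MonoidAlgebra k G) →
        ∀ y, (B * c).coeff y ≠ 0 → ∀ P : Subgroup G, IsPGroup p P → P ≤ centralizer {y} →
          ∃ t : G, ∀ a ∈ P, t⁻¹ * a * t ∈ D := by
      intro c hc y hy
      have h1 := SuppIn.conv p (suppIn_of_isDefectGroup (p := p) hD) hb
        ((P179C.mem_center_iff _).1 hc)
      rw [coeff_mul_eq_conv] at hy
      exact h1 y hy
    -- the induction hypothesis
    have hih : ∀ c : MonoidAlgebra k G, c ∈ Subalgebra.center k (MonoidAlgebra k G) →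
        ∀ C : ConjClasses G, (B * c).coeff C.out ≠ 0 →
        ∀ s : Finset (Subgroup G), IsPChain p s → s.Nonempty →
          Cong O (Nat.card (stab s)) (nL p (res (stab s) (ind C)))
            (nW p (res (stab s) (ind C))) := by
      intro c hc C hC s hs hne
      refine ih (Nat.card (stab s)) (hn ▸ card_stab_lt p hO hs hne) (stab s) rfl
        (res (stab s) (ind C)) (isCF_res _ (isCF_ind C)) (h𝒢.zg_res _ ?_)
      intro g hg P hP hPg
      have hg' : ind C g ≠ 0 := fun h => hg (by rw [h]; exact dvd_zero _)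
      obtain ⟨t, ht⟩ := hsupp c hc g (out_of_ind (mul_mem hB.1 hc) hC hg') P hP hPg
      exact h𝒢.hconj G D P t h𝒢D ht
    rcases h𝒢.hkey G D hO hDp h𝒢D with hOld | ⟨v, hv, hv1, hvc, hnew⟩ | hS
    · refine block_modEq_of_supp p red O hred hB hB.1 (by
        rw [centralChar_self B hB]; exact one_ne_zero) fun C hC => ?_
      refine cong_of_FF O (ind C) (isCF_ind C) (hih B hB.1 C hC) ?_
      rw [hB.2.1] at hC
      refine step1_local O (ind C) (isCF_ind C) ?_ ?_
      · intro g hg hpg
        exact out_of_ind hB.1 hC hg (osima_g p B hB.1 hB.2.1 g hpg)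
      · rintro g hg hgp ⟨e, he⟩
        refine hOld.dvd g hg hgp fun P hP hPg => ?_
        have h1 := out_of_ind hB.1 hC he
        rw [← hB.2.1] at h1
        refine hsupp B hB.1 _ h1 P hP ?_
        intro a ha
        have h5 := mem_centralizer_singleton_iff.mp (hPg ha)
        rw [mem_centralizer_singleton_iff]
        exact Commute.pow_right (Commute.pow_right h5 _) _
    · have hc := mkF_mem (isCF_cls (k := k) (x * v))
      obtain ⟨n', hn', hln⟩ := BP.cls_mul hl hSyl hxreg hv hvc
      refine block_modEq_of_supp p red O hred hB hc (by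
        rw [← hlz _ (isCF_cls _), hln]
        refine mul_ne_zero ?_ hlx
        rwa [Ne, CharP.cast_eq_zero_iff k p]) fun C hC => ?_
      refine cong_of_FF O (ind C) (isCF_ind C) (hih _ hc C hC) ?_
      have hy : ∀ y, ind C y ≠ 0 → conv (fun g => B.coeff g) (cls k (x * v)) y ≠ 0 := by
        intro y hy
        have h1 := out_of_ind (mul_mem hB.1 hc) hC hy
        rw [coeff_mul_eq_conv] at h1
        simpa only [coeff_mkF] using h1
      have hFF := FF_dvd_local (p := p) (ind C) (isCF_ind C) fun y hy' =>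
        NewAt.dvd hSyl hxreg hv hvc hnew hb hbb (hy y hy')
      have hvp : ∃ n : ℕ, v ^ p ^ n = 1 := by
        obtain ⟨a, ha⟩ := hDp ⟨v, hv⟩
        exact ⟨a, congrArg Subtype.val ha⟩
      have hxv : Commute x v := (mem_centralizer_singleton_iff.1 (hSyl.le hv)).symm
      have hdz := dz_sing p O (ind C) (isCF_ind C) (fun y hy' => by
        by_contra hyreg
        have hbot : IsPGroup p (⊥ : Subgroup G) := IsPGroup.of_bot
        obtain ⟨s, hs1, -⟩ := supp_mul_cls (p := p) hb hbb hxreg hvp hxv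
          (SylCent.mul_central hSyl hv hvc hxreg) (hy y hy') ⊥ hbot bot_le
        rw [pr_of_regular hyreg, mul_inv_cancel, mul_one, inv_mul_cancel] at hs1
        exact hv1 hs1.symm)
      have hG0 : (Nat.card G : ℂ) ≠ 0 := by exact_mod_cast Nat.card_pos.ne'
      have h8 := valuation_of_dvd O Nat.card_pos.ne' hFF
      unfold Cong at hdz ⊢
      rw [Nat.cast_one, div_one, sub_zero] at hdz
      rw [sub_div, mul_div_cancel_left₀ _ hG0]
      exact O.valuation.map_sub_lt h8 hdz
    · exact hS B hB hD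
  · simp only [OpTrivial, not_forall] at hO
    obtain ⟨R, hR, hRp, hR1⟩ := hO
    have hq1 := nL_quot p R hRp z hz
    have hq2 := nW_quot p R hRp z hz
    have hq3 := h𝒢.zg_quot R hRp z hz
    have h2 : Nat.card G = Nat.card (G ⧸ R) * Nat.card R :=
      card_eq_card_quotient_mul_card_subgroup R
    have h3 : 1 < Nat.card R := by
      rw [Subgroup.one_lt_card_iff_ne_bot]; exact hR1
    have h4 : 0 < Nat.card (G ⧸ R) := Nat.card_pos
    have h5 := ih (Nat.card (G ⧸ R)) (by rw [← hn, h2]; nlinarith) (G ⧸ R) rfl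
      (push (QuotientGroup.mk' R) z) (isCF_push _ (QuotientGroup.mk'_surjective R) hz)
      (hq3 hab)
    unfold Cong at h5 ⊢
    rw [hq1, hq2, h2]
    have h6 : (Nat.card R : ℂ) ≠ 0 := by exact_mod_cast Nat.card_pos.ne'
    have h7 : (Nat.card (G ⧸ R) : ℂ) ≠ 0 := by exact_mod_cast h4.ne'
    convert h5 using 2
    push_cast
    field_simp

/-- **The main theorem.** -/
theorem theoremU (h𝒢 : UnitClass p red 𝒢) {G : Type} [Group G] [Finite G]
    {B : MonoidAlgebra k G} (hB : IsBlock B) {D : Subgroup G} (hD : IsDefectGroup B D)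
    (h : 𝒢 G D) : numSimpleIn B ≡ numWeightsIn p red B [MOD p] := by
  have := Fintype.ofFinite G
  obtain ⟨O, hO, hred⟩ := exists_O p red
  refine block_modEq_of_supp p red O hred hB hB.1 (by
        rw [centralChar_self B hB]; exact one_ne_zero) fun C hC => ?_
  refine unit_main h𝒢 O hred (Nat.card G) G rfl (ind C) (isCF_ind C) ?_
  intro g hg P hP hPg
  have hg' : ind C g ≠ 0 := fun h => hg (by rw [h]; exact dvd_zero _)
  rw [hB.2.1] at hC
  obtain ⟨c, hc⟩ := zab_of_relTrace p B D hD.1 g (out_of_ind hB.1 hC hg') P hP hPg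
  exact h𝒢.hconj G D P c h hc

end P179C
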