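import Vale.Agent.P179.H166.Z5
import Vale.Agent.P179.H166.Y5

/-!
# The unit trick, 6: classes of `p`-groups defined by their sections
-/

namespace P179C

open Subgroup P179H524 P179A P179K P179R P179Y

open scoped Classical

universe u

/-- All sections of `D` have the property `S`. -/
def SecAll (S : ∀ (K : Type) [Group K], Prop) (D : Type) [Group D] : Prop :=
  ∀ (H : Subgroup D) (K : Type) [Group K] (f : H →* K), Function.Surjective f → S K

theorem SecAll.of_surj {S : ∀ (K : Type) [Group K], Prop} {Q Q' : Type} [Group Q] [Group Q']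
    (h : SecAll S Q) (φ : Q →* Q') (hφ : Function.Surjective φ) : SecAll S Q' := by
  intro H K _ f hf
  let r : H.comap φ →* H := (φ.comp (H.comap φ).subtype).codRestrict H fun x => x.2
  have hr : Function.Surjective r := by
    rintro ⟨y, hy⟩
    obtain ⟨x, rfl⟩ := hφ y
    exact ⟨⟨x, hy⟩, rfl⟩
  exact h (H.comap φ) K (f.comp r) (hf.comp hr)

theorem SecAll.of_inj {S : ∀ (K : Type) [Group K], Prop} {Q Q' : Type} [Group Q] [Group Q']
    (h : SecAll S Q) (φ : Q' →* Q) (hφ : Function.Injective φ) : SecAll S Q' := by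
  intro H K _ f hf
  let e := H.equivMapOfInjective φ hφ
  exact h (H.map φ) K (f.comp e.symm.toMonoidHom) (hf.comp e.symm.surjective)

theorem SecAll.self {S : ∀ (K : Type) [Group K], Prop} {Q : Type} [Group Q]
    (h : SecAll S Q) : S Q :=
  h ⊤ Q (topEquiv : (⊤ : Subgroup Q) ≃* Q).toMonoidHom
    (topEquiv : (⊤ : Subgroup Q) ≃* Q).surjective

/-- the classes given by properties of sections -/
theorem unitClass_of {p : ℕ} {k : Type u} [Field k] (red : integralClosure ℤ ℂ →+* k)
    (S : ∀ (K : Type) [Group K], Prop)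
    (h : ∀ (G : Type) [Group G] [Finite G] [Fintype G] (R : Subgroup G), OpTrivial p G →
      IsPGroup p R → SecAll S R → OldAt p R ∨ NewAt p R ∨
      ∀ B : MonoidAlgebra k G, IsBlock B → IsDefectGroup B R →
        numSimpleIn B ≡ numWeightsIn p red B [MOD p]) :
    UnitClass p red (fun _ _ P => SecAll S P) where
  hres := by
    intro G _ _ H P h
    exact h.of_inj (P.equivMapOfInjective H.subtype H.subtype_injective).toMonoidHom
      (P.equivMapOfInjective H.subtype H.subtype_injective).injective
  hquot := by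
    intro G _ _ R _ P _ h
    have hs : Function.Surjective (QuotientGroup.mk' R) := QuotientGroup.mk'_surjective R
    let r : P.comap (QuotientGroup.mk' R) →* P :=
      ((QuotientGroup.mk' R).comp (P.comap (QuotientGroup.mk' R)).subtype).codRestrict P
        fun x => x.2
    have hr : Function.Surjective r := by
      rintro ⟨y, hy⟩
      obtain ⟨x, rfl⟩ := hs y
      exact ⟨⟨x, hy⟩, rfl⟩
    exact h.of_surj r hr
  hconj := by
    intro G _ _ D P c h hc
    let φ : P →* D :=
      { toFun := fun x => ⟨c⁻¹ * x * c, hc x x.2⟩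
        map_one' := Subtype.ext (by
          change c⁻¹ * (1 : G) * c = 1
          group)
        map_mul' := fun x y => Subtype.ext (by
          change c⁻¹ * ((x : G) * y) * c = (c⁻¹ * x * c) * (c⁻¹ * y * c)
          group) }
    refine h.of_inj φ ?_
    intro x y hxy
    have h1 : c⁻¹ * (x : G) * c = c⁻¹ * (y : G) * c := congrArg Subtype.val hxy
    exact Subtype.ext (mul_left_cancel (mul_right_cancel h1))
  hkey := h

section Crit

variable {p : ℕ} [hp : Fact p.Prime] {G : Type} [Group G] [Finite G] [Fintype G]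

omit hp in
/-- the old criterion, for the classes of Theorem C -/
theorem oldAt_of_good {𝒢 : ∀ (G : Type) [Group G], Subgroup G → Prop} (h𝒢 : GoodClass2 p 𝒢)
    {R : Subgroup G} (h : ∀ (P : Subgroup G) (c : G), (∀ x ∈ P, c⁻¹ * x * c ∈ R) → 𝒢 G P) :
    OldAt p R := by
  intro g q hq hq' h0 h0' P hP hg hgP ⟨c, hc⟩
  exact h𝒢.dvd G g q hq hq' h0 h0' P hP hg hgP (h P c hc)

omit hp in
/-- the old criterion, for the trivial group -/
theorem oldAt_bot : OldAt p (⊥ : Subgroup G) := by
  intro g q _ _ h0 _ P _ _ hgP ⟨c, hc⟩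
  exfalso
  apply h0
  have h1 := hc _ hgP
  rw [mem_bot] at h1
  calc g ^ q = c * (c⁻¹ * g ^ q * c) * c⁻¹ := by group
    _ = 1 := by rw [h1]; group

/-- **Criterion N**: an abelian subgroup of index less than the order of a central element. -/
theorem newAt_of_index {R A : Subgroup G} {v : G} (hR : IsPGroup p R) (hv : v ∈ R)
    (hvc : ∀ a ∈ R, a * v = v * a) (hA : ∀ a ∈ A, ∀ b ∈ A, a * b = b * a)
    (hi : A.relIndex R < orderOf v) : NewAt p R := by
  have hne : A.relIndex R ≠ 0 := index_ne_zero_of_finite (H := A.subgroupOf R)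
  have hv1 : v ≠ 1 := by
    rintro rfl
    rw [orderOf_one] at hi
    omega
  obtain ⟨n, hn⟩ : ∃ n, orderOf v = p ^ n := by
    obtain ⟨n, hn⟩ := hR ⟨v, hv⟩
    have h1 : v ^ p ^ n = 1 := congrArg Subtype.val hn
    obtain ⟨j, -, hj⟩ := (Nat.dvd_prime_pow hp.out).1 (orderOf_dvd_of_pow_eq_one h1)
    exact ⟨j, hj⟩
  refine ⟨v, hv, hv1, hvc, ?_⟩
  intro g q hq _ hgv P hPR hP hPg hvP
  set A1 : Subgroup G := (A ⊓ P) ⊔ zpowers v with hA1
  have hle : A1 ≤ P := by
    refine sup_le inf_le_right ?_
    rw [zpowers_le]; exact hvP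
  have huP : ∀ a ∈ P, a * v = v * a := fun a ha => hvc a (hPR ha)
  have hab : A1 ≤ centralizer (A1 : Set G) := by
    have k1 : A ⊓ P ≤ centralizer ((A ⊓ P : Subgroup G) : Set G) := by
      intro a ha
      rw [mem_centralizer_iff]
      intro b hb
      exact hA b hb.1 a ha.1
    have k2 : zpowers v ≤ centralizer ((A ⊓ P : Subgroup G) : Set G) := by
      rw [zpowers_le, mem_centralizer_iff]
      intro b hb
      exact huP b hb.2
    have k3 : zpowers v ≤ centralizer ((zpowers v : Subgroup G) : Set G) := by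
      rw [zpowers_le, mem_centralizer_iff]
      rintro _ ⟨n, rfl⟩
      exact (Commute.refl v).zpow_left n
    have k4 : A ⊓ P ≤ centralizer (A1 : Set G) := by
      rw [le_centralizer_iff]
      exact sup_le k1 k2
    have k5 : zpowers v ≤ centralizer (A1 : Set G) := by
      rw [le_centralizer_iff]
      refine sup_le ?_ k3
      rw [le_centralizer_iff]
      exact k2
    exact sup_le k4 k5
  have huA : v ∈ A1 := le_sup_right (a := A ⊓ P) (mem_zpowers v)
  have hmain := main_lemma p g q hq A1 (hP.to_le hle)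
    (fun a ha b hb => (mem_centralizer_iff.1 (hab hb)) a ha)
    (fun a ha => hPg a (hle ha)) (by rw [hgv]; exact huA)
  rw [hgv] at hmain
  -- the index
  have hcard : Nat.card A1 * A1.relIndex P = Nat.card P := by
    have h1 := relIndex_mul_relIndex ⊥ A1 P bot_le hle
    rwa [relIndex_bot_left, relIndex_bot_left] at h1
  have hi1 : A1.relIndex P < orderOf v := by
    have h1 : (A ⊓ P).relIndex P = A.relIndex P := inf_relIndex_right _ _
    refine lt_of_le_of_lt ?_ hi
    refine (relIndex_le_of_le_left (H := A ⊓ P) le_sup_left ?_).trans ?_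
    · rw [h1]; exact index_ne_zero_of_finite (H := A.subgroupOf P)
    · rw [h1]
      exact relIndex_le_of_le_right hPR hne
  obtain ⟨m, hm⟩ := (IsPGroup.iff_card).mp hP
  have h2 : A1.relIndex P ∣ p ^ m := by
    rw [← hm]; exact ⟨Nat.card A1, by rw [mul_comm]; exact hcard.symm⟩
  obtain ⟨j, -, hj⟩ := (Nat.dvd_prime_pow hp.out).mp h2
  have h3 : A1.relIndex P * p ∣ orderOf v := by
    rw [hj, hn] at hi1
    rw [hj, hn, ← pow_succ]
    exact pow_dvd_pow p ((Nat.pow_lt_pow_iff_right hp.out.one_lt).1 hi1)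
  have h4 : Nat.card P * p ∣ Nat.card A1 * orderOf v := by
    rw [← hcard, mul_assoc]
    exact Nat.mul_dvd_mul_left _ h3
  exact (Int.natCast_dvd_natCast.mpr h4).trans hmain

end Crit

end P179C
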