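import Vale.Agent.P179.H166.Z6
import Vale.Agent.P179.H166.V4

/-!
# The unit trick, 7: the criterion from Theorem M
-/

namespace P179C

open Subgroup P179H524 P179A P179K P179R P179Y

open scoped Classical

/-- Theorem M with the factor `p`: the `p`-part of `g` is not in the commutator subgroup of `P`. -/
theorem dvd_SS_of_not_mem {G : Type} [Group G] [Finite G] [Fintype G] {p : ℕ}
    [hp : Fact p.Prime] {g : G} {q : ℕ} (hq : ∀ x : G, ∃ n : ℕ, (x ^ q) ^ (p ^ n) = 1)
    {P : Subgroup G} (hP : IsPGroup p P) (hg : ∀ a ∈ P, a * g = g * a) (hu : g ^ q ∈ P)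
    (h : (⟨g ^ q, hu⟩ : P) ∉ commutator P) : ((Nat.card P * p : ℕ) : ℤ) ∣ SS p g := by
  have hmain := P179V.theoremM p g q hq P hP hg hu
  set α := Abelianization.of (⟨g ^ q, hu⟩ : P) with hα
  have h1 : α ≠ 1 := by
    intro h1
    apply h
    rw [← Abelianization.ker_of]
    exact h1
  have h2 : p ∣ orderOf α := by
    obtain ⟨n, hn⟩ := hP ⟨g ^ q, hu⟩
    have h3 : α ^ p ^ n = 1 := by rw [hα, ← map_pow, hn, map_one]
    obtain ⟨j, -, hj⟩ := (Nat.dvd_prime_pow hp.out).1 (orderOf_dvd_of_pow_eq_one h3)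
    rw [hj]
    refine dvd_pow_self p ?_
    rintro rfl
    rw [pow_zero, orderOf_eq_one_iff] at hj
    exact h1 hj
  have h4 : ((Nat.card P * p : ℕ) : ℤ) ∣ ((Nat.card P * orderOf α : ℕ) : ℤ) :=
    Int.natCast_dvd_natCast.mpr (Nat.mul_dvd_mul_left _ h2)
  exact h4.trans hmain

theorem commutator_mono {G : Type} [Group G] {P R : Subgroup G} (h : P ≤ R) {x : G} (hx : x ∈ P)
    (hc : (⟨x, hx⟩ : P) ∈ commutator P) : (⟨x, h hx⟩ : R) ∈ commutator R := by
  rw [← Abelianization.ker_of, MonoidHom.mem_ker] at hc ⊢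
  have h1 := congrArg (Abelianization.map (Subgroup.inclusion h)) hc
  rw [Abelianization.map_of, map_one] at h1
  exact h1

/-- **Criterion N from Theorem M**: the centre is not contained in the commutator subgroup. -/
theorem newAt_of_center {G : Type} [Group G] [Finite G] [Fintype G] {p : ℕ} [hp : Fact p.Prime]
    {R : Subgroup G} (h : ¬ center R ≤ commutator R) : NewAt p R := by
  obtain ⟨v, hvZ, hvc⟩ := SetLike.not_le_iff_exists.1 h
  refine ⟨v, v.2, ?_, ?_, ?_⟩
  · intro h1
    apply hvc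
    have : v = 1 := Subtype.ext h1
    rw [this]
    exact one_mem _
  · intro a ha
    have := Subgroup.mem_center_iff.1 hvZ ⟨a, ha⟩
    exact congrArg Subtype.val this
  · intro g q hq _ hgv P hPR hP hPg hvP
    refine dvd_SS_of_not_mem hq hP hPg (by rw [hgv]; exact hvP) ?_
    intro hc
    apply hvc
    have h1 := commutator_mono hPR (by rw [hgv]; exact hvP) hc
    have h2 : (⟨g ^ q, hPR (by rw [hgv]; exact hvP)⟩ : R) = v := Subtype.ext hgv
    rwa [h2] at h1

end P179C
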