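import Vale.Agent.P179.H166.Z7
import Vale.Agent.P179.H166.M2

/-!
# The unit trick, 9: the criterion with characters, `p = 2, 3`
-/

namespace P179C

open Subgroup P179H524 P179A P179K P179R P179Y P179V

open scoped Classical

theorem TwCrit.comap {p : ℕ} {K K' : Type*} [Group K] [Group K'] {u : K} (h : TwCrit p K u)
    (φ : K' →* K) {u' : K'} (hu : φ u' = u) : TwCrit p K' u' := by
  obtain ⟨χ, h0, h1⟩ := h
  refine ⟨χ.comp φ, ?_, ?_⟩
  · intro k hk he
    refine h0 (φ k) (by rw [← map_pow, hk, hu]) ?_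
    intro e he1
    have := MonoidHom.map_isConj φ (he e he1)
    rwa [map_pow] at this
  · intro hp k hk
    exact h1 hp (φ k) (by rw [← map_pow, hk, hu])

/-- **Criterion N with characters.** -/
theorem newAt_of_twCrit {G : Type} [Group G] [Finite G] [Fintype G] {p : ℕ} [hp : Fact p.Prime]
    (hp23 : p = 2 ∨ p = 3) {R : Subgroup G} {v : R} (hvZ : v ∈ center R) (hvo : orderOf v = p)
    (h : TwCrit p R v) : NewAt p R := by
  have hv1 : (v : G) ≠ 1 := by
    intro h1
    have h2 : v = 1 := Subtype.ext h1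
    rw [h2, orderOf_one] at hvo
    exact hp.out.one_lt.ne hvo
  refine ⟨v, v.2, hv1, ?_, ?_⟩
  · intro a ha
    have := Subgroup.mem_center_iff.1 hvZ ⟨a, ha⟩
    exact congrArg Subtype.val this
  · intro g q hq hq' hgv P hPR hP hPg hvP
    have hvp : (v : G) ^ p = 1 := by
      have := pow_orderOf_eq_one v
      rw [hvo] at this
      exact congrArg Subtype.val this
    refine main_chi23 p hp23 g q P hP hPg (by rw [hgv]; exact hvP) (by rw [hgv]; exact hv1)
      (by rw [hgv]; exact hvp) hq' hq ?_
    exact TwCrit.comap h (Subgroup.inclusion hPR) (Subtype.ext hgv)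

end P179C
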